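import Vale.Agent.P217.Def2

namespace Vale.Agent.P217

open MvPowerSeries

theorem holder_AbsV {M : Type} [AddCommGroup M] [LinearOrder M] [IsOrderedAddMonoid M] (e : M)
    (he : 0 < e) (hb : ∀ x : M, ∃ n : ℕ, x ≤ n • e) :
    ∃ φ : M → ℝ, (∀ x y, φ (x + y) = φ x + φ y) ∧ Monotone φ ∧ φ e = 1 := by
  have hfl : ∀ x : M, ∃ k : ℤ, k • e ≤ x ∧ ∀ k' : ℤ, k' • e ≤ x → k' ≤ k := by
    intro x
    refine Int.exists_greatest_of_bdd (P := fun k : ℤ => k • e ≤ x) ?_ ?_
    · obtain ⟨n, hn⟩ := hb x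
      refine ⟨n, fun z hz => ?_⟩
      have : z • e ≤ (n : ℤ) • e := hz.trans (by simpa using hn)
      exact (zsmul_le_zsmul_iff_left he).1 this
    · obtain ⟨n, hn⟩ := hb (-x)
      refine ⟨-n, ?_⟩
      rw [neg_smul, natCast_zsmul, neg_le]; exact hn
  choose fl h1 h2 using hfl
  have h3 : ∀ x, x < (fl x + 1) • e := fun x => by
    by_contra hc
    have := h2 x _ (not_lt.1 hc)
    omega
  have hadd1 : ∀ x y, fl x + fl y ≤ fl (x + y) := fun x y =>
    h2 _ _ (by rw [add_smul]; exact add_le_add (h1 x) (h1 y))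
  have hadd2 : ∀ x y, fl (x + y) ≤ fl x + fl y + 1 := fun x y => by
    have : fl (x + y) • e < (fl x + 1 + (fl y + 1)) • e := by
      rw [add_smul (fl x + 1)]
      exact (h1 _).trans_lt (add_lt_add (h3 x) (h3 y))
    have := (zsmul_lt_zsmul_iff_left he).1 this
    omega
  have hmono : Monotone fl := fun x y h => h2 _ _ ((h1 x).trans h)
  let a : M → ℕ → ℝ := fun x n => (fl (2 ^ n • x) : ℝ) / 2 ^ n
  have ha : ∀ x, Monotone (a x) := fun x => by
    refine monotone_nat_of_le_succ fun n => ?_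
    have := hadd1 (2 ^ n • x) (2 ^ n • x)
    rw [← add_smul, ← two_mul (2 ^ n), ← pow_succ'] at this
    have h' : (fl (2 ^ n • x) : ℝ) + fl (2 ^ n • x) ≤ fl (2 ^ (n + 1) • x) := by exact_mod_cast this
    simp only [a]
    rw [div_le_div_iff₀ (by positivity) (by positivity), pow_succ]
    have : (0 : ℝ) < 2 ^ n := by positivity
    nlinarith
  have hbd : ∀ x, BddAbove (Set.range (a x)) := fun x => by
    refine ⟨fl x + 1, ?_⟩
    rintro _ ⟨n, rfl⟩
    have h4 : fl (2 ^ n • x) • e ≤ (2 ^ n * (fl x + 1)) • e := by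
      refine (h1 _).trans ?_
      rw [mul_smul, show ((2 : ℤ) ^ n) = ((2 ^ n : ℕ) : ℤ) by push_cast; rfl, natCast_zsmul]
      exact nsmul_le_nsmul_right (h3 x).le _
    have h5 := (zsmul_le_zsmul_iff_left he).1 h4
    have h6 : (fl (2 ^ n • x) : ℝ) ≤ 2 ^ n * (fl x + 1) := by exact_mod_cast h5
    simp only [a]
    rw [div_le_iff₀ (by positivity)]
    linarith
  have ht : ∀ x, Filter.Tendsto (a x) Filter.atTop (nhds (⨆ n, a x n)) := fun x =>
    tendsto_atTop_ciSup (ha x) (hbd x)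
  refine ⟨fun x => ⨆ n, a x n, fun x y => ?_, fun x y h => ?_, ?_⟩
  · apply le_antisymm
    · have h0 : Filter.Tendsto (fun n : ℕ => (1 / 2 : ℝ) ^ n) Filter.atTop (nhds 0) :=
        tendsto_pow_atTop_nhds_zero_of_lt_one (by norm_num) (by norm_num)
      have := ((ht x).add (ht y)).add h0
      rw [add_zero] at this
      refine le_of_tendsto_of_tendsto' (ht (x + y)) this fun n => ?_
      have h4 := hadd2 (2 ^ n • x) (2 ^ n • y)
      rw [← smul_add] at h4
      have h5 : (fl (2 ^ n • (x + y)) : ℝ) ≤ fl (2 ^ n • x) + fl (2 ^ n • y) + 1 := by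
        exact_mod_cast h4
      simp only [a]
      rw [one_div_pow, ← add_div, ← add_div]
      gcongr
    · refine le_of_tendsto_of_tendsto' ((ht x).add (ht y)) (ht (x + y)) fun n => ?_
      have h4 := hadd1 (2 ^ n • x) (2 ^ n • y)
      rw [← smul_add] at h4
      have h5 : (fl (2 ^ n • x) : ℝ) + fl (2 ^ n • y) ≤ fl (2 ^ n • (x + y)) := by
        exact_mod_cast h4
      simp only [a]
      rw [← add_div]
      gcongr
  · refine le_of_tendsto_of_tendsto' (ht x) (ht y) fun n => ?_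
    have h4 := hmono (nsmul_le_nsmul_right h (2 ^ n))
    have h5 : (fl (2 ^ n • x) : ℝ) ≤ fl (2 ^ n • y) := by exact_mod_cast h4
    simp only [a]
    gcongr
  · have : ∀ n, a e n = 1 := fun n => by
      have h4 : fl (2 ^ n • e) = 2 ^ n := by
        have e1 : (2 ^ n : ℕ) • e = ((2 : ℤ) ^ n) • e := by
          rw [show ((2 : ℤ) ^ n) = ((2 ^ n : ℕ) : ℤ) by push_cast; rfl, natCast_zsmul]
        apply le_antisymm
        · exact (zsmul_le_zsmul_iff_left he).1 ((h1 _).trans e1.le)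
        · exact h2 _ _ e1.ge
      simp only [a, h4]
      push_cast
      exact div_self (by positivity)
    simp [this]

theorem real_AbsV {Γ : Type} [LinearOrderedCommGroupWithZero Γ] (t : Γ) (ht0 : t ≠ 0) (ht : t < 1)
    (hb : ∀ x : Γ, ∃ n : ℕ, x * t ^ n ≤ 1) :
    ∃ ψ : Γ → ℝ, ψ 0 = 0 ∧ (∀ x, x ≠ 0 → 0 < ψ x) ∧ (∀ x y, ψ (x * y) = ψ x * ψ y) ∧ Monotone ψ ∧
      ψ 1 = 1 ∧ ψ t = Real.exp (-1) := by
  classical
  obtain ⟨φ, h1, h2, h3⟩ := holder_AbsV (M := Additive Γˣ) (Additive.ofMul (Units.mk0 t ht0)⁻¹)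
    (by
      change (1 : Γˣ) < (Units.mk0 t ht0)⁻¹
      rw [one_lt_inv']
      exact Units.val_lt_val.1 (by simpa using ht))
    (fun x => by
      obtain ⟨n, hn⟩ := hb (Additive.toMul x : Γˣ)
      refine ⟨n, ?_⟩
      change Additive.toMul x ≤ (Units.mk0 t ht0)⁻¹ ^ n
      rw [inv_pow, ← one_mul ((Units.mk0 t ht0) ^ n)⁻¹, le_mul_inv_iff_mul_le]
      exact Units.val_le_val.1 (by simpa using hn))
  have h0 : φ 0 = 0 := by have := h1 0 0; rw [add_zero] at this; linarith
  refine ⟨fun x => if h : x = 0 then 0 else Real.exp (φ (Additive.ofMul (Units.mk0 x h))),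
    by simp, fun x hx => ?_, fun x y => ?_, fun x y h => ?_, ?_, ?_⟩
  · simp only [dif_neg hx]; exact Real.exp_pos _
  · by_cases hx : x = 0
    · simp [hx]
    by_cases hy : y = 0
    · simp [hy]
    simp only [dif_neg hx, dif_neg hy, dif_neg (mul_ne_zero hx hy)]
    rw [← Real.exp_add, ← h1, ← ofMul_mul, Units.mk0_mul]
  · by_cases hx : x = 0
    · simp only [dif_pos hx]; split_ifs
      · exact le_rfl
      · exact (Real.exp_pos _).le
    have hy : y ≠ 0 := fun hy => hx (le_antisymm (hy ▸ h) zero_le)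
    simp only [dif_neg hx, dif_neg hy]
    refine Real.exp_le_exp.2 (h2 ?_)
    change Units.mk0 x hx ≤ Units.mk0 y hy
    exact Units.val_le_val.1 (by simpa using h)
  · simp only [dif_neg (one_ne_zero : (1 : Γ) ≠ 0), Units.mk0_one, ofMul_one, h0, Real.exp_zero]
  · simp only [dif_neg ht0]
    congr 1
    have := h1 (Additive.ofMul (Units.mk0 t ht0)) (Additive.ofMul (Units.mk0 t ht0)⁻¹)
    rw [← ofMul_mul, mul_inv_cancel, ofMul_one, h0, h3] at this
    linarith

theorem exists_absv {S : Type} [CommRing S] [IsDomain S] (m : Ideal S) (hm : m ≠ ⊤) (s : S)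
    (hs : s ∈ m) (hs0 : s ≠ 0) (N : ℕ) (hN : m ^ N ≤ Ideal.span {s})
    (hdiv : ∀ a : S, a ≠ 0 → ∃ M : ℕ, a ∣ s ^ M) :
    ∃ (v : AbsoluteValue (AlgebraicClosure (FractionRing S)) ℝ) (ρ : ℝ), IsNonarchimedean v ∧
      0 < ρ ∧ ρ < 1 ∧ (∀ x : S, v (algebraMap S _ x) ≤ 1) ∧
      ∀ x ∈ m, v (algebraMap S _ x) ≤ ρ := by
  set K := AlgebraicClosure (FractionRing S)
  have hinj : Function.Injective (algebraMap S K) := by
    rw [IsScalarTower.algebraMap_eq S (FractionRing S) K, RingHom.coe_comp]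
    exact (algebraMap (FractionRing S) K).injective.comp (IsFractionRing.injective S _)
  have hI : m.map (algebraMap S K).rangeRestrict ≠ ⊤ := by
    intro h
    rw [Ideal.eq_top_iff_one, Ideal.mem_map_iff_of_surjective _
      (algebraMap S K).rangeRestrict_surjective] at h
    obtain ⟨x, hx, hx1⟩ := h
    have : algebraMap S K x = algebraMap S K 1 := by
      rw [map_one]; exact congrArg Subtype.val hx1
    rw [hinj this] at hx
    exact hm ((Ideal.eq_top_iff_one m).2 hx)
  obtain ⟨V, hV1, hV2⟩ := Ideal.image_subset_nonunits_valuationSubring _ hI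
  have hS : ∀ x : S, V.valuation (algebraMap S K x) ≤ 1 := fun x =>
    (V.valuation_le_one_iff _).2 (hV1 ⟨x, rfl⟩)
  have ht : V.valuation (algebraMap S K s) < 1 :=
    V.mem_nonunits_iff.1 (hV2 ⟨_, Ideal.mem_map_of_mem _ hs, rfl⟩)
  have ht0 : V.valuation (algebraMap S K s) ≠ 0 := by
    rw [Ne, Valuation.zero_iff, map_eq_zero_iff _ hinj]; exact hs0
  have hb : ∀ x : V.ValueGroup, ∃ n : ℕ, x * V.valuation (algebraMap S K s) ^ n ≤ 1 := by
    intro γ
    obtain ⟨x, rfl⟩ := V.valuation_surjective γ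
    have halg : IsAlgebraic S x :=
      (IsFractionRing.isAlgebraic_iff S (FractionRing S) K).2 (Algebra.IsAlgebraic.isAlgebraic x)
    obtain ⟨a, ha, hint⟩ := halg.exists_integral_multiple
    obtain ⟨M, b, hM⟩ := hdiv a ha
    have h1 : V.valuation (a • x) ≤ 1 := by
      refine (Valuation.integer.integers V.valuation).isIntegral_iff_v_le_one.1 ?_
      exact hint.map_of_comp_eq ((algebraMap S K).codRestrict V.valuation.integer hS)
        (RingHom.id K) rfl
    refine ⟨M, ?_⟩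
    rw [← map_pow, ← map_pow, hM, map_mul, map_mul, ← mul_assoc, mul_comm (V.valuation x),
      ← map_mul, ← Algebra.smul_def]
    exact mul_le_one' h1 (hS b)
  obtain ⟨ψ, p0, p1, p2, p3, p4, p5⟩ := real_AbsV _ ht0 ht hb
  have pn : ∀ x, 0 ≤ ψ x := fun x => p0 ▸ p3 zero_le
  have hna : ∀ x y : K, ψ (V.valuation (x + y)) ≤ max (ψ (V.valuation x)) (ψ (V.valuation y)) :=
    fun x y => (p3 (V.valuation.map_add x y)).trans (p3.map_max).le
  have hN0 : N ≠ 0 := by
    rintro rfl
    rw [pow_zero, Ideal.one_eq_top, top_le_iff] at hN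
    exact hm (top_le_iff.1 (hN ▸ (Ideal.span_singleton_le_iff_mem m).2 hs))
  have hNp : (0 : ℝ) < N := by exact_mod_cast Nat.pos_of_ne_zero hN0
  refine ⟨{ toFun := fun x => ψ (V.valuation x)
            map_mul' := fun x y => by simp only [map_mul, p2]
            nonneg' := fun x => pn _
            eq_zero' := fun x => ⟨fun h => ?_, fun h => by simp [h, p0]⟩
            add_le' := fun x y => (hna x y).trans
              (max_le (le_add_of_nonneg_right (pn _)) (le_add_of_nonneg_left (pn _))) },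
    Real.exp (-1 / N), hna, Real.exp_pos _, ?_, fun x => ?_, fun x hx => ?_⟩
  · by_contra hx
    exact (p1 _ (V.valuation.ne_zero_iff.2 hx)).ne' h
  · rw [Real.exp_lt_one_iff]; exact div_neg_of_neg_of_pos (by norm_num) hNp
  · exact (p3 (hS x)).trans p4.le
  · show ψ (V.valuation (algebraMap S K x)) ≤ _
    obtain ⟨b, hb⟩ := Ideal.mem_span_singleton'.1 (hN (Ideal.pow_mem_pow hx N))
    have hpow : ∀ (γ : V.ValueGroup) (k : ℕ), ψ (γ ^ k) = ψ γ ^ k := fun γ k => by
      induction k with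
      | zero => simpa using p4
      | succ k ih => rw [pow_succ, p2, ih, pow_succ]
    have h1 : ψ (V.valuation (algebraMap S K x)) ^ N ≤ Real.exp (-1 / N) ^ N := by
      rw [← hpow, ← map_pow, ← map_pow, ← hb, ← Real.exp_nat_mul, mul_div_cancel₀ _ hNp.ne', ← p5]
      refine p3 ?_
      rw [map_mul, map_mul]
      exact mul_le_of_le_one_left' (hS b)
    exact (pow_le_pow_iff_left₀ (pn _) (Real.exp_pos _).le hN0).1 h1

end Vale.Agent.P217
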