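import Vale.Agent.P217.Def2

namespace Vale.Agent.P217

open MvPowerSeries

theorem nilp_complete {A : Type} [CommRing A] (a : Ideal A) (N : ℕ) (h : a ^ N = ⊥) :
    IsAdicComplete a A := by
  have : IsHausdorff a A := ⟨fun x hx => by simpa [h, SModEq.zero] using hx N⟩
  have : IsPrecomplete a A := ⟨fun f hf => ⟨f N, fun m => by
    by_cases hm : m ≤ N
    · exact hf hm
    · have h1 := hf (show N ≤ m by omega)
      rw [h, Submodule.bot_smul, SModEq.bot] at h1
      rw [h1]⟩⟩
  exact {}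

theorem aB_pow (m : ℕ) (κ : Type) [CommRing κ] (M : ℕ) : aB m κ M ^ M = ⊥ := by
  have h : ∀ k, ordI (Fin m) κ 1 ^ k ≤ ordI (Fin m) κ k := by
    intro k
    induction k with
    | zero => intro f _; show ((0 : ℕ) : ℕ∞) ≤ _; simp
    | succ k ih =>
      rw [pow_succ]
      refine Ideal.mul_le.2 fun f hf g hg => le_trans ?_ le_order_mul
      have h1 : (k : ℕ∞) ≤ f.order := ih hf
      have h2 : ((1 : ℕ) : ℕ∞) ≤ g.order := hg
      rw [Nat.cast_add]
      exact add_le_add h1 h2
  rw [aB, ← Ideal.map_pow, eq_bot_iff, ← Ideal.map_quotient_self (ordI (Fin m) κ M)]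
  exact Ideal.map_mono (h M)

variable (p n : ℕ) [Fact p.Prime]

section gen
variable {σ R : Type} [Fintype σ] [CommRing R]

theorem split_Cpl (f : MvPowerSeries σ R) : ∃ g : σ → MvPowerSeries σ R,
    f = C (constantCoeff f) + ∑ i, X i * g i ∧
      ∀ i c, coeff c (g i) = 0 ∨ coeff c (g i) = coeff (c + Finsupp.single i 1) f := by
  classical
  rcases isEmpty_or_nonempty σ with hσ | hσ
  · refine ⟨fun _ => 0, ?_, fun i => hσ.elim i⟩
    ext d
    rw [Subsingleton.elim d 0]; simp
  have : ∀ d : σ →₀ ℕ, ∃ i, d ≠ 0 → d i ≠ 0 := fun d => by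
    by_contra hc
    push Not at hc
    exact (hc hσ.some).1 (Finsupp.ext fun i => (hc i).2)
  choose ι hι using this
  obtain ⟨g, hg⟩ : ∃ g : σ → MvPowerSeries σ R, ∀ i c, coeff c (g i) =
      if ι (c + Finsupp.single i 1) = i then coeff (c + Finsupp.single i 1) f else 0 :=
    ⟨fun i c => if ι (c + Finsupp.single i 1) = i then coeff (c + Finsupp.single i 1) f else 0,
      fun _ _ => rfl⟩
  refine ⟨g, ?_, fun i c => ?_⟩
  · ext d
    rw [map_add, map_sum, coeff_C]
    by_cases hd : d = 0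
    · subst hd
      simp
    · have hle : ∀ i, Finsupp.single i 1 ≤ d ↔ d i ≠ 0 := fun i => by
        rw [Finsupp.single_le_iff]; omega
      rw [if_neg hd, zero_add, Finset.sum_eq_single (ι d) (fun i _ hi => ?_) (by simp)]
      · rw [X_def, coeff_monomial_mul, if_pos ((hle _).2 (hι d hd)), one_mul, hg,
          tsub_add_cancel_of_le ((hle _).2 (hι d hd)), if_pos rfl]
      · rw [X_def, coeff_monomial_mul]
        split_ifs with h
        · rw [one_mul, hg, tsub_add_cancel_of_le h, if_neg (Ne.symm hi)]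
        · rfl
  · rw [hg]
    split_ifs <;> simp

theorem mem_pow_Cpl {P : Ideal R} {M : Ideal (MvPowerSeries σ R)} (hP : ∀ x ∈ P, C x ∈ M)
    (hX : ∀ i, X i ∈ M) (N : ℕ) {f : MvPowerSeries σ R}
    (h : ∀ d, coeff d f ∈ P ^ (N - Finsupp.degree d)) : f ∈ M ^ N := by
  induction N generalizing f with
  | zero => simp
  | succ N ih =>
    obtain ⟨g, h1, h2⟩ := split_Cpl f
    rw [h1]
    refine add_mem ?_ (Ideal.sum_mem _ fun i _ => ?_)
    · have h0 : constantCoeff f ∈ P ^ (N + 1) := by simpa using h 0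
      have h3 : P.map (C : R →+* MvPowerSeries σ R) ≤ M := Ideal.map_le_iff_le_comap.2 hP
      refine Ideal.pow_right_mono h3 _ ?_
      rw [← Ideal.map_pow]
      exact Ideal.mem_map_of_mem _ h0
    · rw [pow_succ']
      refine Ideal.mul_mem_mul (hX i) (ih fun c => ?_)
      rcases h2 i c with e | e
      · rw [e]; exact zero_mem _
      · have := h (c + Finsupp.single i 1)
        rwa [map_add, Finsupp.degree_single, Nat.add_sub_add_right, ← e] at this

omit [Fintype σ] in
theorem coeff_mem_Cpl {P : Ideal R} {M : Ideal (MvPowerSeries σ R)}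
    (hM : ∀ f ∈ M, constantCoeff f ∈ P) (N : ℕ) {f : MvPowerSeries σ R} (h : f ∈ M ^ N)
    (d : σ →₀ ℕ) : coeff d f ∈ P ^ (N - Finsupp.degree d) := by
  classical
  induction N generalizing f d with
  | zero => simp
  | succ N ih =>
    rw [pow_succ] at h
    refine Submodule.mul_induction_on h (fun a ha b hb => ?_) fun a b ha hb => by
      rw [map_add]; exact add_mem ha hb
    rw [coeff_mul]
    refine Ideal.sum_mem _ fun x hx => ?_
    have e := congrArg Finsupp.degree (Finset.HasAntidiagonal.mem_antidiagonal.1 hx)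
    rw [map_add] at e
    by_cases h2 : x.2 = 0
    · have h3 : coeff x.2 b ∈ P := by rw [h2]; exact hM b hb
      refine Ideal.pow_le_pow_right (show _ ≤ N - Finsupp.degree x.1 + 1 by omega) ?_
      rw [pow_succ]
      exact Ideal.mul_mem_mul (ih ha _) h3
    · have h3 : Finsupp.degree x.2 ≠ 0 := by rwa [ne_eq, Finsupp.degree_eq_zero_iff]
      exact Ideal.mul_mem_right _ _ (Ideal.pow_le_pow_right (by omega) (ih ha x.1))

end gen

theorem mem_mm_Cpl (f : E0 p n) :
    f ∈ mm p n ↔ constantCoeff f ∈ Ideal.span {(p : WW p n)} := by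
  rw [← WittVector.ker_constantCoeff]; rfl

theorem X_mem_Cpl (i : Fin (n - 1)) : (X i : E0 p n) ∈ mm p n := by simp [mem_mm_Cpl]

theorem p_mem_Cpl : (p : E0 p n) ∈ mm p n := by
  rw [mem_mm_Cpl, map_natCast]; exact Ideal.subset_span rfl

theorem mem_mm_pow_Cpl (N : ℕ) (f : E0 p n) : f ∈ mm p n ^ N ↔
    ∀ d, coeff d f ∈ Ideal.span {(p : WW p n)} ^ (N - Finsupp.degree d) :=
  ⟨coeff_mem_Cpl (fun f => (mem_mm_Cpl p n f).1) N,
    mem_pow_Cpl (fun x hx => (mem_mm_Cpl p n _).2 (by simpa using hx)) (X_mem_Cpl p n) N⟩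
theorem mm_eq : mm p n = Ideal.span (insert (p : E0 p n) (Set.range X)) := by
  refine le_antisymm (fun f hf => ?_) (Ideal.span_le.2 ?_)
  · obtain ⟨g, h1, -⟩ := split_Cpl f
    obtain ⟨w, hw⟩ := Ideal.mem_span_singleton'.1 ((mem_mm_Cpl p n f).1 hf)
    rw [h1, ← hw, map_mul, map_natCast]
    exact add_mem (Ideal.mul_mem_left _ _ (Ideal.subset_span (Set.mem_insert _ _)))
      (Ideal.sum_mem _ fun i _ => Ideal.mul_mem_right _ _
        (Ideal.subset_span (Set.mem_insert_of_mem _ ⟨i, rfl⟩)))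
  · rintro _ (rfl | ⟨i, rfl⟩)
    exacts [p_mem_Cpl p n, X_mem_Cpl p n i]

theorem res_surj : Function.Surjective (res p n) := fun x => by
  obtain ⟨w, rfl⟩ := WittVector.constantCoeff_surjective p x
  exact ⟨C w, by simp [res]⟩

theorem isUnit_iff_res (x : E0 p n) : IsUnit x ↔ res p n x ≠ 0 := ⟨fun h => (h.map (res p n)).ne_zero, fun h =>
  isUnit_iff_constantCoeff.2 (WittVector.isUnit_of_coeff_zero_ne_zero _ h)⟩

theorem mm_isMaximal : (mm p n).IsMaximal := RingHom.ker_isMaximal_of_surjective _ (res_surj p n)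

theorem le_mm {J : Ideal (E0 p n)} (hJ : J ≠ ⊤) : J ≤ mm p n := fun x hx => by
  by_contra h
  exact hJ (J.eq_top_of_isUnit_mem hx ((isUnit_iff_res p n x).2 h))

theorem II_top (hn : 1 ≤ n) : II p n n = mm p n := by
  rw [II, if_neg (by omega), mm_eq]
  congr 2
  ext x
  constructor
  · rintro ⟨i, h1, h2, rfl⟩
    exact ⟨⟨i - 1, by omega⟩, by rw [vv, dif_pos ⟨h1, h2⟩]⟩
  · rintro ⟨i, rfl⟩
    refine ⟨i + 1, by omega, by omega, ?_⟩
    rw [vv, dif_pos ⟨by omega, by omega⟩]
    simp

theorem mm_complete : IsAdicComplete (mm p n) (E0 p n) := by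
  have : IsHausdorff (mm p n) (E0 p n) :=
    IsHausdorff.of_isLocalRing _ _ (mm_isMaximal p n).ne_top
  have : IsPrecomplete (mm p n) (E0 p n) := ⟨fun f hf => by
    simp only [smul_eq_mul, Ideal.mul_top, SModEq.sub_mem, mem_mm_pow_Cpl] at hf ⊢
    have key : ∀ d : Fin (n - 1) →₀ ℕ, ∃ L : WW p n, ∀ k,
        coeff d (f (k + Finsupp.degree d)) - L ∈ Ideal.span {(p : WW p n)} ^ k := fun d => by
      have := IsPrecomplete.prec' (I := Ideal.span {(p : WW p n)})
        (fun k => coeff d (f (k + Finsupp.degree d))) (fun {a b} hab => by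
          simp only [smul_eq_mul, Ideal.mul_top, SModEq.sub_mem]
          have := hf (Nat.add_le_add_right hab (Finsupp.degree d)) d
          rwa [Nat.add_sub_cancel, map_sub] at this)
      simpa only [smul_eq_mul, Ideal.mul_top, SModEq.sub_mem] using this
    choose L hL using key
    refine ⟨L, fun N d => ?_⟩
    by_cases h : Finsupp.degree d ≤ N
    · have := hL d (N - Finsupp.degree d)
      rwa [Nat.sub_add_cancel h] at this
    · rw [show N - Finsupp.degree d = 0 by omega]; simp⟩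
  exact {}

theorem quot_complete (Q : Ideal (E0 p n)) :
    IsAdicComplete ((mm p n).map (Ideal.Quotient.mk Q)) (E0 p n ⧸ Q) := by
  have := mm_complete p n
  have : IsHausdorff (mm p n) (E0 p n ⧸ Q) :=
    IsHausdorff.of_isLocalRing _ _ (mm_isMaximal p n).ne_top
  have : IsPrecomplete (mm p n) (E0 p n ⧸ Q) := AdicCompletion.of_surjective_iff.1 fun x => by
    obtain ⟨y, rfl⟩ := AdicCompletion.map_surjective (mm p n) (Submodule.mkQ_surjective Q) x
    obtain ⟨y, rfl⟩ := AdicCompletion.of_surjective (mm p n) (E0 p n) y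
    exact ⟨_, (AdicCompletion.map_of _ _ _).symm⟩
  exact (IsAdicComplete.map_algebraMap_iff (I := mm p n) (S := E0 p n ⧸ Q)
    (M := E0 p n ⧸ Q)).2 {}

theorem exists_iota {A : Type} [CommRing A] (j : WW p n →+* A) (hp : (p : A) = 0) :
    ∃ ι : kk p n →+* A, ∀ w, j w = ι (WittVector.constantCoeff w) := by
  have h : RingHom.ker (WittVector.constantCoeff : WW p n →+* kk p n) ≤ RingHom.ker j := by
    rw [WittVector.ker_constantCoeff, Ideal.span_singleton_le_iff_mem, RingHom.mem_ker,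
      map_natCast, hp]
  exact ⟨RingHom.liftOfSurjective _ (WittVector.constantCoeff_surjective p) ⟨j, h⟩, fun w =>
    (RingHom.liftOfRightInverse_comp_apply _ _ _ ⟨j, h⟩ w).symm⟩

theorem aut_mm (σ : E0 p n ≃+* E0 p n) {x : E0 p n} (hx : x ∈ mm p n) : σ x ∈ mm p n := by
  by_contra h
  exact (isUnit_iff_res p n x).1 ((isUnit_map_iff σ x).1 ((isUnit_iff_res p n _).2 h)) hx

end Vale.Agent.P217
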