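import Vale.Agent.P217.Log
import Vale.Agent.P217.Cpl

namespace Vale.Agent.P217

open MvPowerSeries

variable {p n : ℕ} [Fact p.Prime] {F : FormalGroup (E0 p n)}

theorem vv_const (hn : 1 ≤ n) (k : ℕ) :
    constantCoeff (vv p n k) = if k = n then (1 : WW p n) else 0 := by
  unfold vv
  split_ifs with h1 h2 h2
  · omega
  · exact constantCoeff_X _
  · simp
  · simp

theorem vv_pow_const (hn : 1 ≤ n) (k i : ℕ) :
    constantCoeff (vv p n k ^ (p ^ i)) = if k = n then (1 : WW p n) else 0 := by
  rw [map_pow, vv_const hn]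
  have : p ^ i ≠ 0 := pow_ne_zero _ (Fact.out : p.Prime).ne_zero
  split_ifs
  · exact one_pow _
  · exact zero_pow this

theorem bet_succ (j : ℕ) : bet p n (j + 1) = ∑ i ∈ Finset.range (j + 1),
    (p : E0 p n) ^ (j - i) * bet p n i * vv p n (j + 1 - i) ^ (p ^ i) := by
  rw [bet, Finset.sum_range (fun i => (p : E0 p n) ^ (j - i) * bet p n i *
    vv p n (j + 1 - i) ^ (p ^ i))]

theorem sum_pick {R : Type} [CommRing R] (hn : 1 ≤ n) (j : ℕ) (g : ℕ → R) :
    ∑ i ∈ Finset.range (j + 1), g i * (if j + 1 - i = n then (1 : R) else 0) =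
      if n ≤ j + 1 then g (j + 1 - n) else 0 := by
  split_ifs with h
  · rw [Finset.sum_eq_single (j + 1 - n)]
    · rw [if_pos (by omega), mul_one]
    · intro b hb hne
      rw [Finset.mem_range] at hb
      rw [if_neg (by omega), mul_zero]
    · intro hb
      exact absurd (Finset.mem_range.2 (by omega)) hb
  · refine Finset.sum_eq_zero fun i _ => ?_
    rw [if_neg (by omega), mul_zero]

theorem bet_const_succ (hn : 1 ≤ n) (j : ℕ) : constantCoeff (bet p n (j + 1)) =
    if n ≤ j + 1 then (p : WW p n) ^ (n - 1) * constantCoeff (bet p n (j + 1 - n)) else 0 := by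
  rw [bet_succ, map_sum]
  simp only [map_mul, vv_pow_const hn, map_pow, map_natCast]
  rw [sum_pick hn j (fun i => (p : WW p n) ^ (j - i) * constantCoeff (bet p n i))]
  split_ifs with h
  · congr 2
    omega
  · rfl

theorem bet_const (hn : 1 ≤ n) (j : ℕ) : constantCoeff (bet p n j) =
    if n ∣ j then (p : WW p n) ^ (j - j / n) else 0 := by
  induction j using Nat.strong_induction_on with
  | _ j ih =>
    rcases j with _ | j
    · simp [bet]
    · rw [bet_const_succ hn]
      by_cases h : n ≤ j + 1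
      · rw [if_pos h, ih _ (by omega)]
        obtain ⟨m, hm⟩ : ∃ m, j + 1 = m + n := ⟨j + 1 - n, by omega⟩
        rw [hm, Nat.add_sub_cancel]
        by_cases h2 : n ∣ m
        · rw [if_pos h2, if_pos (dvd_add h2 dvd_rfl), ← pow_add, Nat.add_div_right _ (by omega)]
          congr 1
          have := Nat.div_le_self m n
          omega
        · rw [if_neg h2, if_neg (fun h3 => h2 ((Nat.dvd_add_left dvd_rfl).1 h3)), mul_zero]
      · rw [if_neg h, if_neg (fun h3 => h (Nat.le_of_dvd (by omega) h3))]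

theorem sp0_apply {A : Type} [CommRing A] (ψ : E0 p n →+* A) (f : E0 p n) :
    sp0 p n ψ f = ψ (C (constantCoeff f)) := rfl

theorem inv_cancel {A : Type} [CommRing A] {x : A} (hx : IsUnit x) (a b : ℕ) :
    x ^ a * Ring.inverse x ^ (a + b) = Ring.inverse x ^ b := by
  rw [pow_add, ← mul_assoc, ← mul_pow, Ring.mul_inverse_cancel _ hx, one_pow, one_mul]

theorem coeff_logA_pow {A : Type} [CommRing A] (ψ : E0 p n →+* A) (j : ℕ) :
    PowerSeries.coeff (p ^ j) (logA p n ψ) = ψ (bet p n j) * Ring.inverse (p : A) ^ j := by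
  rw [logA, PowerSeries.coeff_mk, Nat.log_pow (Fact.out : p.Prime).one_lt, if_pos rfl]

theorem coeff_logA_ne {A : Type} [CommRing A] (ψ : E0 p n →+* A) {d : ℕ} (h : ∀ j, d ≠ p ^ j) :
    PowerSeries.coeff d (logA p n ψ) = 0 := by
  rw [logA, PowerSeries.coeff_mk, if_neg (h _)]

theorem q_one_lt (hn : 1 ≤ n) : 1 < p ^ n :=
  Nat.one_lt_pow (by omega) (Fact.out : p.Prime).one_lt

theorem logA_sp0 (hn : 1 ≤ n) {A : Type} [CommRing A] (ψ : E0 p n →+* A) (hp : IsUnit (p : A))
    (d : ℕ) : PowerSeries.coeff d (logA p n (sp0 p n ψ)) =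
      if d = (p ^ n) ^ Nat.log (p ^ n) d then Ring.inverse (p : A) ^ Nat.log (p ^ n) d else 0 := by
  by_cases h : ∃ j, d = p ^ j
  · obtain ⟨j, rfl⟩ := h
    rw [coeff_logA_pow, sp0_apply, bet_const hn]
    by_cases h2 : n ∣ j
    · obtain ⟨e, rfl⟩ := h2
      rw [if_pos (dvd_mul_right _ _), pow_mul p, Nat.log_pow (q_one_lt hn), if_pos rfl,
        Nat.mul_div_cancel_left _ (by omega : 0 < n), map_pow, map_natCast, map_pow, map_natCast]
      have h3 : e ≤ n * e := Nat.le_mul_of_pos_left _ hn
      have := inv_cancel hp (n * e - e) e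
      rwa [Nat.sub_add_cancel h3] at this
    · rw [if_neg h2, map_zero, map_zero, zero_mul, if_neg]
      intro h3
      rw [← pow_mul] at h3
      exact h2 ⟨_, Nat.pow_right_injective (Fact.out : p.Prime).two_le h3⟩
  · rw [coeff_logA_ne _ (fun j hj => h ⟨j, hj⟩), if_neg]
    intro h3
    rw [← pow_mul] at h3
    exact h ⟨_, h3⟩

theorem pderiv_vv (i : Fin (n - 1)) (k : ℕ) :
    pderiv (WW p n) i (vv p n k) = if k = (i : ℕ) + 1 then 1 else 0 := by
  have hi := i.2
  unfold vv
  split_ifs with h1 h2 h2 h3 h3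
  · have : (⟨k - 1, by omega⟩ : Fin (n - 1)) = i := Fin.ext (by simp; omega)
    rw [this, pderiv_X_self]
  · refine pderiv_X_of_ne fun h => h2 ?_
    have := congrArg Fin.val h
    simp at this
    omega
  · omega
  · exact pderiv_one
  · omega
  · simp

theorem dvv_const (hn : 1 ≤ n) (i : Fin (n - 1)) (k l : ℕ) :
    constantCoeff (pderiv (WW p n) i (vv p n k ^ (p ^ l))) =
      if k = (i : ℕ) + 1 ∧ l = 0 then 1 else 0 := by
  have hi := i.2
  rw [pderiv_pow, pderiv_vv]
  by_cases h1 : k = (i : ℕ) + 1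
  · by_cases h2 : l = 0
    · subst h2
      simp [h1]
    · have h3 : p ^ l - 1 ≠ 0 := by
        have := Nat.one_lt_pow h2 (Fact.out : p.Prime).one_lt
        omega
      rw [if_neg (show ¬ (k = (i : ℕ) + 1 ∧ l = 0) from fun h => h2 h.2)]
      simp only [map_mul, map_pow, vv_const hn]
      rw [if_neg (show ¬ k = n by omega), zero_pow h3]
      simp
  · simp [h1]

theorem dbet_const_succ (hn : 1 ≤ n) (i : Fin (n - 1)) (j : ℕ) :
    constantCoeff (pderiv (WW p n) i (bet p n (j + 1))) =
      (if j = i then (p : WW p n) ^ j else 0) +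
      if n ≤ j + 1 then (p : WW p n) ^ (n - 1) *
        constantCoeff (pderiv (WW p n) i (bet p n (j + 1 - n))) else 0 := by
  rw [bet_succ, map_sum, map_sum]
  have h1 : ∀ l, constantCoeff (pderiv (WW p n) i ((p : E0 p n) ^ (j - l) * bet p n l *
      vv p n (j + 1 - l) ^ (p ^ l))) =
      (p : WW p n) ^ (j - l) * constantCoeff (bet p n l) *
        (if j + 1 - l = (i : ℕ) + 1 ∧ l = 0 then 1 else 0) +
      ((p : WW p n) ^ (j - l) * constantCoeff (pderiv (WW p n) i (bet p n l))) *
        (if j + 1 - l = n then 1 else 0) := by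
    intro l
    have h0 : pderiv (WW p n) i ((p : E0 p n) ^ (j - l)) = 0 := by
      rw [← Nat.cast_pow]
      exact Derivation.map_natCast _ _
    rw [Derivation.leibniz, Derivation.leibniz, h0]
    simp only [smul_eq_mul, map_add, map_mul, dvv_const hn, vv_pow_const hn, mul_zero, add_zero]
    rw [map_pow, map_natCast]
    ring
  simp only [h1]
  rw [Finset.sum_add_distrib, sum_pick hn j (fun l => (p : WW p n) ^ (j - l) *
    constantCoeff (pderiv (WW p n) i (bet p n l)))]
  refine congrArg₂ (· + ·) ?_ ?_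
  · rw [Finset.sum_eq_single 0]
    · by_cases h : j = i
      · simp [h, bet]
      · simp [h]
    · intro b _ hb
      rw [if_neg (fun h => hb h.2), mul_zero]
    · intro h
      exact absurd (Finset.mem_range.2 (by omega)) h
  · split_ifs with h
    · rw [show j - (j + 1 - n) = n - 1 by omega]
    · rfl

theorem dbet_const (hn : 1 ≤ n) (i : Fin (n - 1)) (j : ℕ) :
    constantCoeff (pderiv (WW p n) i (bet p n j)) =
      if (i : ℕ) + 1 ≤ j then (p : WW p n) ^ (i : ℕ) * constantCoeff (bet p n (j - (i + 1)))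
        else 0 := by
  have hi := i.2
  induction j using Nat.strong_induction_on with
  | _ j ih =>
    rcases j with _ | j
    · simp [bet]
    · rw [dbet_const_succ hn]
      by_cases h : j = i
      · rw [if_pos h, if_neg (by omega), if_pos (by omega), h]
        simp [bet]
      · rw [if_neg h, zero_add]
        by_cases h2 : (i : ℕ) + 1 ≤ j + 1
        · rw [if_pos h2]
          obtain ⟨m, hm⟩ : ∃ m, j + 1 - (i + 1) = m + 1 := ⟨j - i - 1, by omega⟩
          rw [hm, bet_const_succ hn]
          by_cases h3 : n ≤ m + 1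
          · rw [if_pos (by omega), if_pos h3, ih _ (by omega), if_pos (by omega)]
            have : j + 1 - n - (i + 1) = m + 1 - n := by omega
            rw [this]
            ring
          · rw [if_neg h3, mul_zero]
            split_ifs with h4
            · rw [ih _ (by omega), if_neg (by omega), mul_zero]
            · rfl
        · rw [if_neg h2, if_neg (by omega)]

theorem dlogA_sp0 (hn : 1 ≤ n) {A : Type} [CommRing A] (ψ : E0 p n →+* A) (hp : IsUnit (p : A))
    (i : Fin (n - 1)) : dlogA p n (sp0 p n ψ) i = PowerSeries.C (Ring.inverse (p : A)) *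
      PowerSeries.subst (PowerSeries.X ^ (p ^ ((i : ℕ) + 1)) : PowerSeries A)
        (logA p n (sp0 p n ψ)) := by
  have hp0 : p ≠ 0 := (Fact.out : p.Prime).ne_zero
  ext d
  rw [PowerSeries.coeff_C_mul, PowerSeries.coeff_subst_X_pow (pow_ne_zero _ hp0), dlogA,
    PowerSeries.coeff_mk]
  by_cases h : ∃ j, d = p ^ j
  · obtain ⟨j, rfl⟩ := h
    rw [Nat.log_pow (Fact.out : p.Prime).one_lt, if_pos rfl, sp0_apply, dbet_const hn]
    by_cases h2 : (i : ℕ) + 1 ≤ j
    · rw [if_pos h2, if_pos (pow_dvd_pow _ h2), Nat.pow_div h2 (Nat.pos_of_ne_zero hp0),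
        coeff_logA_pow, sp0_apply]
      obtain ⟨m, rfl⟩ : ∃ m, j = (i : ℕ) + 1 + m := ⟨j - (i + 1), by omega⟩
      rw [Nat.add_sub_cancel_left, map_mul, map_mul, map_pow, map_natCast, map_pow, map_natCast]
      have := inv_cancel hp i (1 + m)
      rw [← add_assoc] at this
      rw [mul_right_comm, this]
      simp only [Algebra.algebraMap_self, RingHom.id_apply]
      ring
    · rw [if_neg h2, if_neg, map_zero, map_zero, zero_mul, mul_zero]
      intro h3
      exact h2 ((Nat.pow_dvd_pow_iff_le_right (Fact.out : p.Prime).one_lt).1 h3)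
  · rw [if_neg (fun h2 => h ⟨_, h2⟩)]
    split_ifs with h2
    · obtain ⟨m, rfl⟩ := h2
      rw [Nat.mul_div_cancel_left _ (Nat.pos_of_ne_zero (pow_ne_zero _ hp0)), coeff_logA_ne]
      · simp
      · rintro j rfl
        exact h ⟨_, (pow_add _ _ _).symm⟩
    · simp

theorem sp0_const {A : Type} [CommRing A] (j : WW p n →+* A) :
    sp0 p n (j.comp (constantCoeff : E0 p n →+* WW p n)) = j.comp constantCoeff := by
  ext1 f
  simp [sp0_apply]

theorem coeff_logA_const (hn : 1 ≤ n) {A : Type} [CommRing A] (j : WW p n →+* A)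
    (hp : IsUnit (p : A)) (d : ℕ) :
    PowerSeries.coeff d (logA p n (j.comp (constantCoeff : E0 p n →+* WW p n))) =
      if d = (p ^ n) ^ Nat.log (p ^ n) d then Ring.inverse (p : A) ^ Nat.log (p ^ n) d else 0 := by
  rw [← sp0_const, logA_sp0 hn _ hp]

theorem fracW_unit : IsUnit (p : FractionRing (WW p n)) := by
  have h : (p : WW p n) ≠ 0 := WittVector.p_nonzero p _
  have h2 := (map_ne_zero_iff _ (IsFractionRing.injective (WW p n) (FractionRing (WW p n)))).2 h
  rw [map_natCast] at h2
  exact IsUnit.mk0 _ h2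

theorem mvmap_inj {A B σ : Type} [CommRing A] [CommRing B] {f : A →+* B}
    (hf : Function.Injective f) {a b : MvPowerSeries σ A} (h : map f a = map f b) : a = b := by
  ext d
  apply hf
  rw [← coeff_map, ← coeff_map, h]

theorem fg_hasSubst {A : Type} [CommRing A] (G : FormalGroup A) :
    PowerSeries.HasSubst G.toPowerSeries :=
  PowerSeries.HasSubst.of_constantCoeff_zero G.zero_constantCoeff

theorem subst_of_cob {A : Type} [CommRing A] {G : FormalGroup A} {l : PowerSeries A}
    (h : cob G l = 0) : PowerSeries.subst G.toPowerSeries l =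
      PowerSeries.subst (X 0 : MvPowerSeries (Fin 2) A) l +
        PowerSeries.subst (X 1 : MvPowerSeries (Fin 2) A) l := by
  unfold cob at h
  linear_combination h

theorem IsLT.GW_map (hF : IsLT p n F) (hn : 1 ≤ n) (τ : WW p n →+* WW p n) :
    (GW p n F).map τ = GW p n F := by
  set ι := algebraMap (WW p n) (FractionRing (WW p n))
  have hι : Function.Injective ι := IsFractionRing.injective _ _
  have h1 := subst_of_cob (hF.log ((ι.comp τ).comp constantCoeff) fracW_unit)
  have h2 := subst_of_cob (hF.log (ι.comp constantCoeff) fracW_unit)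
  have h3 : logA p n ((ι.comp τ).comp constantCoeff) = logA p n (ι.comp constantCoeff) := by
    ext d
    rw [coeff_logA_const hn _ fracW_unit, coeff_logA_const hn _ fracW_unit]
  rw [h3, ← h2] at h1
  have h4 := log_inj (logA_const _) (logA_one _) (FormalGroup.zero_constantCoeff _)
    (FormalGroup.zero_constantCoeff _) h1
  refine FormalGroup.ext (mvmap_inj hι ?_)
  exact h4

theorem Gk_eq : Gk p n F = (GW p n F).map WittVector.constantCoeff := by
  rw [fg_map_map]
  rfl

theorem IsLT.Gk_map (hF : IsLT p n F) (hn : 1 ≤ n) (τ : kk p n →+* kk p n) :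
    (Gk p n F).map τ = Gk p n F := by
  have h : τ.comp (WittVector.constantCoeff : WW p n →+* kk p n) =
      (WittVector.constantCoeff : WW p n →+* kk p n).comp (WittVector.map τ) := by
    ext1 w
    simp [WittVector.map_coeff]
  rw [Gk_eq, fg_map_map, h, ← fg_map_map, hF.GW_map hn]

theorem mv_subst_subst {A σ τ : Type} [CommRing A] {a : MvPowerSeries σ A}
    {b : σ → MvPowerSeries τ A} (ha : PowerSeries.HasSubst a) (hb : HasSubst b)
    (l : PowerSeries A) : subst b (PowerSeries.subst a l) = PowerSeries.subst (subst b a) l := by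
  rw [PowerSeries.subst_def, PowerSeries.subst_def, subst_comp_subst_apply ha.const hb]

theorem cob_add {A : Type} [CommRing A] (G : FormalGroup A) (e e' : PowerSeries A) :
    cob G (e + e') = cob G e + cob G e' := by
  unfold cob
  rw [PowerSeries.subst_add (fg_hasSubst G), PowerSeries.subst_add (PowerSeries.HasSubst.X _),
    PowerSeries.subst_add (PowerSeries.HasSubst.X _)]
  ring

theorem cob_sub {A : Type} [CommRing A] (G : FormalGroup A) (e e' : PowerSeries A) :
    cob G (e - e') = cob G e - cob G e' := by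
  unfold cob
  rw [PowerSeries.subst_sub (fg_hasSubst G), PowerSeries.subst_sub (PowerSeries.HasSubst.X _),
    PowerSeries.subst_sub (PowerSeries.HasSubst.X _)]
  ring

theorem cob_C_mul {A : Type} [CommRing A] (G : FormalGroup A) (t : A) (e : PowerSeries A) :
    cob G (PowerSeries.C t * e) = C t * cob G e := by
  unfold cob
  rw [PowerSeries.subst_mul (fg_hasSubst G), PowerSeries.subst_mul (PowerSeries.HasSubst.X _),
    PowerSeries.subst_mul (PowerSeries.HasSubst.X _), PowerSeries.subst_C, PowerSeries.subst_C,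
    PowerSeries.subst_C]
  ring

theorem cob_X_pow {A : Type} [CommRing A] (G : FormalGroup A) (k : ℕ) :
    cob G (PowerSeries.X ^ k) = G.toPowerSeries ^ k - X 0 ^ k - X 1 ^ k := by
  unfold cob
  rw [PowerSeries.subst_pow (fg_hasSubst G), PowerSeries.subst_pow (PowerSeries.HasSubst.X _),
    PowerSeries.subst_pow (PowerSeries.HasSubst.X _), PowerSeries.subst_X (fg_hasSubst G),
    PowerSeries.subst_X (PowerSeries.HasSubst.X _), PowerSeries.subst_X (PowerSeries.HasSubst.X _)]

theorem cob_zero {A : Type} [CommRing A] (G : FormalGroup A) : cob G 0 = 0 := by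
  simpa using cob_sub G 0 0

theorem cob_sum {A ι : Type} [CommRing A] (G : FormalGroup A) (s : Finset ι)
    (e : ι → PowerSeries A) : cob G (∑ i ∈ s, e i) = ∑ i ∈ s, cob G (e i) := by
  classical
  induction s using Finset.induction_on with
  | empty => simpa using cob_zero G
  | insert i s hi ih => rw [Finset.sum_insert hi, Finset.sum_insert hi, cob_add, ih]

theorem cob_mem_ordI {A : Type} [CommRing A] (G : FormalGroup A) {N : ℕ} {e : PowerSeries A}
    (he : ∀ k < N, PowerSeries.coeff k e = 0) : cob G e ∈ ordI (Fin 2) A N := by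
  have h : (N : ℕ∞) ≤ e.order := PowerSeries.nat_le_order _ _ he
  refine Ideal.sub_mem _ (Ideal.sub_mem _ ?_ ?_) ?_
  · exact h.trans (PowerSeries.le_order_subst_left G.zero_constantCoeff)
  · exact h.trans (PowerSeries.le_order_subst_left (constantCoeff_X _))
  · exact h.trans (PowerSeries.le_order_subst_left (constantCoeff_X _))

theorem mem_ordI {A σ : Type} [CommRing A] {N : ℕ} {f : MvPowerSeries σ A} :
    f ∈ ordI σ A N ↔ ∀ d, Finsupp.degree d < N → coeff d f = 0 :=
  ⟨fun h _ hd => coeff_of_lt_order (lt_of_lt_of_le (by exact_mod_cast hd) h),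
    fun h => nat_le_order h⟩

theorem isHom_of_log {A : Type} [CommRing A] {G G' : FormalGroup A} {l φ : PowerSeries A}
    (h0 : PowerSeries.constantCoeff l = 0) (h1 : PowerSeries.coeff 1 l = 1) (hl : cob G' l = 0)
    (hφ : PowerSeries.constantCoeff φ = 0) (h : cob G (PowerSeries.subst φ l) = 0) :
    IsHom G G' φ := by
  have hs : PowerSeries.HasSubst φ := PowerSeries.HasSubst.of_constantCoeff_zero' hφ
  have hc : ∀ i : Fin 2, constantCoeff (![PowerSeries.subst (X 0 : MvPowerSeries (Fin 2) A) φ,
      PowerSeries.subst (X 1 : MvPowerSeries (Fin 2) A) φ] i) = 0 := by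
    intro i
    fin_cases i
    · exact PowerSeries.constantCoeff_subst_eq_zero (constantCoeff_X _) _ hφ
    · exact PowerSeries.constantCoeff_subst_eq_zero (constantCoeff_X _) _ hφ
  have hb := hasSubst_of_constantCoeff_zero hc
  refine ⟨hφ, log_inj h0 h1 (PowerSeries.constantCoeff_subst_eq_zero G.zero_constantCoeff _ hφ)
    (constantCoeff_subst_eq_zero hb hc G'.zero_constantCoeff) ?_⟩
  rw [← PowerSeries.subst_comp_subst_apply hs (fg_hasSubst G), subst_of_cob h,
    ← mv_subst_subst (fg_hasSubst G') hb, subst_of_cob hl, subst_add hb,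
    mv_subst_subst (PowerSeries.HasSubst.X _) hb, mv_subst_subst (PowerSeries.HasSubst.X _) hb,
    subst_X hb, subst_X hb, PowerSeries.subst_comp_subst_apply hs (PowerSeries.HasSubst.X _),
    PowerSeries.subst_comp_subst_apply hs (PowerSeries.HasSubst.X _)]
  rfl

theorem isHom_of_map {A B : Type} [CommRing A] [CommRing B] {G G' : FormalGroup A}
    {φ : PowerSeries A} {f : A →+* B} (hf : Function.Injective f)
    (hφ : PowerSeries.constantCoeff φ = 0)
    (h : IsHom (G.map f) (G'.map f) (PowerSeries.map f φ)) : IsHom G G' φ := by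
  have hc : ∀ i : Fin 2, constantCoeff (![PowerSeries.subst (X 0 : MvPowerSeries (Fin 2) A) φ,
      PowerSeries.subst (X 1 : MvPowerSeries (Fin 2) A) φ] i) = 0 := by
    intro i
    fin_cases i
    · exact PowerSeries.constantCoeff_subst_eq_zero (constantCoeff_X _) _ hφ
    · exact PowerSeries.constantCoeff_subst_eq_zero (constantCoeff_X _) _ hφ
  have hb := hasSubst_of_constantCoeff_zero hc
  refine ⟨hφ, mvmap_inj hf ?_⟩
  rw [PowerSeries.map_subst (fg_hasSubst G), map_subst hb]
  refine h.2.trans ?_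
  rw [FormalGroup.map_toPowerSeries]
  congr 1
  funext i
  fin_cases i
  · simp [PowerSeries.map_subst (PowerSeries.HasSubst.X (0 : Fin 2))]
  · simp [PowerSeries.map_subst (PowerSeries.HasSubst.X (1 : Fin 2))]

theorem teich_pow (hn : 1 ≤ n) (a : kk p n) (e : ℕ) :
    WittVector.teichmuller p a ^ ((p ^ n) ^ e) = WittVector.teichmuller p a := by
  rw [← map_pow]
  congr 1
  have : Fintype (kk p n) := Fintype.ofFinite _
  have h : Fintype.card (kk p n) = p ^ n := by
    rw [← Nat.card_eq_fintype_card, GaloisField.card p n (by omega)]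
  rw [← h]
  exact FiniteField.pow_card_pow e a

theorem IsLT.GW_teich (hF : IsLT p n F) (hn : 1 ≤ n) (a : kk p n) :
    IsHom (GW p n F) (GW p n F)
      (PowerSeries.C (WittVector.teichmuller p a) * PowerSeries.X) := by
  set ι := algebraMap (WW p n) (FractionRing (WW p n))
  have hι : Function.Injective ι := IsFractionRing.injective _ _
  have h2 := hF.log (ι.comp constantCoeff) fracW_unit
  refine isHom_of_map hι (by simp) ?_
  rw [fg_map_map]
  refine isHom_of_log (logA_const _) (logA_one _) h2 (by simp) ?_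
  have h3 : PowerSeries.subst (PowerSeries.map ι (PowerSeries.C (WittVector.teichmuller p a) *
      PowerSeries.X)) (logA p n (ι.comp constantCoeff)) =
      PowerSeries.C (ι (WittVector.teichmuller p a)) * logA p n (ι.comp constantCoeff) := by
    rw [map_mul, PowerSeries.map_C, PowerSeries.map_X, ← PowerSeries.smul_eq_C_mul,
      ← PowerSeries.rescale_eq_subst]
    ext d
    rw [PowerSeries.coeff_rescale, PowerSeries.coeff_C_mul, coeff_logA_const hn _ fracW_unit]
    split_ifs with h
    · congr 1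
      rw [← map_pow, h, teich_pow hn]
    · simp
  rw [h3, cob_C_mul, h2, mul_zero]

theorem IsLT.Gk_mono (hF : IsLT p n F) (hn : 1 ≤ n) (a : kk p n) (s : ℕ) :
    IsHom (Gk p n F) (Gk p n F) (PowerSeries.C a * PowerSeries.X ^ (p ^ s)) := by
  have h1 := isHom_frob p (Gk p n F) s
  rw [hF.Gk_map hn] at h1
  have h2 := (hF.GW_teich hn a).map (WittVector.constantCoeff : WW p n →+* kk p n)
  rw [← Gk_eq] at h2
  have h3 := h1.comp h2
  have hs : PowerSeries.HasSubst (PowerSeries.X ^ (p ^ s) : PowerSeries (kk p n)) :=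
    PowerSeries.HasSubst.X_pow (pow_ne_zero _ (Fact.out : p.Prime).ne_zero)
  rw [map_mul, PowerSeries.map_C, PowerSeries.map_X, PowerSeries.subst_mul hs,
    PowerSeries.subst_C, PowerSeries.subst_X hs] at h3
  have h4 : (WittVector.constantCoeff : WW p n →+* kk p n) (WittVector.teichmuller p a) = a := by
    simp
  rw [h4] at h3
  exact h3

theorem IsLT.polyP (hF : IsLT p n F) (hn : 1 ≤ n) (E : ℕ) :
    ∃ P : MvPolynomial (Fin 2) (WW p n),
      (∀ d, Finsupp.degree d < (p ^ n) ^ (E + 1) →
        MvPolynomial.coeff d P = coeff d (GW p n F).toPowerSeries) ∧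
      ∀ d, Finsupp.degree d < (p ^ n) ^ (E + 1) →
        MvPolynomial.coeff d (∑ e ∈ Finset.range (E + 1),
          (p : MvPolynomial (Fin 2) (WW p n)) ^ (E - e) * (P ^ ((p ^ n) ^ e) -
            MvPolynomial.X 0 ^ ((p ^ n) ^ e) - MvPolynomial.X 1 ^ ((p ^ n) ^ e))) = 0 := by
  set N := (p ^ n) ^ (E + 1) with hN
  set G := (GW p n F).toPowerSeries with hG
  set ι := algebraMap (WW p n) (FractionRing (WW p n))
  have hι : Function.Injective ι := IsFractionRing.injective _ _
  have hP : ∀ d, Finsupp.degree d < N →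
      MvPolynomial.coeff d (truncTotal N G) = coeff d G := fun d hd => coeff_truncTotal _ hd
  refine ⟨truncTotal N G, hP, ?_⟩
  have h2 := hF.log (ι.comp constantCoeff) fracW_unit
  have hq := q_one_lt (p := p) hn
  set u := Ring.inverse (p : FractionRing (WW p n)) with hu
  have h3 : cob (F.map (ι.comp constantCoeff)) (logA p n (ι.comp constantCoeff) -
      ∑ e ∈ Finset.range (E + 1), PowerSeries.C (u ^ e) * PowerSeries.X ^ ((p ^ n) ^ e)) ∈
      ordI (Fin 2) _ N := by
    refine cob_mem_ordI _ fun k hk => ?_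
    rw [map_sub, coeff_logA_const hn _ fracW_unit, map_sum, sub_eq_zero]
    simp only [PowerSeries.coeff_C_mul, PowerSeries.coeff_X_pow]
    split_ifs with h
    · rw [Finset.sum_eq_single (Nat.log (p ^ n) k), if_pos h, mul_one]
      · intro b _ hb
        rw [if_neg, mul_zero]
        rintro rfl
        exact hb (Nat.log_pow hq b).symm
      · intro hb
        refine absurd (Finset.mem_range.2 ?_) hb
        rw [h, hN] at hk
        exact (Nat.pow_lt_pow_iff_right hq).1 hk
    · refine (Finset.sum_eq_zero fun b _ => ?_).symm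
      rw [if_neg, mul_zero]
      rintro rfl
      exact h (by rw [Nat.log_pow hq b])
  rw [cob_sub, h2, zero_sub, neg_mem_iff, cob_sum] at h3
  simp only [cob_C_mul, cob_X_pow] at h3
  have h4 := Ideal.mul_mem_left _ ((p : MvPowerSeries (Fin 2) (FractionRing (WW p n))) ^ E) h3
  have h5 : (p : MvPowerSeries (Fin 2) (FractionRing (WW p n))) ^ E *
      ∑ e ∈ Finset.range (E + 1), C (u ^ e) *
        ((F.map (ι.comp constantCoeff)).toPowerSeries ^ ((p ^ n) ^ e) - X 0 ^ ((p ^ n) ^ e) -
          X 1 ^ ((p ^ n) ^ e)) =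
      map ι (∑ e ∈ Finset.range (E + 1), (p : MvPowerSeries (Fin 2) (WW p n)) ^ (E - e) *
        (G ^ ((p ^ n) ^ e) - X 0 ^ ((p ^ n) ^ e) - X 1 ^ ((p ^ n) ^ e))) := by
    rw [Finset.mul_sum, map_sum]
    refine Finset.sum_congr rfl fun e he => ?_
    have he' : e ≤ E := Nat.lt_succ_iff.1 (Finset.mem_range.1 he)
    have h6 : (p : FractionRing (WW p n)) ^ E * u ^ e = (p : FractionRing (WW p n)) ^ (E - e) := by
      have h7 := inv_cancel (fracW_unit (p := p) (n := n)) e 0
      rw [add_zero, pow_zero] at h7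
      conv_lhs => rw [← Nat.sub_add_cancel he', pow_add, mul_assoc, h7, mul_one]
    have h8 := congrArg (C : _ →+* MvPowerSeries (Fin 2) (FractionRing (WW p n))) h6
    rw [map_mul, map_pow, map_natCast, map_pow _ (p : FractionRing (WW p n)), map_natCast] at h8
    rw [← mul_assoc, h8]
    simp only [map_mul, map_sub, map_pow, map_natCast, map_X]
    rfl
  rw [h5] at h4
  have h9 : (∑ e ∈ Finset.range (E + 1), (p : MvPowerSeries (Fin 2) (WW p n)) ^ (E - e) *
      (G ^ ((p ^ n) ^ e) - X 0 ^ ((p ^ n) ^ e) - X 1 ^ ((p ^ n) ^ e))) ∈ ordI (Fin 2) _ N := by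
    refine mem_ordI.2 fun d hd => hι ?_
    rw [← coeff_map, mem_ordI.1 h4 d hd, map_zero]
  have h10 : ((truncTotal N G : MvPolynomial (Fin 2) (WW p n)) : MvPowerSeries (Fin 2) (WW p n)) -
      G ∈ ordI (Fin 2) _ N := by
    refine mem_ordI.2 fun d hd => ?_
    rw [map_sub, MvPolynomial.coeff_coe, hP d hd, sub_self]
  intro d hd
  rw [← MvPolynomial.coeff_coe]
  refine mem_ordI.1 ?_ d hd
  have h11 : ∀ Q : MvPolynomial (Fin 2) (WW p n), (Q : MvPowerSeries (Fin 2) (WW p n)) =
      MvPolynomial.coeToMvPowerSeries.ringHom Q := fun _ => rfl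
  rw [h11, map_sum]
  simp only [map_mul, map_sub, map_pow, map_natCast]
  simp only [← h11, MvPolynomial.coe_X]
  rw [← Ideal.Quotient.eq_zero_iff_mem] at h9 ⊢
  rw [← Ideal.Quotient.eq] at h10
  simp only [map_sum, map_mul, map_sub, map_pow] at h9 ⊢
  rw [h10]
  exact h9

end Vale.Agent.P217
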