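import Vale.Agent.P217.LTE
import Vale.Agent.P217.Hon

namespace Vale.Agent.P217

open MvPowerSeries

variable {p n : ℕ} [Fact p.Prime] {F : FormalGroup (E0 p n)}

/-- ring homomorphism version of `Acts` -/
def ActRel (F : FormalGroup (E0 p n)) (τ : kk p n →+* kk p n) (g : PowerSeries (kk p n))
    (ψ : E0 p n →+* E0 p n) : Prop :=
  (∀ w : WW p n, ψ (C w) = C (WittVector.map τ w)) ∧ Cts p n (mm p n) ψ ∧
    ∃ φ : PowerSeries (E0 p n), IsHom F (F.map ψ) φ ∧ PowerSeries.map (res p n) φ = g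

lemma act_map_subst {A B : Type} [CommRing A] [CommRing B] (f : A →+* B) {a : PowerSeries A}
    (ha : PowerSeries.constantCoeff a = 0) (b : PowerSeries A) :
    PowerSeries.map f (PowerSeries.subst a b) =
      PowerSeries.subst (PowerSeries.map f a) (PowerSeries.map f b) :=
  PowerSeries.map_subst (PowerSeries.HasSubst.of_constantCoeff_zero' ha) b

lemma act_map_map {A B D : Type} [CommRing A] [CommRing B] [CommRing D] (f : A →+* B)
    (g : B →+* D) (a : PowerSeries A) :
    PowerSeries.map g (PowerSeries.map f a) = PowerSeries.map (g.comp f) a := by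
  rw [PowerSeries.map_comp]; rfl

lemma act_res_C (w : WW p n) : res p n (C w) = WittVector.constantCoeff w := by
  simp [res]

lemma act_iota : ∃ ι : kk p n →+* E0 p n ⧸ mm p n,
    ι.comp (res p n) = Ideal.Quotient.mk (mm p n) := by
  refine ⟨(RingHom.quotientKerEquivOfSurjective (res_surj p n)).symm.toRingHom,
    RingHom.ext fun x => ?_⟩
  exact (RingHom.quotientKerEquivOfSurjective (res_surj p n)).symm_apply_eq.2 rfl

lemma act_rho : ∃ ρ : E0 p n ⧸ mm p n →+* kk p n,
    ρ.comp (Ideal.Quotient.mk (mm p n)) = res p n :=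
  ⟨Ideal.Quotient.lift (mm p n) (res p n) fun _ h => h, RingHom.ext fun _ => rfl⟩

lemma act_p_mem : (p : E0 p n) ∈ mm p n := by
  show res p n p = 0
  rw [map_natCast, CharP.cast_eq_zero]

lemma act_unit {φ : PowerSeries (E0 p n)} {g : PowerSeries (kk p n)}
    (h : PowerSeries.map (res p n) φ = g) (hg : PowerSeries.coeff 1 g ≠ 0) :
    IsUnit (PowerSeries.coeff 1 φ) := by
  rw [isUnit_iff_res, ← PowerSeries.coeff_map, h]
  exact hg

lemma ActRel.res_comp {τ : kk p n →+* kk p n} {g : PowerSeries (kk p n)}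
    {ψ : E0 p n →+* E0 p n} (h : ActRel F τ g ψ) : (res p n).comp ψ = τ.comp (res p n) := by
  refine RingHom.ext fun x => ?_
  have h1 : res p n (ψ x - ψ (C (constantCoeff x))) = 0 := cts_sub_C h.2.1 x
  rw [map_sub, sub_eq_zero, h.1, act_res_C] at h1
  exact h1

lemma ActRel.comp {τ τ' : kk p n →+* kk p n} {g g' : PowerSeries (kk p n)}
    {ψ ψ' : E0 p n →+* E0 p n} (h : ActRel F τ g ψ) (h' : ActRel F τ' g' ψ') :
    ActRel F (τ'.comp τ) (PowerSeries.subst g' (PowerSeries.map τ' g)) (ψ'.comp ψ) := by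
  have hr := h'.res_comp
  obtain ⟨h1, h2, φ, h3, h4⟩ := h
  obtain ⟨k1, k2, φ', k3, k4⟩ := h'
  refine ⟨fun w => ?_, fun x hx => k2 _ (h2 x hx),
    PowerSeries.subst φ' (PowerSeries.map ψ' φ), ?_, ?_⟩
  · rw [RingHom.comp_apply, h1, k1]
    congr 1
  · have := h3.map ψ'
    rw [fg_map_map] at this
    exact k3.comp this
  · rw [act_map_subst _ k3.1, k4, act_map_map, hr, ← act_map_map, h4]

lemma actRel_id : ActRel F (RingHom.id _) PowerSeries.X (RingHom.id _) := by
  refine ⟨fun w => ?_, fun x hx => hx, PowerSeries.X, ?_, PowerSeries.map_X _⟩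
  · rw [RingHom.id_apply]
    congr 1
  · have : F.map (RingHom.id _) = F := by
      ext1
      simp
    rw [this]
    exact isHom_X F

lemma ActRel.unique (hF : IsLT p n F) (hn : 1 ≤ n) {τ : kk p n →+* kk p n}
    {g : PowerSeries (kk p n)} (hg : PowerSeries.coeff 1 g ≠ 0) {ψ ψ' : E0 p n →+* E0 p n}
    (h : ActRel F τ g ψ) (h' : ActRel F τ g ψ') : ψ' = ψ := by
  haveI := mm_complete p n
  obtain ⟨h1, h2, φ, h3, h4⟩ := h
  obtain ⟨k1, k2, φ', k3, k4⟩ := h'
  obtain ⟨θ, t1, -, t3⟩ := h3.inv (act_unit h4 hg)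
  obtain ⟨ι, hι⟩ := act_iota (p := p) (n := n)
  refine (hF.lt_unique hn (mm p n) act_p_mem h2 k2 (fun w => by rw [h1, k1]) (t1.comp k3) ?_).1
  rw [← hι, ← act_map_map, act_map_subst _ t1.1, k4, ← h4, ← act_map_subst _ t1.1, t3,
    PowerSeries.map_X, PowerSeries.map_X]

lemma actRel_exists (hF : IsLT p n F) (hn : 1 ≤ n) (τ : kk p n →+* kk p n)
    (g : PowerSeries (kk p n)) (hg : IsAut p n F g) : ∃ ψ, ActRel F τ g ψ := by
  haveI := mm_complete p n
  haveI := hF.isComm
  choose l hl using res_surj p n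
  let g' : PowerSeries (E0 p n) :=
    PowerSeries.mk fun d => if d = 0 then 0 else l (PowerSeries.coeff d g)
  have g0 : PowerSeries.constantCoeff g' = 0 := by
    rw [← PowerSeries.coeff_zero_eq_constantCoeff_apply, PowerSeries.coeff_mk, if_pos rfl]
  have g1 : PowerSeries.map (res p n) g' = g := by
    ext d
    rw [PowerSeries.coeff_map, PowerSeries.coeff_mk]
    split_ifs with hd
    · rw [map_zero, hd, PowerSeries.coeff_zero_eq_constantCoeff_apply, hg.1.1]
    · exact hl _
  obtain ⟨G, hG, hom⟩ := exists_transport F g' g0 (act_unit g1 hg.2)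
  have e1 : G.map (res p n) = F.map (res p n) := by
    have := hom.map (res p n)
    rw [g1] at this
    exact this.target_unique hg.1 (isUnit_iff_ne_zero.2 hg.2)
  obtain ⟨ι, hι⟩ := act_iota (p := p) (n := n)
  obtain ⟨ρ, hρ⟩ := act_rho (p := p) (n := n)
  obtain ⟨ψ, ⟨h1, h2, φ, h3, h4⟩, -⟩ := hF.universal hn (E0 p n) (mm p n)
    ((C : WW p n →+* E0 p n).comp (WittVector.map τ)) G act_p_mem hG (by
      have e2 : ((Ideal.Quotient.mk (mm p n)).comp
          ((C : WW p n →+* E0 p n).comp (WittVector.map τ))).comp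
            (constantCoeff : E0 p n →+* WW p n) = ι.comp (τ.comp (res p n)) := by
        refine RingHom.ext fun x => ?_
        rw [← hι]
        simp only [RingHom.comp_apply, act_res_C]
        rfl
      rw [e2, ← fg_map_map, ← fg_map_map, hF.Gk_map hn τ, ← hι, ← fg_map_map, e1])
  have h5 : PowerSeries.map (res p n) φ = PowerSeries.X := by
    rw [← hρ, ← act_map_map, h4, PowerSeries.map_X]
  obtain ⟨θ, t1, t2, -⟩ := h3.inv (act_unit h5 (by simp))
  have t4 : PowerSeries.map (res p n) θ = PowerSeries.X := by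
    have := congrArg (PowerSeries.map (res p n)) t2
    rwa [act_map_subst _ h3.1, h5, PowerSeries.X_subst, PowerSeries.map_X] at this
  refine ⟨ψ, h1, h2, _, hom.comp t1, ?_⟩
  rw [act_map_subst _ g0, g1, t4,
    PowerSeries.subst_X (PowerSeries.HasSubst.of_constantCoeff_zero' hg.1.1)]

theorem IsLT.acts_exists (hF : IsLT p n F) (hn : 1 ≤ n) (τ : kk p n ≃+* kk p n)
    (g : PowerSeries (kk p n)) (hg : IsAut p n F g) : ∃! σ, Acts p n F τ g σ := by
  obtain ⟨ψ, hψ⟩ := actRel_exists hF hn (τ : kk p n →+* kk p n) g hg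
  have c1 : (τ.symm : kk p n →+* kk p n).comp (τ : kk p n →+* kk p n) = RingHom.id _ :=
    RingHom.ext fun x => τ.symm_apply_apply x
  have c2 : (τ : kk p n →+* kk p n).comp (τ.symm : kk p n →+* kk p n) = RingHom.id _ :=
    RingHom.ext fun x => τ.apply_symm_apply x
  have a1 := hg.1.map (τ.symm : kk p n →+* kk p n)
  rw [hF.Gk_map hn] at a1
  have a2 : PowerSeries.coeff 1 (PowerSeries.map (τ.symm : kk p n →+* kk p n) g) ≠ 0 := by
    rw [PowerSeries.coeff_map]
    exact (map_ne_zero _).2 hg.2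
  obtain ⟨g', b1, b2, b3⟩ := a1.inv (isUnit_iff_ne_zero.2 a2)
  have b4 : PowerSeries.subst g (PowerSeries.map (τ : kk p n →+* kk p n) g') = PowerSeries.X := by
    have := congrArg (PowerSeries.map (τ : kk p n →+* kk p n)) b2
    rwa [act_map_subst _ a1.1, act_map_map, c2, PowerSeries.map_id, PowerSeries.map_X] at this
  have b5 : PowerSeries.coeff 1 g' ≠ 0 := by
    intro h0
    have h2 : (2 : ℕ∞) ≤ PowerSeries.order g' := by
      refine PowerSeries.nat_le_order g' 2 fun i hi => ?_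
      interval_cases i
      · rw [PowerSeries.coeff_zero_eq_constantCoeff_apply]; exact b1.1
      · exact h0
    have h3 := PowerSeries.le_order_subst_left' (φ := g') a1.1
    rw [b2] at h3
    have h4 : PowerSeries.order (PowerSeries.X : PowerSeries (kk p n)) = 1 := PowerSeries.order_X
    have h5 := h2.trans h3
    rw [h4] at h5
    exact absurd h5 (by decide)
  obtain ⟨ψ', hψ'⟩ := actRel_exists hF hn (τ.symm : kk p n →+* kk p n) g' ⟨b1, b5⟩
  have d1 := hψ.comp hψ'
  rw [c1, b3] at d1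
  have d2 := hψ'.comp hψ
  rw [c2, b4] at d2
  have e1 := ActRel.unique hF hn (by simp) actRel_id d1
  have e2 := ActRel.unique hF hn (by simp) actRel_id d2
  refine ⟨RingEquiv.ofRingHom ψ ψ' e2 e1, ⟨hψ.1, hψ.2.2⟩, fun σ hσ => ?_⟩
  have := ActRel.unique hF hn hg.2 hψ (ψ' := (σ : E0 p n →+* E0 p n))
    ⟨hσ.1, fun x hx => aut_mm p n σ hx, hσ.2⟩
  exact RingEquiv.ext fun x => congrArg (fun f : E0 p n →+* E0 p n => f x) this

end Vale.Agent.P217
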