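import Vale.Agent.P217.Def3

namespace Vale.Agent.P217

open MvPowerSeries

section aux
variable {T : Type} [AddCommGroup T]

/-- independence modulo `p` of a family of `p ^ k` torsion points -/
def Ind_Adp (p k : ℕ) {m : ℕ} (x : Fin m → T) : Prop :=
  (∀ j, p ^ k • x j = 0) ∧ ∀ e : Fin m → ℤ, p ^ (k - 1) • ∑ j, e j • x j = 0 → ∀ j, (p : ℤ) ∣ e j

theorem bas_Adp {V : Type} [AddCommGroup V] (p : ℕ) [Fact p.Prime] (m : ℕ)
    [Module (ZMod p) V] (h4 : Nat.card V = p ^ m) :
    ∃ b : Fin m → V, ∀ e : Fin m → ℤ, ∑ j, e j • b j = 0 → ∀ j, (p : ℤ) ∣ e j := by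
  have hp := (Fact.out : p.Prime).pos
  have : Finite V := Nat.finite_of_card_ne_zero (by rw [h4]; positivity)
  have : Module.Finite (ZMod p) V := Module.Finite.of_finite
  have h6 := Module.natCard_eq_pow_finrank (K := ZMod p) (V := V)
  rw [h4, Nat.card_zmod] at h6
  have b := Module.finBasisOfFinrankEq (ZMod p) V
    (Nat.pow_right_injective (Fact.out : p.Prime).two_le h6).symm
  refine ⟨b, fun e he j => ?_⟩
  rw [← ZMod.intCast_zmod_eq_zero_iff_dvd]
  refine Fintype.linearIndependent_iff.1 b.linearIndependent (fun j => (e j : ZMod p)) ?_ j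
  simpa only [Int.cast_smul_eq_zsmul] using he

theorem exists_Adp (p : ℕ) [Fact p.Prime] (m k : ℕ) (hk : 1 ≤ k)
    (hcard : ∀ i ≤ k, Nat.card {z : T // p ^ i • z = 0} = p ^ (m * i)) :
    ∃ x : Fin m → T, Ind_Adp p k x := by
  have hp := (Fact.out : p.Prime).pos
  let K : ℕ → AddSubgroup T := fun i => (nsmulAddMonoidHom (p ^ i) : T →+ T).ker
  have hK : ∀ i ≤ k, Nat.card (K i) = p ^ (m * i) := hcard
  have hm : ∀ i z, z ∈ K i ↔ p ^ i • z = 0 := fun i z => Iff.rfl
  let f : K k →+ T := (nsmulAddMonoidHom (p ^ (k - 1))).comp (K k).subtype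
  have hle : K (k - 1) ≤ K k := fun z hz => by
    rw [hm] at hz ⊢
    rw [← Nat.sub_add_cancel hk, pow_succ', mul_smul, hz, smul_zero]
  have h1 : Nat.card f.ker = p ^ (m * (k - 1)) := by
    rw [← hK _ (by omega)]
    exact Nat.card_congr (AddSubgroup.addSubgroupOfEquivOfLe hle).toEquiv
  have h2 := f.ker.card_mul_index
  rw [AddSubgroup.index_ker, h1, hK k le_rfl, show m * k = m * (k - 1) + m by
    rw [← Nat.mul_succ, Nat.succ_eq_add_one, Nat.sub_add_cancel hk], pow_add] at h2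
  have h3 := Nat.eq_of_mul_eq_mul_left (pow_pos hp _) h2
  have h4 : Nat.card (K 1) = p ^ m := by rw [hK 1 hk, mul_one]
  have : Finite (K 1) := Nat.finite_of_card_ne_zero (by rw [h4]; positivity)
  have h5 : f.range = K 1 := by
    refine AddSubgroup.eq_of_le_of_card_ge ?_ (by rw [h3, h4])
    rintro _ ⟨z, rfl⟩
    show p ^ 1 • p ^ (k - 1) • (z : T) = 0
    rw [← mul_smul, ← pow_add, Nat.add_sub_cancel' hk]; exact z.2
  obtain ⟨b, hb⟩ := @bas_Adp (K 1) _ p _ m (AddCommGroup.zmodModule fun z => Subtype.ext (by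
    simpa using (hm 1 z).1 z.2)) h4
  have h7 : ∀ j, ∃ z : K k, p ^ (k - 1) • (z : T) = b j := fun j => by
    have : (b j : T) ∈ f.range := by rw [h5]; exact (b j).2
    exact this
  choose z hz using h7
  refine ⟨fun j => z j, fun j => (z j).2, fun e he => hb e (Subtype.ext ?_)⟩
  simp only [AddSubgroup.val_finsetSum, AddSubgroupClass.coe_zsmul, ← hz]
  rw [Finset.smul_sum] at he
  simpa only [smul_comm (p ^ (k - 1)), ZeroMemClass.coe_zero] using he

theorem dvd_Adp {p k m : ℕ} {x : Fin m → T} (h : Ind_Adp p k x) {t : ℕ} (ht : t ≤ k)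
    (e : Fin m → ℤ) (he : p ^ (k - t) • ∑ j, e j • x j = 0) (j : Fin m) : (p : ℤ) ^ t ∣ e j := by
  induction t generalizing j with
  | zero => simp
  | succ t ih =>
    have h1 := ih (by omega) (by
      rw [show k - t = k - (t + 1) + 1 by omega, pow_succ', mul_smul, he, smul_zero])
    choose d hd using h1
    rw [hd j, pow_succ]
    refine mul_dvd_mul_left _ (h.2 d ?_ j)
    rw [← he, show k - 1 = k - (t + 1) + t by omega, pow_add, mul_smul, Finset.smul_sum]
    congr 1
    refine Finset.sum_congr rfl fun i _ => ?_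
    rw [hd i, mul_smul, ← natCast_zsmul, Nat.cast_pow]

theorem basis_Adp {p k m : ℕ} (hp : 0 < p) {x : Fin m → T} (h : Ind_Adp p k x)
    (hcard : Nat.card {z : T // p ^ k • z = 0} = p ^ (m * k)) : IsBasis (p ^ k) x := by
  have inj : Function.Injective fun a : Fin m → Fin (p ^ k) => ∑ i, (a i : ℕ) • x i := by
    intro a b hab
    funext j
    have := dvd_Adp h le_rfl (fun i => (a i : ℕ) - (b i : ℕ)) (by
      simp only [sub_smul, natCast_zsmul, Finset.sum_sub_distrib]
      rw [show ∑ i, (a i : ℕ) • x i = ∑ i, (b i : ℕ) • x i from hab, sub_self, smul_zero]) j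
    have h1 := Int.eq_zero_of_abs_lt_dvd this (by
      have a1 : ((a j : ℕ) : ℤ) < (p : ℤ) ^ k := by exact_mod_cast (a j).2
      have a2 : ((b j : ℕ) : ℤ) < (p : ℤ) ^ k := by exact_mod_cast (b j).2
      rw [abs_lt]; constructor <;> omega)
    exact Fin.ext (by omega)
  have hz : ∀ a : Fin m → Fin (p ^ k), p ^ k • ∑ i, (a i : ℕ) • x i = 0 := fun a => by
    rw [Finset.smul_sum]
    exact Finset.sum_eq_zero fun i _ => by rw [smul_comm, h.1, smul_zero]
  refine ⟨inj, fun z => ⟨fun hz' => ?_, fun ⟨a, ha⟩ => ha ▸ hz a⟩⟩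
  have : Finite {z : T // p ^ k • z = 0} := Nat.finite_of_card_ne_zero (by rw [hcard]; positivity)
  have hb := (Nat.bijective_iff_injective_and_card (fun a : Fin m → Fin (p ^ k) =>
    (⟨_, hz a⟩ : {z : T // p ^ k • z = 0}))).2 ⟨fun a b hab => inj (congrArg Subtype.val hab), by
      rw [hcard]; simp [← pow_mul, mul_comm]⟩
  obtain ⟨a, ha⟩ := hb.2 ⟨z, hz'⟩
  exact ⟨a, (congrArg Subtype.val ha).symm⟩

theorem exch_Adp {p k m : ℕ} (hp : p.Prime) {x : Fin m → T} (h : Ind_Adp p k x) (c : Fin m → ℕ)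
    {i : Fin m} (hi : ¬ p ∣ c i) : Ind_Adp p k (Function.update x i (∑ j, c j • x j)) := by
  refine ⟨fun j => ?_, fun e he => ?_⟩
  · by_cases hj : j = i
    · subst hj
      rw [Function.update_self, Finset.smul_sum]
      exact Finset.sum_eq_zero fun i _ => by rw [smul_comm, h.1, smul_zero]
    · rw [Function.update_of_ne hj, h.1]
  · have e1 : ∑ j, e j • Function.update x i (∑ j, c j • x j) j =
        ∑ j, (e i * c j + Function.update e i 0 j) • x j := by
      simp only [add_smul, Finset.sum_add_distrib, mul_smul, natCast_zsmul]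
      rw [← Finset.smul_sum, ← Finset.add_sum_erase _ _ (Finset.mem_univ i),
        ← Finset.add_sum_erase _ (fun j => Function.update e i 0 j • x j) (Finset.mem_univ i),
        Function.update_self, Function.update_self, zero_smul, zero_add]
      congr 1
      exact Finset.sum_congr rfl fun j hj => by
        rw [Function.update_of_ne (Finset.ne_of_mem_erase hj),
          Function.update_of_ne (Finset.ne_of_mem_erase hj)]
    have h1 := h.2 _ (e1 ▸ he)
    have h2 : (p : ℤ) ∣ e i := by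
      have := h1 i
      rw [Function.update_self, add_zero] at this
      exact ((Nat.prime_iff_prime_int.1 hp).dvd_or_dvd this).resolve_right
        (mt Int.natCast_dvd_natCast.1 hi)
    intro j
    by_cases hj : j = i
    · exact hj ▸ h2
    · have := h1 j
      rw [Function.update_of_ne hj] at this
      exact (dvd_add_right (h2.mul_right _)).1 this

end aux
theorem adapted {T : Type} [AddCommGroup T] (p : ℕ) [Fact p.Prime] (m k q : ℕ) (hk : 1 ≤ k)
    (hq : 1 ≤ q) (N : T → ℝ) (ρ : ℝ) (hρ : 0 ≤ ρ) (hN0 : ∀ x, 0 ≤ N x) (hN1 : ∀ x, N x ≤ 1)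
    (hz : N 0 = 0) (hadd : ∀ x y, N (x + y) ≤ max (N x) (N y)) (hneg : ∀ x, N (-x) = N x)
    (hcard : ∀ i ≤ k, Nat.card {z : T // p ^ i • z = 0} = p ^ (m * i))
    (hs1 : ∀ x, N (p • x) ≤ max (N x ^ q) (ρ * N x))
    (hs2 : ∀ x, ρ < N x ^ q → N (p • x) = N x ^ q) :
    ∃ x : Fin m → T, IsBasis (p ^ k) x ∧ (∀ i, p ^ (k - 1) • x i ≠ 0) ∧
      ∀ (c : Fin m → ℕ) (i : Fin m), ρ < N (c i • x i) → N (c i • x i) ≤ N (∑ j, c j • x j) := by
  classical
  have hp : p.Prime := Fact.out
  have hfin : {x : Fin m → T | Ind_Adp p k x}.Finite := by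
    have : Finite {z : T // p ^ k • z = 0} :=
      Nat.finite_of_card_ne_zero (by rw [hcard k le_rfl]; exact (pow_pos hp.pos _).ne')
    exact (Set.Finite.pi' (t := fun _ : Fin m => {z : T | p ^ k • z = 0}) fun _ => this).subset
      fun x hx => hx.1
  obtain ⟨x, hx, hmin⟩ := Set.exists_min_image _ (fun x => ∑ j, N (x j)) hfin
    (exists_Adp p m k hk hcard)
  have hex : ∀ (c : Fin m → ℕ) i, ¬ p ∣ c i → N (x i) ≤ N (∑ j, c j • x j) := fun c i hi => by
    have := hmin _ (exch_Adp hp hx c hi)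
    rw [← Finset.add_sum_erase _ _ (Finset.mem_univ i),
      ← Finset.add_sum_erase _ _ (Finset.mem_univ i), Function.update_self,
      Finset.sum_congr rfl fun j hj => by
        rw [← Function.update_of_ne (Finset.ne_of_mem_erase hj) (∑ j, c j • x j) x]] at this
    exact le_of_add_le_add_right this
  have hsm : ∀ (a : ℕ) y, N (a • y) ≤ N y := fun a y => by
    induction a with
    | zero => rw [zero_smul, hz]; exact hN0 y
    | succ a ih => rw [succ_nsmul]; exact (hadd _ _).trans (max_le ih le_rfl)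
  refine ⟨x, basis_Adp hp.pos hx (hcard k le_rfl), fun i hi => ?_, fun c => ?_⟩
  · have := hx.2 (Pi.single i 1) (by
      rwa [Finset.sum_eq_single i (fun j _ hj => by simp [hj]) (by simp), Pi.single_eq_same,
        one_smul]) i
    rw [Pi.single_eq_same] at this
    exact hp.not_dvd_one (by exact_mod_cast this)
  induction hn : ∑ j, c j using Nat.strong_induction_on generalizing c with
  | _ n ih =>
  intro i hi
  obtain ⟨i0, -, hi0⟩ := Finset.exists_max_image Finset.univ (fun j => N (c j • x j))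
    ⟨i, Finset.mem_univ _⟩
  refine (hi0 i (Finset.mem_univ _)).trans ?_
  have hM := hi.trans_le (hi0 i (Finset.mem_univ _))
  by_contra hlt
  push Not at hlt
  set M := N (c i0 • x i0) with hMd
  obtain ⟨c', hc'⟩ : ∃ c' : Fin m → ℕ, ∀ j, c' j = if N (c j • x j) = M then c j else 0 :=
    ⟨_, fun _ => rfl⟩
  have h1 : N (∑ j, c' j • x j) < M := by
    have e : ∑ j, c' j • x j = ∑ j, c j • x j +
        ∑ j, (if N (c j • x j) = M then 0 else -(c j • x j)) := by
      rw [← Finset.sum_add_distrib]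
      refine Finset.sum_congr rfl fun j _ => ?_
      rw [hc']
      split_ifs <;> simp
    rw [e]
    refine (hadd _ _).trans_lt (max_lt hlt (Finset.sum_induction _ (fun y => N y < M)
      (fun a b ha hb => (hadd a b).trans_lt (max_lt ha hb)) (by rw [hz]; linarith) fun j _ => ?_))
    split_ifs with h
    · rw [hz]; linarith
    · rw [hneg]; exact lt_of_le_of_ne (hi0 j (Finset.mem_univ _)) h
  by_cases hd : ∀ j, p ∣ c' j
  · choose d hd using hd
    have e0 : c i0 = p * d i0 := by rw [← hd, hc', if_pos rfl]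
    have e1 : M = N (p • d i0 • x i0) := by rw [hMd, e0, mul_smul]
    have e2 : M ≤ N (d i0 • x i0) ^ q := by
      have := e1 ▸ hs1 (d i0 • x i0)
      refine (le_max_iff.1 this).resolve_right (not_le.2 ?_)
      exact (mul_le_of_le_one_right hρ (hN1 _)).trans_lt hM
    have e3 : ρ < N (d i0 • x i0) :=
      hM.trans_le (e2.trans (pow_le_of_le_one (hN0 _) (hN1 _) (by omega)))
    have e4 : d i0 ≠ 0 := fun h => by
      rw [h, zero_smul, hz] at e3; linarith
    have e5 : ∑ j, d j < n := by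
      rw [← hn]
      refine Finset.sum_lt_sum (fun j _ => ?_) ⟨i0, Finset.mem_univ _, ?_⟩
      · have a1 : c' j ≤ c j := by rw [hc']; split_ifs <;> simp
        exact (Nat.le_mul_of_pos_left _ hp.pos).trans (hd j ▸ a1)
      · rw [e0]; exact lt_mul_of_one_lt_left (Nat.pos_of_ne_zero e4) hp.one_lt
    have e6 := e2.trans (pow_le_pow_left₀ (hN0 _) (ih _ e5 d rfl i0 e3) q)
    rw [← hs2 _ (hM.trans_le e6), Finset.smul_sum] at e6
    simp only [← mul_smul, ← hd] at e6
    exact absurd h1 (not_lt.2 e6)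
  · push Not at hd
    obtain ⟨j, hj⟩ := hd
    have e : N (c j • x j) = M := by
      by_contra h
      exact hj (by rw [hc', if_neg h]; exact dvd_zero p)
    exact absurd ((e ▸ hsm (c j) (x j)).trans (hex c' j hj)) (not_le.2 h1)

theorem tor_lower {T : Type} [AddCommGroup T] (p q : ℕ) (hq : 1 ≤ q) (N : T → ℝ) (ρ δ : ℝ)
    (hρ0 : 0 ≤ ρ) (hρ : ρ < 1) (hδ : 0 < δ) (hN0 : ∀ x, 0 ≤ N x) (hN1 : ∀ x, N x ≤ 1)
    (hs1 : ∀ x, N (p • x) ≤ max (N x ^ q) (ρ * N x))
    (htor : ∀ x, x ≠ 0 → p • x = 0 → δ ≤ N x) :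
    ∃ c : ℝ, 0 < c ∧ c ≤ 1 ∧ ∀ (k : ℕ) (x : T), 1 ≤ k → p ^ k • x = 0 → p ^ (k - 1) • x ≠ 0 →
      c ≤ N x ^ (q ^ k) := by
  obtain ⟨i0, hi0⟩ := exists_pow_lt_of_lt_one hδ hρ
  have d0 : 0 < min δ 1 := lt_min hδ one_pos
  have d1 : min δ 1 ≤ 1 := min_le_right _ _
  have key : ∀ (j : ℕ) (x : T), p ^ (j + 1) • x = 0 → p ^ j • x ≠ 0 →
      ∃ b, δ ≤ ρ ^ b * N x ∧ min δ 1 ^ (q ^ b) ≤ N x ^ (q ^ j) := by
    intro j
    induction j with
    | zero =>
      intro x h1 h2
      have := htor x (by simpa using h2) (by simpa using h1)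
      exact ⟨0, by simpa using this, by simpa using Or.inl this⟩
    | succ j ih =>
      intro x h1 h2
      obtain ⟨b, a1, a2⟩ := ih (p • x) (by rwa [← mul_smul, ← pow_succ])
        (by rwa [← mul_smul, ← pow_succ])
      rcases le_max_iff.1 (hs1 x) with h | h
      · refine ⟨b, a1.trans (mul_le_mul_of_nonneg_left
          (h.trans (pow_le_of_le_one (hN0 _) (hN1 _) (by omega))) (pow_nonneg hρ0 _)),
          a2.trans ?_⟩
        rw [pow_succ', pow_mul]
        exact pow_le_pow_left₀ (hN0 _) h _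
      · refine ⟨b + 1, a1.trans ?_, ?_⟩
        · rw [pow_succ, mul_assoc]; exact mul_le_mul_of_nonneg_left h (pow_nonneg hρ0 _)
        · rw [pow_succ, pow_succ, pow_mul, pow_mul]
          exact pow_le_pow_left₀ (pow_nonneg d0.le _) (a2.trans (pow_le_pow_left₀ (hN0 _)
            (h.trans (mul_le_of_le_one_left (hN0 _) hρ.le)) _)) _
  refine ⟨min δ 1 ^ (q ^ (i0 + 1)), pow_pos d0 _, pow_le_one₀ d0.le d1, fun k x hk h1 h2 => ?_⟩
  obtain ⟨j, rfl⟩ := Nat.exists_eq_add_of_le' hk
  obtain ⟨b, a1, a2⟩ := key j x h1 h2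
  have hb : b ≤ i0 := by
    by_contra hc
    have := pow_le_pow_of_le_one hρ0 hρ.le (show i0 ≤ b by omega)
    have := mul_le_of_le_one_right (pow_nonneg hρ0 b) (hN1 x)
    linarith
  rw [pow_succ, pow_succ, pow_mul, pow_mul]
  exact pow_le_pow_left₀ (pow_nonneg d0.le _)
    ((pow_le_pow_of_le_one d0.le d1 (Nat.pow_le_pow_right hq hb)).trans a2) _

end Vale.Agent.P217
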