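import Vale.Agent.P217.Hom

namespace Vale.Agent.P217

open MvPowerSeries

variable {A : Type} [CommRing A]

theorem hs2_Iso {σ : Type} {a b : MvPowerSeries σ A} (ha : PowerSeries.HasSubst a)
    (hb : PowerSeries.HasSubst b) : HasSubst ![a, b] :=
  hasSubst_of_constantCoeff_nilpotent (by
    intro s
    fin_cases s
    · exact ha
    · exact hb)

theorem hs3_Iso {σ : Type} {a b c : MvPowerSeries σ A} (ha : PowerSeries.HasSubst a)
    (hb : PowerSeries.HasSubst b) (hc : PowerSeries.HasSubst c) : HasSubst ![a, b, c] :=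
  hasSubst_of_constantCoeff_nilpotent (by
    intro s
    fin_cases s
    · exact ha
    · exact hb
    · exact hc)

theorem subst_psubst_Iso {σ τ : Type} {a : MvPowerSeries σ A} (ha : PowerSeries.HasSubst a)
    {b : σ → MvPowerSeries τ A} (hb : HasSubst b) (f : PowerSeries A) :
    subst b (PowerSeries.subst a f) = PowerSeries.subst (subst b a) f :=
  subst_comp_subst_apply ha.const hb f

theorem subst_subst2_Iso {σ τ : Type} {a0 a1 : MvPowerSeries σ A} (h0 : PowerSeries.HasSubst a0)
    (h1 : PowerSeries.HasSubst a1) {b : σ → MvPowerSeries τ A} (hb : HasSubst b)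
    (f : MvPowerSeries (Fin 2) A) :
    subst b (subst ![a0, a1] f) = subst ![subst b a0, subst b a1] f := by
  rw [subst_comp_subst_apply (hs2_Iso h0 h1) hb]
  congr 1
  funext s
  fin_cases s <;> rfl

theorem hs_psubst_Iso {σ : Type} {a : MvPowerSeries σ A} (ha : PowerSeries.HasSubst a)
    {f : PowerSeries A} (hf : PowerSeries.constantCoeff f = 0) :
    PowerSeries.HasSubst (PowerSeries.subst a f) := by
  have : IsNilpotent (MvPowerSeries.constantCoeff f) := by
    have h : MvPowerSeries.constantCoeff f = 0 := hf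
    rw [h]; exact IsNilpotent.zero
  exact IsNilpotent_subst ha.const this

theorem hs_subst2_Iso {σ : Type} {a b : MvPowerSeries σ A} (ha : PowerSeries.HasSubst a)
    (hb : PowerSeries.HasSubst b) {f : MvPowerSeries (Fin 2) A} (hf : constantCoeff f = 0) :
    PowerSeries.HasSubst (subst ![a, b] f) := by
  have : IsNilpotent (MvPowerSeries.constantCoeff f) := by
    rw [hf]; exact IsNilpotent.zero
  exact IsNilpotent_subst (hs2_Iso ha hb) this

theorem subst_XX_Iso (f : MvPowerSeries (Fin 2) A) :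
    subst ![(X 0 : MvPowerSeries (Fin 2) A), X 1] f = f := by
  have : (![(X 0 : MvPowerSeries (Fin 2) A), X 1]) = X := by
    funext s
    fin_cases s <;> rfl
  rw [this, subst_self]
  rfl

theorem pcomp_Iso {σ : Type} {φ ψ : PowerSeries A} (h0 : PowerSeries.constantCoeff ψ = 0)
    (h : PowerSeries.subst ψ φ = PowerSeries.X) {a : MvPowerSeries σ A}
    (ha : PowerSeries.HasSubst a) : PowerSeries.subst (PowerSeries.subst a ψ) φ = a := by
  rw [← PowerSeries.subst_comp_subst_apply (PowerSeries.HasSubst.of_constantCoeff_zero' h0) ha, h,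
    PowerSeries.subst_X ha]

theorem IsHom.target_eq_Iso {G G' : FormalGroup A} {φ ψ : PowerSeries A} (hφ : IsHom G G' φ)
    (h0 : PowerSeries.constantCoeff ψ = 0) (h : PowerSeries.subst ψ φ = PowerSeries.X) :
    G'.toPowerSeries = PowerSeries.subst (subst
      ![PowerSeries.subst (X 0 : MvPowerSeries (Fin 2) A) ψ,
        PowerSeries.subst (X 1 : MvPowerSeries (Fin 2) A) ψ] G.toPowerSeries) φ := by
  rw [hφ.apply (hs_psubst_Iso (PowerSeries.HasSubst.X 0) h0)
    (hs_psubst_Iso (PowerSeries.HasSubst.X 1) h0), pcomp_Iso h0 h (PowerSeries.HasSubst.X 0),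
    pcomp_Iso h0 h (PowerSeries.HasSubst.X 1), subst_XX_Iso]

theorem IsHom.inv {G G' : FormalGroup A} {φ : PowerSeries A} (hφ : IsHom G G' φ)
    (hu : IsUnit (PowerSeries.coeff 1 φ)) :
    ∃ ψ, IsHom G' G ψ ∧ PowerSeries.subst φ ψ = PowerSeries.X ∧
      PowerSeries.subst ψ φ = PowerSeries.X := by
  have h0 : PowerSeries.constantCoeff (φ.substInvOfIsUnit hu) = 0 :=
    PowerSeries.constantCoeff_substInvOfIsUnit φ hu
  have hl := PowerSeries.subst_substInvOfIsUnit_left φ hφ.1 hu
  have hr := PowerSeries.subst_substInvOfIsUnit_right φ hφ.1 hu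
  refine ⟨φ.substInvOfIsUnit hu, ⟨h0, ?_⟩, hl, hr⟩
  rw [hφ.target_eq_Iso h0 hr, pcomp_Iso hφ.1 hl]
  exact hs_subst2_Iso (hs_psubst_Iso (PowerSeries.HasSubst.X 0) h0)
    (hs_psubst_Iso (PowerSeries.HasSubst.X 1) h0) G.zero_constantCoeff

theorem coeff_lin0_Iso (f : MvPowerSeries (Fin 2) A) :
    coeff (Finsupp.single 0 1) f =
      PowerSeries.coeff 1 (subst ![(PowerSeries.X : PowerSeries A), 0] f) := by
  rw [PowerSeries.coeff, coeff_subst, finsum_eq_single _ (Finsupp.single 0 1)]
  · simp
  · intro d hd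
    by_cases hd₁ : d 1 = 0
    · by_cases hd₀ : d 0 = 0
      · simp [hd₀, hd₁]
      have : d 0 ≠ 1 := by
        intro h
        apply hd
        ext s
        fin_cases s <;> simp [h, hd₁]
      simp [hd₁, PowerSeries.coeff_X_pow, this.symm]
    simp [hd₁]
  · exact HasSubst.X_zero

theorem coeff_lin1_Iso (f : MvPowerSeries (Fin 2) A) :
    coeff (Finsupp.single 1 1) f =
      PowerSeries.coeff 1 (subst ![0, (PowerSeries.X : PowerSeries A)] f) := by
  rw [PowerSeries.coeff, coeff_subst, finsum_eq_single _ (Finsupp.single 1 1)]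
  · simp
  · intro d hd
    by_cases hd₁ : d 0 = 0
    · by_cases hd₀ : d 1 = 0
      · simp [hd₀, hd₁]
      have : d 1 ≠ 1 := by
        intro h
        apply hd
        ext s
        fin_cases s <;> simp [h, hd₁]
      simp [hd₁, PowerSeries.coeff_X_pow, this.symm]
    simp [hd₁]
  · exact HasSubst.zero_X

theorem exists_transport (G : FormalGroup A) [G.IsComm] (φ : PowerSeries A)
    (h0 : PowerSeries.constantCoeff φ = 0) (hu : IsUnit (PowerSeries.coeff 1 φ)) :
    ∃ G' : FormalGroup A, G'.IsComm ∧ IsHom G G' φ := by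
  obtain ⟨ψ, hψ, hl, hr⟩ : ∃ ψ : PowerSeries A, PowerSeries.constantCoeff ψ = 0 ∧
      PowerSeries.subst φ ψ = PowerSeries.X ∧ PowerSeries.subst ψ φ = PowerSeries.X :=
    ⟨φ.substInvOfIsUnit hu, PowerSeries.constantCoeff_substInvOfIsUnit φ hu,
      PowerSeries.subst_substInvOfIsUnit_left φ h0 hu,
      PowerSeries.subst_substInvOfIsUnit_right φ h0 hu⟩
  set P : MvPowerSeries (Fin 2) A := PowerSeries.subst (subst
      ![PowerSeries.subst (X 0 : MvPowerSeries (Fin 2) A) ψ,
        PowerSeries.subst (X 1 : MvPowerSeries (Fin 2) A) ψ] G.toPowerSeries) φ with hP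
  have hG : ∀ {σ : Type} {a b : MvPowerSeries σ A}, PowerSeries.HasSubst a →
      PowerSeries.HasSubst b → PowerSeries.HasSubst (subst
        ![PowerSeries.subst a ψ, PowerSeries.subst b ψ] G.toPowerSeries) := fun ha hb =>
    hs_subst2_Iso (hs_psubst_Iso ha hψ) (hs_psubst_Iso hb hψ) G.zero_constantCoeff
  have key : ∀ {σ : Type} {a b : MvPowerSeries σ A}, PowerSeries.HasSubst a →
      PowerSeries.HasSubst b → subst ![a, b] P = PowerSeries.subst (subst
        ![PowerSeries.subst a ψ, PowerSeries.subst b ψ] G.toPowerSeries) φ := by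
    intro σ a b ha hb
    have hab := hs2_Iso ha hb
    rw [hP, subst_psubst_Iso (hG (PowerSeries.HasSubst.X 0) (PowerSeries.HasSubst.X 1)) hab,
      subst_subst2_Iso (hs_psubst_Iso (PowerSeries.HasSubst.X 0) hψ)
        (hs_psubst_Iso (PowerSeries.HasSubst.X 1) hψ) hab,
      subst_psubst_Iso (PowerSeries.HasSubst.X 0) hab,
      subst_psubst_Iso (PowerSeries.HasSubst.X 1) hab, subst_X hab, subst_X hab]
    rfl
  have hP0 : constantCoeff P = 0 := by
    rw [hP]
    refine PowerSeries.constantCoeff_subst_eq_zero ?_ _ h0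
    refine constantCoeff_subst_eq_zero (hs2_Iso (hs_psubst_Iso (PowerSeries.HasSubst.X 0) hψ)
        (hs_psubst_Iso (PowerSeries.HasSubst.X 1) hψ)) ?_ G.zero_constantCoeff
    intro s
    fin_cases s
    · exact PowerSeries.constantCoeff_subst_eq_zero (constantCoeff_X _) _ hψ
    · exact PowerSeries.constantCoeff_subst_eq_zero (constantCoeff_X _) _ hψ
  have hψs : PowerSeries.HasSubst ψ := PowerSeries.HasSubst.of_constantCoeff_zero' hψ
  have hX : PowerSeries.HasSubst (PowerSeries.X : PowerSeries A) := PowerSeries.HasSubst.X'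
  have hZ : PowerSeries.HasSubst (0 : PowerSeries A) := PowerSeries.HasSubst.zero'
  have hz : PowerSeries.subst (0 : PowerSeries A) ψ = 0 :=
    PowerSeries.subst_zero_of_constantCoeff_zero hψ
  refine ⟨⟨P, hP0, ?_, ?_, ?_⟩, ⟨?_⟩, h0, ?_⟩
  · rw [coeff_lin0_Iso, key hX hZ, hz, PowerSeries.X_subst, G.add_zero hψs, hr,
      PowerSeries.coeff_one_X]
  · rw [coeff_lin1_Iso, key hZ hX, hz, PowerSeries.X_subst, G.zero_add hψs, hr,
      PowerSeries.coeff_one_X]
  · have x0 := PowerSeries.HasSubst.X (S := A) (0 : Fin 3)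
    have x1 := PowerSeries.HasSubst.X (S := A) (1 : Fin 3)
    have x2 := PowerSeries.HasSubst.X (S := A) (2 : Fin 3)
    show subst ![subst ![(X 0 : MvPowerSeries (Fin 3) A), X 1] P, X 2] P =
      subst ![(X 0 : MvPowerSeries (Fin 3) A), subst ![(X 1 : MvPowerSeries (Fin 3) A), X 2] P] P
    rw [key (hs_subst2_Iso x0 x1 hP0) x2, key x0 (hs_subst2_Iso x1 x2 hP0), key x0 x1, key x1 x2,
      pcomp_Iso h0 hl (hG x0 x1), pcomp_Iso h0 hl (hG x1 x2),
      G.assoc' (hs_psubst_Iso x0 hψ) (hs_psubst_Iso x1 hψ) (hs_psubst_Iso x2 hψ)]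
  · have x0 := PowerSeries.HasSubst.X (S := A) (0 : Fin 2)
    have x1 := PowerSeries.HasSubst.X (S := A) (1 : Fin 2)
    show P = subst ![(X 1 : MvPowerSeries (Fin 2) A), X 0] P
    rw [key x1 x0, G.comm' (hs_psubst_Iso x1 hψ) (hs_psubst_Iso x0 hψ)]
  · have x0 := PowerSeries.HasSubst.X (S := A) (0 : Fin 2)
    have x1 := PowerSeries.HasSubst.X (S := A) (1 : Fin 2)
    show _ = subst _ P
    rw [key (hs_psubst_Iso x0 h0) (hs_psubst_Iso x1 h0), pcomp_Iso h0 hl x0, pcomp_Iso h0 hl x1,
      subst_XX_Iso]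

theorem IsHom.target_unique {G G' G'' : FormalGroup A} {φ : PowerSeries A} (h1 : IsHom G G' φ)
    (h2 : IsHom G G'' φ) (hu : IsUnit (PowerSeries.coeff 1 φ)) : G' = G'' := by
  have h0 : PowerSeries.constantCoeff (φ.substInvOfIsUnit hu) = 0 :=
    PowerSeries.constantCoeff_substInvOfIsUnit φ hu
  have hr := PowerSeries.subst_substInvOfIsUnit_right φ h1.1 hu
  ext1
  rw [h1.target_eq_Iso h0 hr, h2.target_eq_Iso h0 hr]

theorem coeff_XX_Iso {σ : Type} [DecidableEq σ] {i j : σ} (hij : i ≠ j)
    (f : MvPowerSeries (Fin 2) A) (e : σ →₀ ℕ) :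
    coeff e (subst ![(X i : MvPowerSeries σ A), X j] f) =
      if e = Finsupp.single i (e i) + Finsupp.single j (e j) then
        coeff (Finsupp.single 0 (e i) + Finsupp.single 1 (e j)) f else 0 := by
  have hp : ∀ d : Fin 2 →₀ ℕ, (d.prod fun s k => (![(X i : MvPowerSeries σ A), X j] s) ^ k) =
      monomial (Finsupp.single i (d 0) + Finsupp.single j (d 1)) 1 := by
    intro d
    rw [Finsupp.prod_fintype _ _ (by simp), Fin.prod_univ_two]
    simp [X_pow_eq, monomial_mul_monomial]
  rw [coeff_subst HasSubst.X_X,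
    finsum_eq_single _ (Finsupp.single 0 (e i) + Finsupp.single 1 (e j))]
  · rw [hp, coeff_monomial]
    simp
  · intro d hd
    rw [hp, coeff_monomial, if_neg, smul_zero]
    intro he
    apply hd
    have h0 : e i = d 0 := by rw [he]; simp [hij.symm]
    have h1 : e j = d 1 := by rw [he]; simp [hij]
    ext s
    fin_cases s <;> simp [h0, h1]

theorem exists_dd_Iso (f : MvPowerSeries (Fin 2) A) :
    ∃ U : MvPowerSeries (Fin 3) A, constantCoeff U = coeff (Finsupp.single 0 1) f ∧
      subst ![(X 0 : MvPowerSeries (Fin 3) A), X 2] f -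
        subst ![(X 1 : MvPowerSeries (Fin 3) A), X 2] f = U * (X 0 - X 1) := by
  let U : MvPowerSeries (Fin 3) A := fun d =>
    coeff (Finsupp.single 0 (d 0 + d 1 + 1) + Finsupp.single 1 (d 2)) f
  have hU : ∀ d, coeff d U =
    coeff (Finsupp.single 0 (d 0 + d 1 + 1) + Finsupp.single 1 (d 2)) f := fun d => rfl
  refine ⟨U, ?_, ?_⟩
  · rw [← coeff_zero_eq_constantCoeff_apply, hU]
    simp
  · ext e
    have e0 : (e = Finsupp.single 0 (e 0) + Finsupp.single 2 (e 2)) ↔ e 1 = 0 := by
      constructor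
      · intro h
        rw [h]; simp
      · intro h
        ext s
        fin_cases s <;> simp [h]
    have e1 : (e = Finsupp.single 1 (e 1) + Finsupp.single 2 (e 2)) ↔ e 0 = 0 := by
      constructor
      · intro h
        rw [h]; simp
      · intro h
        ext s
        fin_cases s <;> simp [h]
    rw [map_sub, mul_sub, map_sub, coeff_XX_Iso (by decide), coeff_XX_Iso (by decide), X_def, X_def,
      coeff_mul_monomial, coeff_mul_monomial, hU, hU]
    simp only [e0, e1, Finsupp.single_le_iff, mul_one, Finsupp.coe_tsub, Pi.sub_apply,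
      Finsupp.single_eq_same]
    rw [Finsupp.single_eq_of_ne (by decide : (1 : Fin 3) ≠ 0),
      Finsupp.single_eq_of_ne (by decide : (2 : Fin 3) ≠ 0),
      Finsupp.single_eq_of_ne (by decide : (0 : Fin 3) ≠ 1),
      Finsupp.single_eq_of_ne (by decide : (2 : Fin 3) ≠ 1)]
    simp only [tsub_zero]
    rcases Nat.eq_zero_or_pos (e 0) with a0 | a0 <;> rcases Nat.eq_zero_or_pos (e 1) with a1 | a1
    · simp [a0, a1]
    · have : 0 + (e 1 - 1) + 1 = e 1 := by omega
      rw [if_neg (by omega), if_pos a0, if_neg (by omega), if_pos (by omega), a0, this]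
    · have : e 0 - 1 + 0 + 1 = e 0 := by omega
      rw [if_pos a1, if_neg (by omega), if_pos (by omega), if_neg (by omega), a1, this]
    · have : e 0 - 1 + e 1 + 1 = e 0 + (e 1 - 1) + 1 := by omega
      rw [if_neg (by omega), if_neg (by omega), if_pos (by omega), if_pos (by omega), this,
        sub_self, sub_self]

theorem dd_apply_Iso {σ : Type} (f : MvPowerSeries (Fin 2) A) :
    ∃ U : MvPowerSeries (Fin 3) A, constantCoeff U = coeff (Finsupp.single 0 1) f ∧
      ∀ a b c : MvPowerSeries σ A, PowerSeries.HasSubst a → PowerSeries.HasSubst b →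
        PowerSeries.HasSubst c →
        subst ![a, c] f - subst ![b, c] f = subst ![a, b, c] U * (a - b) := by
  obtain ⟨U, hU, h⟩ := exists_dd_Iso f
  refine ⟨U, hU, fun a b c ha hb hc => ?_⟩
  have h3 := hs3_Iso ha hb hc
  have x0 := PowerSeries.HasSubst.X (S := A) (0 : Fin 3)
  have x1 := PowerSeries.HasSubst.X (S := A) (1 : Fin 3)
  have x2 := PowerSeries.HasSubst.X (S := A) (2 : Fin 3)
  have := congrArg (subst ![a, b, c]) h
  rw [subst_sub h3, subst_mul h3, subst_sub h3, subst_subst2_Iso x0 x2 h3,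
    subst_subst2_Iso x1 x2 h3, subst_X h3, subst_X h3, subst_X h3] at this
  exact this

theorem subst_one_Iso {σ τ : Type} {a : σ → MvPowerSeries τ A} (ha : HasSubst a) :
    subst a (1 : MvPowerSeries σ A) = 1 := by
  rw [← coe_substAlgHom ha, map_one]

theorem exists_neg (G : FormalGroup A) : ∃ ι : PowerSeries A, PowerSeries.constantCoeff ι = 0 ∧
    subst ![PowerSeries.X, ι] G.toPowerSeries = 0 := by
  set f : MvPowerSeries (Fin 2) A := subst ![(X 1 : MvPowerSeries (Fin 2) A), X 0] G.toPowerSeries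
    with hf
  have x0 := PowerSeries.HasSubst.X (S := A) (0 : Fin 2)
  have x1 := PowerSeries.HasSubst.X (S := A) (1 : Fin 2)
  have hX : PowerSeries.HasSubst (PowerSeries.X : PowerSeries A) := PowerSeries.HasSubst.X'
  have hZ : PowerSeries.HasSubst (0 : PowerSeries A) := PowerSeries.HasSubst.zero'
  have hfa : ∀ a b : PowerSeries A, PowerSeries.HasSubst a → PowerSeries.HasSubst b →
      subst ![a, b] f = subst ![b, a] G.toPowerSeries := by
    intro a b ha hb
    have hab := hs2_Iso ha hb
    rw [hf, subst_subst2_Iso x1 x0 hab, subst_X hab, subst_X hab]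
    rfl
  obtain ⟨U, hU, h⟩ := dd_apply_Iso (σ := Unit) f
  rw [coeff_lin0_Iso, hfa _ _ hX hZ, G.zero_add hX, PowerSeries.coeff_one_X] at hU
  have hX0 : MvPowerSeries.constantCoeff (PowerSeries.X : PowerSeries A) = 0 :=
    PowerSeries.constantCoeff_X
  have key : ∀ a b : PowerSeries A, MvPowerSeries.constantCoeff a = 0 →
      MvPowerSeries.constantCoeff b = 0 → ∃ w : PowerSeries A,
        MvPowerSeries.constantCoeff w = 0 ∧
        subst ![PowerSeries.X, a] G.toPowerSeries - subst ![PowerSeries.X, b] G.toPowerSeries =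
          (1 + w) * (a - b) := by
    intro a b ha hb
    have ha' := PowerSeries.HasSubst.of_constantCoeff_zero ha
    have hb' := PowerSeries.HasSubst.of_constantCoeff_zero hb
    have h3 := hs3_Iso ha' hb' hX
    refine ⟨subst ![a, b, PowerSeries.X] (U - 1), ?_, ?_⟩
    · refine constantCoeff_subst_eq_zero h3 ?_ (by rw [map_sub, hU, map_one, sub_self])
      intro s
      fin_cases s
      · exact ha
      · exact hb
      · exact hX0
    · rw [← hfa _ _ ha' hX, ← hfa _ _ hb' hX, h _ _ _ ha' hb' hX, subst_sub h3, subst_one_Iso h3]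
      ring
  let s : ℕ → PowerSeries A := fun N =>
    Nat.rec 0 (fun _ a => a - subst ![PowerSeries.X, a] G.toPowerSeries) N
  have s0 : s 0 = 0 := rfl
  have ss : ∀ N, s (N + 1) = s N - subst ![PowerSeries.X, s N] G.toPowerSeries := fun N => rfl
  have hc : ∀ a : PowerSeries A, MvPowerSeries.constantCoeff a = 0 →
      MvPowerSeries.constantCoeff (subst ![PowerSeries.X, a] G.toPowerSeries) = 0 := by
    intro a ha
    refine constantCoeff_subst_eq_zero
      (hs2_Iso hX (PowerSeries.HasSubst.of_constantCoeff_zero ha)) ?_ G.zero_constantCoeff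
    intro t
    fin_cases t
    · exact hX0
    · exact ha
  have sc : ∀ N, MvPowerSeries.constantCoeff (s N) = 0 := by
    intro N
    induction N with
    | zero => rw [s0, map_zero]
    | succ N ih => rw [ss, map_sub, ih, hc _ ih, sub_self]
  have so : ∀ N : ℕ, (PowerSeries.X : PowerSeries A) ^ N ∣
      subst ![PowerSeries.X, s N] G.toPowerSeries := by
    intro N
    induction N with
    | zero => rw [pow_zero]; exact one_dvd _
    | succ N ih =>
      obtain ⟨w, hw, e⟩ := key (s (N + 1)) (s N) (sc (N + 1)) (sc N)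
      have hw' : (PowerSeries.X : PowerSeries A) ∣ w := PowerSeries.X_dvd_iff.mpr hw
      have : subst ![PowerSeries.X, s (N + 1)] G.toPowerSeries =
          - (subst ![PowerSeries.X, s N] G.toPowerSeries * w) := by
        rw [sub_eq_iff_eq_add] at e
        rw [e, ss N]
        ring
      rw [this, pow_succ]
      exact (mul_dvd_mul ih hw').neg_right
  have sd : ∀ N M : ℕ, (PowerSeries.X : PowerSeries A) ^ N ∣ s (N + M) - s N := by
    intro N M
    induction M with
    | zero => simp
    | succ M ih =>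
      have : s (N + (M + 1)) - s N = (s (N + M) - s N) -
          subst ![PowerSeries.X, s (N + M)] G.toPowerSeries := by
        rw [← add_assoc, ss]; ring
      rw [this]
      exact ih.sub ((pow_dvd_pow _ (Nat.le_add_right N M)).trans (so _))
  let ι : PowerSeries A := PowerSeries.mk fun d => PowerSeries.coeff d (s (d + 1))
  have hι : ∀ N : ℕ, (PowerSeries.X : PowerSeries A) ^ N ∣ ι - s N := by
    intro N
    rw [PowerSeries.X_pow_dvd_iff]
    intro m hm
    obtain ⟨M, rfl⟩ := Nat.exists_eq_add_of_le (show m + 1 ≤ N from hm)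
    have := PowerSeries.X_pow_dvd_iff.mp (sd (m + 1) M) m (Nat.lt_succ_self m)
    rw [map_sub] at this ⊢
    rw [PowerSeries.coeff_mk, sub_eq_zero.mp this, sub_self]
  have hι0 : PowerSeries.constantCoeff ι = 0 := by
    rw [← PowerSeries.coeff_zero_eq_constantCoeff_apply, PowerSeries.coeff_mk,
      PowerSeries.coeff_zero_eq_constantCoeff_apply]
    exact sc (0 + 1)
  refine ⟨ι, hι0, ?_⟩
  refine PowerSeries.ext fun m => ?_
  obtain ⟨w, -, e⟩ := key ι (s (m + 1)) hι0 (sc (m + 1))
  rw [sub_eq_iff_eq_add] at e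
  have : (PowerSeries.X : PowerSeries A) ^ (m + 1) ∣
      subst ![PowerSeries.X, ι] G.toPowerSeries := by
    rw [e]
    exact (Dvd.dvd.mul_left (hι _) _).add (so _)
  rw [PowerSeries.X_pow_dvd_iff.mp this m (Nat.lt_succ_self m), map_zero]

theorem sub_unit_left {σ : Type} (G : FormalGroup A) {a b c : MvPowerSeries σ A}
    (ha : PowerSeries.HasSubst a) (hb : PowerSeries.HasSubst b) (hc : PowerSeries.HasSubst c) :
    ∃ u : MvPowerSeries σ A, IsUnit u ∧
      subst ![a, c] G.toPowerSeries - subst ![b, c] G.toPowerSeries = u * (a - b) := by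
  obtain ⟨U, hU, h⟩ := dd_apply_Iso (σ := σ) G.toPowerSeries
  rw [G.lin_coeff_X] at hU
  refine ⟨_, ?_, h a b c ha hb hc⟩
  have hu : IsUnit U := by
    rw [isUnit_iff_constantCoeff, hU]; exact isUnit_one
  rw [← coe_substAlgHom (hs3_Iso ha hb hc)]
  exact hu.map _

theorem subst_X_pow_inj {σ : Type} [Finite σ] {d : ℕ} (hd : d ≠ 0) {f g : MvPowerSeries σ A}
    (h : subst (fun s => (X s : MvPowerSeries σ A) ^ d) f =
      subst (fun s => (X s : MvPowerSeries σ A) ^ d) g) : f = g := by
  ext m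
  rw [← coeff_expand_smul d hd f, ← coeff_expand_smul d hd g, expand, substAlgHom_apply,
    substAlgHom_apply, h]

theorem IsHom.of_X_pow {G G1 G' : FormalGroup A} {d : ℕ} (hd : d ≠ 0) {V : PowerSeries A}
    (h1 : IsHom G G1 (PowerSeries.X ^ d))
    (h2 : IsHom G G' (PowerSeries.subst (PowerSeries.X ^ d : PowerSeries A) V)) :
    IsHom G1 G' V := by
  have hXd : PowerSeries.HasSubst (PowerSeries.X ^ d : PowerSeries A) :=
    PowerSeries.HasSubst.X_pow hd
  have hV : PowerSeries.constantCoeff V = 0 := by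
    have := h2.1
    rw [PowerSeries.constantCoeff_subst_X_pow hd] at this
    exact this
  refine ⟨hV, subst_X_pow_inj hd ?_⟩
  have x0 := PowerSeries.HasSubst.X (S := A) (0 : Fin 2)
  have x1 := PowerSeries.HasSubst.X (S := A) (1 : Fin 2)
  have hs : HasSubst (fun s : Fin 2 => (X s : MvPowerSeries (Fin 2) A) ^ d) := HasSubst.X_pow hd
  have hG : PowerSeries.HasSubst G.toPowerSeries :=
    PowerSeries.HasSubst.of_constantCoeff_zero G.zero_constantCoeff
  have hG1 : PowerSeries.HasSubst G1.toPowerSeries :=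
    PowerSeries.HasSubst.of_constantCoeff_zero G1.zero_constantCoeff
  have e1 := h1.2
  have e2 := h2.2
  have hp : ∀ i : Fin 2, PowerSeries.subst (X i : MvPowerSeries (Fin 2) A)
      (PowerSeries.X ^ d : PowerSeries A) = X i ^ d := by
    intro i
    rw [PowerSeries.subst_pow (PowerSeries.HasSubst.X i),
      PowerSeries.subst_X (PowerSeries.HasSubst.X i)]
  have hv : (![(X 0 : MvPowerSeries (Fin 2) A) ^ d, X 1 ^ d]) =
      fun s : Fin 2 => (X s : MvPowerSeries (Fin 2) A) ^ d := by
    funext s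
    fin_cases s <;> rfl
  rw [hp, hp, hv] at e1
  rw [PowerSeries.subst_comp_subst_apply hXd hG, PowerSeries.subst_comp_subst_apply hXd x0,
    PowerSeries.subst_comp_subst_apply hXd x1, hp, hp, e1] at e2
  rw [subst_psubst_Iso hG1 hs, e2, subst_subst2_Iso (hs_psubst_Iso x0 hV) (hs_psubst_Iso x1 hV) hs,
    subst_psubst_Iso x0 hs, subst_psubst_Iso x1 hs, subst_X hs, subst_X hs]

end Vale.Agent.P217
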