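import Vale.Agent.P217.Free
import Vale.Agent.P217.Iso

namespace Vale.Agent.P217

open MvPowerSeries

variable {A : Type} [CommRing A]

theorem sN_unit_Fac (N : PowerSeries A) : sN Unit N = fun _ => N := by
  funext s
  exact PowerSeries.X_subst N

theorem sN_two_Fac (N : PowerSeries A) : sN (Fin 2) N =
    ![PowerSeries.subst (X 0 : MvPowerSeries (Fin 2) A) N,
      PowerSeries.subst (X 1 : MvPowerSeries (Fin 2) A) N] := by
  funext s
  fin_cases s <;> rfl

theorem free1_Fac (a : Ideal A) (M : ℕ) (ha : a ^ M = ⊥)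
    (N : PowerSeries A) (h0 : PowerSeries.constantCoeff N = 0) {d : ℕ} (hd : 1 ≤ d)
    (hN : CoefIn a (N - PowerSeries.X ^ d)) (f : PowerSeries A) :
    ∃ c : Fin d → PowerSeries A,
      f = ∑ k, PowerSeries.subst N (c k) * PowerSeries.X ^ (k : ℕ) := by
  obtain ⟨c, hc⟩ := free_exists (σ := Unit) a M ha N h0 hd hN f
  refine ⟨fun k => c (fun _ => k), hc.trans ?_⟩
  refine Fintype.sum_equiv (Equiv.funUnique Unit (Fin d)) _ _ fun i => ?_
  rw [sN_unit_Fac, Fintype.prod_unique]
  rfl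

theorem sum2_Fac {d : ℕ} (g : (Fin 2 → Fin d) → MvPowerSeries (Fin 2) A) :
    ∑ i, g i * ∏ s, X s ^ (i s : ℕ) =
      ∑ k : Fin d, ∑ l : Fin d, g ![k, l] * (X 0 ^ (k : ℕ) * X 1 ^ (l : ℕ)) := by
  rw [← Fintype.sum_prod_type']
  refine Fintype.sum_equiv (finTwoArrowEquiv (Fin d)) _ _ fun i => ?_
  have : ![i 0, i 1] = i := by
    funext s
    fin_cases s <;> rfl
  rw [Fin.prod_univ_two]
  show _ = g ![i 0, i 1] * _
  rw [this]
  rfl

theorem const_subst_Fac {σ τ : Type} {b : σ → MvPowerSeries τ A} (hb : HasSubst b)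
    (hb0 : ∀ s, constantCoeff (b s) = 0) (f : MvPowerSeries σ A) :
    constantCoeff (subst b f) = constantCoeff f := by
  have h1 := constantCoeff_subst_eq_zero hb hb0 (f := f - C (constantCoeff f)) (by simp)
  rw [subst_sub hb, subst_C, map_sub, constantCoeff_C, sub_eq_zero] at h1
  exact h1

theorem hom_diff_Fac {Γ G : FormalGroup A} [Γ.IsComm] {ι V : PowerSeries A}
    (hι0 : PowerSeries.constantCoeff ι = 0)
    (hι : subst ![PowerSeries.X, ι] Γ.toPowerSeries = 0) (hV : IsHom Γ G V) :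
    ∃ w : MvPowerSeries (Fin 2) A, IsUnit w ∧
      PowerSeries.subst (X 0 : MvPowerSeries (Fin 2) A) V -
        PowerSeries.subst (X 1 : MvPowerSeries (Fin 2) A) V =
      w * PowerSeries.subst (subst ![(X 0 : MvPowerSeries (Fin 2) A),
        PowerSeries.subst (X 1 : MvPowerSeries (Fin 2) A) ι] Γ.toPowerSeries) V := by
  have x0 := PowerSeries.HasSubst.X (S := A) (0 : Fin 2)
  have x1 := PowerSeries.HasSubst.X (S := A) (1 : Fin 2)
  have hi := hs_psubst_Iso x1 hι0
  have hD := hs_subst2_Iso x0 hi Γ.zero_constantCoeff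
  have hX : PowerSeries.HasSubst (PowerSeries.X : PowerSeries A) := PowerSeries.HasSubst.X'
  have h1 : subst ![(X 1 : MvPowerSeries (Fin 2) A),
      PowerSeries.subst (X 1 : MvPowerSeries (Fin 2) A) ι] Γ.toPowerSeries = 0 := by
    have := congrArg (subst (fun _ : Unit => (X 1 : MvPowerSeries (Fin 2) A))) hι
    rw [subst_subst2_Iso hX (PowerSeries.HasSubst.of_constantCoeff_zero' hι0) x1.const,
      ← PowerSeries.subst_def, ← PowerSeries.subst_def, PowerSeries.subst_X x1,
      ← coe_substAlgHom x1.const, map_zero] at this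
    exact this
  have h2 : subst ![subst ![(X 0 : MvPowerSeries (Fin 2) A),
      PowerSeries.subst (X 1 : MvPowerSeries (Fin 2) A) ι] Γ.toPowerSeries, X 1]
        Γ.toPowerSeries = X 0 := by
    rw [Γ.assoc' x0 hi x1, Γ.comm' hi x1, h1, Γ.add_zero x0]
  have h3 := hV.apply hD x1
  rw [h2] at h3
  obtain ⟨w, hw, e⟩ := sub_unit_left G (hs_psubst_Iso hD hV.1)
    (PowerSeries.HasSubst.zero (τ := Fin 2) (R := A)) (hs_psubst_Iso x1 hV.1)
  rw [← h3, G.zero_add (hs_psubst_Iso x1 hV.1), sub_zero] at e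
  exact ⟨w, hw, e⟩

theorem map_eq_Fac {a : Ideal A} {N : PowerSeries A} {d : ℕ}
    (hN : CoefIn a (N - PowerSeries.X ^ d)) :
    PowerSeries.map (Ideal.Quotient.mk a) N = PowerSeries.X ^ d := by
  have := (coefIn_iff_map a N (PowerSeries.X ^ d)).mp hN
  have h2 : PowerSeries.map (Ideal.Quotient.mk a) (PowerSeries.X ^ d : PowerSeries A) =
      PowerSeries.X ^ d := by rw [map_pow, PowerSeries.map_X]
  rw [← h2]
  exact this

theorem fac (a : Ideal A) (M : ℕ) (ha : a ^ M = ⊥) {Γ G Φ : FormalGroup A} [Γ.IsComm]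
    {V N u : PowerSeries A} (hV : IsHom Γ G V) (hN : IsHom Γ Φ N) {d : ℕ} (hd : 1 ≤ d)
    (hVd : CoefIn a (V - PowerSeries.X ^ d)) (hNd : CoefIn a (N - PowerSeries.X ^ d))
    (hu : IsUnit u) (h : N = u * V) :
    ∃ ψ, IsHom G Φ ψ ∧ PowerSeries.map (Ideal.Quotient.mk a) ψ = PowerSeries.X := by
  have x0 := PowerSeries.HasSubst.X (S := A) (0 : Fin 2)
  have x1 := PowerSeries.HasSubst.X (S := A) (1 : Fin 2)
  have hX : PowerSeries.HasSubst (PowerSeries.X : PowerSeries A) := PowerSeries.HasSubst.X'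
  have hVs : PowerSeries.HasSubst V := PowerSeries.HasSubst.of_constantCoeff_zero' hV.1
  have hs : HasSubst (sN (Fin 2) V) := hasSubst_sN_Free hV.1
  obtain ⟨ι, hι0, hι⟩ := exists_neg Γ
  obtain ⟨w, hw⟩ : ∃ w : MvPowerSeries (Fin 2) A,
      PowerSeries.subst (X 0 : MvPowerSeries (Fin 2) A) N -
        PowerSeries.subst (X 1 : MvPowerSeries (Fin 2) A) N =
      w * (PowerSeries.subst (X 0 : MvPowerSeries (Fin 2) A) V -
        PowerSeries.subst (X 1 : MvPowerSeries (Fin 2) A) V) := by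
    obtain ⟨w1, hw1, e1⟩ := hom_diff_Fac hι0 hι hV
    obtain ⟨w2, -, e2⟩ := hom_diff_Fac hι0 hι hN
    have hD := hs_subst2_Iso x0 (hs_psubst_Iso x1 hι0) Γ.zero_constantCoeff
    obtain ⟨v, hv⟩ := hw1.exists_left_inv
    refine ⟨w2 * PowerSeries.subst (subst ![(X 0 : MvPowerSeries (Fin 2) A),
        PowerSeries.subst (X 1 : MvPowerSeries (Fin 2) A) ι] Γ.toPowerSeries) u * v, ?_⟩
    rw [e2, e1, h, PowerSeries.subst_mul hD, mul_assoc _ v, ← mul_assoc v, hv]
    ring
  obtain ⟨c, hc⟩ := free1_Fac a M ha V hV.1 hd hVd N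
  obtain ⟨W, hW⟩ := free_exists (σ := Fin 2) a M ha V hV.1 hd hVd w
  let z : Fin d := ⟨0, hd⟩
  have hsub : ∀ s : Fin 2, PowerSeries.subst (X s : MvPowerSeries (Fin 2) A) N =
      ∑ k, subst (sN (Fin 2) V) (PowerSeries.subst (X s : MvPowerSeries (Fin 2) A) (c k)) *
        X s ^ (k : ℕ) := by
    intro s
    have xs := PowerSeries.HasSubst.X (S := A) s
    rw [hc, ← PowerSeries.coe_substAlgHom xs, map_sum]
    refine Finset.sum_congr rfl fun k _ => ?_
    rw [map_mul, map_pow, PowerSeries.coe_substAlgHom, PowerSeries.subst_X xs,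
      subst_psubst_Iso xs hs, subst_X hs, PowerSeries.subst_comp_subst_apply hVs xs]
    rfl
  let B : (Fin 2 → Fin d) → MvPowerSeries (Fin 2) A := fun i =>
    (if i 1 = z then PowerSeries.subst (X 0 : MvPowerSeries (Fin 2) A) (c (i 0)) else 0) -
    (if i 0 = z then PowerSeries.subst (X 1 : MvPowerSeries (Fin 2) A) (c (i 1)) else 0) -
      W i * (X 0 - X 1)
  have hz : subst (sN (Fin 2) V) (0 : MvPowerSeries (Fin 2) A) = 0 := by
    rw [← coe_substAlgHom hs, map_zero]
  have hB : ∑ i, subst (sN (Fin 2) V) (B i) * ∏ s, X s ^ (i s : ℕ) = 0 := by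
    have e1 : ∑ i : Fin 2 → Fin d, subst (sN (Fin 2) V) (if i 1 = z then
        PowerSeries.subst (X 0 : MvPowerSeries (Fin 2) A) (c (i 0)) else 0) *
          ∏ s, X s ^ (i s : ℕ) = PowerSeries.subst (X 0 : MvPowerSeries (Fin 2) A) N := by
      rw [sum2_Fac, hsub 0]
      refine Finset.sum_congr rfl fun k _ => ?_
      rw [Finset.sum_eq_single z]
      · simp [z]
      · intro l _ hl
        simp [hl, hz]
      · intro hh
        exact absurd (Finset.mem_univ _) hh
    have e2 : ∑ i : Fin 2 → Fin d, subst (sN (Fin 2) V) (if i 0 = z then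
        PowerSeries.subst (X 1 : MvPowerSeries (Fin 2) A) (c (i 1)) else 0) *
          ∏ s, X s ^ (i s : ℕ) = PowerSeries.subst (X 1 : MvPowerSeries (Fin 2) A) N := by
      rw [sum2_Fac, hsub 1, Finset.sum_comm]
      refine Finset.sum_congr rfl fun k _ => ?_
      rw [Finset.sum_eq_single z]
      · simp [z]
      · intro l _ hl
        simp [hl, hz]
      · intro hh
        exact absurd (Finset.mem_univ _) hh
    have e3 : ∑ i : Fin 2 → Fin d, subst (sN (Fin 2) V) (W i * (X 0 - X 1)) *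
          ∏ s, X s ^ (i s : ℕ) = w * (PowerSeries.subst (X 0 : MvPowerSeries (Fin 2) A) V -
        PowerSeries.subst (X 1 : MvPowerSeries (Fin 2) A) V) := by
      rw [hW, Finset.sum_mul]
      refine Finset.sum_congr rfl fun i _ => ?_
      rw [subst_mul hs, subst_sub hs, subst_X hs, subst_X hs]
      simp only [sN]
      ring
    simp only [B, subst_sub hs, sub_mul, Finset.sum_sub_distrib]
    rw [e1, e2, e3, hw, sub_self]
  have hc0 : ∀ k, k ≠ z → c k = 0 := by
    intro k hk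
    have h1 := coefIn_bot_Free (free_ideal a M ha V hV.1 hd hVd ⊥ B
      (by rw [hB]; exact CoefIn.zeroT _) ![k, z])
    have h2 : PowerSeries.subst (X 0 : MvPowerSeries (Fin 2) A) (c k) =
        W ![k, z] * (X 0 - X 1) := by
      simpa [B, hk, sub_eq_zero] using h1
    have hXX := hs2_Iso hX hX
    have h3 := congrArg (subst ![(PowerSeries.X : PowerSeries A), PowerSeries.X]) h2
    rw [subst_psubst_Iso x0 hXX, subst_mul hXX, subst_sub hXX, subst_X hXX, subst_X hXX] at h3
    simpa using h3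
  have hψ : N = PowerSeries.subst V (c z) := by
    rw [hc, Finset.sum_eq_single z]
    · simp [z]
    · intro k _ hk
      rw [hc0 k hk, ← PowerSeries.coe_substAlgHom hVs, map_zero, zero_mul]
    · intro hh
      exact absurd (Finset.mem_univ _) hh
  have hψ0 : PowerSeries.constantCoeff (c z) = 0 := by
    have h1 := const_subst_Fac hVs.const (fun _ => hV.1) (c z)
    rw [← PowerSeries.subst_def, ← hψ] at h1
    exact h1.symm.trans hN.1
  refine ⟨c z, ⟨hψ0, subst_sN_inj a M ha V hV.1 hd hVd ?_⟩, ?_⟩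
  · have hG : PowerSeries.HasSubst G.toPowerSeries :=
      PowerSeries.HasSubst.of_constantCoeff_zero G.zero_constantCoeff
    have hΓ : PowerSeries.HasSubst Γ.toPowerSeries :=
      PowerSeries.HasSubst.of_constantCoeff_zero Γ.zero_constantCoeff
    rw [subst_psubst_Iso hG hs, subst_subst2_Iso (hs_psubst_Iso x0 hψ0) (hs_psubst_Iso x1 hψ0) hs,
      subst_psubst_Iso x0 hs, subst_psubst_Iso x1 hs, subst_X hs, subst_X hs]
    simp only [sN]
    rw [← PowerSeries.subst_comp_subst_apply hVs x0, ← PowerSeries.subst_comp_subst_apply hVs x1,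
      ← hψ, ← hN.2, hψ, PowerSeries.subst_comp_subst_apply hVs hΓ, hV.2, ← sN_two_Fac]
  · have h1 := congrArg (PowerSeries.map (Ideal.Quotient.mk a)) hψ
    have h2 : PowerSeries.map (Ideal.Quotient.mk a) (PowerSeries.subst V (c z) : PowerSeries A) =
        PowerSeries.subst (PowerSeries.map (Ideal.Quotient.mk a) V)
          (PowerSeries.map (Ideal.Quotient.mk a) (c z)) := PowerSeries.map_subst hVs _
    rw [h2, map_eq_Fac hNd, map_eq_Fac hVd] at h1
    ext m
    have h3 := congrArg (PowerSeries.coeff (d * m)) h1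
    rw [PowerSeries.coeff_subst_X_pow (by omega), if_pos (dvd_mul_right d m),
      Nat.mul_div_cancel_left m hd, PowerSeries.coeff_X_pow] at h3
    rw [PowerSeries.coeff_X]
    refine Eq.trans h3.symm ?_
    congr 1
    apply propext
    constructor
    · intro hh
      exact Nat.eq_of_mul_eq_mul_left hd (by rw [hh, mul_one])
    · rintro rfl
      rw [mul_one]

theorem desc (a : Ideal A) (M : ℕ) (ha : a ^ M = ⊥) {Γ : FormalGroup A} [Γ.IsComm]
    {N : PowerSeries A} (h0 : PowerSeries.constantCoeff N = 0) {d : ℕ} (hd : 1 ≤ d)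
    (hNd : CoefIn a (N - PowerSeries.X ^ d)) (c : MvPowerSeries (Fin 2) A)
    (hc : PowerSeries.subst Γ.toPowerSeries N = subst (sN (Fin 2) N) c)
    (hΓ : IsHom (Γ.map (Ideal.Quotient.mk a)) (Γ.map (Ideal.Quotient.mk a)) (PowerSeries.X ^ d)) :
    ∃ Φ : FormalGroup A, Φ.IsComm ∧ IsHom Γ Φ N ∧
      Φ.map (Ideal.Quotient.mk a) = Γ.map (Ideal.Quotient.mk a) := by
  have hΓs : PowerSeries.HasSubst Γ.toPowerSeries :=
    PowerSeries.HasSubst.of_constantCoeff_zero Γ.zero_constantCoeff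
  have hNs : PowerSeries.HasSubst N := PowerSeries.HasSubst.of_constantCoeff_zero' h0
  have hs2 : HasSubst (sN (Fin 2) N) := hasSubst_sN_Free h0
  have hs3 : HasSubst (sN (Fin 3) N) := hasSubst_sN_Free h0
  have hs1 : HasSubst (sN Unit N) := hasSubst_sN_Free h0
  have y0 := PowerSeries.HasSubst.X (S := A) (0 : Fin 2)
  have y1 := PowerSeries.HasSubst.X (S := A) (1 : Fin 2)
  have key : ∀ {σ : Type} {u v : MvPowerSeries σ A}, PowerSeries.HasSubst u →
      PowerSeries.HasSubst v → subst ![PowerSeries.subst u N, PowerSeries.subst v N] c =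
        PowerSeries.subst (subst ![u, v] Γ.toPowerSeries) N := by
    intro σ u v hu hv
    have huv := hs2_Iso hu hv
    rw [← subst_psubst_Iso hΓs huv, hc, sN_two_Fac,
      subst_subst2_Iso (hs_psubst_Iso y0 h0) (hs_psubst_Iso y1 h0) huv,
      subst_psubst_Iso y0 huv, subst_psubst_Iso y1 huv, subst_X huv, subst_X huv]
    rfl
  have hc0 : constantCoeff c = 0 := by
    rw [← const_subst_Fac hs2 (fun s =>
      PowerSeries.constantCoeff_subst_eq_zero (constantCoeff_X s) _ h0), ← hc]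
    exact PowerSeries.constantCoeff_subst_eq_zero Γ.zero_constantCoeff _ h0
  have hX : PowerSeries.HasSubst (PowerSeries.X : PowerSeries A) := PowerSeries.HasSubst.X'
  have hZ : PowerSeries.HasSubst (0 : PowerSeries A) := PowerSeries.HasSubst.zero'
  have hz : PowerSeries.subst (0 : PowerSeries A) N = 0 :=
    PowerSeries.subst_zero_of_constantCoeff_zero h0
  have u1 : subst (sN Unit N) (PowerSeries.X : PowerSeries A) =
      PowerSeries.subst (PowerSeries.X : PowerSeries A) N := subst_X hs1 ()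
  have u0 : subst (sN Unit N) (0 : PowerSeries A) =
      PowerSeries.subst (0 : PowerSeries A) N := by
    rw [hz, ← coe_substAlgHom hs1, map_zero]
  have l0 : subst ![(PowerSeries.X : PowerSeries A), 0] c = PowerSeries.X := by
    refine subst_sN_inj a M ha N h0 hd hNd ?_
    rw [subst_subst2_Iso hX hZ hs1, u1, u0, key hX hZ, Γ.add_zero hX]
  have l1 : subst ![0, (PowerSeries.X : PowerSeries A)] c = PowerSeries.X := by
    refine subst_sN_inj a M ha N h0 hd hNd ?_
    rw [subst_subst2_Iso hZ hX hs1, u1, u0, key hZ hX, Γ.zero_add hX]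
  have fin : ∀ Φ : FormalGroup A, IsHom Γ Φ N →
      Φ.map (Ideal.Quotient.mk a) = Γ.map (Ideal.Quotient.mk a) := by
    intro Φ hΦ
    have h1 := (hΦ.map (Ideal.Quotient.mk a)).2
    rw [map_eq_Fac hNd, hΓ.2] at h1
    have hp : ∀ i : Fin 2, PowerSeries.subst (X i : MvPowerSeries (Fin 2) (A ⧸ a))
        (PowerSeries.X ^ d : PowerSeries (A ⧸ a)) = X i ^ d := by
      intro i
      rw [PowerSeries.subst_pow (PowerSeries.HasSubst.X i),
        PowerSeries.subst_X (PowerSeries.HasSubst.X i)]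
    have hv : (![(X 0 : MvPowerSeries (Fin 2) (A ⧸ a)) ^ d, X 1 ^ d]) =
        fun s : Fin 2 => (X s : MvPowerSeries (Fin 2) (A ⧸ a)) ^ d := by
      funext s
      fin_cases s <;> rfl
    rw [hp, hp, hv] at h1
    ext1
    exact (subst_X_pow_inj (by omega) h1).symm
  have hom : ∀ Φ : FormalGroup A, Φ.toPowerSeries = c → IsHom Γ Φ N := by
    intro Φ hΦ
    refine ⟨h0, ?_⟩
    rw [hΦ, hc, sN_two_Fac]
  refine ⟨⟨c, hc0, ?_, ?_, ?_⟩, ⟨?_⟩, hom _ rfl, fin _ (hom _ rfl)⟩
  · rw [coeff_lin0_Iso, l0, PowerSeries.coeff_one_X]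
  · rw [coeff_lin1_Iso, l1, PowerSeries.coeff_one_X]
  · have x0 := PowerSeries.HasSubst.X (S := A) (0 : Fin 3)
    have x1 := PowerSeries.HasSubst.X (S := A) (1 : Fin 3)
    have x2 := PowerSeries.HasSubst.X (S := A) (2 : Fin 3)
    show subst ![subst ![(X 0 : MvPowerSeries (Fin 3) A), X 1] c, X 2] c =
      subst ![(X 0 : MvPowerSeries (Fin 3) A), subst ![(X 1 : MvPowerSeries (Fin 3) A), X 2] c] c
    refine subst_sN_inj a M ha N h0 hd hNd ?_
    rw [subst_subst2_Iso (hs_subst2_Iso x0 x1 hc0) x2 hs3,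
      subst_subst2_Iso x0 (hs_subst2_Iso x1 x2 hc0) hs3, subst_subst2_Iso x0 x1 hs3,
      subst_subst2_Iso x1 x2 hs3, subst_X hs3, subst_X hs3, subst_X hs3]
    simp only [sN]
    rw [key x0 x1, key x1 x2, key (hs_subst2_Iso x0 x1 Γ.zero_constantCoeff) x2,
      key x0 (hs_subst2_Iso x1 x2 Γ.zero_constantCoeff), Γ.assoc' x0 x1 x2]
  · show c = subst ![(X 1 : MvPowerSeries (Fin 2) A), X 0] c
    refine subst_sN_inj a M ha N h0 hd hNd ?_
    rw [subst_subst2_Iso y1 y0 hs2, subst_X hs2, subst_X hs2, ← hc]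
    simp only [sN]
    rw [key y1 y0, Γ.comm' y1 y0, subst_XX_Iso]

end Vale.Agent.P217
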