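import Vale.Agent.P217.Log

namespace Vale.Agent.P217

open MvPowerSeries

variable {p n : ℕ} [Fact p.Prime] {F : FormalGroup (E0 p n)}

theorem coefIn_botD {B σ : Type} [CommRing B] {f : MvPowerSeries σ B} (h : CoefIn ⊥ f) :
    f = 0 := by
  ext d
  exact Ideal.mem_bot.mp (h d)

theorem cob_epsD {B : Type} [CommRing B] (ε : B) (hε : ε * ε = 0) (G0 G1 : FormalGroup B)
    (c : MvPowerSeries (Fin 2) B) (hG : G1.toPowerSeries = G0.toPowerSeries + C ε * c)
    (l0 m : PowerSeries B) :
    cob G1 (l0 + PowerSeries.C ε * m) = cob G0 l0 + C ε * (cob G0 m +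
      PowerSeries.subst G0.toPowerSeries (PowerSeries.derivative B l0) * c) := by
  classical
  have hI : Ideal.span {ε} * Ideal.span {ε} = (⊥ : Ideal B) := by
    rw [Ideal.span_singleton_mul_span_singleton, hε, Ideal.span_singleton_eq_bot]
  have hC : CoefIn (Ideal.span {ε}) (C ε : MvPowerSeries (Fin 2) B) := by
    intro d
    rw [coeff_C]
    split_ifs
    · exact Ideal.mem_span_singleton_self ε
    · exact Ideal.zero_mem _
  have hδ : PowerSeries.HasSubst (C ε * c) := by
    show IsNilpotent (constantCoeff (C ε * c))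
    rw [map_mul, constantCoeff_C]
    refine ⟨2, ?_⟩
    rw [mul_pow, pow_two, hε, zero_mul]
  have h0 := fg_hasSubstL G0
  have h1 := fg_hasSubstL G1
  have t1 := taylor_one (I := Ideal.span {ε}) (σ := Unit) l0 h0.const hδ.const
    (fun _ => hC.mul_rightT c)
  rw [pow_two, hI, Fintype.sum_unique, ← hG] at t1
  have t1' : PowerSeries.subst G1.toPowerSeries l0 - PowerSeries.subst G0.toPowerSeries l0 -
      PowerSeries.subst G0.toPowerSeries (PowerSeries.derivative B l0) * (C ε * c) = 0 :=
    coefIn_botD t1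
  have t2 := hC.mul (CoefIn.subst_congr (I := Ideal.span {ε}) (σ := Unit) m h1.const h0.const
    (fun _ => by rw [hG, add_sub_cancel_left]; exact hC.mul_rightT c))
  rw [hI] at t2
  have t2' : C ε * (PowerSeries.subst G1.toPowerSeries m -
      PowerSeries.subst G0.toPowerSeries m) = 0 := coefIn_botD t2
  simp only [cob, PowerSeries.subst_add h1, PowerSeries.subst_mul h1, PowerSeries.subst_C,
    PowerSeries.subst_add (PowerSeries.HasSubst.X (0 : Fin 2)),
    PowerSeries.subst_mul (PowerSeries.HasSubst.X (0 : Fin 2)),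
    PowerSeries.subst_add (PowerSeries.HasSubst.X (1 : Fin 2)),
    PowerSeries.subst_mul (PowerSeries.HasSubst.X (1 : Fin 2))]
  linear_combination t1' + t2'

/-- first order deformation of `ψ` in the direction `u_i` -/
noncomputable def psiEps {A : Type} [CommRing A] (ψ : E0 p n →+* A) (i : Fin (n - 1)) :
    E0 p n →+* DualNumber A where
  toFun x := TrivSqZeroExt.inlHom A A (ψ x) +
    DualNumber.eps * TrivSqZeroExt.inlHom A A (ψ (pderiv (WW p n) i x))
  map_one' := by simp
  map_mul' x y := by
    rw [Derivation.leibniz, smul_eq_mul, smul_eq_mul]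
    simp only [map_mul, map_add]
    linear_combination (-(TrivSqZeroExt.inlHom A A (ψ (pderiv (WW p n) i x)) *
      TrivSqZeroExt.inlHom A A (ψ (pderiv (WW p n) i y)))) * (DualNumber.eps_mul_eps (R := A))
  map_zero' := by simp
  map_add' x y := by
    simp only [map_add]
    ring

theorem psiEps_apply {A : Type} [CommRing A] (ψ : E0 p n →+* A) (i : Fin (n - 1)) (x : E0 p n) :
    psiEps ψ i x = TrivSqZeroExt.inlHom A A (ψ x) +
      DualNumber.eps * TrivSqZeroExt.inlHom A A (ψ (pderiv (WW p n) i x)) := rfl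

theorem cob_map {A B : Type} [CommRing A] [CommRing B] (G : FormalGroup A) (e : PowerSeries A)
    (f : A →+* B) : cob (G.map f) (PowerSeries.map f e) = map f (cob G e) := cob_mapL G e f

theorem IsLT.cob_dlog (hF : IsLT p n F) {A : Type} [CommRing A] (ψ : E0 p n →+* A)
    (hp : IsUnit (p : A)) (i : Fin (n - 1)) :
    cob (F.map ψ) (dlogA p n ψ i) = - map ψ (cE p n F i) := by
  set j : A →+* DualNumber A := TrivSqZeroExt.inlHom A A with hj
  have hpB : IsUnit (p : DualNumber A) := by
    have := hp.map j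
    rwa [map_natCast] at this
  have hG : (F.map (psiEps ψ i)).toPowerSeries = (F.map (j.comp ψ)).toPowerSeries +
      C DualNumber.eps * map (j.comp ψ) (dF p n F i) := by
    ext1 d
    rw [map_add, coeff_C_mul, FormalGroup.map_toPowerSeries, FormalGroup.map_toPowerSeries,
      coeff_map, coeff_map, coeff_map, psiEps_apply]
    rfl
  have hL : logA p n (psiEps ψ i) = logA p n (j.comp ψ) +
      PowerSeries.C DualNumber.eps * PowerSeries.map j (dlogA p n ψ i) := by
    ext1 d
    rw [map_add, PowerSeries.coeff_C_mul, PowerSeries.coeff_map, logA, logA, dlogA,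
      PowerSeries.coeff_mk, PowerSeries.coeff_mk, PowerSeries.coeff_mk]
    split_ifs
    · rw [psiEps_apply, map_mul, map_pow, ringInv_mapL j hp, map_natCast, RingHom.comp_apply]
      ring
    · simp
  have key := cob_epsD DualNumber.eps DualNumber.eps_mul_eps (F.map (j.comp ψ))
    (F.map (psiEps ψ i)) _ hG (logA p n (j.comp ψ)) (PowerSeries.map j (dlogA p n ψ i))
  rw [← hL, hF.log _ hpB, hF.log _ hpB, zero_add, deriv_logA _ hpB,
    FormalGroup.map_toPowerSeries, ← PowerSeries.map_subst (fg_hasSubstL F), ← map_mul,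
    ← fg_map_map, cob_map, map_comp, RingHom.comp_apply, ← map_add] at key
  rw [eq_neg_iff_add_eq_zero]
  ext d
  have := congrArg (fun f => TrivSqZeroExt.snd (coeff d f)) key
  simp only [coeff_C_mul, coeff_map, map_zero, TrivSqZeroExt.snd_zero, DualNumber.snd_mul,
    DualNumber.fst_eps, DualNumber.snd_eps, zero_mul, one_mul, zero_add] at this
  exact this.symm

theorem cob_isCoc {A : Type} [CommRing A] (G : FormalGroup A) [G.IsComm] (e : PowerSeries A)
    (h0 : PowerSeries.constantCoeff e = 0) : IsCoc G (cob G e) := by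
  have hX := fun i : Fin 3 => PowerSeries.HasSubst.X (S := A) i
  have hGX : ∀ i j : Fin 3, PowerSeries.HasSubst
      (subst ![(X i : MvPowerSeries (Fin 3) A), X j] G.toPowerSeries) := fun i j =>
    PowerSeries.HasSubst.of_constantCoeff_zero (constantCoeff_subst_eq_zero HasSubst.X_X
      (fun s => by fin_cases s <;> simp) G.zero_constantCoeff)
  refine ⟨?_, ?_, ?_⟩
  · rw [cob, map_sub, map_sub, PowerSeries.constantCoeff_subst_eq_zero G.zero_constantCoeff e h0,
      PowerSeries.constantCoeff_subst_eq_zero (constantCoeff_X 0) e h0,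
      PowerSeries.constantCoeff_subst_eq_zero (constantCoeff_X 1) e h0]
    simp
  · rw [cob_substL G e (PowerSeries.HasSubst.X 1) (PowerSeries.HasSubst.X 0),
      ← FormalGroup.IsComm.comm (F := G), cob]
    ring
  · rw [cob_substL G e (hGX 0 1) (hX 2), cob_substL G e (hX 0) (hX 1),
      cob_substL G e (hX 0) (hGX 1 2), cob_substL G e (hX 1) (hX 2), G.assoc]
    ring

theorem map_subst_twoD {A B σ : Type} [CommRing A] [CommRing B] (f : A →+* B)
    {a b : MvPowerSeries σ A} (ha : PowerSeries.HasSubst a) (hb : PowerSeries.HasSubst b)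
    (c : MvPowerSeries (Fin 2) A) :
    map f (subst ![a, b] c) = subst ![map f a, map f b] (map f c) := by
  rw [map_subst (hasSubst_twoL ha hb)]
  congr 1
  funext i
  fin_cases i <;> rfl

theorem hasSubst_GXD {A : Type} [CommRing A] (G : FormalGroup A) (i j : Fin 3) :
    PowerSeries.HasSubst (subst ![(X i : MvPowerSeries (Fin 3) A), X j] G.toPowerSeries) :=
  PowerSeries.HasSubst.of_constantCoeff_zero (constantCoeff_subst_eq_zero HasSubst.X_X
    (fun s => by fin_cases s <;> simp) G.zero_constantCoeff)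

theorem isCoc_mapD {A B : Type} [CommRing A] [CommRing B] (G : FormalGroup A)
    (c : MvPowerSeries (Fin 2) A) (f : A →+* B) :
    IsCoc (G.map f) (MvPowerSeries.map f c) ↔ f (constantCoeff c) = f 0 ∧
      map f (subst ![(X 1 : MvPowerSeries (Fin 2) A), X 0] c) = map f c ∧
      map f (subst ![subst ![(X 0 : MvPowerSeries (Fin 3) A), X 1] G.toPowerSeries, X 2] c +
        subst ![(X 0 : MvPowerSeries (Fin 3) A), X 1] c) =
      map f (subst ![(X 0 : MvPowerSeries (Fin 3) A), subst ![(X 1 : MvPowerSeries (Fin 3) A), X 2]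
          G.toPowerSeries] c +
        subst ![(X 1 : MvPowerSeries (Fin 3) A), X 2] c) := by
  have hX := fun i : Fin 3 => PowerSeries.HasSubst.X (S := A) i
  rw [map_add, map_add, map_subst_twoD f (PowerSeries.HasSubst.X 1) (PowerSeries.HasSubst.X 0),
    map_subst_twoD f (hasSubst_GXD G 0 1) (hX 2), map_subst_twoD f (hX 0) (hasSubst_GXD G 1 2),
    map_subst_twoD f (hX 0) (hX 1), map_subst_twoD f (hX 1) (hX 2),
    map_subst_twoD f (hX 0) (hX 1), map_subst_twoD f (hX 1) (hX 2)]
  simp only [map_X, map_zero, IsCoc, constantCoeff_map, FormalGroup.map_toPowerSeries]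

theorem IsCoc.map {A B : Type} [CommRing A] [CommRing B] {G : FormalGroup A}
    {c : MvPowerSeries (Fin 2) A} (hc : IsCoc G c) (f : A →+* B) : IsCoc (G.map f) (map f c) :=
  (isCoc_mapD G c f).mpr ⟨congrArg _ hc.1, congrArg _ hc.2.1, congrArg _ hc.2.2⟩

theorem IsCoc.of_map {A B : Type} [CommRing A] [CommRing B] {G : FormalGroup A}
    {c : MvPowerSeries (Fin 2) A} (f : A →+* B) (hf : Function.Injective f)
    (hc : IsCoc (G.map f) (MvPowerSeries.map f c)) : IsCoc G c := by
  obtain ⟨h1, h2, h3⟩ := (isCoc_mapD G c f).mp hc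
  exact ⟨hf h1, mvmap_injL hf h2, mvmap_injL hf h3⟩

theorem IsCoc.sub {A : Type} [CommRing A] {G : FormalGroup A}
    {c c' : MvPowerSeries (Fin 2) A} (hc : IsCoc G c) (hc' : IsCoc G c') : IsCoc G (c - c') := by
  have hX := fun i : Fin 3 => PowerSeries.HasSubst.X (S := A) i
  refine ⟨?_, ?_, ?_⟩
  · rw [map_sub, hc.1, hc'.1, sub_zero]
  · rw [subst_sub HasSubst.X_X, hc.2.1, hc'.2.1]
  · rw [subst_sub (hasSubst_twoL (hasSubst_GXD G 0 1) (hX 2)),
      subst_sub (hasSubst_twoL (hX 0) (hasSubst_GXD G 1 2)), subst_sub HasSubst.X_X,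
      subst_sub HasSubst.X_X]
    linear_combination hc.2.2 - hc'.2.2

theorem IsCoc.smul {A : Type} [CommRing A] {G : FormalGroup A}
    {c : MvPowerSeries (Fin 2) A} (hc : IsCoc G c) (s : A) : IsCoc G (C s * c) := by
  have hX := fun i : Fin 3 => PowerSeries.HasSubst.X (S := A) i
  refine ⟨?_, ?_, ?_⟩
  · rw [map_mul, hc.1, mul_zero]
  · rw [subst_mul HasSubst.X_X, hc.2.1, subst_C]
  · rw [subst_mul (hasSubst_twoL (hasSubst_GXD G 0 1) (hX 2)),
      subst_mul (hasSubst_twoL (hX 0) (hasSubst_GXD G 1 2)), subst_mul HasSubst.X_X,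
      subst_mul HasSubst.X_X]
    simp only [subst_C]
    linear_combination C s * hc.2.2

theorem dlogA_constD {A : Type} [CommRing A] (ψ : E0 p n →+* A) (i : Fin (n - 1)) :
    PowerSeries.constantCoeff (dlogA p n ψ i) = 0 := by
  rw [← PowerSeries.coeff_zero_eq_constantCoeff_apply, dlogA, PowerSeries.coeff_mk, if_neg]
  simp

theorem IsLT.cE_coc (hF : IsLT p n F) (i : Fin (n - 1)) : IsCoc F (cE p n F i) := by
  have := hF.isComm
  refine IsCoc.of_map (algebraMap (E0 p n) (E0p p n)) E0p_inj ?_
  have h := (cob_isCoc (F.map (algebraMap (E0 p n) (E0p p n))) _ (dlogA_constD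
    (algebraMap (E0 p n) (E0p p n)) i)).smul (-1)
  rw [hF.cob_dlog _ E0p_unit, map_neg, map_one, neg_mul_neg, one_mul] at h
  exact h

theorem cob_zero_smul {A : Type} [CommRing A] [Algebra ℚ A] {G : FormalGroup A}
    {l e : PowerSeries A} (h0 : PowerSeries.constantCoeff l = 0) (h1 : PowerSeries.coeff 1 l = 1)
    (hl : cob G l = 0) (he0 : PowerSeries.constantCoeff e = 0) (he : cob G e = 0) :
    e = PowerSeries.C (PowerSeries.coeff 1 e) * l := by
  have : IsAddTorsionFree A := .of_module_rat A
  have hs : HasSubst ![(0 : PowerSeries A), PowerSeries.X] :=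
    hasSubst_twoL PowerSeries.HasSubst.zero' PowerSeries.HasSubst.X'
  have key : ∀ f : PowerSeries A, cob G f = 0 → PowerSeries.derivative A f *
      subst ![(0 : PowerSeries A), PowerSeries.X] (pderiv A 0 G.toPowerSeries) =
      PowerSeries.C (PowerSeries.coeff 1 f) := by
    intro f hf
    have h := congrArg (subst ![(0 : PowerSeries A), PowerSeries.X]) (deriv_specL hf).1
    rw [subst_mul hs, subst_psubstL (fg_hasSubstL G) hs, subst_psubstL (PowerSeries.HasSubst.X 0) hs,
      subst_X hs, G.zero_add PowerSeries.HasSubst.X', PowerSeries.X_subst] at h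
    refine h.trans ?_
    show PowerSeries.subst (0 : MvPowerSeries Unit A) (PowerSeries.derivative A f) = _
    rw [PowerSeries.subst_zero_eq_C_constantCoeff, map_C,
      ← PowerSeries.coeff_zero_eq_constantCoeff_apply, PowerSeries.coeff_derivative]
    simp
    rfl
  have k1 := key l hl
  have k2 := key e he
  rw [h1, map_one] at k1
  apply PowerSeries.derivative.ext
  · rw [Derivation.leibniz, PowerSeries.derivative_C, smul_zero, add_zero, smul_eq_mul]
    linear_combination PowerSeries.derivative A l * k2 - PowerSeries.derivative A e * k1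
  · rw [map_mul, h0, he0, mul_zero]

end Vale.Agent.P217
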