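import Vale.Agent.P217.Hon
import Vale.Agent.P217.DLog

namespace Vale.Agent.P217

open MvPowerSeries

section gen
variable {A : Type} [CommRing A]

theorem mem_ordI_Lead {σ : Type} {M : ℕ} {f : MvPowerSeries σ A} :
    f ∈ ordI σ A M ↔ (M : ℕ∞) ≤ f.order := Iff.rfl

theorem ordI_mul_Lead {σ : Type} {a b : ℕ} {f g : MvPowerSeries σ A} (hf : f ∈ ordI σ A a)
    (hg : g ∈ ordI σ A b) : f * g ∈ ordI σ A (a + b) := by
  rw [mem_ordI_Lead] at *
  refine le_trans ?_ le_order_mul
  push_cast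
  exact add_le_add hf hg

theorem ordI_pow_Lead {σ : Type} {f : MvPowerSeries σ A} (hf : constantCoeff f = 0) (N : ℕ) :
    f ^ N ∈ ordI σ A N := le_order_pow_of_constantCoeff_eq_zero N hf

theorem ordI_mono_Lead {σ : Type} {a b : ℕ} (h : a ≤ b) {f : MvPowerSeries σ A}
    (hf : f ∈ ordI σ A b) : f ∈ ordI σ A a := by
  rw [mem_ordI_Lead] at *
  exact le_trans (by exact_mod_cast h) hf

theorem ordI_coeff_Lead {σ : Type} {N : ℕ} {f : MvPowerSeries σ A} (hf : f ∈ ordI σ A N)
    {d : σ →₀ ℕ} (hd : Finsupp.degree d < N) : coeff d f = 0 :=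
  coeff_of_lt_order (lt_of_lt_of_le (by exact_mod_cast hd) hf)

theorem deg2_Lead (d : Fin 2 →₀ ℕ) : Finsupp.degree d = d 0 + d 1 := by
  rw [Finsupp.degree_eq_sum, Fin.sum_univ_two]

theorem fg_two_Lead (G : FormalGroup A) :
    G.toPowerSeries - (X 0 + X 1) ∈ ordI (Fin 2) A 2 := by
  refine nat_le_order fun d hd => ?_
  rw [deg2_Lead] at hd
  have h : d = 0 ∨ d = Finsupp.single 0 1 ∨ d = Finsupp.single 1 1 := by
    rcases Nat.eq_zero_or_pos (d 0) with h0 | h0 <;> rcases Nat.eq_zero_or_pos (d 1) with h1 | h1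
    · left; ext s; fin_cases s <;> simp [h0, h1]
    · right; right
      have : d 1 = 1 := by omega
      ext s; fin_cases s <;> simp [h0, this]
    · right; left
      have : d 0 = 1 := by omega
      ext s; fin_cases s <;> simp [h1, this]
    · omega
  rcases h with rfl | rfl | rfl
  · simp [G.zero_constantCoeff]
  · simp [G.lin_coeff_X, coeff_index_single_X]
  · simp [G.lin_coeff_Y, coeff_index_single_X]

/-- the polynomial `(X + Y) ^ D - X ^ D - Y ^ D` -/
noncomputable def BB_Lead (A : Type) [CommRing A] (D : ℕ) : MvPowerSeries (Fin 2) A :=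
  (X 0 + X 1) ^ D - X 0 ^ D - X 1 ^ D

theorem BB_mem_Lead (D : ℕ) : BB_Lead A D ∈ ordI (Fin 2) A D :=
  Ideal.sub_mem _ (Ideal.sub_mem _ (ordI_pow_Lead (by simp) D) (ordI_pow_Lead (by simp) D))
    (ordI_pow_Lead (by simp) D)

theorem BB_coeff_Lead {D a : ℕ} (h1 : 1 ≤ a) (h2 : a < D) :
    coeff (Finsupp.single 0 a + Finsupp.single 1 (D - a)) (BB_Lead A D) = (D.choose a : A) := by
  have hs : PowerSeries.HasSubst (X 0 + X 1 : MvPowerSeries (Fin 2) A) :=
    PowerSeries.HasSubst.of_constantCoeff_zero (by simp)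
  have e : ((X 0 + X 1 : MvPowerSeries (Fin 2) A)) ^ D =
      PowerSeries.subst (X 0 + X 1 : MvPowerSeries (Fin 2) A) (PowerSeries.X ^ D : PowerSeries A) := by
    rw [PowerSeries.subst_pow hs, PowerSeries.subst_X hs]
  have n0 : (Finsupp.single 0 a + Finsupp.single 1 (D - a) : Fin 2 →₀ ℕ) ≠ Finsupp.single 0 D := by
    intro h
    have := DFunLike.congr_fun h 0
    simp at this
    omega
  have n1 : (Finsupp.single 0 a + Finsupp.single 1 (D - a) : Fin 2 →₀ ℕ) ≠ Finsupp.single 1 D := by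
    intro h
    have := DFunLike.congr_fun h 0
    simp at this
    omega
  rw [BB_Lead, map_sub, map_sub, e, PowerSeries.coeff_subst_X_zero_add_X_one, coeff_X_pow,
    coeff_X_pow, if_neg n0, if_neg n1]
  have : a + (D - a) = D := by omega
  simp [this]

theorem cob_add_Lead (G : FormalGroup A) (e e' : PowerSeries A) :
    cob G (e + e') = cob G e + cob G e' := by
  have hG : PowerSeries.HasSubst G.toPowerSeries :=
    PowerSeries.HasSubst.of_constantCoeff_zero G.zero_constantCoeff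
  simp only [cob, PowerSeries.subst_add hG, PowerSeries.subst_add (PowerSeries.HasSubst.X _)]
  ring

theorem cob_mono_Lead (G : FormalGroup A) (t : A) (D : ℕ) :
    cob G (PowerSeries.C t * PowerSeries.X ^ D) =
      C t * (G.toPowerSeries ^ D - X 0 ^ D - X 1 ^ D) := by
  have hG : PowerSeries.HasSubst G.toPowerSeries :=
    PowerSeries.HasSubst.of_constantCoeff_zero G.zero_constantCoeff
  simp only [cob, PowerSeries.subst_mul hG, PowerSeries.subst_mul (PowerSeries.HasSubst.X _),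
    PowerSeries.subst_pow hG, PowerSeries.subst_pow (PowerSeries.HasSubst.X _),
    PowerSeries.subst_X hG, PowerSeries.subst_X (PowerSeries.HasSubst.X _), PowerSeries.subst_C]
  ring

theorem cob_mem_Lead (G : FormalGroup A) {e : PowerSeries A} {D : ℕ}
    (he : PowerSeries.X ^ D ∣ e) : cob G e ∈ ordI (Fin 2) A D := by
  obtain ⟨r, rfl⟩ := he
  have h : ∀ a : MvPowerSeries (Fin 2) A, constantCoeff a = 0 →
      PowerSeries.subst a (PowerSeries.X ^ D * r) ∈ ordI (Fin 2) A D := by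
    intro a ha
    have ha' := PowerSeries.HasSubst.of_constantCoeff_zero ha
    rw [PowerSeries.subst_mul ha', PowerSeries.subst_pow ha', PowerSeries.subst_X ha']
    exact Ideal.mul_mem_right _ _ (ordI_pow_Lead ha D)
  exact Ideal.sub_mem _ (Ideal.sub_mem _ (h _ G.zero_constantCoeff) (h _ (constantCoeff_X _)))
    (h _ (constantCoeff_X _))

theorem pow_lead_Lead (G : FormalGroup A) {D : ℕ} (hD : 1 ≤ D) :
    (G.toPowerSeries ^ D - X 0 ^ D - X 1 ^ D) - BB_Lead A D ∈ ordI (Fin 2) A (D + 1) := by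
  have e : (G.toPowerSeries ^ D - X 0 ^ D - X 1 ^ D) - BB_Lead A D =
      (∑ i ∈ Finset.range D, G.toPowerSeries ^ i * (X 0 + X 1) ^ (D - 1 - i)) *
        (G.toPowerSeries - (X 0 + X 1)) := by
    rw [geom_sum₂_mul, BB_Lead]
    ring
  rw [e]
  have h : (∑ i ∈ Finset.range D, G.toPowerSeries ^ i * (X 0 + X 1) ^ (D - 1 - i)) ∈
      ordI (Fin 2) A (D - 1) := by
    refine Ideal.sum_mem _ fun i hi => ?_
    rw [Finset.mem_range] at hi
    exact ordI_mono_Lead (by omega) (ordI_mul_Lead (ordI_pow_Lead G.zero_constantCoeff i)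
      (ordI_pow_Lead (by simp) (D - 1 - i)))
  exact ordI_mono_Lead (by omega) (ordI_mul_Lead h (fg_two_Lead G))

theorem cob_lead_Lead (G : FormalGroup A) {e : PowerSeries A} {D : ℕ} (hD : 1 ≤ D)
    (he : PowerSeries.X ^ D ∣ e) :
    cob G e - C (PowerSeries.coeff D e) * BB_Lead A D ∈ ordI (Fin 2) A (D + 1) := by
  have h : PowerSeries.X ^ (D + 1) ∣
      e - PowerSeries.C (PowerSeries.coeff D e) * PowerSeries.X ^ D := by
    rw [PowerSeries.X_pow_dvd_iff] at he ⊢
    intro m hm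
    rw [map_sub, PowerSeries.coeff_C_mul, PowerSeries.coeff_X_pow]
    rcases Nat.lt_succ_iff_lt_or_eq.mp hm with h | rfl
    · rw [he m h, if_neg h.ne, mul_zero, sub_zero]
    · simp
  have e1 : cob G e = cob G (e - PowerSeries.C (PowerSeries.coeff D e) * PowerSeries.X ^ D) +
      C (PowerSeries.coeff D e) * (G.toPowerSeries ^ D - X 0 ^ D - X 1 ^ D) := by
    rw [← cob_mono_Lead, ← cob_add_Lead, sub_add_cancel]
  rw [e1, add_sub_assoc, ← mul_sub]
  exact Ideal.add_mem _ (cob_mem_Lead G h) (Ideal.mul_mem_left _ _ (pow_lead_Lead G hD))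

end gen

variable {p n : ℕ} [Fact p.Prime] {F : FormalGroup (E0 p n)}

theorem choose_Lead (s : ℕ) : ∃ m : ℕ, ¬ p ∣ m ∧ (p ^ (s + 1)).choose (p ^ s) = p * m := by
  have hp : p.Prime := Fact.out
  have hlt : p ^ s < p ^ (s + 1) := Nat.pow_lt_pow_right hp.one_lt (Nat.lt_succ_self s)
  have h0 : p ^ s ≠ 0 := pow_ne_zero _ hp.ne_zero
  obtain ⟨m, hm⟩ := hp.dvd_choose_pow h0 hlt.ne
  refine ⟨m, fun ⟨k, hk⟩ => ?_, hm⟩
  have h1 := Nat.factorization_choose_prime_pow hp hlt.le h0
  rw [Nat.factorization_pow_self hp] at h1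
  have hne : (p ^ (s + 1)).choose (p ^ s) ≠ 0 := (Nat.choose_pos hlt.le).ne'
  have h2 : p ^ 2 ∣ (p ^ (s + 1)).choose (p ^ s) := ⟨k, by rw [hm, hk]; ring⟩
  rw [hp.pow_dvd_iff_le_factorization hne] at h2
  omega

theorem final_Lead (s : ℕ) (c : MvPowerSeries (Fin 2) (WW p n))
    (h : map (algebraMap (WW p n) (FractionRing (WW p n))) c +
      C (Ring.inverse (p : FractionRing (WW p n))) * BB_Lead _ (p ^ (s + 1)) ∈
        ordI (Fin 2) (FractionRing (WW p n)) (p ^ (s + 1) + 1)) :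
    (map (WittVector.constantCoeff : WW p n →+* kk p n) c).order = ((p ^ (s + 1) : ℕ) : ℕ∞) := by
  have hp : p.Prime := Fact.out
  have hinj := IsFractionRing.injective (WW p n) (FractionRing (WW p n))
  have hp0 : (p : FractionRing (WW p n)) ≠ 0 := WittVector.FractionRing.p_nonzero p (kk p n)
  have hlt : p ^ s < p ^ (s + 1) := Nat.pow_lt_pow_right hp.one_lt (Nat.lt_succ_self s)
  have h1 : 1 ≤ p ^ s := Nat.one_le_pow _ _ hp.pos
  rw [order_eq_nat]
  constructor
  · obtain ⟨m, hm, e⟩ := choose_Lead (p := p) s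
    have hd : Finsupp.degree (Finsupp.single 0 (p ^ s) + Finsupp.single 1 (p ^ (s + 1) - p ^ s) :
        Fin 2 →₀ ℕ) = p ^ (s + 1) := by
      rw [deg2_Lead]
      simp
      omega
    refine ⟨_, ?_, hd⟩
    have h2 := ordI_coeff_Lead h (hd.trans_lt (Nat.lt_succ_self _))
    rw [map_add, coeff_C_mul, BB_coeff_Lead h1 hlt, e, coeff_map, Ring.inverse_eq_inv,
      Nat.cast_mul, inv_mul_cancel_left₀ hp0, ← map_natCast (algebraMap (WW p n) _) m, ← map_add,
      map_eq_zero_iff _ hinj] at h2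
    rw [coeff_map, eq_neg_of_add_eq_zero_left h2, map_neg, map_natCast, neg_ne_zero]
    rwa [Ne, CharP.cast_eq_zero_iff (kk p n) p]
  · intro d hd
    have h2 := ordI_coeff_Lead h (hd.trans (Nat.lt_succ_self _))
    rw [map_add, coeff_C_mul, ordI_coeff_Lead (BB_mem_Lead _) hd, mul_zero, add_zero, coeff_map,
      map_eq_zero_iff _ hinj] at h2
    rw [coeff_map, h2, map_zero]

/-- the specialization `E0 → W[1/p]` -/
noncomputable def psi0_Lead (p n : ℕ) [Fact p.Prime] : E0 p n →+* FractionRing (WW p n) :=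
  (algebraMap (WW p n) (FractionRing (WW p n))).comp (constantCoeff : E0 p n →+* WW p n)

theorem sp0_psi0_Lead : sp0 p n (psi0_Lead p n) = psi0_Lead p n := by
  ext x
  simp [sp0, psi0_Lead]

theorem punit_Lead : IsUnit (p : FractionRing (WW p n)) :=
  (WittVector.FractionRing.p_nonzero p (kk p n)).isUnit

theorem IsLT.Gk_lead (hF : IsLT p n F) (hn : 1 ≤ n) :
    ((Gk p n F).toPowerSeries - X 0 - X 1).order = ((p ^ n : ℕ) : ℕ∞) := by
  have hp : p.Prime := Fact.out
  obtain ⟨s, rfl⟩ : ∃ s, n = s + 1 := ⟨n - 1, by omega⟩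
  set q := p ^ (s + 1) with hq
  have hq1 : 1 < q := Nat.one_lt_pow (Nat.succ_ne_zero s) hp.one_lt
  have hc := fun d => logA_sp0 hn (psi0_Lead p (s + 1)) punit_Lead d
  rw [sp0_psi0_Lead, ← hq] at hc
  have hl := hF.log (psi0_Lead p (s + 1)) punit_Lead
  set L := logA p (s + 1) (psi0_Lead p (s + 1)) with hL
  have hdv : PowerSeries.X ^ q ∣ L - PowerSeries.C 1 * PowerSeries.X ^ 1 := by
    rw [PowerSeries.X_pow_dvd_iff]
    intro m hm
    rw [map_sub, hc, Nat.log_of_lt hm, PowerSeries.coeff_C_mul, PowerSeries.coeff_X_pow]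
    simp
  have hcq : PowerSeries.coeff q (L - PowerSeries.C 1 * PowerSeries.X ^ 1) =
      Ring.inverse (p : FractionRing (WW p (s + 1))) := by
    have : Nat.log q q = 1 := by
      have := Nat.log_pow hq1 1
      rwa [pow_one] at this
    rw [map_sub, hc, this, PowerSeries.coeff_C_mul, PowerSeries.coeff_X_pow, if_neg hq1.ne']
    simp
  have h1 := cob_lead_Lead (F.map (psi0_Lead p (s + 1))) hq1.le hdv
  have h2 : cob (F.map (psi0_Lead p (s + 1))) (L - PowerSeries.C 1 * PowerSeries.X ^ 1) =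
      - ((F.map (psi0_Lead p (s + 1))).toPowerSeries - X 0 - X 1) := by
    rw [eq_neg_iff_add_eq_zero]
    have := cob_mono_Lead (F.map (psi0_Lead p (s + 1))) 1 1
    rw [map_one (C : _ →+* MvPowerSeries (Fin 2) _), one_mul, pow_one (X 0), pow_one (X 1),
      pow_one (FormalGroup.toPowerSeries _)] at this
    rw [← this, ← cob_add_Lead, sub_add_cancel, hl]
  rw [hcq, h2] at h1
  have h3 := final_Lead s ((GW p (s + 1) F).toPowerSeries - X 0 - X 1) (by
    have := (Ideal.neg_mem_iff _).mpr h1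
    convert this using 1
    rw [map_sub, map_sub, map_X, map_X, FormalGroup.map_toPowerSeries,
      FormalGroup.map_toPowerSeries, map_map]
    rw [psi0_Lead]
    ring)
  rw [map_sub, map_sub, map_X, map_X, FormalGroup.map_toPowerSeries, map_map] at h3
  exact h3

theorem IsLT.cE_lead (hF : IsLT p n F) (hn : 1 ≤ n) (i : Fin (n - 1)) :
    (map (res p n) (cE p n F i)).order = ((p ^ ((i : ℕ) + 1) : ℕ) : ℕ∞) := by
  have hp : p.Prime := Fact.out
  set D := p ^ ((i : ℕ) + 1) with hD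
  have hD0 : D ≠ 0 := pow_ne_zero _ hp.ne_zero
  have hc := dlogA_sp0 hn (psi0_Lead p n) punit_Lead i
  rw [sp0_psi0_Lead, ← hD] at hc
  have hl := hF.cob_dlog (psi0_Lead p n) punit_Lead i
  have hdv : PowerSeries.X ^ D ∣ dlogA p n (psi0_Lead p n) i := by
    rw [PowerSeries.X_pow_dvd_iff, hc]
    intro m hm
    rw [PowerSeries.coeff_C_mul, PowerSeries.coeff_subst_X_pow hD0]
    split_ifs with h
    · have : m = 0 := Nat.eq_zero_of_dvd_of_lt h hm
      rw [this, Nat.zero_div, PowerSeries.coeff_zero_eq_constantCoeff_apply, logA_const]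
      simp
    · simp
  have hcq : PowerSeries.coeff D (dlogA p n (psi0_Lead p n) i) =
      Ring.inverse (p : FractionRing (WW p n)) := by
    rw [hc, PowerSeries.coeff_C_mul, PowerSeries.coeff_subst_X_pow hD0, if_pos dvd_rfl,
      Nat.div_self (Nat.pos_of_ne_zero hD0), logA_one]
    simp
  have h1 := cob_lead_Lead (F.map (psi0_Lead p n)) (Nat.pos_of_ne_zero hD0) hdv
  rw [hcq, hl] at h1
  have h3 := final_Lead (i : ℕ) (map (constantCoeff : E0 p n →+* WW p n) (cE p n F i)) (by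
    have := (Ideal.neg_mem_iff _).mpr h1
    convert this using 1
    rw [map_map, psi0_Lead]
    ring)
  rw [map_map] at h3
  exact h3

end Vale.Agent.P217
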