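import Vale.Agent.P217.Cpl

namespace Vale.Agent.P217

open MvPowerSeries

variable {p n : ℕ} [Fact p.Prime] {A : Type} [CommRing A]

theorem exists_mkHom (a : Ideal A) [IsAdicComplete a A] (j : WW p n →+* A) (hp : (p : A) ∈ a)
    (x : Fin (n - 1) → A) (hx : ∀ i, x i ∈ a) :
    ∃ ψ : E0 p n →+* A, (∀ w, ψ (C w) = j w) ∧ (∀ i, ψ (X i) = x i) ∧ Cts p n a ψ := by
  have hv : ∀ N, ∀ P ∈ MvPolynomial.idealOfVars (Fin (n - 1)) (WW p n) ^ N,
      MvPolynomial.eval₂Hom j x P ∈ a ^ N := fun N P hP => by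
    have h : (MvPolynomial.idealOfVars (Fin (n - 1)) (WW p n)).map (MvPolynomial.eval₂Hom j x) ≤
        a := by
      rw [MvPolynomial.idealOfVars, Ideal.map_span, Ideal.span_le]
      rintro _ ⟨_, ⟨i, rfl⟩, rfl⟩
      simpa using hx i
    refine Ideal.pow_right_mono h N ?_
    rw [← Ideal.map_pow]
    exact Ideal.mem_map_of_mem _ hP
  let g : ∀ N, E0 p n →+* A ⧸ a ^ N := fun N =>
    (Ideal.Quotient.lift _ ((Ideal.Quotient.mk (a ^ N)).comp (MvPolynomial.eval₂Hom j x))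
      fun P hP => Ideal.Quotient.eq_zero_iff_mem.2 (hv N P hP)).comp
      (truncTotalAlgHom (Fin (n - 1)) (WW p n) N).toRingHom
  have hg : ∀ N f, g N f = Ideal.Quotient.mk (a ^ N) (MvPolynomial.eval₂Hom j x (truncTotal N f)) :=
    fun N f => rfl
  let ψ := IsAdicComplete.liftRingHom a g fun {k l} h => RingHom.ext fun f => by
    rw [RingHom.comp_apply, hg, hg]
    refine Ideal.Quotient.eq.2 ?_
    rw [← map_sub]
    exact hv _ _ (truncTotal_sub_truncTotal_mem_pow_idealOfVars h le_rfl f)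
  have hψ : ∀ P : MvPolynomial (Fin (n - 1)) (WW p n), ψ P = MvPolynomial.eval₂Hom j x P := by
    intro P
    refine IsHausdorff.eq_iff_smodEq (I := a) |>.2 fun N => ?_
    rw [smul_eq_mul, Ideal.mul_top, SModEq.sub_mem, ← Ideal.Quotient.eq,
      IsAdicComplete.mk_liftRingHom, hg, Ideal.Quotient.eq, ← map_sub]
    refine hv _ _ ((MvPolynomial.mem_pow_idealOfVars_iff' ..).2 fun d hd => ?_)
    rw [MvPolynomial.coeff_sub, sub_eq_zero, coeff_truncTotal _ hd, MvPolynomial.coeff_coe]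
  have h1 : ∀ w, ψ (C w) = j w := fun w => by simpa using hψ (MvPolynomial.C w)
  have h2 : ∀ i, ψ (X i) = x i := fun i => by simpa using hψ (MvPolynomial.X i)
  refine ⟨ψ, h1, h2, fun f hf => ?_⟩
  rw [mm_eq] at hf
  refine (Ideal.span_le (I := a.comap ψ)).2 ?_ hf
  rintro _ (rfl | ⟨i, rfl⟩)
  · simpa using hp
  · exact Ideal.mem_comap.2 (by rw [h2]; exact hx i)

theorem cts_pow {a : Ideal A} {ψ : E0 p n →+* A} (hψ : Cts p n a ψ) (N : ℕ) {f : E0 p n}
    (hf : (N : ℕ∞) ≤ f.order) : ψ f ∈ a ^ N := by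
  have h : f ∈ mm p n ^ N := (mem_mm_pow_Cpl p n N f).2 fun d => by
    by_cases hd : Finsupp.degree d < N
    · rw [coeff_of_lt_order (lt_of_lt_of_le (by exact_mod_cast hd) hf)]; exact zero_mem _
    · rw [show N - Finsupp.degree d = 0 by omega]; simp
  refine Ideal.pow_right_mono (Ideal.map_le_iff_le_comap.2 hψ) N ?_
  rw [← Ideal.map_pow]
  exact Ideal.mem_map_of_mem _ h

theorem hom_taylor {a : Ideal A} [IsHausdorff a A] {ψ ψ' : E0 p n →+* A} (hψ : Cts p n a ψ)
    (hψ' : Cts p n a ψ') (hC : ∀ w, ψ' (C w) = ψ (C w)) (I : Ideal A)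
    (hI : ∀ z : A, (∀ N, z ∈ I ^ 2 ⊔ a ^ N) → z ∈ I ^ 2)
    (h : ∀ i, ψ' (X i) - ψ (X i) ∈ I) (f : E0 p n) :
    ψ' f - ψ f - ∑ i, (ψ' (X i) - ψ (X i)) * ψ (pderiv (WW p n) i f) ∈ I ^ 2 := by
  classical
  have poly : ∀ P : MvPolynomial (Fin (n - 1)) (WW p n), ψ' P - ψ P -
      ∑ i, (ψ' (X i) - ψ (X i)) * ψ (pderiv (WW p n) i (P : E0 p n)) ∈ I ^ 2 := by
    intro P
    induction P using MvPolynomial.induction_on with
    | C w => simp [hC]
    | add P Q hP hQ =>
      convert add_mem hP hQ using 1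
      simp only [MvPolynomial.coe_add, map_add, mul_add, Finset.sum_add_distrib]; ring
    | mul_X P i hP =>
      have hS : ∑ k, (ψ' (X k) - ψ (X k)) * ψ (pderiv (WW p n) k (P : E0 p n)) ∈ I :=
        Ideal.sum_mem _ fun k _ => Ideal.mul_mem_right _ _ (h k)
      have e : ∑ k, (ψ' (X k) - ψ (X k)) * ψ (pderiv (WW p n) k ((P : E0 p n) * X i)) =
          (∑ k, (ψ' (X k) - ψ (X k)) * ψ (pderiv (WW p n) k (P : E0 p n))) * ψ (X i) +
            (ψ' (X i) - ψ (X i)) * ψ P := by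
        rw [Finset.sum_mul, ← Finset.sum_ite_eq_of_mem Finset.univ i
          (fun k => (ψ' (X k) - ψ (X k)) * ψ P) (Finset.mem_univ _), ← Finset.sum_add_distrib]
        refine Finset.sum_congr rfl fun k _ => ?_
        rw [Derivation.leibniz]
        split_ifs with hk
        · subst hk; simp; ring
        · rw [pderiv_X_of_ne hk]; simp; ring
      rw [MvPolynomial.coe_mul, MvPolynomial.coe_X, e]
      convert add_mem (Ideal.mul_mem_right (ψ' (X i)) _ hP)
        ((pow_two I).symm ▸ Ideal.mul_mem_mul hS (h i)) using 1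
      simp only [map_mul]; ring
  refine hI _ fun N => ?_
  obtain ⟨t, ht⟩ : ∃ t, f = (truncTotal (N + 1) f : MvPolynomial _ _) + t :=
    ⟨f - _, (add_sub_cancel _ _).symm⟩
  have h0 : ∀ d, Finsupp.degree d < N + 1 → coeff d t = 0 := fun d hd => by
    have := congrArg (coeff d) ht
    rwa [map_add, MvPolynomial.coeff_coe, coeff_truncTotal _ hd, left_eq_add] at this
  have h1 : (N : ℕ∞) ≤ t.order := nat_le_order fun d hd => h0 d (by omega)
  have h2 : ∀ i, (N : ℕ∞) ≤ (pderiv (WW p n) i t).order := fun i => nat_le_order fun d hd => by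
    rw [coeff_pderiv, h0 _ (by rw [map_add, Finsupp.degree_single]; omega), zero_mul]
  have h3 : ψ' t - ψ t - ∑ i, (ψ' (X i) - ψ (X i)) * ψ (pderiv (WW p n) i t) ∈ a ^ N :=
    sub_mem (sub_mem (cts_pow hψ' N h1) (cts_pow hψ N h1))
      (Ideal.sum_mem _ fun i _ => Ideal.mul_mem_left _ _ (cts_pow hψ N (h2 i)))
  convert add_mem (Ideal.mem_sup_left (poly (truncTotal (N + 1) f))) (Ideal.mem_sup_right h3)
    using 1
  generalize (((truncTotal (N + 1) f : MvPolynomial _ _)) : E0 p n) = P at ht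
  subst ht
  simp only [map_add, mul_add, Finset.sum_add_distrib]; ring

theorem hom_ext {a : Ideal A} [IsHausdorff a A] {ψ ψ' : E0 p n →+* A} (hψ : Cts p n a ψ)
    (hψ' : Cts p n a ψ') (hC : ∀ w, ψ' (C w) = ψ (C w)) (h : ∀ i, ψ' (X i) = ψ (X i)) :
    ψ' = ψ := RingHom.ext fun f => by
  have := hom_taylor hψ hψ' hC ⊥ (fun z hz => by
    have : z = 0 := IsHausdorff.haus' (I := a) z fun N => by simpa [SModEq.zero] using hz N
    rw [this]; exact zero_mem _) (fun i => by simp [h i]) f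
  simpa [h, sub_eq_zero] using this

theorem cts_sub_C {a : Ideal A} {ψ : E0 p n →+* A} (hψ : Cts p n a ψ) (f : E0 p n) :
    ψ f - ψ (C (constantCoeff f)) ∈ a := by
  rw [← map_sub]
  exact hψ _ ((mem_mm_Cpl p n _).2 (by simp))

end Vale.Agent.P217
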