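import Vale.Agent.P217.Def2

namespace Vale.Agent.P217

open MvPowerSeries

variable {A : Type} [CommRing A]


theorem coefIn_iff_map0 {σ : Type} (I : Ideal A) (f : MvPowerSeries σ A) :
    CoefIn I f ↔ map (Ideal.Quotient.mk I) f = 0 := by
  constructor
  · intro h
    ext d
    rw [coeff_map, Ideal.Quotient.eq_zero_iff_mem.mpr (h d), map_zero]
  · intro h d
    have := congrArg (coeff d) h
    rw [coeff_map, map_zero] at this
    exact Ideal.Quotient.eq_zero_iff_mem.mp this

theorem coefIn_iff_map {σ : Type} (I : Ideal A) (f g : MvPowerSeries σ A) :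
    CoefIn I (f - g) ↔ map (Ideal.Quotient.mk I) f = map (Ideal.Quotient.mk I) g := by
  rw [coefIn_iff_map0, map_sub, sub_eq_zero]

theorem CoefIn.mul_left {σ : Type} {I : Ideal A} (f : MvPowerSeries σ A) {g : MvPowerSeries σ A}
    (hg : CoefIn I g) : CoefIn I (f * g) := by
  rw [coefIn_iff_map0] at hg ⊢
  rw [map_mul, hg, mul_zero]

theorem CoefIn.mul_rightT {σ : Type} {I : Ideal A} (f : MvPowerSeries σ A)
    {g : MvPowerSeries σ A} (hg : CoefIn I g) : CoefIn I (g * f) := by
  rw [mul_comm]; exact hg.mul_left f

theorem CoefIn.addT {σ : Type} {I : Ideal A} {f g : MvPowerSeries σ A}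
    (hf : CoefIn I f) (hg : CoefIn I g) : CoefIn I (f + g) := fun d => by
  rw [map_add]; exact I.add_mem (hf d) (hg d)

theorem CoefIn.subT {σ : Type} {I : Ideal A} {f g : MvPowerSeries σ A}
    (hf : CoefIn I f) (hg : CoefIn I g) : CoefIn I (f - g) := fun d => by
  rw [map_sub]; exact I.sub_mem (hf d) (hg d)

theorem CoefIn.zeroT {σ : Type} (I : Ideal A) : CoefIn I (0 : MvPowerSeries σ A) := fun d => by
  rw [map_zero]; exact I.zero_mem

theorem CoefIn.sumT {σ ι : Type} {I : Ideal A} (s : Finset ι) {f : ι → MvPowerSeries σ A}
    (hf : ∀ i ∈ s, CoefIn I (f i)) : CoefIn I (∑ i ∈ s, f i) := fun d => by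
  rw [map_sum]; exact I.sum_mem fun i hi => hf i hi d

theorem CoefIn.mul {σ : Type} {I J : Ideal A} {f g : MvPowerSeries σ A}
    (hf : CoefIn I f) (hg : CoefIn J g) : CoefIn (I * J) (f * g) := by
  classical
  intro d
  rw [coeff_mul]
  exact Ideal.sum_mem _ fun x _ => Ideal.mul_mem_mul (hf _) (hg _)

theorem CoefIn.subst_left {σ τ : Type} {I : Ideal A} {f : MvPowerSeries σ A}
    {a : σ → MvPowerSeries τ A} (ha : HasSubst a) (hf : CoefIn I f) : CoefIn I (subst a f) := by
  rw [coefIn_iff_map0] at hf ⊢
  rw [map_subst ha, hf, ← substAlgHom_apply (ha.map _), map_zero]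

theorem CoefIn.subst_congr {σ τ : Type} {I : Ideal A} (f : MvPowerSeries σ A)
    {a b : σ → MvPowerSeries τ A} (ha : HasSubst a) (hb : HasSubst b)
    (h : ∀ s, CoefIn I (a s - b s)) : CoefIn I (subst a f - subst b f) := by
  rw [coefIn_iff_map, map_subst ha, map_subst hb]
  congr 1
  funext s
  exact (coefIn_iff_map I _ _).mp (h s)

theorem CoefIn.subst_congr_mul {σ τ : Type} {I J : Ideal A} {f : MvPowerSeries σ A}
    (hf : CoefIn I f) {a b : σ → MvPowerSeries τ A} (ha : HasSubst a) (hb : HasSubst b)
    (h : ∀ s, CoefIn J (a s - b s)) : CoefIn (I * J) (subst a f - subst b f) := by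
  intro e
  rw [map_sub, coeff_subst ha, coeff_subst hb,
    ← finsum_sub_distrib (coeff_subst_finite ha f e) (coeff_subst_finite hb f e)]
  refine finsum_induction (fun x => x ∈ I * J) (Ideal.zero_mem _)
    (fun x y hx hy => Ideal.add_mem _ hx hy) fun d => ?_
  rw [smul_eq_mul, smul_eq_mul, ← mul_sub, ← map_sub]
  refine Ideal.mul_mem_mul (hf d) ?_
  have : CoefIn J ((d.prod fun s e => a s ^ e) - d.prod fun s e => b s ^ e) := by
    rw [coefIn_iff_map, map_finsuppProd, map_finsuppProd]
    refine Finsupp.prod_congr fun s _ => ?_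
    rw [map_pow, map_pow, (coefIn_iff_map J _ _).mp (h s)]
  exact this e

open WithPiTopology in
theorem continuous_pderivT {σ : Type} [TopologicalSpace A] [IsTopologicalRing A] (s : σ) :
    Continuous (fun f : MvPowerSeries σ A => pderiv A s f) := by
  rw [continuous_iff_continuousAt]
  intro f
  rw [ContinuousAt, tendsto_iff_coeff_tendsto]
  intro d
  simp only [coeff_pderiv]
  exact ((continuous_coeff A (d + Finsupp.single s 1)).mul continuous_const).tendsto f

open WithPiTopology in
theorem dense_indT {σ τ : Type} [TopologicalSpace A] [DiscreteTopology A] (I : Ideal A)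
    (Φ : MvPowerSeries σ A → MvPowerSeries τ A) (hc : Continuous Φ)
    (hp : ∀ q : MvPolynomial σ A, CoefIn I (Φ q)) (f : MvPowerSeries σ A) : CoefIn I (Φ f) := by
  refine DenseRange.induction_on (p := fun f => CoefIn I (Φ f))
    (denseRange_toMvPowerSeries (σ := σ) (R := A)) f ?_ hp
  have : {f | CoefIn I (Φ f)} = ⋂ d, (fun f => coeff d (Φ f)) ⁻¹' (I : Set A) := by
    ext f; simp [CoefIn]
  rw [this]
  exact isClosed_iInter fun d =>
    (isClosed_discrete _).preimage ((continuous_coeff A d).comp hc)

open WithPiTopology in
theorem taylor_one {σ τ : Type} [Fintype σ] {I : Ideal A} (f : MvPowerSeries σ A)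
    {a δ : σ → MvPowerSeries τ A} (ha : HasSubst a) (hδ : HasSubst δ)
    (h : ∀ s, CoefIn I (δ s)) :
    CoefIn (I ^ 2) (subst (fun s => a s + δ s) f - subst a f -
      ∑ s, subst a (pderiv A s f) * δ s) := by
  classical
  have had : HasSubst (fun s => a s + δ s) := ha.add hδ
  let : UniformSpace A := ⊥
  refine dense_indT (I ^ 2) (fun f => subst (fun s => a s + δ s) f - subst a f -
      ∑ s, subst a (pderiv A s f) * δ s) ?_ ?_ f
  · refine ((continuous_subst had).sub (continuous_subst ha)).sub
      (continuous_finsetSum _ fun s _ => ?_)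
    exact ((continuous_subst ha).comp (continuous_pderivT s)).mul continuous_const
  · intro q
    induction q using MvPolynomial.induction_on with
    | C r =>
      have h0 : subst a (0 : MvPowerSeries σ A) = 0 := by
        rw [← substAlgHom_apply ha, map_zero]
      simp only [MvPolynomial.coe_C, subst_C, pderiv_C, h0, zero_mul, Finset.sum_const_zero,
        sub_self]
      exact CoefIn.zeroT _
    | add q r hq hr =>
      have := hq.addT hr
      simp only [MvPolynomial.coe_add, subst_add had, subst_add ha, map_add, add_mul,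
        Finset.sum_add_distrib]
      convert this using 1
      ring
    | mul_X q t hq =>
      have h1 : CoefIn (I ^ 2) ((∑ s, subst a (pderiv A s (q : MvPowerSeries σ A)) * δ s) * δ t) := by
        rw [pow_two]
        exact (CoefIn.sumT _ fun s _ => (h s).mul_left _).mul (h t)
      have := (hq.mul_rightT (a t + δ t)).addT h1
      have h2 : ∀ s, subst a (pderiv A s ((q : MvPowerSeries σ A) * X t)) * δ s =
          subst a (pderiv A s (q : MvPowerSeries σ A)) * δ s * a t +
            if s = t then subst a (q : MvPowerSeries σ A) * δ t else 0 := by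
        intro s
        rw [Derivation.leibniz, smul_eq_mul, smul_eq_mul, subst_add ha, subst_mul ha, subst_mul ha,
          subst_X ha]
        split_ifs with hs
        · subst hs
          rw [pderiv_X_self, ← substAlgHom_apply ha 1, map_one]
          ring
        · rw [pderiv_X_of_ne (Ne.symm hs), ← substAlgHom_apply ha 0, map_zero]
          ring
      simp only [MvPolynomial.coe_mul, MvPolynomial.coe_X, subst_mul had, subst_mul ha,
        subst_X had, subst_X ha, h2, Finset.sum_add_distrib, Finset.sum_ite_eq',
        Finset.mem_univ, if_true, ← Finset.sum_mul]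
      convert this using 1
      ring

open WithPiTopology in
theorem pderiv_subst {σ τ : Type} [Fintype σ] [Finite τ] (f : MvPowerSeries σ A)
    {a : σ → MvPowerSeries τ A} (ha : HasSubst a) (t : τ) :
    pderiv A t (subst a f) = ∑ s, subst a (pderiv A s f) * pderiv A t (a s) := by
  classical
  let : UniformSpace A := ⊥
  have key := dense_indT (⊥ : Ideal A) (fun f => pderiv A t (subst a f) -
      ∑ s, subst a (pderiv A s f) * pderiv A t (a s)) ?_ ?_ f
  · ext d
    have := key d
    rw [Ideal.mem_bot, map_sub, sub_eq_zero] at this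
    exact this
  · refine ((continuous_pderivT t).comp (continuous_subst ha)).sub
      (continuous_finsetSum _ fun s _ => ?_)
    exact ((continuous_subst ha).comp (continuous_pderivT s)).mul continuous_const
  · intro q
    suffices hq : pderiv A t (subst a (q : MvPowerSeries σ A)) =
        ∑ s, subst a (pderiv A s (q : MvPowerSeries σ A)) * pderiv A t (a s) by
      simp only [hq, sub_self]
      exact CoefIn.zeroT _
    induction q using MvPolynomial.induction_on with
    | C r =>
      have h0 : subst a (0 : MvPowerSeries σ A) = 0 := by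
        rw [← substAlgHom_apply ha, map_zero]
      simp only [MvPolynomial.coe_C, subst_C, pderiv_C, h0, zero_mul, Finset.sum_const_zero]
    | add q r hq hr =>
      simp only [MvPolynomial.coe_add, subst_add ha, map_add, add_mul,
        Finset.sum_add_distrib, hq, hr]
    | mul_X q u hq =>
      have h2 : ∀ s, subst a (pderiv A s ((q : MvPowerSeries σ A) * X u)) * pderiv A t (a s) =
          subst a (pderiv A s (q : MvPowerSeries σ A)) * pderiv A t (a s) * a u +
            if s = u then subst a (q : MvPowerSeries σ A) * pderiv A t (a u) else 0 := by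
        intro s
        rw [Derivation.leibniz, smul_eq_mul, smul_eq_mul, subst_add ha, subst_mul ha, subst_mul ha,
          subst_X ha]
        split_ifs with hs
        · subst hs
          rw [pderiv_X_self, ← substAlgHom_apply ha 1, map_one]
          ring
        · rw [pderiv_X_of_ne (Ne.symm hs), ← substAlgHom_apply ha 0, map_zero]
          ring
      simp only [MvPolynomial.coe_mul, MvPolynomial.coe_X, subst_mul ha,
        subst_X ha, h2, Finset.sum_add_distrib, Finset.sum_ite_eq',
        Finset.mem_univ, if_true, ← Finset.sum_mul]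
      rw [Derivation.leibniz, smul_eq_mul, smul_eq_mul, hq]
      ring

theorem pderiv_map {B : Type} [CommRing B] {σ : Type} (φ : A →+* B) (f : MvPowerSeries σ A)
    (t : σ) : pderiv B t (map φ f) = map φ (pderiv A t f) := by
  ext d
  rw [coeff_pderiv, coeff_map, coeff_map, coeff_pderiv, map_mul, map_add, map_natCast, map_one]

end Vale.Agent.P217
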