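import Vale.Agent.P217.Laz
import Vale.Agent.P217.Lead
import Vale.Agent.P217.MkH
import Vale.Agent.P217.Tay

namespace Vale.Agent.P217

open MvPowerSeries

variable {p n : ℕ} [Fact p.Prime] {F : FormalGroup (E0 p n)}

variable {A : Type} [CommRing A]

open Classical in
/-- the degree of the pivot attached to `X ^ d` -/
noncomputable def dl_H2U (p n d : ℕ) : ℕ := if ∃ s, d = p ^ s then d * p ^ n else d

theorem dl_ge_H2U (d : ℕ) : d ≤ dl_H2U p n d := by
  have hp : p.Prime := Fact.out
  unfold dl_H2U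
  split_ifs
  · exact Nat.le_mul_of_pos_right _ (pow_pos hp.pos n)
  · exact le_rfl

theorem dl_inj_H2U {d d' : ℕ} (h : dl_H2U p n d = dl_H2U p n d') : d = d' := by
  have hp : p.Prime := Fact.out
  unfold dl_H2U at h
  split_ifs at h with h1 h2 h2
  · exact Nat.eq_of_mul_eq_mul_right (pow_pos hp.pos n) h
  · obtain ⟨s, rfl⟩ := h1
    exact absurd ⟨s + n, by rw [← h, pow_add]⟩ h2
  · obtain ⟨s, rfl⟩ := h2
    exact absurd ⟨s + n, by rw [h, pow_add]⟩ h1
  · exact h

theorem dl_ne_H2U (d : ℕ) (i : Fin (n - 1)) : dl_H2U p n d ≠ p ^ ((i : ℕ) + 1) := by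
  have hp : p.Prime := Fact.out
  intro h
  unfold dl_H2U at h
  split_ifs at h with h1
  · obtain ⟨s, rfl⟩ := h1
    rw [← pow_add] at h
    have := Nat.pow_right_injective hp.two_le h
    have := i.2
    omega
  · exact h1 ⟨_, h⟩

theorem order_pow_H2U {κ : Type} [Field κ] {f : MvPowerSeries (Fin 2) κ} {a : ℕ}
    (hf : f.order = (a : ℕ∞)) (k : ℕ) : (f ^ k).order = ((k * a : ℕ) : ℕ∞) := by
  induction k with
  | zero =>
    rw [pow_zero, zero_mul]
    exact weightedOrder_one _
  | succ k ih =>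
    rw [pow_succ, order_mul, ih, hf]
    push_cast
    ring

theorem IsLT.cd_order_H2U (hF : IsLT p n F) (hn : 1 ≤ n) {d : ℕ} (hd : 1 ≤ d) :
    (map (res p n) (F.toPowerSeries ^ d - X 0 ^ d - X 1 ^ d)).order =
      ((dl_H2U p n d : ℕ) : ℕ∞) := by
  have e : map (res p n) (F.toPowerSeries ^ d - X 0 ^ d - X 1 ^ d) =
      (Gk p n F).toPowerSeries ^ d - X 0 ^ d - X 1 ^ d := by
    rw [map_sub, map_sub, map_pow, map_pow, map_pow, map_X, map_X, FormalGroup.map_toPowerSeries]
  rw [e]
  unfold dl_H2U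
  split_ifs with h
  · obtain ⟨s, rfl⟩ := h
    haveI : CharP (MvPowerSeries (Fin 2) (kk p n)) p :=
      charP_of_injective_ringHom (f := (C : kk p n →+* MvPowerSeries (Fin 2) (kk p n)))
        C_injective p
    rw [← sub_pow_char_pow, ← sub_pow_char_pow]
    exact order_pow_H2U (hF.Gk_lead hn) _
  · have h2 : 2 ≤ d := by
      rcases Nat.lt_or_ge d 2 with h2 | h2
      · exact absurd ⟨0, by rw [pow_zero]; omega⟩ h
      · exact h2
    obtain ⟨i, hi1, hi2, hi⟩ := exists_choose_ne (κ := kk p n) p d h2 (fun s hs => h ⟨s, hs⟩)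
    have h1 := pow_lead_Lead (Gk p n F) hd
    rw [order_eq_nat]
    constructor
    · have hdeg : Finsupp.degree (Finsupp.single 0 i + Finsupp.single 1 (d - i) :
          Fin 2 →₀ ℕ) = d := by
        rw [deg2_Lead]
        simp
        omega
      refine ⟨_, ?_, hdeg⟩
      have h3 := ordI_coeff_Lead h1 (hdeg.trans_lt (Nat.lt_succ_self _))
      rw [map_sub, BB_coeff_Lead hi1 hi2, sub_eq_zero] at h3
      rwa [h3]
    · intro m hm
      have h3 := ordI_coeff_Lead h1 (hm.trans (Nat.lt_succ_self _))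
      rwa [map_sub, ordI_coeff_Lead (BB_mem_Lead _) hm, sub_zero] at h3

theorem piv_H2U {a M : Ideal A} (haM : a * M = ⊥) {ψ : E0 p n →+* A} (hψ : Cts p n a ψ)
    {c : MvPowerSeries (Fin 2) (E0 p n)} {D : ℕ} (hc : (map (res p n) c).order = (D : ℕ∞)) :
    (∀ t ∈ M, ∀ m, Finsupp.degree m < D → coeff m (C t * map ψ c) = 0) ∧
      ∃ m, Finsupp.degree m = D ∧ ∀ t, coeff m (C t * map ψ c) = 0 → t = 0 := by
  obtain ⟨⟨m, hm, hmD⟩, h⟩ := order_eq_nat.mp hc
  refine ⟨fun t ht m hm => ?_, m, hmD, fun t ht => ?_⟩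
  · have h1 : coeff m c ∈ mm p n := by
      have := h m hm
      rw [coeff_map] at this
      exact this
    have h2 := Ideal.mul_mem_mul (hψ _ h1) ht
    rw [haM, Ideal.mem_bot] at h2
    rw [coeff_C_mul, coeff_map, mul_comm, h2]
  · rw [coeff_map] at hm
    have hu : IsUnit (ψ (coeff m c)) := ((isUnit_iff_res p n _).mpr hm).map ψ
    rw [coeff_C_mul, coeff_map] at ht
    exact hu.mul_left_eq_zero.mp ht

theorem cob_sum_H2U (G : FormalGroup A) (t : ℕ → A) (N : ℕ) :
    cob G (∑ d ∈ Finset.range N, PowerSeries.C (t d) * PowerSeries.X ^ d) =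
      ∑ d ∈ Finset.range N, C (t d) * (G.toPowerSeries ^ d - X 0 ^ d - X 1 ^ d) := by
  induction N with
  | zero =>
    have := cob_mono_Lead G 0 0
    simpa using this
  | succ N ih => rw [Finset.sum_range_succ, Finset.sum_range_succ, cob_add_Lead, ih, cob_mono_Lead]

theorem IsLT.h2_unique (hF : IsLT p n F) (hn : 1 ≤ n) (a M : Ideal A) (hp : (p : A) ∈ a)
    (haM : a * M = ⊥) (ψ : E0 p n →+* A) (hψ : Cts p n a ψ) (ε : Fin (n - 1) → A)
    (e : PowerSeries A) (hε : ∀ i, ε i ∈ M) (he : CoefIn M e)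
    (he0 : PowerSeries.constantCoeff e = 0)
    (h : cob (F.map ψ) e = ∑ i, C (ε i) * map ψ (cE p n F i)) : (∀ i, ε i = 0) ∧ e = 0 := by
  have hpp : p.Prime := Fact.out
  have he' : ∀ d, PowerSeries.coeff d e ∈ M := fun d => he _
  have he0' : PowerSeries.coeff 0 e = 0 := by
    rw [PowerSeries.coeff_zero_eq_constantCoeff_apply, he0]
  have star : ∀ (D : ℕ) (m : Fin 2 →₀ ℕ), Finsupp.degree m = D →
      ∑ d ∈ Finset.range (D + 1), coeff m (C (PowerSeries.coeff d e) *
        map ψ (F.toPowerSeries ^ d - X 0 ^ d - X 1 ^ d)) =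
      ∑ i, coeff m (C (ε i) * map ψ (cE p n F i)) := by
    intro D m hm
    have hdv : PowerSeries.X ^ (D + 1) ∣ e - ∑ d ∈ Finset.range (D + 1),
        PowerSeries.C (PowerSeries.coeff d e) * PowerSeries.X ^ d := by
      rw [PowerSeries.X_pow_dvd_iff]
      intro k hk
      rw [map_sub, map_sum, Finset.sum_eq_single k]
      · simp
      · intro d _ hd
        rw [PowerSeries.coeff_C_mul, PowerSeries.coeff_X_pow, if_neg (Ne.symm hd), mul_zero]
      · intro hk'
        exact absurd (Finset.mem_range.mpr hk) hk'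
    have h1 := ordI_coeff_Lead (cob_mem_Lead (F.map ψ) hdv) (hm.trans_lt (Nat.lt_succ_self D))
    have h2 : cob (F.map ψ) e = cob (F.map ψ) (e - ∑ d ∈ Finset.range (D + 1),
        PowerSeries.C (PowerSeries.coeff d e) * PowerSeries.X ^ d) +
        ∑ d ∈ Finset.range (D + 1), C (PowerSeries.coeff d e) *
          ((F.map ψ).toPowerSeries ^ d - X 0 ^ d - X 1 ^ d) := by
      rw [← cob_sum_H2U, ← cob_add_Lead, sub_add_cancel]
    rw [← map_sum (coeff m) _ Finset.univ, ← h, h2, map_add, h1, zero_add, map_sum]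
    refine Finset.sum_congr rfl fun d _ => ?_
    rw [map_sub, map_sub, map_pow, map_pow, map_pow, map_X, map_X, FormalGroup.map_toPowerSeries]
  have key : ∀ D : ℕ, (∀ d, 1 ≤ d → dl_H2U p n d = D → PowerSeries.coeff d e = 0) ∧
      (∀ i : Fin (n - 1), p ^ ((i : ℕ) + 1) = D → ε i = 0) := by
    intro D
    induction D using Nat.strong_induction_on with
    | _ D ih =>
      have t1 : ∀ m : Fin 2 →₀ ℕ, Finsupp.degree m = D → ∀ d, dl_H2U p n d ≠ D ∨ d = 0 →
          coeff m (C (PowerSeries.coeff d e) *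
            map ψ (F.toPowerSeries ^ d - X 0 ^ d - X 1 ^ d)) = 0 := by
        intro m hm d hd
        rcases Nat.eq_zero_or_pos d with rfl | hd1
        · rw [he0', map_zero, zero_mul, map_zero]
        have hd' : dl_H2U p n d ≠ D := hd.resolve_right hd1.ne'
        rcases lt_or_gt_of_ne hd' with hl | hl
        · rw [(ih _ hl).1 d hd1 rfl, map_zero, zero_mul, map_zero]
        · exact (piv_H2U haM hψ (hF.cd_order_H2U hn hd1)).1 _ (he' d) m (hm ▸ hl)
      have t2 : ∀ m : Fin 2 →₀ ℕ, Finsupp.degree m = D → ∀ i : Fin (n - 1),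
          p ^ ((i : ℕ) + 1) ≠ D → coeff m (C (ε i) * map ψ (cE p n F i)) = 0 := by
        intro m hm i hi
        rcases lt_or_gt_of_ne hi with hl | hl
        · rw [(ih _ hl).2 i rfl, map_zero, zero_mul, map_zero]
        · exact (piv_H2U haM hψ (hF.cE_lead hn i)).1 _ (hε i) m (hm ▸ hl)
      constructor
      · intro d hd hD
        obtain ⟨m, hm, hm'⟩ := (piv_H2U haM hψ (hF.cd_order_H2U hn hd)).2
        rw [hD] at hm
        apply hm'
        have h1 := star D m hm
        rw [Finset.sum_eq_single d, Finset.sum_eq_zero] at h1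
        · exact h1
        · intro i _
          exact t2 m hm i (by rw [← hD]; exact (dl_ne_H2U d i).symm)
        · intro d' _ hd'
          exact t1 m hm d' (Or.inl fun hh => hd' (dl_inj_H2U (hh.trans hD.symm)))
        · intro hh
          have := dl_ge_H2U (p := p) (n := n) d
          exact absurd (Finset.mem_range.mpr (by omega)) hh
      · intro i hD
        obtain ⟨m, hm, hm'⟩ := (piv_H2U haM hψ (hF.cE_lead hn i)).2
        rw [hD] at hm
        apply hm'
        have h1 := star D m hm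
        rw [Finset.sum_eq_zero, Finset.sum_eq_single i] at h1
        · exact h1.symm
        · intro i' _ hi'
          refine t2 m hm i' fun hh => hi' ?_
          have := Nat.pow_right_injective hpp.two_le (hh.trans hD.symm)
          exact Fin.ext (by omega)
        · intro hh
          exact absurd (Finset.mem_univ i) hh
        · intro d _
          exact t1 m hm d (Or.inl (by rw [← hD]; exact dl_ne_H2U d i))
  refine ⟨fun i => (key _).2 i rfl, PowerSeries.ext fun d => ?_⟩
  rw [map_zero]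
  rcases Nat.eq_zero_or_pos d with rfl | hd
  · exact he0'
  · exact (key _).1 d hd rfl

end Vale.Agent.P217
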