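import Vale.Agent.P217.StA
import Vale.Agent.P217.H2U
import Vale.Agent.P217.Iso

namespace Vale.Agent.P217

open MvPowerSeries

variable {p n : ℕ} [Fact p.Prime] {F : FormalGroup (E0 p n)}

variable {A : Type} [CommRing A]

theorem coefIn_zero_LTU {σ : Type} (I : Ideal A) : CoefIn I (0 : MvPowerSeries σ A) :=
  fun d => by simp

theorem coefIn_sum_LTU {σ ι : Type} (I : Ideal A) (s : Finset ι) (f : ι → MvPowerSeries σ A)
    (h : ∀ i ∈ s, CoefIn I (f i)) : CoefIn I (∑ i ∈ s, f i) := fun d => by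
  rw [map_sum]; exact I.sum_mem fun i hi => h i hi d

theorem coefIn_C_mul_LTU {σ : Type} (I : Ideal A) {x : A} (hx : x ∈ I) (f : MvPowerSeries σ A) :
    CoefIn I (C x * f) := fun d => by
  rw [coeff_C_mul]; exact I.mul_mem_right _ hx

theorem X_mem_mm_LTU (i : Fin (n - 1)) : (X i : E0 p n) ∈ mm p n := by
  rw [mm, RingHom.mem_ker, res]
  simp

theorem map_cE_LTU (ψ : E0 p n →+* A) (i : Fin (n - 1)) :
    map ψ (cE p n F i) =
      PowerSeries.subst (F.map ψ).toPowerSeries (PowerSeries.map ψ (wE p n)) *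
        map ψ (dF p n F i) := by
  rw [cE, map_mul, PowerSeries.map_subst
    (PowerSeries.HasSubst.of_constantCoeff_zero F.zero_constantCoeff)]
  rfl

theorem step0_LTU (hF : IsLT p n F) (hn : 1 ≤ n) (a M : Ideal A) [IsHausdorff a A]
    (hp : (p : A) ∈ a) (haM : a * M = ⊥) (hM : M ^ 2 = ⊥) {ψ ψ' : E0 p n →+* A}
    (hψ : Cts p n a ψ) (hψ' : Cts p n a ψ') (hC : ∀ w, ψ' (C w) = ψ (C w)) {e : PowerSeries A}
    (hφ : IsHom (F.map ψ) (F.map ψ') (PowerSeries.X + e)) (he : CoefIn M e)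
    (h : ∀ i, ψ' (X i) - ψ (X i) ∈ M) : (∀ i, ψ' (X i) - ψ (X i) = 0) ∧ e = 0 := by
  have he0 : PowerSeries.constantCoeff e = 0 := by
    have := hφ.1
    simpa using this
  have hd := map_diff (F := F) a M hM hψ hψ' hC h
  have hG' : CoefIn M ((F.map ψ').toPowerSeries - (F.map ψ).toPowerSeries) := by
    rw [hd]
    exact coefIn_sum_LTU _ _ _ fun i _ => coefIn_C_mul_LTU _ (h i) _
  have h1 := (hF.hom_iff M hM ψ (F.map ψ) (F.map ψ') (by rw [sub_self]; exact coefIn_zero_LTU _)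
    hG' e he he0).1 hφ
  rw [hd, Finset.mul_sum] at h1
  have h2 : cob (F.map ψ) (PowerSeries.map ψ (wE p n) * e) =
      ∑ i, C (ψ' (X i) - ψ (X i)) * map ψ (cE p n F i) := by
    rw [h1]
    refine Finset.sum_congr rfl fun i _ => ?_
    rw [map_cE_LTU]; ring
  obtain ⟨h3, h4⟩ := hF.h2_unique hn a M hp haM ψ hψ _ _ h (CoefIn.mul_left _ he)
    (by rw [map_mul, he0, mul_zero]) h2
  refine ⟨h3, ?_⟩
  have hu : IsUnit (PowerSeries.map ψ (wE p n)) := by
    rw [PowerSeries.isUnit_iff_constantCoeff, ← PowerSeries.coeff_zero_eq_constantCoeff_apply,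
      PowerSeries.coeff_map, PowerSeries.coeff_zero_eq_constantCoeff_apply, wE_const, map_one]
    exact isUnit_one
  exact (hu.mul_right_eq_zero).1 h4

theorem step_LTU (hF : IsLT p n F) (hn : 1 ≤ n) (a : Ideal A)
    (hp : (p : A) ∈ a) {ψ ψ' : E0 p n →+* A} (hψ : Cts p n a ψ) (hψ' : Cts p n a ψ')
    (hC : ∀ w, ψ' (C w) = ψ (C w)) {φ : PowerSeries A} (hφ : IsHom (F.map ψ) (F.map ψ') φ)
    (N : ℕ) (he : CoefIn (a ^ (N + 1)) (φ - PowerSeries.X))
    (h : ∀ i, ψ' (X i) - ψ (X i) ∈ a ^ (N + 1)) :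
    (∀ i, ψ' (X i) - ψ (X i) ∈ a ^ (N + 2)) ∧ CoefIn (a ^ (N + 2)) (φ - PowerSeries.X) := by
  set π := Ideal.Quotient.mk (a ^ (N + 2)) with hπ
  have hz : ∀ k, N + 2 ≤ k → (a.map π) ^ k = ⊥ := fun k hk => by
    rw [← Ideal.map_pow, Ideal.map_eq_bot_iff_le_ker, hπ, Ideal.mk_ker]
    exact Ideal.pow_le_pow_right hk
  haveI := nilp_complete (a.map π) (N + 2) (hz _ le_rfl)
  have hφ' := hφ.map π
  rw [fg_map_map, fg_map_map] at hφ'
  have hφe : PowerSeries.map π φ = PowerSeries.X + PowerSeries.map π (φ - PowerSeries.X) := by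
    rw [map_sub, PowerSeries.map_X]; ring
  rw [hφe] at hφ'
  obtain ⟨h1, h2⟩ := step0_LTU hF hn (a.map π) ((a.map π) ^ (N + 1))
    (by rw [← map_natCast π]; exact Ideal.mem_map_of_mem _ hp)
    (by rw [← pow_succ']; exact hz _ le_rfl) (by rw [← pow_mul]; exact hz _ (by omega))
    (ψ := π.comp ψ) (ψ' := π.comp ψ')
    (fun x hx => Ideal.mem_map_of_mem _ (hψ x hx)) (fun x hx => Ideal.mem_map_of_mem _ (hψ' x hx))
    (fun w => by simp only [RingHom.comp_apply, hC]) hφ'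
    (fun d => by
      rw [← Ideal.map_pow]
      exact Ideal.mem_map_of_mem π (he d))
    (fun i => by
      rw [← Ideal.map_pow]
      simp only [RingHom.comp_apply, ← map_sub]
      exact Ideal.mem_map_of_mem π (h i))
  refine ⟨fun i => ?_, fun d => ?_⟩
  · have := h1 i
    simp only [RingHom.comp_apply, ← map_sub] at this
    exact Ideal.Quotient.eq_zero_iff_mem.1 this
  · have := congrArg (coeff d) h2
    exact Ideal.Quotient.eq_zero_iff_mem.1 this

theorem IsLT.lt_unique (hF : IsLT p n F) (hn : 1 ≤ n) (a : Ideal A) [IsHausdorff a A]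
    (hp : (p : A) ∈ a) {ψ ψ' : E0 p n →+* A} (hψ : Cts p n a ψ) (hψ' : Cts p n a ψ')
    (hC : ∀ w, ψ' (C w) = ψ (C w)) {φ : PowerSeries A} (hφ : IsHom (F.map ψ) (F.map ψ') φ)
    (hX : PowerSeries.map (Ideal.Quotient.mk a) φ = PowerSeries.X) :
    ψ' = ψ ∧ φ = PowerSeries.X := by
  have key : ∀ N : ℕ, (∀ i, ψ' (X i) - ψ (X i) ∈ a ^ (N + 1)) ∧
      CoefIn (a ^ (N + 1)) (φ - PowerSeries.X) := by
    intro N
    induction N with
    | zero =>
      rw [zero_add, pow_one]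
      refine ⟨fun i => a.sub_mem (hψ' _ (X_mem_mm_LTU i)) (hψ _ (X_mem_mm_LTU i)), ?_⟩
      refine (coefIn_iff_map a _ _).2 ?_
      exact hX.trans (PowerSeries.map_X _).symm
    | succ N ih => exact step_LTU hF hn a hp hψ hψ' hC hφ N ih.2 ih.1
  have haus : ∀ x : A, (∀ N, x ∈ a ^ (N + 1)) → x = 0 := fun x hx => by
    refine IsHausdorff.haus (I := a) inferInstance x fun N => ?_
    rw [SModEq.zero, smul_eq_mul, Ideal.mul_top]
    exact Ideal.pow_le_pow_right (Nat.le_succ N) (hx N)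
  refine ⟨hom_ext hψ hψ' hC fun i => sub_eq_zero.1 (haus _ fun N => (key N).1 i), ?_⟩
  refine sub_eq_zero.1 (MvPowerSeries.ext fun d => ?_)
  exact haus _ fun N => (key N).2 d

end Vale.Agent.P217
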