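import Vale.Agent.P217.LTS
import Vale.Agent.P217.LTU

namespace Vale.Agent.P217

open MvPowerSeries

variable {p n : ℕ} [Fact p.Prime] {F : FormalGroup (E0 p n)}


section
variable {A : Type} [CommRing A]

theorem lte_cts {B : Type} [CommRing B] {a : Ideal A} {ψ : E0 p n →+* A} (hψ : Cts p n a ψ)
    (f : A →+* B) : Cts p n (a.map f) (f.comp ψ) := fun x hx => Ideal.mem_map_of_mem f (hψ x hx)

theorem lte_mm {B D : Type} [CommRing B] [CommRing D] (f : A →+* B) (g : B →+* D)
    (φ : PowerSeries A) : PowerSeries.map g (PowerSeries.map f φ) = PowerSeries.map (g.comp f) φ :=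
  rfl

theorem lte_pow (a : Ideal A) {N : ℕ} : (a.map (Ideal.Quotient.mk (a ^ N))) ^ N = ⊥ := by
  rw [← Ideal.map_pow, Ideal.map_quotient_self]

theorem lte_lim {ι : Type} (a : Ideal A) [IsAdicComplete a A] (x : ℕ → ι → A)
    (h : ∀ N i, x (N + 1) i - x N i ∈ a ^ (N + 1)) : ∃ y : ι → A, ∀ N i, y i - x N i ∈ a ^ (N + 1) := by
  have key : ∀ i m k, m ≤ k → x k i - x m i ∈ a ^ (m + 1) := fun i m k hk => by
    induction k, hk using Nat.le_induction with
    | base => simp
    | succ k hk ih =>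
      rw [← sub_add_sub_cancel _ (x k i)]
      exact add_mem (Ideal.pow_le_pow_right (by omega) (h k i)) ih
  choose y hy using fun i => IsPrecomplete.prec (I := a) inferInstance (f := fun N => x N i)
    fun {m k} hk => by
      rw [smul_eq_mul, Ideal.mul_top, SModEq.sub_mem, ← neg_sub]
      exact neg_mem (Ideal.pow_le_pow_right (by omega) (key i m k hk))
  refine ⟨y, fun N i => ?_⟩
  have := hy i (N + 1)
  rw [smul_eq_mul, Ideal.mul_top, SModEq.sub_mem] at this
  rw [← sub_add_sub_cancel _ (x (N + 1) i), ← neg_sub]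
  exact add_mem (neg_mem this) (h N i)

theorem lte_hom (a : Ideal A) [IsHausdorff a A] {G G' : FormalGroup A} {φ : PowerSeries A}
    (h0 : PowerSeries.constantCoeff φ = 0)
    (h : ∀ N, IsHom (G.map (Ideal.Quotient.mk (a ^ (N + 1))))
      (G'.map (Ideal.Quotient.mk (a ^ (N + 1))))
      (PowerSeries.map (Ideal.Quotient.mk (a ^ (N + 1))) φ)) : IsHom G G' φ := by
  refine ⟨h0, sub_eq_zero.1 (MvPowerSeries.ext fun d => IsHausdorff.haus (I := a) inferInstance _
    fun N => ?_)⟩
  rw [smul_eq_mul, Ideal.mul_top, SModEq.zero]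
  refine Ideal.pow_le_pow_right N.le_succ ((coefIn_iff_map _ _ _).2 ?_ d)
  rw [PowerSeries.map_subst (PowerSeries.HasSubst.of_constantCoeff_zero G.zero_constantCoeff),
    map_subst (hasSubst_of_constantCoeff_zero fun i => by
      fin_cases i <;> exact PowerSeries.constantCoeff_subst_eq_zero (by simp) φ h0)]
  refine (h N).2.trans ?_
  congr 1
  funext i
  fin_cases i
  · simp [PowerSeries.map_subst (PowerSeries.HasSubst.X _)]
  · simp [PowerSeries.map_subst (PowerSeries.HasSubst.X _)]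

/-- approximate solutions -/
def LteP (F : FormalGroup (E0 p n)) (a : Ideal A) (j : WW p n →+* A) (G : FormalGroup A) (N : ℕ)
    (z : (E0 p n →+* A) × PowerSeries A) : Prop :=
  (∀ w, z.1 (C w) = j w) ∧ Cts p n a z.1 ∧ PowerSeries.constantCoeff z.2 = 0 ∧
    PowerSeries.map (Ideal.Quotient.mk a) z.2 = PowerSeries.X ∧
    IsHom ((F.map z.1).map (Ideal.Quotient.mk (a ^ (N + 1))))
      (G.map (Ideal.Quotient.mk (a ^ (N + 1))))
      (PowerSeries.map (Ideal.Quotient.mk (a ^ (N + 1))) z.2)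

theorem lte_X {a : Ideal A} {ψ : E0 p n →+* A} (hψ : Cts p n a ψ) (i : Fin (n - 1)) :
    ψ (X i) ∈ a := hψ _ (by
  rw [mm_eq]
  exact Ideal.subset_span (Or.inr ⟨i, rfl⟩))

theorem lte_ext {a : Ideal A} {N : ℕ} {ψ : E0 p n →+* A} {ψ' : E0 p n →+* A ⧸ a ^ N}
    (hψ : Cts p n a ψ) (hψ' : Cts p n (a.map (Ideal.Quotient.mk _)) ψ')
    (hC : ∀ w, ψ' (C w) = Ideal.Quotient.mk _ (ψ (C w)))
    (h : ∀ i, ψ' (X i) = Ideal.Quotient.mk _ (ψ (X i))) :
    ψ' = (Ideal.Quotient.mk (a ^ N)).comp ψ := by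
  have := nilp_complete _ N (lte_pow a)
  exact hom_ext (lte_cts hψ _) hψ' hC h

theorem lte_step (hF : IsLT p n F) (hn : 1 ≤ n) (a : Ideal A) [IsAdicComplete a A]
    (j : WW p n →+* A) (G : FormalGroup A) [G.IsComm] (hp : (p : A) ∈ a) (N : ℕ)
    (z : (E0 p n →+* A) × PowerSeries A) (h : LteP F a j G N z) :
    ∃ z', LteP F a j G (N + 1) z' ∧ (∀ i, z'.1 (X i) - z.1 (X i) ∈ a ^ (N + 1)) ∧
      ∀ d, PowerSeries.coeff d z'.2 - PowerSeries.coeff d z.2 ∈ a ^ (N + 1) := by
  obtain ⟨ψ, φ⟩ := z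
  obtain ⟨h1, h2, h3, h4, h5⟩ := h
  let π := Ideal.Quotient.mk (a ^ (N + 1 + 1))
  have hk : ∀ I : Ideal A, ∀ x ∈ I, (Ideal.Quotient.mk (I.map π)).comp π x = 0 := fun I x hx =>
    Ideal.Quotient.eq_zero_iff_mem.2 (Ideal.mem_map_of_mem π hx)
  have hle : a ^ (N + 1) ≤ a := Ideal.pow_le_self N.succ_ne_zero
  obtain ⟨ψ', φ', k1, k2, k3, k4, k5⟩ := hF.lt_step hn (a.map π) ((a ^ (N + 1)).map π) _ (lte_pow a)
    (by simpa using Ideal.mem_map_of_mem π hp)
    (by rw [← Ideal.map_mul, ← pow_succ', Ideal.map_quotient_self]) (Ideal.map_mono hle)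
    (π.comp ψ) (lte_cts h2 π) (G.map π) (PowerSeries.map π φ)
    (by
      rw [← PowerSeries.coeff_zero_eq_constantCoeff_apply, PowerSeries.coeff_map,
        PowerSeries.coeff_zero_eq_constantCoeff_apply, h3, map_zero])
    (by
      have := congrArg (PowerSeries.map (Ideal.Quotient.lift a _ (hk a))) h4
      rwa [PowerSeries.map_X, lte_mm, Ideal.Quotient.lift_comp_mk, ← lte_mm] at this)
    (by
      have := h5.map (Ideal.Quotient.lift _ _ (hk (a ^ (N + 1))))
      rwa [lte_mm, fg_map_map, fg_map_map G, Ideal.Quotient.lift_comp_mk, ← lte_mm, ← fg_map_map,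
        ← fg_map_map G, fg_map_map F] at this)
  choose ε e1 e2 using fun i =>
    (Ideal.mem_map_iff_of_surjective π Ideal.Quotient.mk_surjective).1 (k3 i)
  choose δ d1 d2 using fun d : ℕ => (Ideal.mem_map_iff_of_surjective π
    Ideal.Quotient.mk_surjective).1 (k4 (Finsupp.single () d))
  obtain ⟨χ, c1, c2, c3⟩ := exists_mkHom a j hp (fun i => ψ (X i) + ε i) fun i =>
    a.add_mem (lte_X h2 i) (hle (e1 i))
  have hδ : ∀ d, PowerSeries.coeff d (PowerSeries.mk fun d => if d = 0 then 0 else δ d) ∈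
      a ^ (N + 1) := fun d => by
    rw [PowerSeries.coeff_mk]
    split_ifs
    exacts [zero_mem _, d1 d]
  refine ⟨(χ, φ + PowerSeries.mk fun d => if d = 0 then 0 else δ d), ⟨c1, c3, ?_, ?_, ?_⟩,
    fun i => by simpa [c2] using e1 i, fun d => by simpa only [map_add, add_sub_cancel_left] using hδ d⟩
  · simpa using h3
  · rw [map_add, h4, add_eq_left]
    exact PowerSeries.ext fun d => Ideal.Quotient.eq_zero_iff_mem.2 (hle (hδ d))
  · rw [fg_map_map, ← lte_ext c3 k1 (fun w => by rw [k2, c1]; exact congrArg π (h1 w)) fun i => by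
      rw [c2, map_add, e2]
      exact (add_sub_cancel _ _).symm]
    convert k5 using 1
    ext d
    rw [map_add, map_add, PowerSeries.coeff_map _ d (PowerSeries.mk _), PowerSeries.coeff_mk]
    split_ifs with hd
    · rw [hd, PowerSeries.coeff_map, PowerSeries.coeff_zero_eq_constantCoeff_apply,
        PowerSeries.coeff_zero_eq_constantCoeff_apply, h3, k5.1, map_zero, add_zero]
    · rw [d2, map_sub]
      exact add_sub_cancel _ _

end
theorem IsLT.universal (hF : IsLT p n F) (hn : 1 ≤ n) : IsUniversal p n F := by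
  intro A _ a _ j G hp hc hG
  refine existsUnique_of_exists_of_unique ?_ ?_
  · obtain ⟨ψ₀, a1, a2, a3⟩ := exists_mkHom a j hp (fun _ => 0) fun _ => a.zero_mem
    have h0 : LteP F a j G 0 (ψ₀, PowerSeries.X) := by
      refine ⟨a1, a3, PowerSeries.constantCoeff_X, PowerSeries.map_X _, ?_⟩
      have e : G.map (Ideal.Quotient.mk a) = (F.map ψ₀).map (Ideal.Quotient.mk a) := by
        rw [hG, fg_map_map]
        congr 1
        refine RingHom.ext fun f => ?_
        have := cts_sub_C a3 f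
        rw [a1] at this
        exact (Ideal.Quotient.eq.2 this).symm
      have key : ∀ I : Ideal A, I = a → IsHom ((F.map ψ₀).map (Ideal.Quotient.mk I))
          (G.map (Ideal.Quotient.mk I)) (PowerSeries.map (Ideal.Quotient.mk I) PowerSeries.X) := by
        rintro I rfl
        rw [PowerSeries.map_X, e]
        exact isHom_X _
      exact key _ (pow_one a)
    choose! st s1 s2 s3 using lte_step hF hn a j G hp
    let z : ℕ → (E0 p n →+* A) × PowerSeries A := fun N => Nat.rec (ψ₀, PowerSeries.X) st N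
    have hz : ∀ N, LteP F a j G N (z N) := fun N => Nat.rec h0 (fun N ih => s1 N _ ih) N
    obtain ⟨x, hx⟩ := lte_lim a (fun N i => (z N).1 (X i)) fun N i => s2 N _ (hz N) i
    obtain ⟨y, hy⟩ := lte_lim a (fun N d => PowerSeries.coeff d (z N).2) fun N d => s3 N _ (hz N) d
    obtain ⟨ψ, b1, b2, b3⟩ := exists_mkHom a j hp x fun i => by
      have := hx 0 i
      rw [zero_add, pow_one] at this
      simpa using a.add_mem this (lte_X (hz 0).2.1 i)
    have hm : ∀ N, PowerSeries.map (Ideal.Quotient.mk (a ^ (N + 1))) (PowerSeries.mk y) =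
        PowerSeries.map (Ideal.Quotient.mk (a ^ (N + 1))) (z N).2 := fun N =>
      PowerSeries.ext fun d => Ideal.Quotient.eq.2 (by simpa using hy N d)
    refine ⟨ψ, b1, b3, PowerSeries.mk y, lte_hom a ?_ fun N => ?_, ?_⟩
    · refine IsHausdorff.haus (I := a) inferInstance _ fun N => ?_
      have := hy N 0
      rw [PowerSeries.coeff_zero_eq_constantCoeff_apply, (hz N).2.2.1, sub_zero] at this
      rw [smul_eq_mul, Ideal.mul_top, SModEq.zero]
      exact Ideal.pow_le_pow_right N.le_succ this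
    · rw [hm, fg_map_map, ← lte_ext b3 (lte_cts (hz N).2.1 _) (fun w => by
        rw [b1]; exact congrArg _ ((hz N).1 w)) fun i => by
          rw [b2]; exact (Ideal.Quotient.eq.2 (hx N i)).symm, ← fg_map_map]
      exact (hz N).2.2.2.2
    · refine Eq.trans (PowerSeries.ext fun d => Ideal.Quotient.eq.2 ?_) (hz 0).2.2.2.1
      simpa using hy 0 d
  · rintro ψ ψ' ⟨a1, a2, φ, a3, a4⟩ ⟨b1, b2, φ', b3, b4⟩
    have hu := lts_coeff_one b4
    refine (hF.lt_unique hn a hp a2 b2 (fun w => (b1 w).trans (a1 w).symm)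
      (a3.comp (lts_inv b3 hu)) ?_).1.symm
    have e1 := PowerSeries.map_subst (h := Ideal.Quotient.mk a)
      (PowerSeries.HasSubst.of_constantCoeff_zero' a3.1) (φ'.substInvOfIsUnit hu)
    have e2 := PowerSeries.map_subst (h := Ideal.Quotient.mk a)
      (PowerSeries.HasSubst.of_constantCoeff_zero' b3.1) (φ'.substInvOfIsUnit hu)
    rw [PowerSeries.subst_substInvOfIsUnit_left φ' b3.1 hu] at e2
    refine e1.trans (Eq.trans ?_ (e2.symm.trans (PowerSeries.map_X _)))
    exact congrArg (fun t => PowerSeries.subst t _) (a4.trans b4.symm)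

end Vale.Agent.P217
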