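import Vale.Agent.P217.FEq
import Vale.Agent.P217.Cpl

namespace Vale.Agent.P217

open MvPowerSeries

section general
variable {A : Type} [CommRing A]

theorem hs2_Pser {a b : PowerSeries A} (ha : PowerSeries.constantCoeff a = 0)
    (hb : PowerSeries.constantCoeff b = 0) : HasSubst ![a, b] :=
  hasSubst_of_constantCoeff_zero fun s => by
    fin_cases s
    · exact ha
    · exact hb

theorem subst_psubst_Pser {σ τ : Type} {a : MvPowerSeries σ A} (ha : PowerSeries.HasSubst a)
    {b : σ → MvPowerSeries τ A} (hb : HasSubst b) (f : PowerSeries A) :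
    subst b (PowerSeries.subst a f) = PowerSeries.subst (subst b a) f := by
  rw [PowerSeries.subst_def, subst_comp_subst_apply ha.const hb]; rfl

theorem psubst_subst_Pser {σ τ : Type} {a : σ → PowerSeries A} (ha : HasSubst a)
    {b : MvPowerSeries τ A} (hb : PowerSeries.HasSubst b) (f : MvPowerSeries σ A) :
    PowerSeries.subst b (subst a f : PowerSeries A) =
      subst (fun s => PowerSeries.subst b (a s)) f := by
  rw [PowerSeries.subst_def, subst_comp_subst_apply ha hb.const]; rfl

theorem cob_apply_Pser {G : FormalGroup A} {l : PowerSeries A} (h : cob G l = 0)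
    {a b : PowerSeries A} (ha : PowerSeries.constantCoeff a = 0)
    (hb : PowerSeries.constantCoeff b = 0) :
    PowerSeries.subst (subst ![a, b] G.toPowerSeries : PowerSeries A) l =
      PowerSeries.subst a l + PowerSeries.subst b l := by
  have hs := hs2_Pser ha hb
  have h1 : PowerSeries.subst G.toPowerSeries l =
      PowerSeries.subst (X 0 : MvPowerSeries (Fin 2) A) l +
        PowerSeries.subst (X 1 : MvPowerSeries (Fin 2) A) l := by
    unfold cob at h
    linear_combination h
  have h2 := congrArg (subst ![a, b]) h1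
  rw [subst_add hs, subst_psubst_Pser
      (PowerSeries.HasSubst.of_constantCoeff_zero G.zero_constantCoeff) hs,
    subst_psubst_Pser (PowerSeries.HasSubst.X 0) hs,
    subst_psubst_Pser (PowerSeries.HasSubst.X 1) hs, subst_X hs, subst_X hs] at h2
  exact h2

theorem const_add_Pser (G : FormalGroup A) {a b : PowerSeries A}
    (ha : PowerSeries.constantCoeff a = 0) (hb : PowerSeries.constantCoeff b = 0) :
    PowerSeries.constantCoeff (subst ![a, b] G.toPowerSeries : PowerSeries A) = 0 :=
  constantCoeff_subst_eq_zero (hs2_Pser ha hb) (fun s => by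
    fin_cases s
    · exact ha
    · exact hb) G.zero_constantCoeff

theorem map_add_Pser {B : Type} [CommRing B] (G : FormalGroup A) (f : A →+* B)
    {a b : PowerSeries A}
    (ha : PowerSeries.constantCoeff a = 0) (hb : PowerSeries.constantCoeff b = 0) :
    PowerSeries.map f (subst ![a, b] G.toPowerSeries : PowerSeries A) =
      subst ![PowerSeries.map f a, PowerSeries.map f b] (G.map f).toPowerSeries := by
  have h := map_subst (hs2_Pser ha hb) (h := f) G.toPowerSeries
  refine h.trans ?_
  rw [FormalGroup.map_toPowerSeries]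
  congr 1
  funext s
  fin_cases s <;> rfl

theorem coeff_one_add_Pser (G : FormalGroup A) {a b : PowerSeries A}
    (ha : PowerSeries.constantCoeff a = 0) (hb : PowerSeries.constantCoeff b = 0) :
    PowerSeries.coeff 1 (subst ![a, b] G.toPowerSeries : PowerSeries A) =
      PowerSeries.coeff 1 a + PowerSeries.coeff 1 b := by
  have hs := hs2_Pser ha hb
  have hH : ((2 : ℕ) : ℕ∞) ≤ (G.toPowerSeries - X 0 - X 1).order := by
    refine nat_le_order fun d hd => ?_
    have e : Finsupp.degree d = d 0 + d 1 := by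
      rw [Finsupp.degree_eq_sum]; simp
    rw [e] at hd
    have : d = 0 ∨ d = Finsupp.single 0 1 ∨ d = Finsupp.single 1 1 := by
      rcases (by omega : (d 0 = 0 ∧ d 1 = 0) ∨ (d 0 = 1 ∧ d 1 = 0) ∨ (d 0 = 0 ∧ d 1 = 1)) with
        h | h | h
      · left; ext i; fin_cases i <;> simp [h.1, h.2]
      · right; left; ext i; fin_cases i <;> simp [h.1, h.2]
      · right; right; ext i; fin_cases i <;> simp [h.1, h.2]
    rcases this with rfl | rfl | rfl
    · simp [G.zero_constantCoeff]
    · simp [G.lin_coeff_X, coeff_index_single_X]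
    · simp [G.lin_coeff_Y, coeff_index_single_X]
  have h1 : (1 : ℕ∞) ≤ ⨅ i, MvPowerSeries.order (![a, b] i) := by
    refine le_iInf fun i => ?_
    rw [one_le_order_iff_constCoeff_eq_zero]
    fin_cases i
    · exact ha
    · exact hb
  have h2 := le_order_subst hs (G.toPowerSeries - X 0 - X 1)
  have h3 : ((2 : ℕ) : ℕ∞) ≤ (subst ![a, b] (G.toPowerSeries - X 0 - X 1)).order := by
    refine le_trans ?_ h2
    calc ((2 : ℕ) : ℕ∞) = 1 * ((2 : ℕ) : ℕ∞) := (one_mul _).symm
      _ ≤ _ := mul_le_mul' h1 hH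
  have h4 : coeff (Finsupp.single () 1) (subst ![a, b] (G.toPowerSeries - X 0 - X 1)) = 0 :=
    coeff_of_lt_order (lt_of_lt_of_le (by simp) h3)
  rw [subst_sub hs, subst_sub hs, subst_X hs, subst_X hs, map_sub, map_sub] at h4
  simp only [Matrix.cons_val_zero, Matrix.cons_val_one, Matrix.cons_val_fin_one] at h4
  simp only [PowerSeries.coeff]
  linear_combination h4

theorem const_mono_Pser (c : A) {k : ℕ} (hk : k ≠ 0) :
    PowerSeries.constantCoeff (PowerSeries.C c * PowerSeries.X ^ k) = 0 := by simp [hk]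

theorem lamS_const_Pser (G : FormalGroup A) {p : ℕ} (hp : p ≠ 0) (a : ℕ → A) (r : ℕ) :
    PowerSeries.constantCoeff (lamS G p a r) = 0 := by
  induction r with
  | zero => simp [lamS]
  | succ r ih => exact const_add_Pser G ih (const_mono_Pser _ (pow_ne_zero _ hp))

theorem lamS_map_Pser {B : Type} [CommRing B] (G : FormalGroup A) (f : A →+* B) {p : ℕ}
    (hp : p ≠ 0) (a : ℕ → A) (r : ℕ) :
    PowerSeries.map f (lamS G p a r) = lamS (G.map f) p (fun s => f (a s)) r := by
  induction r with
  | zero => simp [lamS]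
  | succ r ih =>
    rw [lamS, lamS, map_add_Pser G f (lamS_const_Pser G hp a r)
      (const_mono_Pser _ (pow_ne_zero _ hp)), ih]
    simp

theorem log_lamS_Pser {G : FormalGroup A} {l : PowerSeries A} (h : cob G l = 0)
    (h0 : PowerSeries.constantCoeff l = 0) {p : ℕ} (hp : p ≠ 0) (a : ℕ → A) (r : ℕ) :
    PowerSeries.subst (lamS G p a r) l = ∑ s ∈ Finset.range r,
      PowerSeries.subst (PowerSeries.C (a (s + 1)) * PowerSeries.X ^ (p ^ (s + 1))) l := by
  induction r with
  | zero => simpa [lamS] using PowerSeries.subst_zero_of_constantCoeff_zero h0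
  | succ r ih =>
    rw [lamS, cob_apply_Pser h (lamS_const_Pser G hp a r) (const_mono_Pser _ (pow_ne_zero _ hp)),
      ih, Finset.sum_range_succ]

theorem subst_C_mul_Pser (c : A) {z : PowerSeries A} (hz : PowerSeries.constantCoeff z = 0)
    (l : PowerSeries A) : PowerSeries.subst (PowerSeries.C c * z) l =
      PowerSeries.subst z (PowerSeries.rescale c l) := by
  have hz' := PowerSeries.HasSubst.of_constantCoeff_zero' hz
  rw [PowerSeries.rescale_eq_subst,
    PowerSeries.subst_comp_subst_apply (PowerSeries.HasSubst.smul_X' c) hz',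
    PowerSeries.subst_smul hz', PowerSeries.subst_X hz', PowerSeries.smul_eq_C_mul]

theorem coeff_mono_Pser (c : A) {k : ℕ} (hk : k ≠ 0) (l : PowerSeries A) (d : ℕ) :
    PowerSeries.coeff d (PowerSeries.subst (PowerSeries.C c * PowerSeries.X ^ k) l) =
      if k ∣ d then c ^ (d / k) * PowerSeries.coeff (d / k) l else 0 := by
  rw [subst_C_mul_Pser c (by simp [hk]), PowerSeries.coeff_subst_X_pow hk]
  simp [PowerSeries.coeff_rescale]

theorem lamS_expand_Pser (G : FormalGroup A) {p : ℕ} (hp : 2 ≤ p) (a : ℕ → A) {h : ℕ}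
    (ha : ∀ s, 1 ≤ s → s < h → a s = 0) (h1 : 1 ≤ h) (r : ℕ) :
    ∃ g : PowerSeries A, PowerSeries.constantCoeff g = 0 ∧
      PowerSeries.coeff 1 g = (if h ≤ r then a h else 0) ∧
      lamS G p a r = PowerSeries.subst (PowerSeries.X ^ (p ^ h) : PowerSeries A) g := by
  have hk : p ^ h ≠ 0 := pow_ne_zero _ (by omega)
  have hX : PowerSeries.HasSubst (PowerSeries.X ^ (p ^ h) : PowerSeries A) :=
    PowerSeries.HasSubst.X_pow hk
  induction r with
  | zero =>
    refine ⟨0, by simp, by simp [show ¬ h ≤ 0 by omega], ?_⟩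
    rw [← PowerSeries.coe_substAlgHom hX, map_zero]; rfl
  | succ r ih =>
    obtain ⟨g, g0, g1, g2⟩ := ih
    have key : ∀ t : PowerSeries A, PowerSeries.constantCoeff t = 0 →
        PowerSeries.subst (PowerSeries.X ^ (p ^ h) : PowerSeries A) t =
          PowerSeries.C (a (r + 1)) * PowerSeries.X ^ (p ^ (r + 1)) →
        lamS G p a (r + 1) = PowerSeries.subst (PowerSeries.X ^ (p ^ h) : PowerSeries A)
          (subst ![g, t] G.toPowerSeries : PowerSeries A) := by
      intro t t0 ht
      rw [psubst_subst_Pser (hs2_Pser g0 t0) hX, lamS, g2, ← ht]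
      congr 1
      funext s
      fin_cases s <;> rfl
    rcases lt_or_ge (r + 1) h with hr | hr
    · refine ⟨_, const_add_Pser G g0 (map_zero _), ?_, key 0 (map_zero _) ?_⟩
      · rw [coeff_one_add_Pser G g0 (map_zero _), g1, if_neg (by omega), if_neg (by omega)]
        simp
      · rw [ha _ (by omega) hr, ← PowerSeries.coe_substAlgHom hX]; simp
    · have hk' : p ^ (r + 1 - h) ≠ 0 := pow_ne_zero _ (by omega)
      refine ⟨_, const_add_Pser G g0 (const_mono_Pser (a (r + 1)) hk'), ?_,
        key _ (const_mono_Pser (a (r + 1)) hk') ?_⟩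
      · rw [coeff_one_add_Pser G g0 (const_mono_Pser (a (r + 1)) hk'), g1, if_pos hr,
          PowerSeries.coeff_C_mul, PowerSeries.coeff_X_pow]
        rcases eq_or_lt_of_le hr with e | e
        · subst e; simp
        · have : 1 < p ^ (r + 1 - h) := Nat.one_lt_pow (by omega) (by omega)
          rw [if_pos (by omega), if_neg (by omega)]; simp
      · rw [PowerSeries.subst_mul hX, PowerSeries.subst_pow hX, PowerSeries.subst_X hX,
          PowerSeries.subst_C, ← pow_mul, ← pow_add, show h + (r + 1 - h) = r + 1 by omega]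
        rfl

end general

variable {p n : ℕ} [Fact p.Prime] {F : FormalGroup (E0 p n)}

theorem coeff_logA_pow_Pser {A : Type} [CommRing A] (ψ : E0 p n →+* A) (j : ℕ) :
    PowerSeries.coeff (p ^ j) (logA p n ψ) = ψ (bet p n j) * Ring.inverse (p : A) ^ j := by
  have hp : 1 < p := (Fact.out : p.Prime).one_lt
  simp [logA, Nat.log_pow hp]

theorem coeff_logA_not_Pser {A : Type} [CommRing A] (ψ : E0 p n →+* A) {d : ℕ}
    (hd : ∀ j, d ≠ p ^ j) : PowerSeries.coeff d (logA p n ψ) = 0 := by
  simp [logA, hd]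

theorem vv_big_Pser {i : ℕ} (hi : n < i) : vv p n i = 0 := by
  unfold vv
  rw [dif_neg (by omega), if_neg (by omega)]

theorem log_rec_Pser {A : Type} [CommRing A] (ψ : E0 p n →+* A) (hu : IsUnit (p : A)) :
    (p : PowerSeries A) * logA p n ψ = (p : PowerSeries A) * PowerSeries.X +
      ∑ s ∈ Finset.range n, PowerSeries.subst
        (PowerSeries.C (ψ (vv p n (s + 1))) * PowerSeries.X ^ (p ^ (s + 1))) (logA p n ψ) := by
  have hp : 1 < p := (Fact.out : p.Prime).one_lt
  have hp0 : p ≠ 0 := by omega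
  have hinv : (p : A) * Ring.inverse (p : A) = 1 := Ring.mul_inverse_cancel _ hu
  ext d
  rw [← map_natCast (PowerSeries.C : A →+* PowerSeries A), map_add, map_sum,
    PowerSeries.coeff_C_mul, PowerSeries.coeff_C_mul, PowerSeries.coeff_X]
  simp only [coeff_mono_Pser _ (pow_ne_zero _ hp0)]
  by_cases hd : ∃ j, d = p ^ j
  · obtain ⟨j, rfl⟩ := hd
    rw [coeff_logA_pow_Pser]
    simp only [Nat.pow_dvd_pow_iff_le_right hp]
    cases j with
    | zero => simp [bet]
    | succ k =>
      have h1 : p ^ (k + 1) ≠ 1 := (Nat.one_lt_pow (by omega) hp).ne'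
      rw [if_neg h1, mul_zero, zero_add]
      have h2 : ∑ s ∈ Finset.range n, (if s + 1 ≤ k + 1 then
          ψ (vv p n (s + 1)) ^ (p ^ (k + 1) / p ^ (s + 1)) *
            PowerSeries.coeff (p ^ (k + 1) / p ^ (s + 1)) (logA p n ψ) else 0) =
          ∑ s ∈ Finset.range (k + 1), ψ (vv p n (s + 1)) ^ (p ^ (k - s)) *
            (ψ (bet p n (k - s)) * Ring.inverse (p : A) ^ (k - s)) := by
        rw [← Finset.sum_filter]
        refine (Finset.sum_congr rfl fun s hs => ?_).trans
          (Finset.sum_subset (fun s hs => ?_) fun s hs hs' => ?_)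
        · rw [Nat.pow_div (Finset.mem_filter.1 hs).2 (by omega),
            show k + 1 - (s + 1) = k - s by omega, coeff_logA_pow_Pser]
        · have := (Finset.mem_filter.1 hs).2
          exact Finset.mem_range.2 (by omega)
        · have h3 : n < s + 1 := by
            by_contra hc
            exact hs' (Finset.mem_filter.2 ⟨Finset.mem_range.2 (by omega),
              by have := Finset.mem_range.1 hs; omega⟩)
          rw [vv_big_Pser h3, map_zero, zero_pow (pow_ne_zero _ hp0), zero_mul]
      rw [h2, bet, ← Finset.sum_range (fun i => (p : E0 p n) ^ (k - i) * bet p n i *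
        vv p n (k + 1 - i) ^ (p ^ i)), ← Finset.sum_range_reflect, map_sum, Finset.sum_mul,
        Finset.mul_sum]
      refine Finset.sum_congr rfl fun s hs => ?_
      have hs' : s ≤ k := by have := Finset.mem_range.1 hs; omega
      rw [show k + 1 - 1 - s = k - s by omega, show k - (k - s) = s by omega,
        show k + 1 - (k - s) = s + 1 by omega]
      simp only [map_mul, map_pow, map_natCast]
      have h4 : (p : A) * (p : A) ^ s * Ring.inverse (p : A) ^ (k + 1) =
          Ring.inverse (p : A) ^ (k - s) := by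
        rw [show k + 1 = (s + 1) + (k - s) by omega, pow_add, ← pow_succ', ← mul_assoc,
          ← mul_pow, hinv, one_pow, one_mul]
      rw [← h4]; ring
  · push Not at hd
    have h1 : d ≠ 1 := by simpa using hd 0
    rw [coeff_logA_not_Pser ψ hd, if_neg h1, mul_zero, zero_add]
    refine (Finset.sum_eq_zero fun s _ => ?_).symm
    split_ifs with h2
    · rw [coeff_logA_not_Pser ψ, mul_zero]
      intro j hj
      refine hd (j + (s + 1)) ?_
      rw [pow_add, ← hj, Nat.div_mul_cancel h2]
    · rfl

/-- the integral series `L(pZ)/p` -/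
noncomputable def Mser_Pser (p n : ℕ) [Fact p.Prime] : PowerSeries (E0 p n) :=
  PowerSeries.mk fun d => if d = p ^ Nat.log p d then
    bet p n (Nat.log p d) * (p : E0 p n) ^ (d - 1 - Nat.log p d) else 0

theorem rescale_log_Pser {A : Type} [CommRing A] (ψ : E0 p n →+* A) (hu : IsUnit (p : A)) :
    PowerSeries.rescale (p : A) (logA p n ψ) =
      PowerSeries.C (p : A) * PowerSeries.map ψ (Mser_Pser p n) := by
  have hp : 1 < p := (Fact.out : p.Prime).one_lt
  have hinv : (p : A) * Ring.inverse (p : A) = 1 := Ring.mul_inverse_cancel _ hu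
  ext d
  rw [PowerSeries.coeff_rescale, PowerSeries.coeff_C_mul, PowerSeries.coeff_map, logA, Mser_Pser,
    PowerSeries.coeff_mk, PowerSeries.coeff_mk]
  split_ifs with h
  · generalize Nat.log p d = j at h
    have h1 : j < d := h ▸ Nat.lt_pow_self hp
    have h2 : (p : A) ^ d * Ring.inverse (p : A) ^ j = p * p ^ (d - 1 - j) := by
      nth_rewrite 1 [show d = (d - 1 - j + 1) + j by omega]
      rw [pow_add, mul_assoc, ← mul_pow, hinv, one_pow, mul_one, pow_succ']
    simp only [map_mul, map_pow, map_natCast]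
    linear_combination (ψ (bet p n j)) * h2
  · simp

theorem Mser_const_Pser : PowerSeries.constantCoeff (Mser_Pser p n) = 0 := by
  simp [Mser_Pser]

theorem Mser_one_Pser : PowerSeries.coeff 1 (Mser_Pser p n) = 1 := by
  simp [Mser_Pser, bet]

theorem exists_inv_Pser {A : Type} [CommRing A] (M : PowerSeries A)
    (h0 : PowerSeries.constantCoeff M = 0) (h1 : PowerSeries.coeff 1 M = 1) :
    ∃ z : PowerSeries A, PowerSeries.constantCoeff z = 0 ∧
      PowerSeries.subst z M = PowerSeries.X := by
  have hu : IsUnit (PowerSeries.coeff 1 M) := by rw [h1]; exact isUnit_one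
  exact ⟨M.substInvOfIsUnit hu, PowerSeries.constantCoeff_substInvOfIsUnit _ hu,
    PowerSeries.subst_substInvOfIsUnit_right _ h0 hu⟩

theorem const_map_Pser {A B : Type} [CommRing A] [CommRing B] (ψ : A →+* B) {z : PowerSeries A}
    (h0 : PowerSeries.constantCoeff z = 0) :
    PowerSeries.constantCoeff (PowerSeries.map ψ z) = 0 := by
  rw [← PowerSeries.coeff_zero_eq_constantCoeff_apply, PowerSeries.coeff_map,
    PowerSeries.coeff_zero_eq_constantCoeff_apply, h0, map_zero]

theorem e_gen_Pser {A B : Type} [CommRing A] [CommRing B] (ψ : A →+* B) (m : ℕ)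
    {z M : PowerSeries A} {L : PowerSeries B} (h0 : PowerSeries.constantCoeff z = 0)
    (h1 : PowerSeries.subst z M = PowerSeries.X)
    (hL : PowerSeries.rescale (m : B) L = PowerSeries.C (m : B) * PowerSeries.map ψ M) :
    PowerSeries.subst (PowerSeries.map ψ (PowerSeries.C (m : A) * z)) L =
      (m : PowerSeries B) * PowerSeries.X := by
  have h2 := const_map_Pser ψ h0
  have h3 := PowerSeries.HasSubst.of_constantCoeff_zero' h2
  have h4 : PowerSeries.subst (PowerSeries.map ψ z) (PowerSeries.map ψ M) = PowerSeries.X := by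
    have h5 := PowerSeries.map_subst (PowerSeries.HasSubst.of_constantCoeff_zero' h0) (h := ψ) M
    rw [h1] at h5
    exact h5.symm.trans (PowerSeries.map_X ψ)
  rw [map_mul, PowerSeries.map_C, map_natCast, subst_C_mul_Pser _ h2, hL,
    PowerSeries.subst_mul h3, h4, PowerSeries.subst_C, map_natCast]

theorem exists_e_Pser : ∃ z : PowerSeries (E0 p n), PowerSeries.constantCoeff z = 0 ∧
    ∀ {A : Type} [CommRing A] (ψ : E0 p n →+* A), IsUnit (p : A) →
      PowerSeries.subst (PowerSeries.map ψ (PowerSeries.C (p : E0 p n) * z)) (logA p n ψ) =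
        (p : PowerSeries A) * PowerSeries.X := by
  obtain ⟨z, h0, h1⟩ := exists_inv_Pser (Mser_Pser p n) Mser_const_Pser Mser_one_Pser
  exact ⟨z, h0, fun ψ hA => e_gen_Pser ψ p h0 h1 (rescale_log_Pser ψ hA)⟩

theorem IsLT.nser_p_sub (hF : IsLT p n F) :
    CoefIn (Ideal.span {(p : E0 p n)}) (nser F p - lamS F p (vv p n) n) := by
  have hp0 : p ≠ 0 := (Fact.out : p.Prime).ne_zero
  obtain ⟨z, z0, hz⟩ := exists_e_Pser (p := p) (n := n)
  have e0 : PowerSeries.constantCoeff (PowerSeries.C (p : E0 p n) * z) = 0 := by simp [z0]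
  have S0 := lamS_const_Pser F hp0 (vv p n) n
  have key : nser F p = subst ![lamS F p (vv p n) n, PowerSeries.C (p : E0 p n) * z]
      F.toPowerSeries := by
    have hc := hF.log (algebraMap (E0 p n) (E0p p n)) E0p_unit
    refine PowerSeries.map_injective (algebraMap (E0 p n) (E0p p n)) E0p_inj ?_
    have m0 : ∀ f : PowerSeries (E0 p n), PowerSeries.constantCoeff f = 0 →
        PowerSeries.constantCoeff (PowerSeries.map (algebraMap (E0 p n) (E0p p n)) f) = 0 :=
      fun f hf => const_map_Pser _ hf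
    refine log_inj (logA_const (algebraMap (E0 p n) (E0p p n))) (logA_one _)
      (m0 _ (nser_const F p)) (m0 _ (const_add_Pser F S0 e0)) ?_
    rw [map_add_Pser F _ S0 e0, cob_apply_Pser hc (m0 _ S0) (m0 _ e0), hz _ E0p_unit, ← nser_map,
      cob_nser (logA_const _) hc, lamS_map_Pser F _ hp0, log_lamS_Pser hc (logA_const _) hp0,
      log_rec_Pser _ E0p_unit, add_comm]
  have h2 := CoefIn.subst_congr (I := Ideal.span {(p : E0 p n)}) F.toPowerSeries
    (hs2_Pser S0 e0) (hs2_Pser S0 (map_zero _)) (fun s => by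
      fin_cases s
      · intro d; simp
      · intro d
        have : coeff d (PowerSeries.C (p : E0 p n) * z) = p * coeff d z := coeff_C_mul _ _ _
        simp only [Fin.mk_one, Matrix.cons_val_one, Matrix.cons_val_fin_one, sub_zero]
        rw [this]
        exact Ideal.mul_mem_right _ _ (Ideal.mem_span_singleton_self _))
  rw [F.add_zero (PowerSeries.HasSubst.of_constantCoeff_zero' S0), ← key] at h2
  exact h2

theorem p_mem_II_Pser {h : ℕ} (h1 : 1 ≤ h) : (p : E0 p n) ∈ II p n h := by
  unfold II
  rw [if_neg (by omega)]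
  exact Ideal.subset_span (Set.mem_insert _ _)

theorem vv_mem_II_Pser {h i : ℕ} (h1 : 1 ≤ i) (h2 : i < h) : vv p n i ∈ II p n h := by
  unfold II
  rw [if_neg (by omega)]
  exact Ideal.subset_span (Set.mem_insert_of_mem _ ⟨i, h1, h2, rfl⟩)

theorem IsLT.map_nser_Pser (hF : IsLT p n F) {B : Type} [CommRing B] (f : E0 p n →+* B)
    (hf : f p = 0) :
    PowerSeries.map f (nser F p) = lamS (F.map f) p (fun s => f (vv p n s)) n := by
  rw [← lamS_map_Pser F f (Fact.out : p.Prime).ne_zero]
  ext d
  obtain ⟨c, hc⟩ := Ideal.mem_span_singleton'.1 (hF.nser_p_sub (Finsupp.single () d))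
  have h1 : PowerSeries.coeff d (nser F p) - PowerSeries.coeff d (lamS F p (vv p n) n) =
      c * p := by rw [hc, ← map_sub]; rfl
  rw [PowerSeries.coeff_map, PowerSeries.coeff_map, ← sub_eq_zero, ← map_sub, h1, map_mul, hf,
    mul_zero]

theorem IsLT.quot_Pser (hF : IsLT p n F) {h : ℕ} (h1 : 1 ≤ h) (hn : h ≤ n) :
    ∃ g : PowerSeries (E0 p n ⧸ II p n h),
      PowerSeries.coeff 1 g = Ideal.Quotient.mk _ (vv p n h) ∧ ∀ d,
        Ideal.Quotient.mk (II p n h) (PowerSeries.coeff d (nser F p)) =
          if p ^ h ∣ d then PowerSeries.coeff (d / p ^ h) g else 0 := by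
  have hp : p.Prime := Fact.out
  obtain ⟨g, -, g1, g2⟩ := lamS_expand_Pser (F.map (Ideal.Quotient.mk (II p n h))) hp.two_le
    (fun s => Ideal.Quotient.mk (II p n h) (vv p n s))
    (fun s a b => Ideal.Quotient.eq_zero_iff_mem.2 (vv_mem_II_Pser a b)) h1 n
  refine ⟨g, by rw [g1, if_pos hn], fun d => ?_⟩
  rw [← PowerSeries.coeff_map, hF.map_nser_Pser _
    (Ideal.Quotient.eq_zero_iff_mem.2 (p_mem_II_Pser h1)), g2,
    PowerSeries.coeff_subst_X_pow (pow_ne_zero _ hp.ne_zero)]
  rfl

theorem IsLT.pser_not_dvd (hF : IsLT p n F) {h : ℕ} (h1 : 1 ≤ h) (hn : h ≤ n) {d : ℕ}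
    (hd : ¬ p ^ h ∣ d) : PowerSeries.coeff d (nser F p) ∈ II p n h := by
  obtain ⟨g, -, hg⟩ := hF.quot_Pser h1 hn
  rw [← Ideal.Quotient.eq_zero_iff_mem, hg, if_neg hd]

theorem IsLT.pser_lead (hF : IsLT p n F) {h : ℕ} (h1 : 1 ≤ h) (hn : h ≤ n) :
    PowerSeries.coeff (p ^ h) (nser F p) - vv p n h ∈ II p n h := by
  obtain ⟨g, g1, hg⟩ := hF.quot_Pser h1 hn
  rw [← Ideal.Quotient.eq, hg, if_pos dvd_rfl,
    Nat.div_self (pow_pos (Fact.out : p.Prime).pos _), g1]

theorem IsLT.pser_res (hF : IsLT p n F) (hn : 1 ≤ n) :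
    nser (Gk p n F) p = PowerSeries.X ^ (p ^ n) := by
  have hp : p.Prime := Fact.out
  have h0 : res p n p = 0 := by rw [map_natCast]; exact CharP.cast_eq_zero _ p
  rw [nser_map, hF.map_nser_Pser _ h0]
  have hv : ∀ s, 1 ≤ s → s < n → res p n (vv p n s) = 0 := by
    intro s a b
    have : vv p n s ∈ mm p n := by rw [← II_top p n hn]; exact vv_mem_II_Pser a b
    exact this
  have h1 : ∀ r, r < n → lamS (F.map (res p n)) p (fun s => res p n (vv p n s)) r = 0 := by
    intro r
    induction r with
    | zero => intro _; rfl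
    | succ r ih =>
      intro hr
      rw [lamS, ih (by omega), hv _ (by omega) hr, map_zero, zero_mul]
      exact FormalGroup.add_zero _ PowerSeries.HasSubst.zero
  obtain ⟨m, rfl⟩ : ∃ m, n = m + 1 := ⟨n - 1, by omega⟩
  have h2 : vv p (m + 1) (m + 1) = 1 := by
    unfold vv
    rw [dif_neg (by omega), if_pos rfl]
  rw [lamS, h1 m (by omega), h2, map_one, map_one, one_mul]
  exact FormalGroup.zero_add _ (PowerSeries.HasSubst.X_pow (pow_ne_zero _ hp.ne_zero))

theorem IsLT.II_eq (hF : IsLT p n F) {h : ℕ} (hn : h ≤ n) :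
    II p n h = Ideal.span {x | ∃ d, d < p ^ h ∧ x = PowerSeries.coeff d (nser F p)} := by
  have hp : p.Prime := Fact.out
  refine le_antisymm ?_ (Ideal.span_le.2 ?_)
  · induction h using Nat.strong_induction_on with
    | _ h ih =>
      unfold II
      split_ifs with h0
      · exact bot_le
      refine Ideal.span_le.2 ?_
      rintro x (rfl | ⟨i, h1, h2, rfl⟩)
      · exact Ideal.subset_span ⟨1, Nat.one_lt_pow h0 hp.one_lt, (nser_coeff_one F p).symm⟩
      · have h3 : p ^ i < p ^ h := Nat.pow_lt_pow_right hp.one_lt h2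
        have h4 := ih i h2 (by omega) (hF.pser_lead h1 (by omega))
        have h5 : Ideal.span {x | ∃ d, d < p ^ i ∧ x = PowerSeries.coeff d (nser F p)} ≤
            Ideal.span {x | ∃ d, d < p ^ h ∧ x = PowerSeries.coeff d (nser F p)} :=
          Ideal.span_mono fun x ⟨d, hd, hx⟩ => ⟨d, hd.trans h3, hx⟩
        have h6 : PowerSeries.coeff (p ^ i) (nser F p) ∈
            Ideal.span {x | ∃ d, d < p ^ h ∧ x = PowerSeries.coeff d (nser F p)} :=
          Ideal.subset_span ⟨_, h3, rfl⟩
        simpa using Ideal.sub_mem _ h6 (h5 h4)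
  · rintro x ⟨d, hd, rfl⟩
    rcases Nat.eq_zero_or_pos d with rfl | d0
    · rw [PowerSeries.coeff_zero_eq_constantCoeff_apply, nser_const]
      exact zero_mem _
    · have h1 : 1 ≤ h := by
        by_contra hc
        obtain rfl : h = 0 := by omega
        simp at hd; omega
      exact hF.pser_not_dvd h1 hn fun hc => absurd (Nat.le_of_dvd d0 hc) (by omega)

end Vale.Agent.P217
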