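import Vale.Agent.P217.Mem
import Vale.Agent.P217.Fac
import Vale.Agent.P217.LTE
import Vale.Agent.P217.Hon
import Vale.Agent.P217.Pser

namespace Vale.Agent.P217

open MvPowerSeries

variable {p n : ℕ} [Fact p.Prime] {F : FormalGroup (E0 p n)}

theorem phi_tB (m : ℕ) (κ : Type) [CommRing κ] (M : ℕ) (i : Fin m) : tB m κ M i ∈ aB m κ M :=
  Ideal.mem_map_of_mem _ (one_le_order_iff_constCoeff_eq_zero.2 (constantCoeff_X i) :
    ((1 : ℕ) : ℕ∞) ≤ (X i : MvPowerSeries (Fin m) κ).order)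

theorem IsLT.exists_psi (hF : IsLT p n F) [F.IsComm] {m : ℕ} (hmn : m < n) (k : ℕ) :
    ∃ Ψ, PsiSpec p n F m k Ψ := by
  have hp : p.Prime := Fact.out
  have hn : 1 ≤ n := by omega
  have hK : 1 ≤ p ^ k := pow_pos hp.pos k
  have hd : 1 ≤ (p ^ k) ^ m := Nat.one_le_pow _ _ hK
  have hle : ordI (Fin m) (kk p n) ((p ^ n) ^ k) ≤ ordI (Fin m) (kk p n) ((p ^ n) ^ (k - 1)) :=
    fun f hf => mem_ordI.2 fun d h => mem_ordI.1 hf d
      (h.trans_le (Nat.pow_le_pow_right (pow_pos hp.pos n) (Nat.sub_le k 1)))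
  obtain ⟨c, hc⟩ := free_exists (aB m (kk p n) ((p ^ n) ^ k)) _ (aB_pow _ _ _) _
    (Nser_const ((Gk p n F).map (iB m (kk p n) _)) _ (tB_nil m (kk p n) _) hK) hd
    (Nser_red _ _ _ _ (phi_tB m _ _) _) (PowerSeries.subst
      ((Gk p n F).map (iB m (kk p n) ((p ^ n) ^ k))).toPowerSeries
      (Nser ((Gk p n F).map (iB m (kk p n) ((p ^ n) ^ k))) (tB m (kk p n) _)
        (tB_nil m (kk p n) _) (p ^ k)))
  have h1 := mem_exp p hmn (Gk p n F) (hF.pser_res hn) k c hc
  have hG : (Gk p n F).map (iB m (kk p n) ((p ^ n) ^ (k - 1))) =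
      ((Gk p n F).map (iB m (kk p n) ((p ^ n) ^ k))).map (Ideal.Quotient.factor hle) := by
    rw [fg_map_map ((Gk p n F))]
    rfl
  have hN := Nser_map (Ideal.Quotient.factor hle) _ _ (tB_nil m (kk p n) ((p ^ n) ^ k)) _ hG _
    (tB_nil m (kk p n) ((p ^ n) ^ (k - 1))) (fun _ => rfl) (p ^ k)
  have h0 := Nser_const ((Gk p n F).map (iB m (kk p n) ((p ^ n) ^ k))) _ (tB_nil m (kk p n) _) hK
  have hs : HasSubst (sN (Fin 2) (Nser ((Gk p n F).map (iB m (kk p n) ((p ^ n) ^ k)))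
      (tB m (kk p n) _) (tB_nil m (kk p n) _) (p ^ k))) := hasSubst_of_constantCoeff_zero fun s =>
    PowerSeries.constantCoeff_subst_eq_zero (constantCoeff_X s) _ h0
  have h2 := congrArg (map (Ideal.Quotient.factor hle)) hc
  rw [PowerSeries.map_subst (fg_hasSubst _), hN, ← FormalGroup.map_toPowerSeries, ← hG, map_sum,
    Finset.sum_eq_single (fun _ => ⟨0, hd⟩) (fun i _ hi => ?_) (fun h => absurd
      (Finset.mem_univ _) h), map_mul, map_subst hs] at h2
  · have h3 : (fun s => map (Ideal.Quotient.factor hle) (sN (Fin 2)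
        (Nser ((Gk p n F).map (iB m (kk p n) ((p ^ n) ^ k)))
          (tB m (kk p n) _) (tB_nil m (kk p n) _) (p ^ k)) s)) = sN (Fin 2)
        (Nser ((Gk p n F).map (iB m (kk p n) ((p ^ n) ^ (k - 1))))
          (tB m (kk p n) _) (tB_nil m (kk p n) _) (p ^ k)) := funext fun s => by
      rw [sN, sN, PowerSeries.map_subst (.X _), hN, map_X]
    simp only [pow_zero, Finset.prod_const_one, map_one, mul_one] at h2
    rw [h3] at h2
    have h4 := ((hF.Gk_mono hn 1 (k * m)).map (iB m (kk p n) ((p ^ n) ^ (k - 1)))).map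
      (B := Bq m (kk p n) ((p ^ n) ^ (k - 1)) ⧸ aB m (kk p n) ((p ^ n) ^ (k - 1)))
      (Ideal.Quotient.mk (aB m (kk p n) ((p ^ n) ^ (k - 1))))
    simp only [map_one, one_mul, map_pow, PowerSeries.map_X, pow_mul] at h4
    obtain ⟨Φ, c1, c2, c3⟩ := desc (aB m (kk p n) ((p ^ n) ^ (k - 1))) _ (aB_pow _ _ _)
      (Nser_const _ _ _ hK) hd (Nser_red _ _ _ _ (phi_tB m _ _) _) _ h2 h4
    haveI := nilp_complete _ _ (aB_pow m (kk p n) ((p ^ n) ^ (k - 1)))
    obtain ⟨Ψ, hΨ, -⟩ := hF.universal hn _ (aB m (kk p n) ((p ^ n) ^ (k - 1)))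
      ((iB m (kk p n) _).comp (WittVector.constantCoeff : WW p n →+* kk p n)) Φ (by
        rw [← map_natCast (iB m (kk p n) ((p ^ n) ^ (k - 1))), CharP.cast_eq_zero, map_zero]
        exact zero_mem _) c1 (by
        rw [c3, fg_map_map, fg_map_map]
        rfl)
    exact ⟨Ψ, Φ, c1, c2, hΨ⟩
  · have h3 : map (Ideal.Quotient.factor hle) (c i) = 0 := by
      ext1 e
      have h4 := h1 i (by
        by_contra h
        push Not at h
        exact hi (funext fun s => Fin.ext (h s))) e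
      obtain ⟨x, hx, h5⟩ := (Ideal.mem_map_iff_of_surjective _ Ideal.Quotient.mk_surjective).1 h4
      rw [coeff_map, ← h5, Ideal.Quotient.factor_mk, map_zero]
      exact Ideal.Quotient.eq_zero_iff_mem.2 hx
    rw [map_mul, map_subst hs, h3, ← coe_substAlgHom (hasSubst_of_constantCoeff_zero fun s => by
      rw [constantCoeff_map, sN, PowerSeries.constantCoeff_subst_eq_zero (constantCoeff_X s) _ h0,
        map_zero]), map_zero, zero_mul]

end Vale.Agent.P217
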