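import Vale.Agent.P217.Tor
import Vale.Agent.P217.Adp

namespace Vale.Agent.P217

open MvPowerSeries

section ultra
variable {L : Type} [NormedField L] [IsUltrametricDist L]

theorem sum_lt_TorB {ι : Type} (s : Finset ι) (f : ι → L) {M : ℝ} (hM : 0 < M)
    (h : ∀ i ∈ s, ‖f i‖ < M) : ‖∑ i ∈ s, f i‖ < M := by
  classical
  induction s using Finset.induction_on with
  | empty => simpa using hM
  | insert a s ha ih =>
    rw [Finset.sum_insert ha]
    exact lt_of_le_of_lt (IsUltrametricDist.norm_add_le_max _ _)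
      (max_lt (h a (Finset.mem_insert_self _ _))
        (ih fun i hi => h i (Finset.mem_insert_of_mem hi)))

theorem ge_of_sub_TorB {a b : L} {M : ℝ} (h : ‖a - b‖ < M) (ha : M ≤ ‖a‖) : M ≤ ‖b‖ := by
  by_contra hb
  have := IsUltrametricDist.norm_add_le_max (a - b) b
  rw [sub_add_cancel] at this
  exact absurd (lt_of_le_of_lt this (max_lt h (not_le.1 hb))) (not_lt.2 ha)

theorem le_of_sub_TorB {a b : L} {M : ℝ} (h : ‖a - b‖ ≤ M) (hb : ‖b‖ ≤ M) : ‖a‖ ≤ M := by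
  have := IsUltrametricDist.norm_add_le_max (a - b) b
  rw [sub_add_cancel] at this
  exact this.trans (max_le h hb)

theorem norm_cast_TorB (p : ℕ) [Fact p.Prime] [CharP L p] {c : ℕ} (h0 : c ≠ 0) (hc : c < p) :
    ‖(c : L)‖ = 1 := by
  have hp : p.Prime := Fact.out
  have h1 : ((c : L)) ^ p = c := by
    have := map_natCast (frobenius L p) c
    rwa [frobenius_def] at this
  have h2 : (c : L) ≠ 0 := by
    rw [Ne, CharP.cast_eq_zero_iff L p]
    exact Nat.not_dvd_of_pos_of_lt (Nat.pos_of_ne_zero h0) hc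
  have h3 : (c : L) ^ (p - 1) = 1 := by
    apply mul_right_cancel₀ h2
    rw [← pow_succ, Nat.sub_add_cancel hp.one_le, h1, one_mul]
  have h4 : ‖(c : L)‖ ^ (p - 1) = 1 := by rw [← norm_pow, h3, norm_one]
  exact (pow_eq_one_iff_of_nonneg (norm_nonneg _) (by have := hp.two_le; omega)).1 h4

variable [CompleteSpace L] {G : FormalGroup (OC L)} [AddCommGroup (Pts G)]

theorem nsm_TorB (hG : GrpSpec G) (c : ℕ) (y : Pts G) {M : ℝ} (hM0 : 0 ≤ M)
    (hM : c ≠ 0 → ‖(y.1 : L)‖ ≤ M) :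
    ‖((c • y).1 : L) - (c : L) * y.1‖ ≤ M * M ∧ ‖((c • y).1 : L)‖ ≤ M := by
  have := hG.sum_sub (Finset.range c) (fun _ => y) hM0
    (fun i hi => hM (by have := Finset.mem_range.1 hi; omega))
  simpa [Finset.sum_const, nsmul_eq_mul] using this

theorem comb_TorB (hG : GrpSpec G) {ι : Type} [Fintype ι] (c : ι → ℕ) (y : ι → Pts G)
    (u : ι → L) {M ρ : ℝ} (hρ0 : 0 ≤ ρ) (hρ : ρ < M) (hM1 : M < 1)
    (hyu : ∀ i, ‖((y i).1 : L) - u i‖ ≤ ρ) (hM : ∀ i, c i ≠ 0 → ‖u i‖ ≤ M) :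
    ‖((∑ i, c i • y i).1 : L) - ∑ i, (c i : L) * u i‖ < M := by
  have hM0 : 0 < M := lt_of_le_of_lt hρ0 hρ
  have hMM : M * M < M := by nlinarith
  have h1 : ∀ i, _ := fun i => nsm_TorB hG (c i) (y i) hM0.le
    (fun h => le_of_sub_TorB ((hyu i).trans hρ.le) (hM i h))
  have h2 := (hG.sum_sub Finset.univ (fun i => c i • y i) hM0.le (fun i _ => (h1 i).2)).1
  have h3 : ‖∑ i, (((c i • y i).1 : L) - (c i : L) * u i)‖ < M := by
    refine sum_lt_TorB _ _ hM0 fun i _ => ?_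
    have e : ((c i • y i).1 : L) - (c i : L) * u i =
        (((c i • y i).1 : L) - (c i : L) * (y i).1) + (c i : L) * (((y i).1 : L) - u i) := by ring
    rw [e]
    refine lt_of_le_of_lt (IsUltrametricDist.norm_add_le_max _ _) (max_lt ?_ ?_)
    · exact lt_of_le_of_lt (h1 i).1 hMM
    · rw [norm_mul]
      have := IsUltrametricDist.norm_natCast_le_one L (c i)
      have h5 := hyu i
      have h6 := norm_nonneg (((y i).1 : L) - u i)
      nlinarith
  have e : ((∑ i, c i • y i).1 : L) - ∑ i, (c i : L) * u i =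
      (((∑ i, c i • y i).1 : L) - ∑ i, ((c i • y i).1 : L)) +
        ∑ i, (((c i • y i).1 : L) - (c i : L) * u i) := by
    rw [Finset.sum_sub_distrib]; ring
  rw [e]
  exact lt_of_le_of_lt (IsUltrametricDist.norm_add_le_max _ _)
    (max_lt (lt_of_le_of_lt h2 hMM) h3)

end ultra

theorem lower_TorB {T : Type} (s : Finset T) (N : T → ℝ) (h : ∀ z ∈ s, 0 < N z) :
    ∃ δ : ℝ, 0 < δ ∧ ∀ z ∈ s, δ ≤ N z := by
  rcases s.eq_empty_or_nonempty with rfl | hs
  · exact ⟨1, one_pos, by simp⟩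
  · obtain ⟨z, hz, hm⟩ := s.exists_min_image N hs
    exact ⟨N z, h z hz, hm⟩

variable {p n : ℕ} [Fact p.Prime] {F : FormalGroup (E0 p n)}

variable {L : Type} [NormedField L] [IsUltrametricDist L] [CompleteSpace L] [IsAlgClosed L]
  [CharP L p]

theorem pow_sub_TorB (hF : IsLT p n F) {h : ℕ} (h1 : 1 ≤ h) (hn : h < n)
    {η : E0 p n →+* OC L} {ρ : ℝ} (hη : HtPt p n h η ρ) [AddCommGroup (Pts (F.map η))]
    (hG : GrpSpec (F.map η)) (x : Pts (F.map η)) (l : ℕ) :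
    ‖((p ^ l • x).1 : L) - (x.1 : L) ^ ((p ^ n) ^ l)‖ ≤ ρ := by
  induction l with
  | zero => simpa using hη.pos.le
  | succ l ih =>
    have a := hF.p_smul_sub h1 hn hη hG (p ^ l • x)
    rw [smul_smul, ← pow_succ'] at a
    have e : ((p ^ (l + 1) • x).1 : L) - (x.1 : L) ^ ((p ^ n) ^ (l + 1)) =
        (((p ^ (l + 1) • x).1 : L) - ((p ^ l • x).1 : L) ^ (p ^ n)) +
          (((p ^ l • x).1 : L) - (x.1 : L) ^ ((p ^ n) ^ l)) ^ (p ^ n) := by
      rw [sub_pow_char_pow, pow_succ (p ^ n) l, pow_mul]; ring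
    rw [e]
    refine (IsUltrametricDist.norm_add_le_max _ _).trans (max_le ?_ ?_)
    · exact a.trans (mul_le_of_le_one_right hη.pos.le (p ^ l • x).2.le)
    · rw [norm_pow]
      exact (pow_le_of_le_one (norm_nonneg _) (ih.trans hη.lt1.le)
        (pow_ne_zero _ (Fact.out : p.Prime).ne_zero)).trans ih

theorem IsLT.torB (hF : IsLT p n F) {h : ℕ} (h1 : 1 ≤ h) (hn : h < n) {η : E0 p n →+* OC L}
    {ρ : ℝ} (hη : HtPt p n h η ρ) [AddCommGroup (Pts (F.map η))] (hG : GrpSpec (F.map η)) :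
    ∃ c : ℝ, 0 < c ∧ c ≤ 1 ∧ ∀ k, 1 ≤ k → ∃ x : Fin (n - h) → Pts (F.map η), IsBasis (p ^ k) x ∧
      (∀ i, ‖((x i).1 : L)‖ ^ ((p ^ n) ^ k) ≤ ρ ∧ c ≤ ‖((x i).1 : L)‖ ^ ((p ^ n) ^ k)) ∧
      ∀ E, (∀ i, ρ < ‖((x i).1 : L)‖ ^ ((p ^ n) ^ E)) →
        Orth p (p ^ n) E (fun i => ((x i).1 : L)) := by
  classical
  have hp : p.Prime := Fact.out
  have hq : 1 < p ^ n := Nat.one_lt_pow (by omega) hp.one_lt
  let N : Pts (F.map η) → ℝ := fun x => ‖(x.1 : L)‖
  have hN0 : ∀ x, 0 ≤ N x := fun x => norm_nonneg _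
  have hN1 : ∀ x, N x ≤ 1 := fun x => x.2.le
  have hz : N 0 = 0 := by simp only [N, hG.zero]; simp
  have hs1 : ∀ x, N (p • x) ≤ max (N x ^ (p ^ n)) (ρ * N x) := fun x =>
    le_of_sub_TorB ((hF.p_smul_sub h1 hn hη hG x).trans (le_max_right _ _))
      (by rw [norm_pow]; exact le_max_left _ _)
  have hs2 : ∀ x, ρ < N x ^ (p ^ n) → N (p • x) = N x ^ (p ^ n) := fun x hx => by
    have a : ρ * N x ≤ ρ := mul_le_of_le_one_right hη.pos.le (hN1 x)
    refine le_antisymm ((hs1 x).trans (max_le le_rfl (a.trans hx.le))) ?_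
    refine ge_of_sub_TorB (a := (x.1 : L) ^ (p ^ n)) ?_ (by rw [norm_pow])
    rw [norm_sub_rev]
    exact lt_of_le_of_lt ((hF.p_smul_sub h1 hn hη hG x).trans a) hx
  obtain ⟨-, -, T1, -, -, -, hT1, -, -⟩ := hF.tor h1 hn hη hG 1
  obtain ⟨δ, hδ, hδ'⟩ := lower_TorB (T1.erase 0) N fun z hz' => by
    refine norm_pos_iff.2 fun h0 => Finset.ne_of_mem_erase hz' (Subtype.ext ?_)
    rw [hG.zero]
    exact Subtype.ext h0
  obtain ⟨c, hc0, hc1, hc⟩ := tor_lower p (p ^ n) hq.le N ρ δ hη.pos.le hη.lt1 hδ hN0 hN1 hs1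
    fun x hx0 hx => hδ' x (Finset.mem_erase.2 ⟨hx0, (hT1 x).2 (by rwa [pow_one])⟩)
  refine ⟨c, hc0, hc1, fun k hk => ?_⟩
  obtain ⟨x, hb, hx0, hx⟩ := adapted p (n - h) k (p ^ n) hk hq.le N ρ hη.pos.le hN0 hN1 hz
    hG.add_le hG.neg_eq (fun i _ => by
      obtain ⟨-, -, T, -, -, -, hT, hc, -⟩ := hF.tor h1 hn hη hG i
      rw [← hc, ← Fintype.card_coe, ← Nat.card_eq_fintype_card]
      exact Nat.card_congr (Equiv.subtypeEquivRight fun z => (hT z).symm)) hs1 hs2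
  have hxk : ∀ i, p ^ k • x i = 0 := fun i => by
    have hk1 : 1 < p ^ k := Nat.one_lt_pow (by omega) hp.one_lt
    refine (hb.2 _).2 ⟨fun j => if j = i then ⟨1, hk1⟩ else ⟨0, by omega⟩, ?_⟩
    rw [Finset.sum_eq_single i]
    · simp
    · intro j _ hj
      simp [hj]
    · simp
  refine ⟨x, hb, fun i => ⟨?_, hc k _ hk (hxk i) (hx0 i)⟩, fun E hE c σ0 h0 => ?_⟩
  · have := pow_sub_TorB hF h1 hn hη hG (x i) k
    rw [hxk, hG.zero] at this
    simpa using this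
  · obtain ⟨σ, hσ, hm⟩ := (Finset.univ.filter fun τ => (c τ : ℕ) ≠ 0).exists_max_image
      (fun τ => ‖uu (p ^ n) (fun i => ((x i).1 : L)) τ‖) ⟨σ0, by simpa using h0⟩
    have hσ0 : (c σ : ℕ) ≠ 0 := (Finset.mem_filter.1 hσ).2
    have hm' : ∀ τ, (c τ : ℕ) ≠ 0 → ‖uu (p ^ n) (fun i => ((x i).1 : L)) τ‖ ≤
        ‖uu (p ^ n) (fun i => ((x i).1 : L)) σ‖ := fun τ hτ =>
      hm τ (Finset.mem_filter.2 ⟨Finset.mem_univ _, hτ⟩)
    refine (hm' σ0 h0).trans ?_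
    set M := ‖uu (p ^ n) (fun i => ((x i).1 : L)) σ‖ with hM
    have hMe : M = ‖((x σ.1).1 : L)‖ ^ ((p ^ n) ^ (σ.2 : ℕ)) := by rw [hM, uu, norm_pow]
    have hρM : ρ < M := by
      rw [hMe]
      exact lt_of_lt_of_le (hE σ.1) (pow_le_pow_of_le_one (norm_nonneg _) (hN1 _)
        (Nat.pow_le_pow_right (by omega) (Nat.lt_succ_iff.1 σ.2.2)))
    have hM1 : M < 1 := by
      rw [hMe]
      exact pow_lt_one₀ (norm_nonneg _) (x σ.1).2 (by positivity)
    have hM0 : 0 < M := hη.pos.trans hρM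
    have hC : ∀ i, (∑ l : Fin (E + 1), (c (i, l) : ℕ) * p ^ (l : ℕ)) • x i =
        ∑ l : Fin (E + 1), (c (i, l) : ℕ) • (p ^ (l : ℕ) • x i) := fun i => by
      rw [Finset.sum_smul]
      exact Finset.sum_congr rfl fun l _ => mul_smul _ _ _
    have A1 := comb_TorB hG (fun τ : Fin (n - h) × Fin (E + 1) => (c τ : ℕ))
      (fun τ => p ^ (τ.2 : ℕ) • x τ.1) (uu (p ^ n) (fun i => ((x i).1 : L))) hη.pos.le hρM hM1
      (fun τ => pow_sub_TorB hF h1 hn hη hG _ _) hm'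
    have A2 := comb_TorB hG (fun l : Fin (E + 1) => (c (σ.1, l) : ℕ))
      (fun l => p ^ (l : ℕ) • x σ.1) (fun l => uu (p ^ n) (fun i => ((x i).1 : L)) (σ.1, l))
      hη.pos.le hρM hM1 (fun τ => pow_sub_TorB hF h1 hn hη hG _ _) (fun l => hm' _)
    have A3 : M ≤ ‖∑ l : Fin (E + 1), ((c (σ.1, l) : ℕ) : L) *
        uu (p ^ n) (fun i => ((x i).1 : L)) (σ.1, l)‖ := by
      refine ge_of_sub_TorB (a := ((c σ : ℕ) : L) * uu (p ^ n) (fun i => ((x i).1 : L)) σ) ?_ ?_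
      · rw [← Finset.add_sum_erase _ _ (Finset.mem_univ σ.2), sub_add_cancel_left, norm_neg]
        refine sum_lt_TorB _ _ hM0 fun l hl => ?_
        by_cases hl0 : (c (σ.1, l) : ℕ) = 0
        · rw [hl0]; simpa using hM0
        · rw [norm_mul, norm_cast_TorB p hl0 (c _).2, one_mul]
          refine lt_of_le_of_ne (hm' _ hl0) fun he => Finset.ne_of_mem_erase hl ?_
          rw [hMe, uu, norm_pow] at he
          have hpos : 0 < ‖((x σ.1).1 : L)‖ := by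
            refine lt_of_le_of_ne (norm_nonneg _) fun h0 => ?_
            rw [hMe, ← h0, zero_pow (by positivity)] at hM0
            exact lt_irrefl _ hM0
          have := pow_right_injective₀ hpos (ne_of_lt (x σ.1).2) he
          exact Fin.ext (Nat.pow_right_injective hq this)
      · rw [norm_mul, norm_cast_TorB p hσ0 (c _).2, one_mul]
    have A4 : M ≤ N ((∑ l : Fin (E + 1), (c (σ.1, l) : ℕ) * p ^ (l : ℕ)) • x σ.1) := by
      rw [hC]
      exact ge_of_sub_TorB (by rw [norm_sub_rev]; exact A2) A3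
    have A5 := hx (fun i => ∑ l : Fin (E + 1), (c (i, l) : ℕ) * p ^ (l : ℕ)) σ.1
      (lt_of_lt_of_le hρM A4)
    simp only [hC] at A5 A4
    rw [← Fintype.sum_prod_type (f := fun τ : Fin (n - h) × Fin (E + 1) =>
      (c τ : ℕ) • (p ^ (τ.2 : ℕ) • x τ.1))] at A5
    exact ge_of_sub_TorB A1 (A4.trans A5)

omit [CompleteSpace L] [IsAlgClosed L] in
theorem Orth.frob {m q E : ℕ} {y : Fin m → L} (h : Orth p q E y) (s : ℕ) :
    Orth p q E (fun i => y i ^ (p ^ s)) := by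
  intro c σ hσ
  have e : ∀ τ : Fin m × Fin (E + 1), uu q (fun i => y i ^ (p ^ s)) τ = uu q y τ ^ (p ^ s) :=
    fun τ => by simp only [uu]; rw [← pow_mul, ← pow_mul, mul_comm]
  have e2 : ∑ τ, ((c τ : ℕ) : L) * uu q (fun i => y i ^ (p ^ s)) τ =
      (∑ τ, ((c τ : ℕ) : L) * uu q y τ) ^ (p ^ s) := by
    rw [← iterateFrobenius_def, map_sum]
    refine Finset.sum_congr rfl fun τ _ => ?_
    rw [map_mul, map_natCast, iterateFrobenius_def, e]
  rw [e2, e, norm_pow, norm_pow]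
  exact pow_le_pow_left₀ (norm_nonneg _) (h c σ hσ) _

end Vale.Agent.P217
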