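import Vale.Agent.P217.Cmp
import Vale.Agent.P217.TorB
import Vale.Agent.P217.Phi

namespace Vale.Agent.P217

open MvPowerSeries

variable {p n : ℕ} [Fact p.Prime] {F : FormalGroup (E0 p n)}

variable {L : Type} [NormedField L] [IsUltrametricDist L] [CompleteSpace L] [IsAlgClosed L]
  [CharP L p]

theorem exists_root_CPb {ρ : ℝ} (h0 : 0 < ρ) (h1 : ρ < 1) {N : ℕ} (hN : N ≠ 0) :
    ∃ t : ℝ, 0 < t ∧ t < 1 ∧ t ^ N = ρ := by
  refine ⟨ρ ^ ((N : ℝ)⁻¹), Real.rpow_pos_of_pos h0 _, ?_, Real.rpow_inv_natCast_pow h0.le hN⟩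
  exact Real.rpow_lt_one h0.le h1 (inv_pos.mpr (by exact_mod_cast Nat.pos_of_ne_zero hN))

theorem IsLT.cpb (hF : IsLT p n F) [F.IsComm] {h : ℕ} (h1 : 1 ≤ h) (hn : h < n)
    {η : E0 p n →+* OC L} {ρ : ℝ} (hη : HtPt p n h η ρ) (f : E0 p n) (c : ℕ)
    (hc : ∀ k, c ≤ k → ∀ Ψ, PsiSpec p n F (n - h) k Ψ →
      ∀ H : MvPowerSeries (Fin (n - h)) (kk p n), Ideal.Quotient.mk _ H = Ψ f →
        (((p ^ n) ^ (k - c) : ℕ) : ℕ∞) ≤ H.order) : η f = 0 := by
  have hp : p.Prime := Fact.out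
  have hq1 : 1 ≤ p ^ n := Nat.one_le_pow _ _ hp.pos
  have hp0 : ((p : ℕ) : OC L) = 0 := by
    apply Subtype.ext
    simp
  obtain ⟨ι, hι⟩ := exists_iota p n (η.comp (C : WW p n →+* E0 p n)) hp0
  obtain ⟨inst, hG⟩ := exists_grp (F.map η)
  obtain ⟨c0, -, -, hx⟩ := hF.torB h1 hn hη hG
  obtain ⟨t, ht0, ht1, ht⟩ := exists_root_CPb hη.pos hη.lt1
    (N := (p ^ n) ^ (c + 1)) (by positivity)
  have key : ∀ k, c + 1 ≤ k → ‖((η f : OC L) : L)‖ ≤ t ^ (p ^ (h * k)) := by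
    intro k hk
    obtain ⟨x, hxb, hxn, -⟩ := hx k (by omega)
    obtain ⟨Ψ, hΨ⟩ := hF.exists_psi (m := n - h) (by omega) k
    obtain ⟨H, hH⟩ := Ideal.Quotient.mk_surjective (Ψ f)
    obtain ⟨u, hu0, hu1, hu⟩ := exists_root_CPb hη.pos hη.lt1
      (N := (p ^ n) ^ k) (by positivity)
    have hut : u ^ ((p ^ n) ^ (k - (c + 1))) = t := by
      have hne : (p ^ n) ^ (c + 1) ≠ 0 := by positivity
      rw [← pow_left_inj₀ (pow_nonneg hu0.le _) ht0.le hne, ← pow_mul, ← pow_add,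
        Nat.sub_add_cancel hk, hu, ht]
    have hxu : ∀ i, ‖((x i).1 : L)‖ ≤ u := by
      intro i
      have hne : (p ^ n) ^ k ≠ 0 := by positivity
      rw [← pow_le_pow_iff_left₀ (norm_nonneg _) hu0.le hne, hu]
      exact (hxn i).1
    have hr0 : 0 ≤ u ^ (p ^ (h * k)) := pow_nonneg hu0.le _
    have hr1 : u ^ (p ^ (h * k)) < 1 := pow_lt_one₀ hu0.le hu1 (pow_ne_zero _ hp.ne_zero)
    have hr : ∀ i, ‖((x i).1 : L) ^ (p ^ (h * k))‖ ≤ u ^ (p ^ (h * k)) := by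
      intro i
      rw [norm_pow]
      exact pow_le_pow_left₀ (norm_nonneg _) (hxu i) _
    have hpow : ∀ j, k - (c + 1) ≤ j →
        (u ^ (p ^ (h * k))) ^ ((p ^ n) ^ j) ≤ t ^ (p ^ (h * k)) := by
      intro j hj
      rw [← hut, ← pow_mul u ((p ^ n) ^ (k - (c + 1))), mul_comm ((p ^ n) ^ (k - (c + 1))),
        pow_mul u (p ^ (h * k))]
      exact pow_le_pow_of_le_one hr0 hr1.le (Nat.pow_le_pow_right hq1 hj)
    have hρt : ρ ^ (p ^ (h * k)) ≤ t ^ (p ^ (h * k)) := by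
      refine pow_le_pow_left₀ hη.pos.le ?_ _
      rw [← ht]
      exact pow_le_of_le_one ht0.le ht1.le (by positivity)
    have hcmp := hF.cmp h1 hn hη ι (fun w => hι w) hG hxb hΨ hr0 hr1 hr (hpow _ (by omega)) hρt
      f H hH
    have hlt : ∀ i, ‖(((x i).1 ^ (p ^ (h * k)) : OC L) : L)‖ < 1 := by
      intro i
      exact lt_of_le_of_lt (by simpa using hr i) hr1
    have hev := (evR_spec (fun i => (x i).1 ^ (p ^ (h * k))) hlt).bound (u ^ (p ^ (h * k))) 1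
      ((p ^ n) ^ (k - c)) (map ι H) hr0 hr1.le zero_le_one (fun i => by simpa using hr i)
      (fun d => (coeff d (map ι H)).2) (fun d hd => by
        have h2 := hc k (by omega) Ψ hΨ H hH
        rw [coeff_map, coeff_of_lt_order (lt_of_lt_of_le (by exact_mod_cast hd) h2), map_zero])
    rw [one_mul] at hev
    have hev2 := hev.trans (hpow _ (by omega))
    have h3 := IsUltrametricDist.norm_add_le_max
      (((η f : OC L) : L) - (evR (fun i => (x i).1 ^ (p ^ (h * k))) (map ι H) : OC L))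
      ((evR (fun i => (x i).1 ^ (p ^ (h * k))) (map ι H) : OC L) : L)
    rw [sub_add_cancel] at h3
    exact h3.trans (max_le hcmp hev2)
  apply Subtype.ext
  show ((η f : OC L) : L) = 0
  rw [← norm_le_zero_iff]
  by_contra hpos
  push Not at hpos
  obtain ⟨k, hk⟩ := exists_pow_lt_of_lt_one hpos ht1
  have h4 := key (k + (c + 1)) (by omega)
  have h5 : t ^ (p ^ (h * (k + (c + 1)))) ≤ t ^ k := by
    refine pow_le_pow_of_le_one ht0.le ht1.le ?_
    have h6 : h * (k + (c + 1)) < p ^ (h * (k + (c + 1))) := Nat.lt_pow_self hp.one_lt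
    have h7 : k + (c + 1) ≤ h * (k + (c + 1)) := Nat.le_mul_of_pos_left _ h1
    omega
  linarith

end Vale.Agent.P217
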