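import Vale.Agent.P217.AbsV

namespace Vale.Agent.P217

open MvPowerSeries

open Polynomial in
theorem eval_sub_Cmpl {L : Type} [NormedField L] (P Q : L[X]) (d : ℕ) (hP : P.natDegree ≤ d)
    (hQ : Q.natDegree ≤ d) {ε : ℝ} (h : ∀ i, ‖Q.coeff i - P.coeff i‖ ≤ ε) (x : L) {B : ℝ}
    (hB : 1 ≤ B) (hx : ‖x‖ ≤ B) : ‖Q.eval x - P.eval x‖ ≤ (d + 1) * ε * B ^ d := by
  rw [eval_eq_sum_range' (Nat.lt_succ_of_le hP), eval_eq_sum_range' (Nat.lt_succ_of_le hQ),
    ← Finset.sum_sub_distrib]
  refine (norm_sum_le _ _).trans ?_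
  refine (Finset.sum_le_card_nsmul _ _ (ε * B ^ d) fun i hi => ?_).trans ?_
  · rw [← sub_mul, norm_mul, norm_pow]
    refine mul_le_mul (h i) ?_ (by positivity) ((norm_nonneg _).trans (h i))
    exact (pow_le_pow_left₀ (norm_nonneg _) hx i).trans
      (pow_le_pow_right₀ hB (Nat.lt_succ_iff.1 (Finset.mem_range.1 hi)))
  · simp [mul_assoc]

open Polynomial in
theorem step_Cmpl {K L : Type} [Field K] [IsAlgClosed K] [NormedField L] (f : K →+* L)
    (hf : DenseRange f) (P : L[X]) (hP : P.Monic) (hd : P.natDegree ≠ 0) (a : L) {δ : ℝ}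
    (hδ : 0 < δ) : ∃ b : L, ‖a - b‖ ^ P.natDegree ≤ ‖P.eval a‖ + δ ∧ ‖P.eval b‖ ≤ δ := by
  classical
  let _ : Algebra K L := f.toAlgebra
  set d := P.natDegree
  set B : ℝ := ‖a‖ + (‖P.eval a‖ + δ + 1) with hBdef
  have hB : 1 ≤ B := by
    have := norm_nonneg a; have := norm_nonneg (P.eval a); linarith
  have hε : 0 < δ / ((d + 1) * B ^ d) := by positivity
  obtain ⟨g, gm, gd, gc⟩ :=
    exists_monic_and_natDegree_eq_and_norm_map_algebraMap_coeff_sub_lt (K := K) hf hP hε
  have hs : (g.map (algebraMap K L)).Splits := (IsAlgClosed.splits g).map _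
  have hm : (g.map (algebraMap K L)).Monic := gm.map _
  have hgd : (g.map (algebraMap K L)).natDegree = d := by rw [gm.natDegree_map, ← gd]
  set Q := g.map (algebraMap K L)
  have key : ∀ x : L, ‖x‖ ≤ B → ‖Q.eval x - P.eval x‖ ≤ δ := fun x hx => by
    refine (eval_sub_Cmpl P Q d le_rfl hgd.le (fun i => (gc i).le) x hB hx).trans (le_of_eq ?_)
    field_simp
  have hcard : Q.roots.card = d := by rw [← hs.natDegree_eq_card_roots, hgd]
  have hne : Q.roots.toFinset.Nonempty := by
    rw [Multiset.toFinset_nonempty]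
    intro h0; rw [h0] at hcard; exact hd hcard.symm
  obtain ⟨b, hb, hmin⟩ := Q.roots.toFinset.exists_min_image (fun x => ‖a - x‖) hne
  rw [Multiset.mem_toFinset] at hb
  have h1 : ‖a - b‖ ^ d ≤ ‖Q.eval a‖ := by
    rw [hs.eval_eq_prod_roots_of_monic hm, ← hcard]
    have := Multiset.prod_map_le_prod_map₀ (s := Q.roots) (fun _ => ‖a - b‖) (fun x => ‖a - x‖)
      (fun _ _ => norm_nonneg _) (fun x hx => hmin x (Multiset.mem_toFinset.2 hx))
    rw [Multiset.map_const', Multiset.prod_replicate] at this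
    refine this.trans (le_of_eq ?_)
    exact (Q.roots.prod_hom' (NormedField.toMulRingNorm L) (fun x : L => a - x))
  have h2 : ‖Q.eval a‖ ≤ ‖P.eval a‖ + δ := by
    have := key a (by have := norm_nonneg (P.eval a); linarith)
    have h3 := norm_sub_norm_le (Q.eval a) (P.eval a)
    linarith
  refine ⟨b, h1.trans h2, ?_⟩
  have h3 : ‖a - b‖ ≤ ‖P.eval a‖ + δ + 1 := by
    by_contra hc
    have hc := not_le.1 hc
    have h4 : 1 ≤ ‖a - b‖ := by have := norm_nonneg (P.eval a); linarith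
    have := le_self_pow₀ h4 hd
    linarith
  have h4 : ‖b‖ ≤ B := by
    have := norm_sub_norm_le b a
    rw [norm_sub_rev] at this
    linarith
  have h5 := key b h4
  rw [(mem_roots hm.ne_zero).1 hb, zero_sub, norm_neg] at h5
  exact h5

theorem isAlgClosed_of_dense {K L : Type} [Field K] [IsAlgClosed K] [NormedField L]
    [IsUltrametricDist L] [CompleteSpace L] (f : K →+* L) (hf : DenseRange f) : IsAlgClosed L := by
  apply IsAlgClosed.of_exists_root
  intro P hP hirr
  have hd : P.natDegree ≠ 0 := (Irreducible.natDegree_pos hirr).ne'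
  set d := P.natDegree
  have hδ : ∀ n : ℕ, (0 : ℝ) < ((1 / 2) ^ n) ^ d / 2 := fun n => by positivity
  choose nx h1 h2 using fun (n : ℕ) (a : L) => step_Cmpl f hf P hP hd a (hδ n)
  let a : ℕ → L := fun n => Nat.rec (nx 0 0) (fun k x => nx (k + 1) x) n
  have ha : ∀ n, ‖P.eval (a n)‖ ≤ ((1 / 2) ^ n) ^ d / 2 := fun n => by
    cases n with
    | zero => exact h2 0 0
    | succ n => exact h2 (n + 1) (a n)
  have hc : CauchySeq a := by
    refine cauchySeq_of_le_geometric (1 / 2) 1 (by norm_num) fun n => ?_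
    rw [dist_eq_norm, one_mul]
    have h3 : ‖a n - a (n + 1)‖ ^ d ≤ ‖P.eval (a n)‖ + ((1 / 2) ^ (n + 1)) ^ d / 2 :=
      h1 (n + 1) (a n)
    have h4 : (((1 / 2 : ℝ)) ^ (n + 1)) ^ d ≤ ((1 / 2) ^ n) ^ d :=
      pow_le_pow_left₀ (by positivity)
        (pow_le_pow_of_le_one (by norm_num) (by norm_num) (Nat.le_succ n)) d
    refine (pow_le_pow_iff_left₀ (norm_nonneg _) (by positivity) hd).1 ?_
    linarith [ha n]
  obtain ⟨x, hx⟩ := cauchySeq_tendsto_of_complete hc
  refine ⟨x, ?_⟩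
  have h3 : Filter.Tendsto (fun n => P.eval (a n)) Filter.atTop (nhds (P.eval x)) :=
    (P.continuous.tendsto x).comp hx
  refine tendsto_nhds_unique h3 (squeeze_zero_norm (a := fun n : ℕ => (1 / 2 : ℝ) ^ n)
    (fun n => ?_) (tendsto_pow_atTop_nhds_zero_of_lt_one (by norm_num) (by norm_num)))
  have h4 : (((1 / 2 : ℝ)) ^ n) ^ d ≤ (1 / 2) ^ n :=
    pow_le_of_le_one (by positivity) (pow_le_one₀ (by norm_num) (by norm_num)) hd
  have := hδ n
  linarith [ha n]

theorem exists_point {S : Type} [CommRing S] [IsDomain S] (p : ℕ) [Fact p.Prime]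
    (hp : (p : S) = 0) (m : Ideal S) (hm : m ≠ ⊤) (s : S)
    (hs : s ∈ m) (hs0 : s ≠ 0) (N : ℕ) (hN : m ^ N ≤ Ideal.span {s})
    (hdiv : ∀ a : S, a ≠ 0 → ∃ M : ℕ, a ∣ s ^ M) :
    ∃ (L : Type) (_ : NormedField L) (_ : IsUltrametricDist L) (_ : CompleteSpace L)
      (_ : IsAlgClosed L) (_ : CharP L p) (ξ : S →+* OC L) (ρ : ℝ), Function.Injective ξ ∧
      0 < ρ ∧ ρ < 1 ∧ ∀ x ∈ m, ‖((ξ x : OC L) : L)‖ ≤ ρ := by
  obtain ⟨v, ρ, hna, h0, h1, h2, h3⟩ := exists_absv m hm s hs hs0 N hN hdiv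
  set K := AlgebraicClosure (FractionRing S)
  have hinj : Function.Injective (algebraMap S K) := by
    rw [IsScalarTower.algebraMap_eq S (FractionRing S) K, RingHom.coe_comp]
    exact (algebraMap (FractionRing S) K).injective.comp (IsFractionRing.injective S _)
  let f : K →+* v.Completion :=
    (UniformSpace.Completion.coeRingHom (α := WithAbs v)).comp (WithAbs.equiv v).symm.toRingHom
  have hfn : ∀ x, ‖f x‖ = v x := fun x => by
    show ‖((WithAbs.toAbs v x : WithAbs v) : v.Completion)‖ = _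
    rw [UniformSpace.Completion.norm_coe]; rfl
  have hf : DenseRange f :=
    DenseRange.comp (g := ((↑) : WithAbs v → v.Completion)) (f := (WithAbs.equiv v).symm)
      UniformSpace.Completion.denseRange_coe (WithAbs.equiv v).symm.surjective.denseRange
      (UniformSpace.Completion.continuous_coe _)
  have hu : IsUltrametricDist v.Completion := by
    refine IsUltrametricDist.isUltrametricDist_of_forall_norm_add_le_max_norm fun x y => ?_
    refine hf.induction_on₂ (p := fun x y => ‖x + y‖ ≤ max ‖x‖ ‖y‖) ?_ (fun a b => ?_) x y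
    · exact isClosed_le (by fun_prop) (by fun_prop)
    · rw [← map_add, hfn, hfn, hfn]; exact hna a b
  have hc : CharP v.Completion p := by
    rw [CharP.charP_iff_prime_eq_zero (Fact.out : p.Prime)]
    rw [← map_natCast (f.comp (algebraMap S K)), hp, map_zero]
  refine ⟨v.Completion, inferInstance, hu, inferInstance, isAlgClosed_of_dense f hf, hc,
    (f.comp (algebraMap S K)).codRestrict (OC v.Completion) fun x => ?_, ρ, ?_, h0, h1,
    fun x hx => ?_⟩
  · show ‖f (algebraMap S K x)‖ ≤ 1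
    rw [hfn]; exact h2 x
  · intro x y hxy
    exact hinj (f.injective (congrArg Subtype.val hxy))
  · show ‖f (algebraMap S K x)‖ ≤ ρ
    rw [hfn]; exact h3 x hx

end Vale.Agent.P217
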