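import Vale.Agent.P217.Cpl

namespace Vale.Agent.P217

open MvPowerSeries

variable {p n : ℕ} [Fact p.Prime]

theorem dom_PrQ {D : Type} [CommRing D] [IsDomain D] [IsNoetherianRing D] {m : Ideal D}
    (hm : ∀ x ∈ m, ¬ IsUnit x) {s : D} (hs0 : s ≠ 0) (hsm : s ∈ m)
    (hs : ∀ P : Ideal D, P.IsPrime → P ≠ ⊥ → s ∈ P) (hle : ∀ P : Ideal D, P.IsPrime → P ≤ m)
    {P : Ideal D} (hP : P.IsPrime) (hsP : s ∈ P) : m ≤ P := by
  have key : ∀ x ∈ m, x ≠ 0 → ∃ P ∈ (Ideal.span {s}).minimalPrimes, x ∈ P := by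
    intro x hx hx0
    obtain ⟨M, hM, hxM⟩ := Ideal.exists_le_maximal (Ideal.span {x})
      (mt Ideal.span_singleton_eq_top.1 (hm x hx))
    have := hM.isPrime
    obtain ⟨P₁, h1, -⟩ := Ideal.exists_minimalPrimes_le hxM
    have hx1 : x ∈ P₁ := h1.le (Ideal.subset_span rfl)
    have := h1.isPrime
    have h2 := hs P₁ this fun h => hx0 (by simpa [h] using hx1)
    obtain ⟨P₂, h3, h4⟩ := Ideal.exists_minimalPrimes_le
      ((Ideal.span_singleton_le_iff_mem P₁).2 h2)
    have := h3.isPrime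
    rcases h4.eq_or_lt with rfl | h5
    · exact ⟨_, h3, hx1⟩
    · exfalso
      have h6 : (⊥ : Ideal D) < P₂ := bot_lt_iff_ne_bot.2 fun h =>
        hs0 (by simpa [h] using h3.le (Ideal.subset_span (Set.mem_singleton s)))
      have a1 := Ideal.height_add_one_le_of_lt_of_isPrime h5
      have a2 := Ideal.height_add_one_le_of_lt_of_isPrime h6
      have a3 := Ideal.height_le_one_of_isPrincipal_of_mem_minimalPrimes _ _ h1
      have a4 : (1 : ℕ∞) + 1 ≤ 1 :=
        ((add_le_add_left (le_add_self.trans a2) 1).trans a1).trans a3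
      exact absurd a4 (by decide)
  obtain ⟨P₀, h1, h2⟩ := (Ideal.subset_union_prime_finite
    (Ideal.finite_minimalPrimes_of_isNoetherianRing D (Ideal.span {s})) (f := id) ⊥ ⊥
    (fun i hi _ _ => hi.isPrime) (I := m)).1 fun x hx => by
      by_cases hx0 : x = 0
      · obtain ⟨P, a, -⟩ := key s hsm hs0
        exact Set.mem_biUnion a (hx0 ▸ P.zero_mem)
      · obtain ⟨P, a, b⟩ := key x hx hx0
        exact Set.mem_biUnion a b
  exact le_trans h2 (h1.2 ⟨hP, (Ideal.span_singleton_le_iff_mem P).2 hsP⟩ ((hle P hP).trans h2))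
theorem exists_primeQ (J : Ideal (E0 p n)) (s : E0 p n) (hs : s ∈ mm p n) (hJ : s ∉ J.radical) :
    ∃ Q : Ideal (E0 p n), Q.IsPrime ∧ J ≤ Q ∧ s ∉ Q ∧
      (∃ N, mm p n ^ N ≤ Q ⊔ Ideal.span {s}) ∧ ∀ a, a ∉ Q → ∃ (N : ℕ) (b : E0 p n), s ^ N - a * b ∈ Q := by
  obtain ⟨Q : Ideal (E0 p n), ⟨hJQ, hQs⟩, hmax⟩ := set_has_maximal_iff_noetherian.2
    (inferInstance : IsNoetherian (E0 p n) (E0 p n))
    {I : Ideal (E0 p n) | J ≤ I ∧ ∀ N, s ^ N ∉ I} ⟨J, le_rfl, fun N h => hJ ⟨N, h⟩⟩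
  have hgt : ∀ I : Ideal (E0 p n), Q < I → ∃ N, s ^ N ∈ I := fun I hI => by
    by_contra hc
    push Not at hc
    exact hmax I ⟨hJQ.trans hI.le, hc⟩ hI
  have hQ : Q.IsPrime := Ideal.isPrime_of_maximally_disjoint Q (Submonoid.powers s)
    (Set.disjoint_left.2 fun _ hx ⟨N, hN⟩ => hQs N (by rwa [← hN] at hx)) fun I hI h => by
      obtain ⟨N, hN⟩ := hgt I hI
      exact Set.disjoint_left.1 h hN ⟨N, rfl⟩
  have hsQ : s ∉ Q := by simpa using hQs 1
  refine ⟨Q, hQ, hJQ, hsQ, ?_, fun a ha => ?_⟩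
  · refine Ideal.exists_pow_le_of_le_radical_of_fg ?_ (IsNoetherian.noetherian _)
    rw [Ideal.radical_eq_sInf]
    refine le_sInf fun P ⟨h1, hP⟩ => ?_
    have hQP : Q ≤ P := le_sup_left.trans h1
    have hsP : s ∈ P := h1 (Ideal.mem_sup_right (Ideal.subset_span rfl))
    have hsurj := Ideal.Quotient.mk_surjective (I := Q)
    have hQm : Q ≤ mm p n := le_mm p n hQ.ne_top
    have hcm : ∀ I : Ideal (E0 p n), Q ≤ I → (I.map (Ideal.Quotient.mk Q)).comap (Ideal.Quotient.mk Q) = I :=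
      fun I hI => by
        rw [Ideal.comap_map_of_surjective _ hsurj, ← RingHom.ker_eq_comap_bot, Ideal.mk_ker,
          sup_eq_left.2 hI]
    have hmt : (mm p n).map (Ideal.Quotient.mk Q) ≠ ⊤ := fun h =>
      (mm_isMaximal p n).ne_top (by rw [← hcm _ hQm, h, Ideal.comap_top])
    have := dom_PrQ (m := (mm p n).map (Ideal.Quotient.mk Q)) (s := Ideal.Quotient.mk Q s)
      (fun x hx hu => hmt (Ideal.eq_top_of_isUnit_mem _ hx hu))
      (mt Ideal.Quotient.eq_zero_iff_mem.1 hsQ) (Ideal.mem_map_of_mem _ hs)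
      (fun P' hP' h0 => ?_) (fun P' hP' => ?_)
      (Ideal.map_isPrime_of_surjective hsurj (by rwa [Ideal.mk_ker])) (Ideal.mem_map_of_mem _ hsP)
    · rw [← hcm _ hQm, ← hcm _ hQP]; exact Ideal.comap_mono this
    · have hlt : Q < P'.comap (Ideal.Quotient.mk Q) := by
        refine lt_of_le_of_ne (fun x hx => by simp [Ideal.Quotient.eq_zero_iff_mem.2 hx])
          fun h => h0 ?_
        rw [← Ideal.map_comap_of_surjective _ hsurj P', ← h, Ideal.map_quotient_self]
      obtain ⟨N, hN⟩ := hgt _ hlt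
      exact (hP'.comap _).mem_of_pow_mem N hN
    · rw [← Ideal.map_comap_of_surjective _ hsurj P']
      exact Ideal.map_mono (le_mm p n (hP'.comap _).ne_top)
  · obtain ⟨N, hN⟩ := hgt (Q ⊔ Ideal.span {a}) (lt_of_le_of_ne le_sup_left fun h =>
      ha (h ▸ Ideal.mem_sup_right (Ideal.subset_span rfl)))
    obtain ⟨y, hy, z, hz, e⟩ := Submodule.mem_sup.1 hN
    obtain ⟨b, rfl⟩ := Ideal.mem_span_singleton'.1 hz
    exact ⟨N, b, by rw [← e, mul_comm a b, add_sub_cancel_right]; exact hy⟩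

theorem unit_PrQ {m : ℕ} (hm : ¬ p ∣ m) : IsUnit (m : WW p n) :=
  WittVector.isUnit_of_coeff_zero_ne_zero _ (by
    rw [← WittVector.constantCoeff_apply, map_natCast, ne_eq, CharP.cast_eq_zero_iff _ p]
    exact hm)

theorem ne_PrQ {m : ℕ} (hm : m ≠ 0) : (m : WW p n) ≠ 0 := by
  obtain ⟨t, k, h1, rfl⟩ := Nat.exists_eq_pow_mul_and_not_dvd hm p (Fact.out : p.Prime).ne_one
  push_cast
  exact mul_ne_zero (pow_ne_zero _ (WittVector.p_nonzero p _)) (unit_PrQ h1).ne_zero

theorem sat_PrQ {J : Ideal (E0 p n)} (hsat : ∀ f, (p : E0 p n) * f ∈ J → f ∈ J) {m : ℕ}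
    (hm : m ≠ 0) {f : E0 p n} (h : (m : E0 p n) * f ∈ J) : f ∈ J := by
  obtain ⟨t, k, h1, rfl⟩ := Nat.exists_eq_pow_mul_and_not_dvd hm p (Fact.out : p.Prime).ne_one
  have hu : IsUnit (k : E0 p n) := by simpa using (unit_PrQ (n := n) h1).map (C : _ →+* E0 p n)
  rw [← Ideal.unit_mul_mem_iff_mem _ hu]
  rw [Nat.cast_mul, Nat.cast_pow, mul_assoc] at h
  generalize (k : E0 p n) * f = g at h
  clear hm
  induction t with
  | zero => simpa using h
  | succ t ih => exact ih (hsat _ (by rwa [pow_succ', mul_assoc] at h))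

/-- `∏_{s = 1}^N (s - k) / N!` -/
def cc_PrQ (N k : ℕ) : ℤ := if k = 0 then 1 else (-1) ^ N * ((k - 1).choose N : ℤ)

theorem cc_succ_PrQ (N k : ℕ) :
    ((N + 1 : ℕ) : ℤ) * cc_PrQ (N + 1) k = ((N + 1 : ℕ) - k) * cc_PrQ N k := by
  unfold cc_PrQ
  rcases k with _ | j
  · simp
  · simp only [Nat.succ_ne_zero, if_false, Nat.add_sub_cancel]
    rcases le_or_gt N j with h | h
    · have := congrArg (Nat.cast : ℕ → ℤ) (Nat.choose_succ_right_eq j N)
      push_cast [Nat.cast_sub h] at this ⊢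
      linear_combination (-1) ^ (N + 1) * this
    · rw [Nat.choose_eq_zero_of_lt h, Nat.choose_eq_zero_of_lt (by omega)]; simp

theorem theta_PrQ (g : E0 p n) (d : Fin (n - 1) →₀ ℕ) :
    coeff d (∑ i, X i * pderiv (WW p n) i g) = (Finsupp.degree d : ℕ) * coeff d g := by
  classical
  rw [map_sum, Finsupp.degree_eq_sum, Nat.cast_sum, Finset.sum_mul]
  refine Finset.sum_congr rfl fun i _ => ?_
  rw [X_def, coeff_monomial_mul]
  split_ifs with h
  · have h' := Finsupp.single_le_iff.1 h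
    rw [one_mul, coeff_pderiv, tsub_add_cancel_of_le h, mul_comm, Finsupp.tsub_apply,
      Finsupp.single_eq_same, Nat.cast_sub h', Nat.cast_one, sub_add_cancel]
  · rw [Finsupp.single_le_iff] at h
    rw [show d i = 0 by omega]; simp
theorem eq_bot_of_pderiv (J Q : Ideal (E0 p n)) (hQ : Q.IsPrime) (hp : (p : E0 p n) ∉ Q)
    (hJQ : J ≤ Q) (hsat : ∀ f, (p : E0 p n) * f ∈ J → f ∈ J)
    (hd : ∀ f ∈ J, ∀ i, pderiv (WW p n) i f ∈ J) : J = ⊥ := by
  have A : ∀ f ∈ J, constantCoeff f = 0 := by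
    intro f hf
    obtain ⟨g, hg⟩ : ∃ g : ℕ → E0 p n, ∀ N d, coeff d (g N) =
        (cc_PrQ N (Finsupp.degree d) : WW p n) * coeff d f :=
      ⟨fun N d => (cc_PrQ N (Finsupp.degree d) : WW p n) * coeff d f, fun _ _ => rfl⟩
    have hJ : ∀ N, g N ∈ J := by
      intro N
      induction N with
      | zero =>
        have : g 0 = f := by ext1 d; simp [hg, cc_PrQ]
        rwa [this]
      | succ N ih =>
        refine sat_PrQ hsat (Nat.succ_ne_zero N) ?_
        have : ((N + 1 : ℕ) : E0 p n) * g (N + 1) =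
            ((N + 1 : ℕ) : E0 p n) * g N - ∑ i, X i * pderiv (WW p n) i (g N) := by
          ext1 d
          have e := congrArg (Int.cast : ℤ → WW p n) (cc_succ_PrQ N (Finsupp.degree d))
          rw [map_sub, theta_PrQ, ← map_natCast (C : WW p n →+* E0 p n), coeff_C_mul, coeff_C_mul,
            hg, hg]
          push_cast at e ⊢
          linear_combination coeff d f * e
        rw [this]
        exact sub_mem (J.mul_mem_left _ ih)
          (Ideal.sum_mem _ fun i _ => J.mul_mem_left _ (hd _ ih i))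
    have hC : (C (constantCoeff f) : E0 p n) ∈ Q := by
      have := quot_complete p n Q
      refine Ideal.Quotient.eq_zero_iff_mem.1 (IsHausdorff.haus'
        (I := (mm p n).map (Ideal.Quotient.mk Q)) _ fun N => ?_)
      rw [SModEq.zero, smul_eq_mul, Ideal.mul_top, ← Ideal.map_pow,
        ← sub_zero (Ideal.Quotient.mk Q _), ← Ideal.Quotient.eq_zero_iff_mem.2 (hJQ (hJ N)),
        ← map_sub]
      refine Ideal.mem_map_of_mem _ ((mem_mm_pow_Cpl p n N _).2 fun d => ?_)
      by_cases h : N ≤ Finsupp.degree d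
      · rw [show N - Finsupp.degree d = 0 by omega]; simp
      · classical
        rw [map_sub, hg, coeff_C, cc_PrQ]
        by_cases h0 : d = 0
        · subst h0; simp
        · have h1 : Finsupp.degree d ≠ 0 := by rwa [ne_eq, Finsupp.degree_eq_zero_iff]
          rw [if_neg h0, if_neg h1, Nat.choose_eq_zero_of_lt (by omega)]; simp
    by_contra h0
    obtain ⟨k, u, hu⟩ := WittVector.exists_eq_pow_p_mul' _ h0
    rw [hu, map_mul, map_pow, map_natCast,
      Ideal.mul_unit_mem_iff_mem _ (u.isUnit.map (C : _ →+* E0 p n))] at hC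
    exact hp (hQ.mem_of_pow_mem k hC)
  have B : ∀ k, ∀ d : Fin (n - 1) →₀ ℕ, Finsupp.degree d = k → ∀ f ∈ J, coeff d f = 0 := by
    intro k
    induction k with
    | zero =>
      intro d h f hf
      rw [(Finsupp.degree_eq_zero_iff d).1 h]; exact A f hf
    | succ k ih =>
      intro d h f hf
      obtain ⟨i, hi⟩ : ∃ i, d i ≠ 0 := by
        by_contra hc
        push Not at hc
        rw [show d = 0 from Finsupp.ext hc] at h
        simp at h
      have hle : Finsupp.single i 1 ≤ d := Finsupp.single_le_iff.2 (by omega)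
      have e := tsub_add_cancel_of_le hle
      have h1 := congrArg Finsupp.degree e
      rw [map_add, Finsupp.degree_single] at h1
      have := ih (d - Finsupp.single i 1) (by omega) _ (hd f hf i)
      rw [coeff_pderiv, e] at this
      exact (mul_eq_zero.1 this).resolve_right (by exact_mod_cast ne_PrQ (Nat.succ_ne_zero _))
  refine eq_bot_iff.2 fun f hf => ?_
  rw [Ideal.mem_bot]
  ext1 d
  exact B _ d rfl f hf

end Vale.Agent.P217
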