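import Vale.Agent.P217.CPa
import Vale.Agent.P217.CPb
import Vale.Agent.P217.PrQ
import Vale.Agent.P217.Cmpl

namespace Vale.Agent.P217

open MvPowerSeries

variable {p n : ℕ} [Fact p.Prime] {F : FormalGroup (E0 p n)}


theorem exists_htpt {h : ℕ} (h1 : 1 ≤ h) (hn : h < n) (J : Ideal (E0 p n)) (hJ : II p n h ≤ J)
    (f : E0 p n) (hf : f * vv p n h ∉ J.radical) :
    ∃ (L : Type) (_ : NormedField L) (_ : IsUltrametricDist L) (_ : CompleteSpace L)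
      (_ : IsAlgClosed L) (_ : CharP L p) (ξ : E0 p n →+* OC L) (ρ : ℝ), HtPt p n h ξ ρ ∧
      (∀ x ∈ J, ξ x = 0) ∧ ξ f ≠ 0 := by
  have hs : f * vv p n h ∈ mm p n := Ideal.mul_mem_left _ _ (vv_mem_mm hn.ne)
  obtain ⟨Q, hQ, hJQ, hsQ, ⟨N, hN⟩, hdiv⟩ := exists_primeQ J _ hs hf
  have hpQ : (p : E0 p n) ∈ Q := hJQ (hJ (by
    rw [II, if_neg (by omega)]; exact Ideal.subset_span (Set.mem_insert _ _)))
  have hQm : Q ≤ mm p n := le_mm p n hQ.ne_top
  have hm : (mm p n).map (Ideal.Quotient.mk Q) ≠ ⊤ := fun h0 => by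
    have := congrArg (Ideal.comap (Ideal.Quotient.mk Q)) h0
    rw [Ideal.comap_map_of_surjective _ Ideal.Quotient.mk_surjective, Ideal.comap_top,
      ← RingHom.ker_eq_comap_bot, Ideal.mk_ker, sup_eq_left.2 hQm] at this
    exact (mm_isMaximal p n).ne_top this
  obtain ⟨L, i1, i2, i3, i4, i5, ξ, ρ, hinj, h0, h2, hρ⟩ := exists_point (S := E0 p n ⧸ Q) p
    (by rw [← map_natCast (Ideal.Quotient.mk Q), Ideal.Quotient.eq_zero_iff_mem]; exact hpQ)
    _ hm (Ideal.Quotient.mk Q (f * vv p n h)) (Ideal.mem_map_of_mem _ hs)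
    (by rw [Ne, Ideal.Quotient.eq_zero_iff_mem]; exact hsQ) N
    (by
      rw [← Ideal.map_pow]
      refine (Ideal.map_mono hN).trans ?_
      rw [Ideal.map_sup, Ideal.map_quotient_self, bot_sup_eq, Ideal.map_span, Set.image_singleton])
    (fun a ha => by
      obtain ⟨a, rfl⟩ := Ideal.Quotient.mk_surjective a
      rw [Ne, Ideal.Quotient.eq_zero_iff_mem] at ha
      obtain ⟨M, b, hM⟩ := hdiv a ha
      refine ⟨M, Ideal.Quotient.mk Q b, ?_⟩
      rw [← map_pow, ← map_mul, Ideal.Quotient.eq]; exact hM)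
  have key : ∀ x, (ξ.comp (Ideal.Quotient.mk Q)) x = 0 ↔ x ∈ Q := fun x => by
    rw [RingHom.comp_apply, map_eq_zero_iff _ hinj, Ideal.Quotient.eq_zero_iff_mem]
  refine ⟨L, i1, i2, i3, i4, i5, ξ.comp (Ideal.Quotient.mk Q), ρ,
    ⟨fun x hx => (key x).2 (hJQ (hJ hx)), fun h3 => hsQ (Q.mul_mem_left _ ((key _).1 h3)),
      fun x hx => hρ _ (Ideal.mem_map_of_mem _ hx), h0, h2⟩, fun x hx => (key x).2 (hJQ hx),
    fun h3 => hsQ (Q.mul_mem_right _ ((key _).1 h3))⟩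

theorem IsLT.cp (hF : IsLT p n F) {h : ℕ} (h1 : 1 ≤ h) (hn : h < n) {J : Ideal (E0 p n)}
    (hJ : Inv p n F J) (hI : II p n h ≤ J) (hu : vv p n h ∉ J.radical) : J ≤ II p n h := by
  have := hF.isComm
  intro f hf
  by_contra hc
  have hP := II_prime (p := p) hn.le
  obtain ⟨L, _, _, _, _, _, ξ, ρ, hξ, hξJ, -⟩ := exists_htpt h1 hn J hI 1 (by rwa [one_mul])
  obtain ⟨L', _, _, _, _, _, η, ρ', hη, -, hf'⟩ := exists_htpt h1 hn (II p n h) le_rfl f (by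
    rw [hP.radical]
    exact fun h0 => (hP.mem_or_mem h0).elim hc (vv_not_mem_II h1 hn))
  obtain ⟨c, hc'⟩ := hF.cpa h1 hn hξ hJ hξJ hf
  exact hf' (hF.cpb h1 hn hη f c hc')

end Vale.Agent.P217
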