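import Vale.Agent.P217.Car

namespace Vale.Agent.P217

open MvPowerSeries

variable {L : Type} [NormedField L] [IsUltrametricDist L]

variable {p : ℕ} [Fact p.Prime] [CharP L p] [PerfectRing L p]

theorem teich_le_ElV (E : ℕ) {c : L} {ρ : ℝ} (h : ‖c‖ ≤ ρ) :
    Sm p E ρ (WittVector.teichmuller p c) := (sm_teich E c).mono le_rfl h

theorem pmul_ElV {E : ℕ} {ρ : ℝ} {x : WittVector p L} (s : ℕ) (h : Sm p E ρ x) :
    Sm p E ρ ((p : WittVector p L) ^ s * x) := by
  have := (sm_p_pow (p := p) (L := L) E s).mul h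
  rwa [one_mul] at this

theorem shift_ElV {m n E : ℕ} (α : Fin m → WittVector p L) (hα : ∀ i, Sm p E 1 (α i))
    (y : Fin m → L) {r2 : ℝ} (hr2 : r2 ≤ 1) (hr0 : 0 ≤ r2) (hy : ∀ i, ‖y i‖ ≤ r2) (s e : ℕ) :
    Sm p E (r2 ^ ((p ^ n) ^ (E + 1))) (bW p (p ^ n) E α (fun i => y i ^ (p ^ (s + n * e))) -
      (p : WittVector p L) ^ e * bW p (p ^ n) E α (fun i => y i ^ (p ^ s))) := by
  have hp := (Fact.out : p.Prime).pos
  induction e with
  | zero => simpa using sm_zero E (by positivity)
  | succ e ih =>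
    have h1 := bW_shift (p ^ n) E α hα (fun i => y i ^ (p ^ (s + n * e)))
      (δ := r2 ^ ((p ^ n) ^ (E + 1))) (by positivity) (fun i => by
        refine pow_le_pow_left₀ (norm_nonneg _) ?_ _
        rw [norm_pow]
        exact (pow_le_of_le_one (norm_nonneg _) ((hy i).trans hr2) (by positivity)).trans (hy i))
    have h2 := pmul_ElV 1 ih
    have e1 : (fun i => (y i ^ (p ^ (s + n * e))) ^ (p ^ n)) =
        fun i => y i ^ (p ^ (s + n * (e + 1))) := by
      funext i
      rw [← pow_mul, ← pow_add]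
      congr 2; ring
    rw [e1] at h1
    convert h1.add h2 using 1
    ring

theorem elim_value {m n E r : ℕ} (hmn : m < n) (y : Fin m → L) (hy0 : ∀ i, y i ≠ 0) {r2 : ℝ}
    (hr2 : r2 < 1) (hy : ∀ i, ‖y i‖ ≤ r2) (e : Fin r ≃ Fin m × Fin (E + 1)) (w : ℕ → ℝ)
    (hw : ∀ t : Fin r, w t = ‖uu (p ^ n) y (e t)‖) (hanti : ∀ t t' : Fin r, t ≤ t' → w t' ≤ w t) (j : Fin r) {α : Fin m → WittVector p L} {d : L} {κ : ℝ}
    (h : ElimSpec p n E y e w j α d κ) (hd : r2 ^ ((p ^ n) ^ (E + 1)) < ‖d‖) (a : ℕ → L)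
    (ha : ∀ s, ‖a s‖ ≤ 1) {r' : ℕ} (hr' : (j : ℕ) + 1 ≤ r') (x : WittVector p L)
    (hx : Sm p E (r2 ^ ((p ^ n) ^ (E + 1))) (x - ∑ s ∈ Finset.Icc 1 r',
      WittVector.teichmuller p (a s) * bW p (p ^ n) E α (fun i => y i ^ (p ^ s)))) :
    ‖dg p E x - a (j + 1) * d‖ < ‖d‖ := by
  classical
  obtain ⟨hA, -, hκ0, hκ, hS⟩ := h
  have hn : 0 < n := by omega
  have hr0 : 0 ≤ r2 := (norm_nonneg _).trans (hy (e j).1)
  have hα : ∀ i, Sm p E 1 (α i) := fun i l hl => (hA.1 (i, ⟨l, by omega⟩)).1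
  have hr : r = m * (E + 1) := by simpa using Fintype.card_congr e
  have hj : (j : ℕ) / n ≤ E := by
    have h1 : (j : ℕ) < (E + 1) * n := by
      calc (j : ℕ) < r := j.2
        _ = (E + 1) * m := by rw [hr, mul_comm]
        _ ≤ (E + 1) * n := Nat.mul_le_mul_left _ hmn.le
    have := (Nat.div_lt_iff_lt_mul hn).2 h1
    omega
  set δ := r2 ^ ((p ^ n) ^ (E + 1)) with hδ
  have hδ0 : 0 ≤ δ := by positivity
  set J := (j : ℕ) / n with hJ
  set j0 := (j : ℕ) % n with hj0
  set τ : ℕ → WittVector p L := fun s => if (s - 1) % n = j0 then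
    (p : WittVector p L) ^ (E - J + (s - 1) / n) * WittVector.teichmuller p (a s * d) else 0 with hτ
  have hτ1 : ∀ s ∈ Finset.Icc 1 r', Sm p E (max δ κ) (WittVector.teichmuller p (a s) *
      bW p (p ^ n) E α (fun i => y i ^ (p ^ s)) - τ s) := by
    intro s hs
    have hs1 := (Finset.mem_Icc.1 hs).1
    have hlt := Nat.mod_lt (s - 1) hn
    have h1 := shift_ElV (n := n) α hα y hr2.le hr0 hy ((s - 1) % n + 1) ((s - 1) / n)
    have e1 : (s - 1) % n + 1 + n * ((s - 1) / n) = s := by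
      have := Nat.mod_add_div (s - 1) n
      omega
    rw [e1] at h1
    have h2 := pmul_ElV ((s - 1) / n) (hS ((s - 1) % n + 1) (by omega) (by omega))
    have h3 := (teich_le_ElV (p := p) E (ha s)).mul ((h1.mono le_rfl (le_max_left δ κ)).add
      (h2.mono le_rfl (le_max_right δ κ)))
    rw [one_mul] at h3
    convert h3 using 1
    simp only [hτ, add_left_inj]
    split_ifs
    · rw [map_mul, pow_add]; ring
    · ring
  set M := ∑ s ∈ Finset.Icc 1 r', τ s with hM
  have hxM : Sm p E (max δ κ) (x - M) := by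
    have h1 := sm_sum (le_max_of_le_left hδ0) _ _ hτ1
    convert (hx.mono le_rfl (le_max_left δ κ)).add h1 using 1
    rw [Finset.sum_sub_distrib]; ring
  have had : ∀ s, ‖a s * d‖ ≤ ‖d‖ := fun s => by
    rw [norm_mul]; exact mul_le_of_le_one_left (norm_nonneg _) (ha s)
  have hτ2 : ∀ s, Sm p E ‖d‖ (τ s) := by
    intro s
    simp only [hτ]
    split_ifs
    · exact pmul_ElV _ (teich_le_ElV E (had s))
    · exact sm_zero E (norm_nonneg _)
  have hMs : Sm p E ‖d‖ M := sm_sum (norm_nonneg _) _ _ fun s _ => hτ2 s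
  have key := dg_add_lt le_rfl hMs hxM (max_lt hd hκ)
  rw [add_sub_cancel] at key
  suffices hM2 : dg p E M = a (j + 1) * d by rwa [hM2] at key
  set c : ℕ → L := fun i => if E - J ≤ i then a (j0 + 1 + n * (i - (E - J))) * d else 0 with hc
  have hjn : j0 + n * J = j := Nat.mod_add_div _ _
  have hj0n : j0 < n := Nat.mod_lt _ hn
  have hJd : ∀ t, t ≤ (j : ℕ) → t / n ≤ J := fun t ht => Nat.div_le_div_right ht
  clear_value J j0
  have hsub : Finset.Icc 1 ((j : ℕ) + 1) ⊆ Finset.Icc 1 r' := Finset.Icc_subset_Icc le_rfl hr'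
  have hdv : (p : WittVector p L) ^ (E + 1) ∣ M - ∑ s ∈ Finset.Icc 1 ((j : ℕ) + 1), τ s := by
    rw [hM, ← Finset.sum_sdiff hsub, add_sub_cancel_right]
    refine Finset.dvd_sum fun s hs => ?_
    simp only [Finset.mem_sdiff, Finset.mem_Icc] at hs
    simp only [hτ]
    split_ifs with h1
    · refine Dvd.dvd.mul_right (pow_dvd_pow _ ?_) _
      have h2 := Nat.mod_add_div (s - 1) n
      have h3 : J < (s - 1) / n := by
        by_contra h4
        have := Nat.mul_le_mul_left n (not_lt.1 h4)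
        omega
      omega
    · exact dvd_zero _
  have hsum : ∑ s ∈ Finset.Icc 1 ((j : ℕ) + 1), τ s = ∑ i ∈ Finset.range (E + 1),
      (p : WittVector p L) ^ i * WittVector.teichmuller p (c i) := by
    symm
    refine Finset.sum_bij_ne_zero (fun i _ _ => j0 + 1 + n * (i - (E - J))) ?_ ?_ ?_ ?_
    · intro i hi _
      have h1 := Finset.mem_range.1 hi
      have h2 := Nat.mul_le_mul_left n (by omega : i - (E - J) ≤ J)
      rw [Finset.mem_Icc]
      omega
    · intro i hi hne i' hi' hne' hii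
      have a1 : E - J ≤ i := by
        by_contra hc'
        exact hne (by simp only [hc, if_neg hc', WittVector.teichmuller_zero, mul_zero])
      have a2 : E - J ≤ i' := by
        by_contra hc'
        exact hne' (by simp only [hc, if_neg hc', WittVector.teichmuller_zero, mul_zero])
      have := Nat.eq_of_mul_eq_mul_left hn (Nat.add_left_cancel hii)
      omega
    · intro s hs hne
      rw [Finset.mem_Icc] at hs
      have a1 : (s - 1) % n = j0 := by
        by_contra hc'
        exact hne (by simp [hτ, hc'])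
      have h2 := Nat.mod_add_div (s - 1) n
      have h3 : (s - 1) / n ≤ J := hJd _ (by omega)
      have e1 : j0 + 1 + n * (E - J + (s - 1) / n - (E - J)) = s := by
        rw [Nat.add_sub_cancel_left]; omega
      refine ⟨E - J + (s - 1) / n, Finset.mem_range.2 (by omega), ?_, e1⟩
      simp only [hτ, if_pos a1] at hne
      simp only [hc, if_pos (Nat.le_add_right _ _), e1]
      exact hne
    · intro i hi hne
      have a1 : E - J ≤ i := by
        by_contra hc'
        exact hne (by simp only [hc, if_neg hc', WittVector.teichmuller_zero, mul_zero])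
      have e1 : j0 + 1 + n * (i - (E - J)) - 1 = j0 + n * (i - (E - J)) := by omega
      have e2 : (j0 + n * (i - (E - J))) % n = j0 := by
        rw [Nat.add_mul_mod_self_left, Nat.mod_eq_of_lt hj0n]
      have e3 : (j0 + n * (i - (E - J))) / n = i - (E - J) := by
        rw [Nat.add_mul_div_left _ _ hn, Nat.div_eq_of_lt hj0n, zero_add]
      simp only [hτ, hc, e1, e2, e3, if_pos a1, if_true, Nat.add_sub_cancel' a1]
  rw [dg_congr le_rfl hdv, hsum, dg_sum_teich le_rfl]
  simp only [hc, if_pos (Nat.sub_le E J)]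
  congr 2
  rw [Nat.sub_sub_self hj]
  omega

end Vale.Agent.P217
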