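import Vale.Agent.P217.Def3

namespace Vale.Agent.P217

open MvPowerSeries

variable {L : Type} [NormedField L] [IsUltrametricDist L]

variable {p : ℕ} [Fact p.Prime] [CharP L p]


theorem exp_span {R B ι : Type} [CommRing R] [CommRing B] [Algebra R B] [Fintype ι]
    [DecidableEq ι] (y : ι → B) {q : ℕ} (hq : 2 ≤ q)
    (h : ∀ σ, y σ ^ q ∈ Submodule.span R (Set.range y)) (a : ι → ℕ) :
    ∏ σ, y σ ^ a σ ∈ Submodule.span R (Set.range fun e : ι → Fin q => ∏ σ, y σ ^ (e σ : ℕ)) := by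
  induction hN : ∑ σ, a σ using Nat.strong_induction_on generalizing a with
  | _ N ih =>
  by_cases h1 : ∀ σ, a σ < q
  · exact Submodule.subset_span ⟨fun σ => ⟨a σ, h1 σ⟩, rfl⟩
  push Not at h1
  obtain ⟨σ, hσ⟩ := h1
  obtain ⟨l, hl⟩ := (Submodule.mem_span_range_iff_exists_fun R).1 (h σ)
  obtain ⟨b, rfl⟩ : ∃ b : ι → ℕ, a = b + Pi.single σ q := ⟨a - Pi.single σ q, by
    funext τ
    by_cases h2 : τ = σ
    · subst h2; simp [hσ]
    · simp [h2]⟩
  have e : ∀ (τ : ι) (k : ℕ), ∏ t, y t ^ (b + Pi.single τ k : ι → ℕ) t =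
      (∏ t, y t ^ b t) * y τ ^ k := fun τ k => by
    simp only [Pi.add_apply, pow_add, Finset.prod_mul_distrib]
    congr 1
    rw [Finset.prod_eq_single τ (fun t _ ht => by simp [ht]) (by simp), Pi.single_eq_same]
  rw [e, ← hl, Finset.mul_sum]
  refine Submodule.sum_mem _ fun τ _ => ?_
  rw [mul_smul_comm, ← pow_one (y τ), ← e]
  refine Submodule.smul_mem _ _ (ih _ ?_ _ rfl)
  rw [← hN]
  simp only [Pi.add_apply, Finset.sum_add_distrib, Finset.sum_pi_single', Finset.mem_univ, if_true]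
  omega

theorem exp_top {R B ι κ : Type} [CommRing R] [CommRing B] [Algebra R B] [Fintype ι]
    [DecidableEq ι] (ψ : MvPolynomial κ R →ₐ[R] B) (hψ : Function.Surjective ψ) (y : ι → B) {q : ℕ}
    (hq : 2 ≤ q) (hX : ∀ i, ψ (MvPolynomial.X i) ∈ Submodule.span R (Set.range y))
    (h : ∀ σ, y σ ^ q ∈ Submodule.span R (Set.range y)) (x : B) :
    x ∈ Submodule.span R (Set.range fun e : ι → Fin q => ∏ σ, y σ ^ (e σ : ℕ)) := by
  have h1 : x ∈ Algebra.adjoin R (Set.range y) := by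
    obtain ⟨P, rfl⟩ := hψ x
    induction P using MvPolynomial.induction_on with
    | C a => rw [MvPolynomial.algHom_C]; exact Subalgebra.algebraMap_mem _ _
    | add P Q hP hQ => rw [map_add]; exact add_mem hP hQ
    | mul_X P i hP => rw [map_mul]; exact mul_mem hP (Algebra.span_le_adjoin R _ (hX i))
  rw [← Subalgebra.mem_toSubmodule, Algebra.adjoin_eq_span] at h1
  refine Submodule.span_le.2 (fun z hz => ?_) h1
  obtain ⟨a, rfl⟩ := Submonoid.mem_closure_range_iff_of_fintype.1 hz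
  exact exp_span y hq h a

open MvPolynomial in
theorem exp_gen {R : Type} [CommRing R] [CharP R p] (𝔪 : Ideal R) (h𝔪 : 𝔪 ≤ Ideal.jacobson ⊥)
    {m n E Lb : ℕ} (hn : 1 ≤ n) (hL : Lb ≤ E + 1) (rk : Fin m × Fin (E + 1) → ℕ)
    (c : Fin m × Fin Lb → Fin m × Fin (E + 1) → R)
    (hc : ∀ σ τ, c σ τ ≠ 0 → rk τ < rk (σ.1, Fin.castLE hL σ.2))
    (D Q : Fin m × Fin Lb → MvPolynomial (Fin m) R) (hD : ∀ σ β, MvPolynomial.coeff β (D σ) ∈ 𝔪)
    (hQ : ∀ σ, Q σ = MvPolynomial.X σ.1 ^ ((p ^ n) ^ (σ.2 : ℕ)) +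
      ∑ τ, MvPolynomial.C (c σ τ) * MvPolynomial.X τ.1 ^ ((p ^ n) ^ (τ.2 : ℕ)) + D σ)
    (P : MvPolynomial (Fin m) R) :
    ∃ (f : (Fin m × Fin Lb → Fin (p ^ n)) → R) (T : Fin m → MvPolynomial (Fin m) R),
      P = ∑ e, MvPolynomial.C (f e) * ∏ σ, Q σ ^ (e σ : ℕ) +
        ∑ i, MvPolynomial.X i ^ ((p ^ n) ^ Lb) * T i := by
  have hp : p.Prime := Fact.out
  have hq : 2 ≤ p ^ n := hp.two_le.trans (Nat.le_self_pow (by omega) p)
  let I : Ideal (MvPolynomial (Fin m) R) :=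
    Ideal.span (Set.range fun i => MvPolynomial.X i ^ ((p ^ n) ^ Lb))
  let B := MvPolynomial (Fin m) R ⧸ I
  let φ : MvPolynomial (Fin m) R →ₐ[R] B := Ideal.Quotient.mkₐ R I
  have hφ : Function.Surjective φ := Ideal.Quotient.mkₐ_surjective R I
  have φ0 : ∀ i k, (p ^ n) ^ Lb ≤ k → φ (MvPolynomial.X i ^ k) = 0 := fun i k hk => by
    obtain ⟨j, rfl⟩ := Nat.exists_eq_add_of_le hk
    rw [pow_add]
    exact Ideal.Quotient.eq_zero_iff_mem.2 (I.mul_mem_right _ (Ideal.subset_span ⟨i, rfl⟩))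
  let J : Ideal B := 𝔪.map (algebraMap R B)
  let π : B →ₐ[R] B ⧸ J := Ideal.Quotient.mkₐ R J
  let ψ := π.comp φ
  have ψD : ∀ σ, ψ (D σ) = 0 := fun σ => by
    rw [(D σ).as_sum, map_sum]
    refine Finset.sum_eq_zero fun β _ => ?_
    rw [MvPolynomial.monomial_eq, map_mul, MvPolynomial.algHom_C, ← π.commutes]
    have h0 : π (algebraMap R B (MvPolynomial.coeff β (D σ))) = 0 :=
      Ideal.Quotient.eq_zero_iff_mem.2 (Ideal.mem_map_of_mem _ (hD σ β))
    rw [h0]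
    exact zero_mul (M₀ := B ⧸ J) _
  let U := Submodule.span R (Set.range fun σ => ψ (Q σ))
  have ψ0 : ∀ i l, Lb ≤ l → ψ (MvPolynomial.X i ^ ((p ^ n) ^ l)) ∈ U := fun i l hl => by
    rw [AlgHom.comp_apply, φ0 i _ (Nat.pow_le_pow_right (by omega) hl), map_zero]
    exact zero_mem _
  have ψQ : ∀ σ, ψ (Q σ) = ψ (MvPolynomial.X σ.1 ^ ((p ^ n) ^ (σ.2 : ℕ)) +
      ∑ τ, MvPolynomial.C (c σ τ) * MvPolynomial.X τ.1 ^ ((p ^ n) ^ (τ.2 : ℕ))) := fun σ => by
    rw [hQ, map_add, ψD, add_zero]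
  have h1 : ∀ τ : Fin m × Fin (E + 1), ψ (MvPolynomial.X τ.1 ^ ((p ^ n) ^ (τ.2 : ℕ))) ∈ U := by
    intro τ
    induction hN : rk τ using Nat.strong_induction_on generalizing τ with
    | _ N ih =>
    by_cases h2 : (τ.2 : ℕ) < Lb
    · have h3 : ψ (Q (τ.1, ⟨τ.2, h2⟩)) ∈ U := Submodule.subset_span ⟨_, rfl⟩
      rw [ψQ, map_add, map_sum] at h3
      refine (add_mem_cancel_right (Submodule.sum_mem _ fun t _ => ?_)).1 h3
      by_cases h4 : c (τ.1, ⟨τ.2, h2⟩) t = 0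
      · rw [h4, map_zero, zero_mul, map_zero]; exact zero_mem _
      · rw [MvPolynomial.C_mul', map_smul]
        exact Submodule.smul_mem _ _ (ih _ (hN ▸ hc _ t h4) t rfl)
    · exact ψ0 _ _ (not_lt.1 h2)
  have h2 : ∀ i l, ψ (MvPolynomial.X i ^ ((p ^ n) ^ l)) ∈ U := fun i l => by
    by_cases h : l < E + 1
    · exact h1 (i, ⟨l, h⟩)
    · exact ψ0 i l (by omega)
  have h3 := exp_top ψ ((Ideal.Quotient.mkₐ_surjective R J).comp hφ) (fun σ => ψ (Q σ)) hq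
    (fun i => by simpa using h2 i 0) fun σ => by
      rw [ψQ, ← map_pow, add_pow_char_pow, sum_pow_char_pow, map_add, map_sum, ← pow_mul,
        ← pow_succ]
      refine add_mem (h2 _ _) (Submodule.sum_mem _ fun t _ => ?_)
      rw [mul_pow, ← map_pow, ← pow_mul, ← pow_succ, MvPolynomial.C_mul', map_smul]
      exact Submodule.smul_mem _ _ (h2 _ _)
  have h4 := exp_top φ hφ (fun i => φ (MvPolynomial.X i)) (q := (p ^ n) ^ Lb + 2) (by omega)
    (fun i => Submodule.subset_span ⟨i, rfl⟩) fun i => by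
      rw [← map_pow, φ0 i _ (by omega)]; exact zero_mem _
  have h5 : (⊤ : Submodule R B).FG := Submodule.fg_def.2
    ⟨_, Set.finite_range _, eq_top_iff.2 fun x _ => h4 x⟩
  have h6 := Submodule.le_of_le_smul_of_le_jacobson_bot (N := Submodule.span R (Set.range
    fun e : Fin m × Fin Lb → Fin (p ^ n) => φ (∏ σ, Q σ ^ (e σ : ℕ)))) h5 h𝔪 fun x _ => by
      obtain ⟨l, hl⟩ := (Submodule.mem_span_range_iff_exists_fun R).1 (h3 (π x))
      refine Submodule.mem_sup.2 ⟨∑ e, l e • φ (∏ σ, Q σ ^ (e σ : ℕ)),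
        Submodule.sum_mem _ fun e _ => Submodule.smul_mem _ _ (Submodule.subset_span ⟨e, rfl⟩),
        x - _, ?_, add_sub_cancel _ _⟩
      rw [Ideal.smul_top_eq_map]
      refine Ideal.Quotient.eq.1 (show π x = π _ from ?_)
      rw [← hl]
      simp only [map_sum, map_smul, map_prod, map_pow, ψ, AlgHom.comp_apply]
  obtain ⟨f, hf⟩ := (Submodule.mem_span_range_iff_exists_fun R).1 (h6 (Submodule.mem_top (x := φ P)))
  have h7 : P - ∑ e, MvPolynomial.C (f e) * ∏ σ, Q σ ^ (e σ : ℕ) ∈ I := by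
    refine Ideal.Quotient.eq.1 (show φ P = φ _ from ?_)
    rw [← hf]
    simp only [map_sum, MvPolynomial.C_mul', map_smul]
  obtain ⟨T, hT⟩ := (Submodule.mem_span_range_iff_exists_fun _).1 h7
  refine ⟨f, T, ?_⟩
  rw [← sub_eq_iff_eq_add', ← hT]
  simp only [smul_eq_mul, mul_comm]

/-- all monomials have weight at most `w` -/
def expW {k : Type} [CommRing k] {m : ℕ} (ν : Fin m → ℝ) (w : ℝ) (F : MvPolynomial (Fin m) k) :
    Prop := ∀ β ∈ F.support, ∏ i, ν i ^ β i ≤ w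

section
variable {k : Type} [CommRing k] {m : ℕ} {ν : Fin m → ℝ}

theorem expW.mul (hν : ∀ i, 0 < ν i) {w w' : ℝ} {F G : MvPolynomial (Fin m) k} (h : expW ν w F)
    (h' : expW ν w' G) : expW ν (w * w') (F * G) := fun β hβ => by
  obtain ⟨a, ha, b, hb, rfl⟩ := Finset.mem_add.1 (MvPolynomial.support_mul F G hβ)
  have h0 : ∀ a : Fin m →₀ ℕ, 0 ≤ ∏ i, ν i ^ a i := fun a =>
    Finset.prod_nonneg fun i _ => pow_nonneg (hν i).le _
  simp only [Finsupp.add_apply, pow_add, Finset.prod_mul_distrib]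
  exact mul_le_mul (h a ha) (h' b hb) (h0 b) ((h0 a).trans (h a ha))

theorem expW_one (hν : ∀ i, 0 < ν i) (hν1 : ∀ i, ν i < 1) (F : MvPolynomial (Fin m) k) :
    expW ν 1 F := fun _ _ =>
  Finset.prod_le_one (fun i _ => pow_nonneg (hν i).le _) fun i _ => pow_le_one₀ (hν i).le (hν1 i).le

theorem expW.add {w : ℝ} {F G : MvPolynomial (Fin m) k} (h : expW ν w F) (h' : expW ν w G) :
    expW ν w (F + G) := fun β hβ =>
  (Finset.mem_union.1 (MvPolynomial.support_add hβ)).elim (h β) (h' β)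

theorem expW_X (i : Fin m) (N : ℕ) :
    expW ν (ν i ^ N) (MvPolynomial.X i ^ N : MvPolynomial (Fin m) k) := fun β hβ => by
  rw [MvPolynomial.X_pow_eq_monomial] at hβ
  rw [Finset.mem_singleton.1 (MvPolynomial.support_monomial_subset hβ),
    Finset.prod_eq_single i (fun t _ ht => by simp [ht]) (by simp), Finsupp.single_eq_same]

theorem expW.pow (hν : ∀ i, 0 < ν i) (hν1 : ∀ i, ν i < 1) {w : ℝ} {F : MvPolynomial (Fin m) k}
    (h : expW ν w F) (N : ℕ) : expW ν (w ^ N) (F ^ N) := by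
  induction N with
  | zero => simpa using expW_one hν hν1 1
  | succ N ih => rw [pow_succ, pow_succ]; exact ih.mul hν h

theorem expW_prod (hν : ∀ i, 0 < ν i) (hν1 : ∀ i, ν i < 1) {ι : Type} (s : Finset ι) {w : ι → ℝ}
    {F : ι → MvPolynomial (Fin m) k} (h : ∀ t, expW ν (w t) (F t)) :
    expW ν (∏ t ∈ s, w t) (∏ t ∈ s, F t) := by
  classical
  induction s using Finset.induction_on with
  | empty => simpa using expW_one hν hν1 1
  | insert a s ha ih => rw [Finset.prod_insert ha, Finset.prod_insert ha]; exact (h a).mul hν ih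

end

omit [CharP L p] in
theorem exp_lift {m : ℕ} (F : MvPolynomial (Fin m) L) (h : ∀ β, ‖MvPolynomial.coeff β F‖ ≤ 1) :
    ∃ G : MvPolynomial (Fin m) (OC L), MvPolynomial.map (OC L).subtype G = F :=
  MvPolynomial.mem_range_map_iff_coeffs_subset.2 fun x hx => by
    obtain ⟨β, -, rfl⟩ := MvPolynomial.mem_coeffs_iff.1 hx
    exact ⟨⟨_, h β⟩, rfl⟩

theorem expand_box {m n E Lb : ℕ} (hn : 1 ≤ n) (hL : Lb ≤ E + 1) (ν : Fin m → ℝ) (hν0 : ∀ i, 0 < ν i)
    (hν1 : ∀ i, ν i < 1) (rk : Fin m × Fin (E + 1) → ℕ)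
    (Q : Fin m × Fin Lb → MvPolynomial (Fin m) L)
    (hQ : ∀ σ : Fin m × Fin Lb, ∃ c : Fin m × Fin (E + 1) → L, (∀ τ, ‖c τ‖ ≤ 1) ∧
      (∀ τ, c τ ≠ 0 → ν τ.1 ^ ((p ^ n) ^ (τ.2 : ℕ)) = ν σ.1 ^ ((p ^ n) ^ (σ.2 : ℕ)) ∧
        rk τ < rk (σ.1, Fin.castLE hL σ.2)) ∧
      ∀ β, ‖MvPolynomial.coeff β (Q σ - MvPolynomial.X σ.1 ^ ((p ^ n) ^ (σ.2 : ℕ)) -
        ∑ τ, MvPolynomial.C (c τ) * MvPolynomial.X τ.1 ^ ((p ^ n) ^ (τ.2 : ℕ)))‖ < 1)
    (P : MvPolynomial (Fin m) L) (hP : ∀ β, ‖MvPolynomial.coeff β P‖ ≤ 1) (ω : ℝ)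
    (hω : ∀ β, ‖MvPolynomial.coeff β P‖ = 1 → ω ≤ ∏ i, ν i ^ β i)
    (hP1 : ∃ β, ‖MvPolynomial.coeff β P‖ = 1) (hωL : ∀ i, ν i ^ ((p ^ n) ^ Lb) < ω) :
    ∃ (f : (Fin m × Fin Lb → Fin (p ^ n)) → L) (T : Fin m → MvPolynomial (Fin m) L),
      (∀ i β, ‖MvPolynomial.coeff β (T i)‖ ≤ 1) ∧
      (∃ e0, ‖f e0‖ = 1 ∧ ω ≤ ∏ σ, (ν σ.1 ^ ((p ^ n) ^ (σ.2 : ℕ))) ^ (e0 σ : ℕ)) ∧
      P = ∑ e, MvPolynomial.C (f e) * ∏ σ, Q σ ^ (e σ : ℕ) +
        ∑ i, MvPolynomial.X i ^ ((p ^ n) ^ Lb) * T i := by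
  let 𝔪 : Ideal (OC L) :=
    { carrier := {x | ‖(x : L)‖ < 1}
      add_mem' := fun {a b} ha hb =>
        (IsUltrametricDist.norm_add_le_max (a : L) b).trans_lt (max_lt ha hb)
      zero_mem' := by simp
      smul_mem' := fun c x hx => by
        change ‖(c : L) * x‖ < 1
        rw [norm_mul]
        exact (mul_le_of_le_one_left (norm_nonneg _) c.2).trans_lt hx }
  have mem : ∀ x : OC L, x ∈ 𝔪 ↔ ‖(x : L)‖ < 1 := fun _ => Iff.rfl
  have h𝔪 : 𝔪 ≤ Ideal.jacobson ⊥ := fun x hx => Ideal.mem_jacobson_bot.2 fun y => by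
    have h1 : ‖((x * y : OC L) : L)‖ < 1 := 𝔪.mul_mem_right y hx
    have h2 : ‖((x * y + 1 : OC L) : L)‖ = 1 := by
      rw [Subring.coe_add, IsUltrametricDist.norm_add_eq_max_of_norm_ne_norm (by simpa using h1.ne)]
      simpa using h1.le
    have h3 : ((x * y + 1 : OC L) : L) ≠ 0 := norm_ne_zero_iff.1 (by rw [h2]; exact one_ne_zero)
    exact IsUnit.of_mul_eq_one ⟨_, show ‖((x * y + 1 : OC L) : L)⁻¹‖ ≤ 1 by rw [norm_inv, h2, inv_one]⟩
      (Subtype.ext (mul_inv_cancel₀ h3))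
  have : CharP (OC L) p := CharP.subring L p _
  choose c c1 c2 c3 using hQ
  choose D hD using fun σ => exp_lift _ fun β => (c3 σ β).le
  obtain ⟨P', rfl⟩ := exp_lift P hP
  let c' : Fin m × Fin Lb → Fin m × Fin (E + 1) → OC L := fun σ τ => ⟨c σ τ, c1 σ τ⟩
  have c4 : ∀ σ τ, c' σ τ ≠ 0 → c σ τ ≠ 0 := fun σ τ h h' => h (Subtype.ext h')
  have hD' : ∀ σ β, MvPolynomial.coeff β (D σ) ∈ 𝔪 := fun σ β => by
    have := c3 σ β
    rwa [← hD, MvPolynomial.coeff_map] at this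
  obtain ⟨f, T, h⟩ := exp_gen 𝔪 h𝔪 hn hL rk c' (fun σ τ h => (c2 σ τ (c4 σ τ h)).2) D _ hD'
    (fun _ => rfl) P'
  refine ⟨fun e => f e, fun i => MvPolynomial.map (OC L).subtype (T i), fun i β => ?_, ?_, ?_⟩
  · rw [MvPolynomial.coeff_map]; exact (MvPolynomial.coeff β (T i)).2
  · by_contra hc
    push Not at hc
    obtain ⟨β, hβ⟩ := hP1
    have h1 := hω β hβ
    have h2 : β ∈ (MvPolynomial.map (Ideal.Quotient.mk 𝔪) P').support := by
      rw [MvPolynomial.mem_support_iff, MvPolynomial.coeff_map, Ne,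
        Ideal.Quotient.eq_zero_iff_mem, mem]
      rw [MvPolynomial.coeff_map] at hβ
      exact fun h3 => h3.ne hβ
    rw [h, map_add, map_sum, map_sum] at h2
    rcases Finset.mem_union.1 (MvPolynomial.support_add h2) with h3 | h3
    · obtain ⟨e, -, h4⟩ := Finset.mem_biUnion.1 (MvPolynomial.support_sum h3)
      rw [map_mul, MvPolynomial.map_C, map_prod] at h4
      have h5 : ‖(f e : L)‖ = 1 := by
        refine le_antisymm (f e).2 (not_lt.1 fun h5 => ?_)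
        rw [Ideal.Quotient.eq_zero_iff_mem.2 ((mem _).2 h5)] at h4
        simp at h4
      refine absurd (h1.trans (((expW_one hν0 hν1 _).mul hν0
        (expW_prod hν0 hν1 _ fun σ => ?_) β h4).trans_eq (one_mul _))) (not_le.2 (hc e h5))
      rw [map_pow]
      refine expW.pow hν0 hν1 ?_ _
      have e0 : MvPolynomial.map (Ideal.Quotient.mk 𝔪) (D σ) = 0 := by
        ext γ
        rw [MvPolynomial.coeff_map, Ideal.Quotient.eq_zero_iff_mem.2 (hD' σ γ),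
          MvPolynomial.coeff_zero]
      rw [map_add, e0, add_zero, map_add, map_pow, MvPolynomial.map_X, map_sum]
      refine (expW_X _ _).add fun γ hγ => ?_
      obtain ⟨τ, -, h6⟩ := Finset.mem_biUnion.1 (MvPolynomial.support_sum hγ)
      by_cases h7 : c' σ τ = 0
      · simp [h7] at h6
      · rw [map_mul, map_pow, MvPolynomial.map_X] at h6
        rw [← (c2 σ τ (c4 σ τ h7)).1]
        exact ((expW_one hν0 hν1 _).mul hν0 (expW_X _ _) γ h6).trans_eq (one_mul _)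
    · obtain ⟨i, -, h4⟩ := Finset.mem_biUnion.1 (MvPolynomial.support_sum h3)
      rw [map_mul, map_pow, MvPolynomial.map_X] at h4
      exact absurd (h1.trans (((expW_X _ _).mul hν0 (expW_one hν0 hν1 _) β h4).trans_eq
        (mul_one _))) (not_le.2 (hωL i))
  · rw [h]
    simp only [map_add, map_sum, map_mul, map_prod, map_pow, MvPolynomial.map_C, MvPolynomial.map_X,
      hD, c', Subring.coe_subtype, add_sub_cancel, sub_sub]

end Vale.Agent.P217
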