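import Vale.Agent.P217.Hadd

namespace Vale.Agent.P217

open MvPowerSeries

variable {L : Type} [NormedField L] [IsUltrametricDist L]

variable {p n : ℕ} [Fact p.Prime] [CharP L p]


omit [CharP L p] in
theorem lt_sum_Grid {ι : Type} (s : Finset ι) (f : ι → L) {r : ℝ} (hr : 0 < r)
    (h : ∀ i ∈ s, ‖f i‖ < r) : ‖∑ i ∈ s, f i‖ < r := by
  classical
  induction s using Finset.induction_on with
  | empty => simpa using hr
  | insert a s ha ih =>
    rw [Finset.sum_insert ha]
    exact (IsUltrametricDist.norm_add_le_max _ _).trans_lt (max_lt (h a (by simp))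
      (ih fun i hi => h i (by simp [hi])))

/-- closeness of integral elements -/
def ClG (x y : L) : Prop := ‖x‖ ≤ 1 ∧ ‖y‖ ≤ 1 ∧ ‖x - y‖ < 1

theorem ClG.mul {a b c d : L} (h : ClG a b) (h' : ClG c d) : ClG (a * c) (b * d) := by
  refine ⟨by rw [norm_mul]; exact mul_le_one₀ h.1 (norm_nonneg _) h'.1,
    by rw [norm_mul]; exact mul_le_one₀ h.2.1 (norm_nonneg _) h'.2.1, ?_⟩
  rw [show a * c - b * d = (a - b) * c + b * (c - d) by ring]
  refine (IsUltrametricDist.norm_add_le_max _ _).trans_lt (max_lt ?_ ?_) <;> rw [norm_mul]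
  · exact mul_lt_one_of_nonneg_of_lt_one_left (norm_nonneg _) h.2.2 h'.1
  · exact mul_lt_one_of_nonneg_of_lt_one_right h.2.1 (norm_nonneg _) h'.2.2

omit [IsUltrametricDist L] in
theorem clG_one : ClG (1 : L) 1 := ⟨by simp, by simp, by simp⟩

theorem ClG.pow {a b : L} (h : ClG a b) (k : ℕ) : ClG (a ^ k) (b ^ k) := by
  induction k with
  | zero => simpa using clG_one
  | succ k ih => rw [pow_succ, pow_succ]; exact ih.mul h

theorem clG_prod {ι : Type} (s : Finset ι) (a b : ι → L) (h : ∀ i ∈ s, ClG (a i) (b i)) :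
    ClG (∏ i ∈ s, a i) (∏ i ∈ s, b i) := by
  classical
  induction s using Finset.induction_on with
  | empty => simpa using clG_one
  | insert i s hi ih =>
    rw [Finset.prod_insert hi, Finset.prod_insert hi]
    exact (h i (by simp)).mul (ih fun j hj => h j (by simp [hj]))

theorem grid (hn : 1 ≤ n) (ι : kk p n →+* L) {B : Type} [Fintype B] [DecidableEq B] (J : B → ℕ)
    (hJ : Function.Injective J) (ψ : B → (ℕ → kk p n) → L)
    (hψ : ∀ σ a, ‖ψ σ a - ι (a (J σ))‖ < 1) (g : (B → Fin (p ^ n)) → L) (e0 : B → Fin (p ^ n)) :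
    ∃ a, ‖g e0‖ ≤ ‖∑ e, g e * ∏ σ, ψ σ a ^ (e σ : ℕ)‖ := by
  classical
  obtain ⟨es, -, hes⟩ := Finset.univ.exists_max_image (fun e => ‖g e‖) ⟨e0, Finset.mem_univ _⟩
  rcases eq_or_ne (g es) 0 with h0 | h0
  · refine ⟨0, (hes e0 (Finset.mem_univ _)).trans ?_⟩
    rw [h0, norm_zero]; exact norm_nonneg _
  have hpos : 0 < ‖g es‖ := norm_pos_iff.2 h0
  obtain ⟨v⟩ : Nonempty (Fin (p ^ n) ≃ kk p n) :=
    ⟨(Finite.equivFinOfCardEq (GaloisField.card p n (by omega))).symm⟩
  have hdet : IsUnit (Matrix.vandermonde v).det :=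
    (Matrix.det_vandermonde_ne_zero_iff.2 v.injective).isUnit
  set N := (Matrix.vandermonde v)⁻¹
  have hN : ∀ j j' : Fin (p ^ n), ∑ i, N j i * v i ^ (j' : ℕ) = if j = j' then 1 else 0 := fun j j' => by
    have := congrFun (congrFun (Matrix.nonsing_inv_mul _ hdet) j) j'
    rwa [Matrix.mul_apply, Matrix.one_apply] at this
  let V : (B → Fin (p ^ n)) → L := fun a => ∑ e, g e * ∏ σ, ι (v (a σ)) ^ (e σ : ℕ)
  have hV : g es = ∑ a : B → Fin (p ^ n), ι (∏ σ, N (es σ) (a σ)) * V a := by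
    simp only [V, Finset.mul_sum]
    rw [Finset.sum_comm]
    have : ∀ e : B → Fin (p ^ n), ∑ a : B → Fin (p ^ n), ι (∏ σ, N (es σ) (a σ)) *
        (g e * ∏ σ, ι (v (a σ)) ^ (e σ : ℕ)) = if es = e then g e else 0 := fun e => by
      have h1 := Finset.prod_univ_sum (fun _ : B => (Finset.univ : Finset (Fin (p ^ n))))
        (fun σ i => N (es σ) i * v i ^ (e σ : ℕ))
      simp only [hN, Fintype.piFinset_univ] at h1
      have h2 : (∏ σ, if es σ = e σ then (1 : kk p n) else 0) = if es = e then 1 else 0 := by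
        rw [Finset.prod_ite_zero]; simp [funext_iff]
      rw [h2] at h1
      have h3 := congrArg (fun x => g e * ι x) h1
      simp only [map_sum, Finset.mul_sum, Finset.prod_mul_distrib, map_mul, map_prod, map_pow] at h3
      rw [show (if es = e then g e else 0) = g e * ι (if es = e then 1 else 0) by
        split_ifs <;> simp, h3]
      refine Finset.sum_congr rfl fun a _ => ?_
      rw [map_prod]; ring
    simp only [this, Finset.sum_ite_eq, Finset.mem_univ, if_true]
  obtain ⟨a, ha⟩ : ∃ a, ‖g es‖ ≤ ‖V a‖ := by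
    by_contra hc
    push Not at hc
    have := lt_sum_Grid Finset.univ (fun a : B → Fin (p ^ n) => ι (∏ σ, N (es σ) (a σ)) * V a)
      hpos fun a _ => by
        rw [norm_mul]
        exact (mul_le_of_le_one_left (norm_nonneg _) (norm_iota_le hn ι _)).trans_lt (hc a)
    rw [← hV] at this
    exact lt_irrefl _ this
  refine ⟨Function.extend J (fun σ => v (a σ)) 0, (hes e0 (Finset.mem_univ _)).trans ?_⟩
  set a' : ℕ → kk p n := Function.extend J (fun σ => v (a σ)) 0
  have hcl : ∀ σ, ClG (ψ σ a') (ι (v (a σ))) := fun σ => by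
    have h1 := hψ σ a'
    rw [show a' (J σ) = v (a σ) from hJ.extend_apply _ _ σ] at h1
    have h2 := norm_iota_le hn ι (v (a σ))
    refine ⟨?_, h2, h1⟩
    have := IsUltrametricDist.norm_add_le_max (ψ σ a' - ι (v (a σ))) (ι (v (a σ)))
    rw [sub_add_cancel] at this
    exact this.trans (max_le h1.le h2)
  have hd : ‖V a - ∑ e, g e * ∏ σ, ψ σ a' ^ (e σ : ℕ)‖ < ‖g es‖ := by
    rw [← Finset.sum_sub_distrib]
    refine lt_sum_Grid _ _ hpos fun e _ => ?_
    rw [← mul_sub, norm_mul, norm_sub_rev]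
    have h1 := (clG_prod Finset.univ _ _ fun σ _ => (hcl σ).pow (e σ : ℕ)).2.2
    exact (mul_le_mul_of_nonneg_right (hes e (Finset.mem_univ _)) (norm_nonneg _)).trans_lt
      (mul_lt_of_lt_one_right hpos h1)
  have := IsUltrametricDist.norm_add_le_max (V a - ∑ e, g e * ∏ σ, ψ σ a' ^ (e σ : ℕ))
    (∑ e, g e * ∏ σ, ψ σ a' ^ (e σ : ℕ))
  rw [sub_add_cancel] at this
  exact (le_max_iff.1 (ha.trans this)).resolve_left (not_le.2 hd)

section poly
variable {m : ℕ}

/-- closeness of integral polynomials -/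
def ClP (f g : MvPolynomial (Fin m) L) : Prop :=
  ∀ β, ClG (MvPolynomial.coeff β f) (MvPolynomial.coeff β g)

theorem clG_sum {ι : Type} (s : Finset ι) (a b : ι → L) (h : ∀ i ∈ s, ClG (a i) (b i)) :
    ClG (∑ i ∈ s, a i) (∑ i ∈ s, b i) :=
  ⟨IsUltrametricDist.norm_sum_le_of_forall_le_of_nonneg zero_le_one fun i hi => (h i hi).1,
    IsUltrametricDist.norm_sum_le_of_forall_le_of_nonneg zero_le_one fun i hi => (h i hi).2.1, by
      rw [← Finset.sum_sub_distrib]
      exact lt_sum_Grid _ _ one_pos fun i hi => (h i hi).2.2⟩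

theorem ClP.mul {a b c d : MvPolynomial (Fin m) L} (h : ClP a b) (h' : ClP c d) :
    ClP (a * c) (b * d) := fun β => by
  rw [MvPolynomial.coeff_mul, MvPolynomial.coeff_mul]
  exact clG_sum _ _ _ fun x _ => (h _).mul (h' _)

omit [IsUltrametricDist L] in
theorem clP_mono (β : Fin m →₀ ℕ) {a b : L} (h : ClG a b) :
    ClP (MvPolynomial.monomial β a) (MvPolynomial.monomial β b) := fun γ => by
  rw [MvPolynomial.coeff_monomial, MvPolynomial.coeff_monomial]
  split_ifs
  · exact h
  · exact ⟨by simp, by simp, by simp⟩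

theorem ClP.pow {a b : MvPolynomial (Fin m) L} (h : ClP a b) (k : ℕ) : ClP (a ^ k) (b ^ k) := by
  induction k with
  | zero => exact clP_mono 0 clG_one
  | succ k ih => rw [pow_succ, pow_succ]; exact ih.mul h

theorem clP_prod {ι : Type} (s : Finset ι) (a b : ι → MvPolynomial (Fin m) L)
    (h : ∀ i ∈ s, ClP (a i) (b i)) : ClP (∏ i ∈ s, a i) (∏ i ∈ s, b i) := by
  classical
  induction s using Finset.induction_on with
  | empty => exact clP_mono 0 clG_one
  | insert i s hi ih =>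
    rw [Finset.prod_insert hi, Finset.prod_insert hi]
    exact (h i (by simp)).mul (ih fun j hj => h j (by simp [hj]))

theorem clP_sum {ι : Type} (s : Finset ι) (a b : ι → MvPolynomial (Fin m) L)
    (h : ∀ i ∈ s, ClP (a i) (b i)) : ClP (∑ i ∈ s, a i) (∑ i ∈ s, b i) := fun β => by
  rw [MvPolynomial.coeff_sum, MvPolynomial.coeff_sum]
  exact clG_sum _ _ _ fun x hx => h x hx β

theorem ClP.add {a b c d : MvPolynomial (Fin m) L} (h : ClP a b) (h' : ClP c d) :
    ClP (a + c) (b + d) := by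
  have := clP_sum Finset.univ ![a, c] ![b, d] (fun i _ => by fin_cases i; exacts [h, h'])
  simpa [Fin.sum_univ_two] using this

/-- monic with top monomial `β` -/
def TopG (f : MvPolynomial (Fin m) L) (β : Fin m →₀ ℕ) : Prop :=
  (∀ γ, MvPolynomial.coeff γ f ≠ 0 → γ ≤ β) ∧ MvPolynomial.coeff β f = 1

omit [IsUltrametricDist L] in
theorem TopG.mul {f g : MvPolynomial (Fin m) L} {β γ : Fin m →₀ ℕ} (h : TopG f β)
    (h' : TopG g γ) : TopG (f * g) (β + γ) := by
  refine ⟨fun δ hδ => ?_, ?_⟩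
  · rw [MvPolynomial.coeff_mul] at hδ
    obtain ⟨x, hx, h0⟩ := Finset.exists_ne_zero_of_sum_ne_zero hδ
    rw [← Finset.HasAntidiagonal.mem_antidiagonal.1 hx]
    exact add_le_add (h.1 _ (left_ne_zero_of_mul h0)) (h'.1 _ (right_ne_zero_of_mul h0))
  · rw [MvPolynomial.coeff_mul, Finset.sum_eq_single (β, γ), h.2, h'.2, one_mul]
    · intro x hx hne
      by_contra h0
      have h1 := h.1 _ (left_ne_zero_of_mul h0)
      have h2 := h'.1 _ (right_ne_zero_of_mul h0)
      have h3 := Finset.HasAntidiagonal.mem_antidiagonal.1 hx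
      refine hne (Prod.ext ?_ ?_) <;> ext i <;> have := h1 i <;> have := h2 i <;>
        have := congrArg (fun t => t i) h3 <;> simp only [Finsupp.add_apply] at this <;>
        simp only <;> omega
    · intro h0; exact absurd (by simp) h0

omit [IsUltrametricDist L] in
theorem topG_one : TopG (1 : MvPolynomial (Fin m) L) 0 := by
  refine ⟨fun γ h => ?_, by simp⟩
  rw [MvPolynomial.coeff_one] at h
  split_ifs at h with h0
  · exact h0.ge
  · exact absurd rfl h

omit [IsUltrametricDist L] in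
theorem topG_prod (β : Fin m →₀ ℕ) :
    TopG (∏ i, (1 + MvPolynomial.X i : MvPolynomial (Fin m) L) ^ β i) β := by
  have h1 : ∀ i, TopG (1 + MvPolynomial.X i : MvPolynomial (Fin m) L) (Finsupp.single i 1) := by
    intro i
    refine ⟨fun γ h => ?_, ?_⟩
    · rw [MvPolynomial.coeff_add, MvPolynomial.coeff_one, MvPolynomial.coeff_X] at h
      by_cases h0 : 0 = γ
      · rw [← h0]; exact bot_le
      · by_cases h2 : Finsupp.single i 1 = γ
        · exact h2.ge
        · simp [h0, h2] at h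
    · rw [MvPolynomial.coeff_add, MvPolynomial.coeff_one, MvPolynomial.coeff_X, if_pos rfl,
        if_neg (Finsupp.single_ne_zero.2 (one_ne_zero (α := ℕ))).symm, zero_add]
  have h2 : ∀ i k, TopG ((1 + MvPolynomial.X i : MvPolynomial (Fin m) L) ^ k)
      (Finsupp.single i k) := fun i k => by
    induction k with
    | zero => simpa using topG_one
    | succ k ih => rw [pow_succ, Finsupp.single_add]; exact ih.mul (h1 i)
  have h3 : ∀ s : Finset (Fin m), TopG (∏ i ∈ s, (1 + MvPolynomial.X i :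
      MvPolynomial (Fin m) L) ^ β i) (∑ i ∈ s, Finsupp.single i (β i)) := fun s => by
    induction s using Finset.induction_on with
    | empty => simpa using topG_one
    | insert i s hi ih => rw [Finset.prod_insert hi, Finset.sum_insert hi]; exact (h2 i _).mul ih
  have := h3 Finset.univ
  rwa [Finsupp.univ_sum_single] at this

end poly

theorem unit_Grid (hn : 1 ≤ n) (ι : kk p n →+* L) (P : MvPolynomial (Fin 2) (WW p n))
    (hP0 : MvPolynomial.coeff 0 P = 0) (hP1 : MvPolynomial.coeff (Finsupp.single 0 1) P = 1)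
    (hP2 : MvPolynomial.coeff (Finsupp.single 1 1) P = 1) {m : ℕ} (i : Fin m) (y : L)
    (hy1 : ‖y‖ < 1) : ∃ u : MvPolynomial (Fin m) L, ClP u (1 + MvPolynomial.X i) ∧
      ∀ z : Fin m → L, MvPolynomial.eval ![y, y * z i]
        (MvPolynomial.map (ι.comp WittVector.constantCoeff) P) = y * MvPolynomial.eval z u := by
  classical
  set j := ι.comp (WittVector.constantCoeff : WW p n →+* kk p n)
  set P' := P - MvPolynomial.X 0 - MvPolynomial.X 1 with hP'
  have hd : ∀ d ∈ P'.support, 2 ≤ d 0 + d 1 := fun d hd => by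
    by_contra hc
    refine MvPolynomial.mem_support_iff.1 hd ?_
    have ne : (Finsupp.single 0 1 : Fin 2 →₀ ℕ) ≠ Finsupp.single 1 1 := by
      rw [Ne, Finsupp.single_left_inj one_ne_zero]; decide
    have n0 : ∀ t : Fin 2, (Finsupp.single t 1 : Fin 2 →₀ ℕ) ≠ 0 := fun t =>
      Finsupp.single_ne_zero.2 one_ne_zero
    have : d = 0 ∨ d = Finsupp.single 0 1 ∨ d = Finsupp.single 1 1 := by
      rcases (by omega : (d 0 = 0 ∧ d 1 = 0) ∨ (d 0 = 1 ∧ d 1 = 0) ∨ (d 0 = 0 ∧ d 1 = 1)) with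
        h | h | h
      · left; ext t; fin_cases t <;> simp [h.1, h.2]
      · right; left; ext t; fin_cases t <;> simp [h.1, h.2]
      · right; right; ext t; fin_cases t <;> simp [h.1, h.2]
    rw [hP', MvPolynomial.coeff_sub, MvPolynomial.coeff_sub, MvPolynomial.coeff_X,
      MvPolynomial.coeff_X]
    rcases this with rfl | rfl | rfl
    · rw [hP0, if_neg (n0 0), if_neg (n0 1)]; simp
    · rw [hP1, if_pos rfl, if_neg ne.symm]; simp
    · rw [hP2, if_neg ne, if_pos rfl]; simp
  refine ⟨1 + MvPolynomial.X i + ∑ d ∈ P'.support, MvPolynomial.monomial (Finsupp.single i (d 1))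
    (j (MvPolynomial.coeff d P') * y ^ (d 0 + d 1 - 1)), ?_, fun z => ?_⟩
  · have h1 : ClP (1 + MvPolynomial.X i : MvPolynomial (Fin m) L) (1 + MvPolynomial.X i) :=
      (clP_mono 0 clG_one).add (clP_mono (Finsupp.single i 1) clG_one)
    have h2 := clP_sum P'.support (fun d => MvPolynomial.monomial (Finsupp.single i (d 1))
      (j (MvPolynomial.coeff d P') * y ^ (d 0 + d 1 - 1)))
      (fun d => MvPolynomial.monomial (Finsupp.single i (d 1)) (0 : L)) fun d hd' => by
        refine clP_mono _ ?_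
        have h3 : ‖j (MvPolynomial.coeff d P') * y ^ (d 0 + d 1 - 1)‖ < 1 := by
          rw [norm_mul, norm_pow]
          exact mul_lt_one_of_nonneg_of_lt_one_right (norm_iota_le hn ι _) (by positivity)
            (pow_lt_one₀ (norm_nonneg _) hy1 (by have := hd d hd'; omega))
        exact ⟨h3.le, by simp, by simpa using h3⟩
    simpa using h1.add h2
  · have e : P = MvPolynomial.X 0 + MvPolynomial.X 1 + P' := by rw [hP']; ring
    rw [e]
    simp only [map_add, MvPolynomial.map_X, MvPolynomial.eval_X, map_one, map_sum, mul_add,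
      MvPolynomial.eval_monomial, Finset.mul_sum]
    rw [MvPolynomial.eval_map, MvPolynomial.eval₂_eq']
    simp only [Matrix.cons_val_zero, Matrix.cons_val_one, Fin.prod_univ_two, mul_one]
    congr 1
    refine Finset.sum_congr rfl fun d hd' => ?_
    have := hd d hd'
    rw [Finsupp.prod_single_index (by simp), mul_pow]
    obtain ⟨k, hk⟩ : ∃ k, d 0 + d 1 = k + 1 := ⟨d 0 + d 1 - 1, by omega⟩
    rw [hk, Nat.add_sub_cancel]
    have : y ^ d 0 * y ^ d 1 = y * y ^ k := by rw [← pow_add, hk, pow_succ']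
    linear_combination j (MvPolynomial.coeff d P') * z i ^ d 1 * this

theorem scaled_poly (hn : 1 ≤ n) (ι : kk p n →+* L) (P : MvPolynomial (Fin 2) (WW p n))
    (hP0 : MvPolynomial.coeff 0 P = 0) (hP1 : MvPolynomial.coeff (Finsupp.single 0 1) P = 1)
    (hP2 : MvPolynomial.coeff (Finsupp.single 1 1) P = 1) {m : ℕ} (y : Fin m → L)
    (hy0 : ∀ i, y i ≠ 0) (hy1 : ∀ i, ‖y i‖ < 1) (H : MvPolynomial (Fin m) (kk p n))
    (β0 : Fin m →₀ ℕ) (hβ0 : MvPolynomial.coeff β0 H ≠ 0) :
    ∃ (π : L) (R : MvPolynomial (Fin m) L), ∏ i, ‖y i‖ ^ β0 i ≤ ‖π‖ ∧ ‖π‖ ≤ 1 ∧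
      (∀ β, ‖MvPolynomial.coeff β R‖ ≤ 1) ∧
      (∀ β, ‖MvPolynomial.coeff β R‖ = 1 → ‖π‖ ≤ ∏ i, ‖y i‖ ^ β i) ∧
      (∃ β, ‖MvPolynomial.coeff β R‖ = 1) ∧ ∀ z : Fin m → L,
        MvPolynomial.eval (fun i => MvPolynomial.eval ![y i, y i * z i]
          (MvPolynomial.map (ι.comp WittVector.constantCoeff) P)) (MvPolynomial.map ι H) =
        π * MvPolynomial.eval z R := by
  classical
  choose u hu1 hu2 using fun i => unit_Grid hn ι P hP0 hP1 hP2 i (y i) (hy1 i)
  let t : (Fin m →₀ ℕ) → L := fun β => ι (MvPolynomial.coeff β H) * ∏ i, y i ^ β i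
  have ht : ∀ β ∈ H.support, ‖t β‖ = ∏ i, ‖y i‖ ^ β i := fun β hβ => by
    simp only [t, norm_mul, norm_prod, norm_pow,
      norm_iota_eq hn ι (MvPolynomial.mem_support_iff.1 hβ), one_mul]
  have h0 : β0 ∈ H.support := MvPolynomial.mem_support_iff.2 hβ0
  obtain ⟨b, hb, hmax⟩ := H.support.exists_max_image (fun β => ‖t β‖) ⟨β0, h0⟩
  have hpos : 0 < ‖t b‖ := by
    rw [ht b hb]; exact Finset.prod_pos fun i _ => pow_pos (norm_pos_iff.2 (hy0 i)) _
  have hne : t b ≠ 0 := norm_pos_iff.1 hpos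
  set S := H.support.filter fun β => ‖t β‖ = ‖t b‖ with hS
  let T : (Fin m →₀ ℕ) → MvPolynomial (Fin m) L := fun β => ∏ i, (1 + MvPolynomial.X i) ^ β i
  have hcl : ClP (∑ β ∈ H.support, MvPolynomial.C (t β / t b) * ∏ i, u i ^ β i)
      (∑ β ∈ S, MvPolynomial.C (t β / t b) * T β) := by
    rw [hS, Finset.sum_filter]
    refine clP_sum _ _ _ fun β hβ => ?_
    have h1 : ‖t β / t b‖ ≤ 1 := by rw [norm_div, div_le_one hpos]; exact hmax β hβ
    have h2 := clP_prod Finset.univ _ _ fun i _ => (hu1 i).pow (β i)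
    split_ifs with h
    · exact (clP_mono 0 ⟨h1, h1, by simp⟩).mul h2
    · have h3 : ‖t β / t b‖ < 1 := by
        rw [norm_div, div_lt_one hpos]; exact lt_of_le_of_ne (hmax β hβ) h
      have := (clP_mono 0 (show ClG (t β / t b) 0 from ⟨h1, by simp, by simpa using h3⟩)).mul h2
      simpa using this
  have hco : ∀ β, MvPolynomial.coeff β (∑ β ∈ S, MvPolynomial.C (t β / t b) * T β) =
      ∑ γ ∈ S, t γ / t b * MvPolynomial.coeff β (T γ) := fun β => by
    simp only [MvPolynomial.coeff_sum, MvPolynomial.coeff_C_mul]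
  refine ⟨t b, ∑ β ∈ H.support, MvPolynomial.C (t β / t b) * ∏ i, u i ^ β i,
    ht β0 h0 ▸ hmax β0 h0, ?_, fun β => (hcl β).1, fun β hβ => ?_, ?_, fun z => ?_⟩
  · rw [ht b hb]
    exact Finset.prod_le_one (fun i _ => by positivity)
      fun i _ => pow_le_one₀ (norm_nonneg _) (hy1 i).le
  · have h1 : MvPolynomial.coeff β (∑ β ∈ S, MvPolynomial.C (t β / t b) * T β) ≠ 0 := fun h => by
      have := (hcl β).2.2
      rw [h, sub_zero, hβ] at this
      exact lt_irrefl _ this
    rw [hco] at h1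
    obtain ⟨γ, hγ, h2⟩ := Finset.exists_ne_zero_of_sum_ne_zero h1
    have h3 := (topG_prod γ).1 β (right_ne_zero_of_mul h2)
    rw [Finset.mem_filter] at hγ
    rw [← hγ.2, ht γ hγ.1]
    exact Finset.prod_le_prod (fun i _ => by positivity)
      fun i _ => pow_le_pow_of_le_one (norm_nonneg _) (hy1 i).le (h3 i)
  · obtain ⟨β, hβ, hm⟩ := S.exists_maximal ⟨b, Finset.mem_filter.2 ⟨hb, rfl⟩⟩
    refine ⟨β, le_antisymm (hcl β).1 ?_⟩
    have h1 : MvPolynomial.coeff β (∑ β ∈ S, MvPolynomial.C (t β / t b) * T β) = t β / t b := by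
      rw [hco, Finset.sum_eq_single_of_mem β hβ, (topG_prod β).2, mul_one]
      intro γ hγ hne'
      by_contra h2
      have h3 := (topG_prod γ).1 β (right_ne_zero_of_mul h2)
      exact hne' (le_antisymm (hm hγ h3) h3)
    have h2 : ‖t β / t b‖ = 1 := by rw [norm_div, (Finset.mem_filter.1 hβ).2, div_self hpos.ne']
    have h3 := (hcl β).2.2
    rw [h1, norm_sub_rev] at h3
    have h4 := IsUltrametricDist.norm_add_le_max (t β / t b - MvPolynomial.coeff β
      (∑ β ∈ H.support, MvPolynomial.C (t β / t b) * ∏ i, u i ^ β i)) (MvPolynomial.coeff β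
      (∑ β ∈ H.support, MvPolynomial.C (t β / t b) * ∏ i, u i ^ β i))
    rw [sub_add_cancel, h2] at h4
    exact (le_max_iff.1 h4).resolve_left (not_le.2 h3)
  · simp only [hu2]
    rw [MvPolynomial.eval_map, MvPolynomial.eval₂_eq']
    simp only [map_sum, map_mul, MvPolynomial.eval_C, map_prod, map_pow, Finset.mul_sum]
    refine Finset.sum_congr rfl fun β _ => ?_
    rw [← mul_assoc, mul_div_cancel₀ _ hne]
    simp only [t, mul_pow, Finset.prod_mul_distrib, mul_assoc]

end Vale.Agent.P217
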