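import Vale.Agent.P217.Def3

namespace Vale.Agent.P217

open MvPowerSeries

variable {L : Type} [NormedField L] {p : ℕ} [Fact p.Prime]


theorem exists_enum {ι : Type} [Fintype ι] (f : ι → ℝ) :
    ∃ e : Fin (Fintype.card ι) ≃ ι, ∀ t t', t ≤ t' → f (e t') ≤ f (e t) := by
  refine ⟨(Tuple.sort fun t => -f ((Fintype.equivFin ι).symm t)).trans (Fintype.equivFin ι).symm,
    fun t t' h => ?_⟩
  exact neg_le_neg_iff.1 (Tuple.monotone_sort (fun t => -f ((Fintype.equivFin ι).symm t)) h)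

theorem sum_half_TrK {m : ℕ} (hm : 0 < m) (N : ℕ) :
    ∑ s ∈ Finset.range (N * m), (1 / 2 : ℝ) ^ (s / m) = 2 * m - 2 * m * (1 / 2) ^ N := by
  induction N with
  | zero => simp
  | succ N ih =>
    rw [Nat.succ_mul, Finset.sum_range_add, ih, Finset.sum_congr rfl (g := fun _ => (1 / 2) ^ N)
      fun b hb => by
        rw [add_comm, Nat.add_mul_div_right _ _ hm, Nat.div_eq_of_lt (Finset.mem_range.1 hb),
          zero_add]]
    simp only [Finset.sum_const, Finset.card_range, nsmul_eq_mul]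
    ring

theorem pig_TrK {m E r q : ℕ} (hq : 1 ≤ q) (y : Fin m → L) (hy1 : ∀ i, ‖y i‖ ≤ 1)
    (e : Fin r ≃ Fin m × Fin (E + 1)) (w : ℕ → ℝ) (hw : ∀ t : Fin r, w t = ‖uu q y (e t)‖)
    (hanti : ∀ t t' : Fin r, t ≤ t' → w t' ≤ w t) (j : Fin r) {s : ℕ} (hs : s ≤ j) :
    w j ≤ w (j - s) ^ (q ^ (s / m)) := by
  classical
  have hj := j.2
  let j' : Fin r := ⟨j - s, by omega⟩
  have hc : (Finset.Icc j' j).card = s + 1 := by rw [Fin.card_Icc]; simp only [j']; omega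
  obtain ⟨i, -, hi⟩ := Finset.exists_lt_card_fiber_of_mul_lt_card_of_maps_to
    (s := Finset.Icc j' j) (t := Finset.univ) (f := fun t => (e t).1) (n := s / m)
    (fun _ _ => Finset.mem_univ _) (by
      rw [hc, Finset.card_univ, Fintype.card_fin]
      exact Nat.lt_succ_of_le (Nat.mul_div_le _ _))
  set T := (Finset.Icc j' j).filter fun t => (e t).1 = i with hT
  have hne : T.Nonempty := Finset.card_pos.1 (Nat.zero_lt_of_lt hi)
  obtain ⟨t₁, h1, h1'⟩ := T.exists_min_image (fun t => ((e t).2 : ℕ)) hne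
  obtain ⟨t₂, h2, h2'⟩ := T.exists_max_image (fun t => ((e t).2 : ℕ)) hne
  have h3 : T.card ≤ (Finset.Icc ((e t₁).2 : ℕ) (e t₂).2).card :=
    Finset.card_le_card_of_injOn (fun t => ((e t).2 : ℕ))
      (fun t ht => Finset.mem_coe.2 (Finset.mem_Icc.2 ⟨h1' t ht, h2' t ht⟩)) fun a ha b hb hab =>
        e.injective (Prod.ext ((Finset.mem_filter.1 ha).2.trans (Finset.mem_filter.1 hb).2.symm)
          (Fin.ext hab))
  rw [Nat.card_Icc] at h3
  have h4 := h1' t₂ h2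
  obtain ⟨k1, k2⟩ := Finset.mem_filter.1 h1
  obtain ⟨k3, k4⟩ := Finset.mem_filter.1 h2
  have k5 : 0 ≤ w t₁ := by rw [hw]; exact norm_nonneg _
  calc w j ≤ w t₂ := hanti _ _ (Finset.mem_Icc.1 k3).2
    _ ≤ w t₁ ^ (q ^ (s / m)) := by
        rw [hw, hw, uu, uu, k2, k4, norm_pow, norm_pow, ← pow_mul, ← pow_add]
        exact pow_le_pow_of_le_one (norm_nonneg _) (hy1 i) (Nat.pow_le_pow_right hq (by
          generalize s / m = a at hi ⊢; omega))
    _ ≤ _ := pow_le_pow_left₀ k5 (hanti j' t₁ (Finset.mem_Icc.1 k1).1) _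

theorem t_K {m n E r : ℕ} (hmn : m < n) (y : Fin m → L) (hy0 : ∀ i, y i ≠ 0) (hy1 : ∀ i, ‖y i‖ ≤ 1)
    (e : Fin r ≃ Fin m × Fin (E + 1)) (w : ℕ → ℝ) (hw : ∀ t : Fin r, w t = ‖uu (p ^ n) y (e t)‖)
    (hanti : ∀ t t' : Fin r, t ≤ t' → w t' ≤ w t) (j : Fin r) :
    w j ^ (3 * n * p ^ n) ≤ w j ^ p * DD p w j := by
  have hp := (Fact.out : p.Prime)
  have hp2 : (2 : ℝ) ≤ p := by exact_mod_cast hp.two_le
  have hm : 0 < m := (e j).1.pos
  have hj := j.2
  have pos : ∀ t, t < r → 0 < w t := fun t ht => by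
    rw [show w t = _ from hw ⟨t, ht⟩]; exact norm_pos_iff.2 (pow_ne_zero _ (hy0 _))
  have le1 : ∀ t, t < r → Real.log (w t) ≤ 0 := fun t ht => by
    refine Real.log_nonpos (pos t ht).le ?_
    rw [show w t = _ from hw ⟨t, ht⟩, uu, norm_pow]
    exact pow_le_one₀ (norm_nonneg _) (hy1 _)
  have key : ∀ s ∈ Finset.Icc 1 (j : ℕ), (p : ℝ) ^ n * (1 / 2) ^ (s / m) * Real.log (w j) ≤
      Real.log (w (j - s) ^ (p ^ (s + 1) - p ^ s)) := fun s hs => by
    have h1 := Real.log_le_log (pos j hj) (pig_TrK (Nat.one_le_pow _ _ hp.pos) y hy1 e w hw hanti j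
      (Finset.mem_Icc.1 hs).2)
    have h2 := le1 (j - s) (by omega)
    rw [Real.log_pow] at h1 ⊢
    have h3 : ((p ^ (s + 1) - p ^ s : ℕ) : ℝ) ≤
        (p : ℝ) ^ n * (1 / 2) ^ (s / m) * (((p ^ n) ^ (s / m) : ℕ) : ℝ) := by
      have h4 : s + 1 + s / m ≤ n + n * (s / m) := by
        have := Nat.div_add_mod s m
        have := Nat.mod_lt s hm
        nlinarith [Nat.zero_le (s / m)]
      calc ((p ^ (s + 1) - p ^ s : ℕ) : ℝ) ≤ (p : ℝ) ^ (s + 1) := by exact_mod_cast Nat.sub_le _ _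
        _ = (p : ℝ) ^ (s + 1) * 2 ^ (s / m) * (1 / 2) ^ (s / m) := by
          rw [mul_assoc, ← mul_pow]; norm_num
        _ ≤ (p : ℝ) ^ (s + 1) * p ^ (s / m) * (1 / 2) ^ (s / m) := by gcongr
        _ ≤ (p : ℝ) ^ (n + n * (s / m)) * (1 / 2) ^ (s / m) := by
          rw [← pow_add]; gcongr; linarith
        _ = _ := by push_cast; rw [pow_add, pow_mul]; ring
    have h5 : (0 : ℝ) ≤ (p : ℝ) ^ n * (1 / 2) ^ (s / m) := by positivity
    nlinarith [mul_le_mul_of_nonneg_left h1 h5, mul_le_mul_of_nonpos_right h3 h2]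
  have hD : ∀ s ∈ Finset.Icc 1 (j : ℕ), 0 < w (j - s) ^ (p ^ (s + 1) - p ^ s) :=
    fun s _ => pow_pos (pos _ (by omega)) _
  rw [DD, ← Real.log_le_log_iff (pow_pos (pos j hj) _)
    (mul_pos (pow_pos (pos j hj) _) (Finset.prod_pos hD)), Real.log_mul (pow_pos (pos j hj) _).ne'
    (Finset.prod_pos hD).ne', Real.log_prod fun s hs => (hD s hs).ne', Real.log_pow, Real.log_pow]
  have h6 := Finset.sum_le_sum key
  rw [← Finset.sum_mul, ← Finset.mul_sum] at h6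
  have h7 : ∑ s ∈ Finset.Icc 1 (j : ℕ), (1 / 2 : ℝ) ^ (s / m) ≤ 2 * n := by
    refine (Finset.sum_le_sum_of_subset_of_nonneg (t := Finset.range ((j + 1) * m))
      (fun s hs => Finset.mem_range.2 ?_) fun _ _ _ => by positivity).trans ?_
    · have := (Finset.mem_Icc.1 hs).2
      nlinarith
    · rw [sum_half_TrK hm]
      have : (m : ℝ) ≤ n := by exact_mod_cast hmn.le
      have : (0 : ℝ) ≤ 2 * m * (1 / 2) ^ (j + 1 : ℕ) := by positivity
      linarith
  have h8 : (p : ℝ) ≤ n * p ^ n := by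
    have h9 : (1 : ℝ) ≤ n := by exact_mod_cast (by omega : 1 ≤ n)
    have : (p : ℝ) ≤ p ^ n := le_self_pow₀ (by linarith) (by omega)
    nlinarith
  have h10 := le1 j hj
  have h11 : (0 : ℝ) ≤ (p : ℝ) ^ n := by positivity
  push_cast
  nlinarith [mul_le_mul_of_nonpos_right (mul_le_mul_of_nonneg_left h7 h11) h10,
    mul_le_mul_of_nonpos_right h8 h10]

end Vale.Agent.P217
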