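import Vale.Agent.P217.Car

namespace Vale.Agent.P217

open MvPowerSeries

variable {L : Type} [NormedField L] [IsUltrametricDist L]

variable {p : ℕ} [Fact p.Prime] [CharP L p] [PerfectRing L p]


theorem val_dg_add (E : ℕ) (B x : WittVector p L) :
    dg p E (B + (p : WittVector p L) ^ E * x) = dg p E B + dg p 0 x := by
  let c : ℕ → L := fun j => if j = E then dg p E B + dg p 0 x else dg p j B
  have t0 : ∀ a : L, dg p 0 (WittVector.teichmuller p a) = a := fun a => by
    simpa using dg_sum_teich (p := p) (E := 0) le_rfl (fun _ => a)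
  have h1 := dvd_sub_digits 0 (x + WittVector.teichmuller p (dg p E B) -
    WittVector.teichmuller p (dg p E B + dg p 0 x))
  have h2 := dvd_sub_digits E B
  simp only [zero_add, Finset.range_one, Finset.sum_singleton, dg_zero_sub, dg_zero_add, t0,
    pow_one] at h1
  rw [add_comm (dg p 0 x), sub_self, WittVector.teichmuller_zero, mul_zero, sub_zero] at h1
  have h3 : (p : WittVector p L) ^ (E + 1) ∣ (B + (p : WittVector p L) ^ E * x) -
      ∑ j ∈ Finset.range (E + 1), (p : WittVector p L) ^ j * WittVector.teichmuller p (c j) := by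
    have e : ∑ j ∈ Finset.range E, (p : WittVector p L) ^ j * WittVector.teichmuller p (c j) =
        ∑ j ∈ Finset.range E, (p : WittVector p L) ^ j * WittVector.teichmuller p (dg p j B) :=
      Finset.sum_congr rfl fun j hj => by
        simp only [c, if_neg (Finset.mem_range.1 hj).ne]
    rw [Finset.sum_range_succ] at h2 ⊢
    rw [e]
    simp only [c, if_true]
    have h4 := mul_dvd_mul_left ((p : WittVector p L) ^ E) h1
    rw [← pow_succ] at h4
    convert dvd_add h2 h4 using 1
    ring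
  rw [dg_congr le_rfl h3, dg_sum_teich le_rfl]
  simp [c]

theorem val_dg_zero_sum {ι : Type} (S : Finset ι) (x : ι → WittVector p L) :
    dg p 0 (∑ i ∈ S, x i) = ∑ i ∈ S, dg p 0 (x i) := by
  classical
  induction S using Finset.induction_on with
  | empty => simp [dg]
  | insert a S ha ih => rw [Finset.sum_insert ha, Finset.sum_insert ha, dg_zero_add, ih]

/-- families coming from integral polynomial Witt vectors -/
def valG (p : ℕ) [Fact p.Prime] [CharP L p] (E : ℕ) {m : ℕ} (π : L)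
    (w : (Fin m → L) → WittVector p L) : Prop :=
  ∃ w' : WittVector p (MvPolynomial (Fin m) (OC L)), ∀ z, w z = WittVector.teichmuller p π *
    WittVector.map ((iterateFrobenius L p E).comp (MvPolynomial.eval₂Hom (OC L).subtype z)) w'

omit [PerfectRing L p] in
theorem valG_sum {E m : ℕ} {π : L} {ι : Type} (S : Finset ι)
    (w : ι → (Fin m → L) → WittVector p L) (h : ∀ i ∈ S, valG p E π (w i)) :
    valG p E π (fun z => ∑ i ∈ S, w i z) := by
  choose! w' hw using h
  refine ⟨∑ i ∈ S, w' i, fun z => ?_⟩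
  rw [map_sum, Finset.mul_sum]
  exact Finset.sum_congr rfl fun i hi => hw i hi z

theorem valG_term {E m : ℕ} {π a : L} (ha : ‖a‖ ≤ ‖π‖) {e : ℕ} (he : e ≤ E) (i : Fin m) (N : ℕ) :
    valG p E π (fun z : Fin m → L =>
      (p : WittVector p L) ^ (E - e) * WittVector.teichmuller p (a * (z i ^ N) ^ (p ^ e))) := by
  obtain ⟨b, hb, rfl⟩ : ∃ b, ‖b‖ ≤ 1 ∧ a = π * b := by
    by_cases h : π = 0
    · exact ⟨0, by simp, by simpa [h] using ha⟩
    · exact ⟨a / π, by rw [norm_div]; exact div_le_one_of_le₀ ha (norm_nonneg _),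
        (mul_div_cancel₀ _ h).symm⟩
  obtain ⟨b', rfl⟩ := (iterateFrobeniusEquiv L p e).surjective b
  rw [iterateFrobeniusEquiv_def] at hb ⊢
  have hb' : b' ∈ OC L := by
    rw [norm_pow, pow_le_one_iff_of_nonneg (norm_nonneg _)
      (pow_ne_zero _ (Fact.out : p.Prime).ne_zero)] at hb
    exact hb
  refine ⟨WittVector.mk p fun j => if j = E - e then
    MvPolynomial.C ⟨b', hb'⟩ * MvPolynomial.X i ^ N else 0, fun z => ?_⟩
  simp only
  rw [mul_assoc π, map_mul, mul_left_comm, mul_comm ((p : WittVector p L) ^ _)]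
  congr 1
  ext j
  rw [WittVector.map_coeff, WittVector.coeff_mk]
  split_ifs with hj
  · rw [hj, WittVector.teichmuller_mul_pow_coeff, ← mul_pow, ← pow_mul, ← pow_add,
      Nat.add_sub_cancel' he]
    simp [iterateFrobenius_def, mul_pow, pow_right_comm]
  · rw [WittVector.teichmuller_mul_pow_coeff_of_ne _ hj, map_zero]

theorem valG_poly {E m : ℕ} {π : L} {w : (Fin m → L) → WittVector p L} (h : valG p E π w) :
    ∃ R : MvPolynomial (Fin m) L, (∀ β, ‖MvPolynomial.coeff β R‖ ≤ ‖π‖) ∧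
      ∀ z, dg p E (w z) = MvPolynomial.eval z R := by
  obtain ⟨w', hw⟩ := h
  refine ⟨MvPolynomial.C π * MvPolynomial.map (OC L).subtype (w'.coeff E), fun β => ?_,
    fun z => ?_⟩
  · rw [MvPolynomial.coeff_C_mul, MvPolynomial.coeff_map, norm_mul]
    exact mul_le_of_le_one_right (norm_nonneg _) (MvPolynomial.coeff β (w'.coeff E)).2
  · rw [hw, dg_teich_mul, map_mul, MvPolynomial.eval_C, MvPolynomial.eval_map, dg,
      WittVector.map_coeff]
    congr 1
    exact (iterateFrobeniusEquiv L p E).symm_apply_apply _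

theorem val_poly (n E : ℕ) (hn : 1 ≤ n) {m : ℕ} (α : Fin m → WittVector p L) (y : Fin m → L)
    {s : ℝ} (hs : 0 ≤ s)
    (h : ∀ i l e', 1 ≤ e' → l + e' ≤ E → ‖dg p l (α i)‖ * ‖y i‖ ^ ((p ^ n) ^ (l + e')) ≤ s) :
    ∃ R : MvPolynomial (Fin m) L, (∀ β, ‖MvPolynomial.coeff β R‖ ≤ s) ∧ ∀ z : Fin m → L,
      dg p E (bW p (p ^ n) E α (fun i => y i * z i)) =
        ∑ σ : Fin m × Fin (E + 1), cc p α σ * uu (p ^ n) y σ * uu (p ^ n) z σ +
          MvPolynomial.eval z R := by
  have hT : (insert 0 {x : L | ∃ i l e, 1 ≤ e ∧ l + e ≤ E ∧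
      x = dg p l (α i) * y i ^ ((p ^ n) ^ (l + e))}).Finite := by
    refine Set.Finite.insert _ (((Set.finite_univ.prod ((Set.finite_Iic E).prod
      (Set.finite_Iic E))).image fun t : Fin m × ℕ × ℕ =>
        dg p t.2.1 (α t.1) * y t.1 ^ ((p ^ n) ^ (t.2.1 + t.2.2))).subset ?_)
    rintro _ ⟨i, l, e, -, h2, rfl⟩
    exact ⟨(i, l, e), ⟨trivial, show l ≤ E by omega, show e ≤ E by omega⟩, rfl⟩
  obtain ⟨π, h1, h2⟩ := Set.exists_max_image _ (fun x : L => ‖x‖) hT ⟨0, Set.mem_insert _ _⟩
  have h3 : ‖π‖ ≤ s := by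
    rcases h1 with rfl | ⟨i, l, e, h3, h4, rfl⟩
    · simpa using hs
    · rw [norm_mul, norm_pow]; exact h i l e h3 h4
  have hG : valG p E π (fun z : Fin m → L => ∑ e ∈ Finset.range E,
      (p : WittVector p L) ^ (E - (e + 1)) * ∑ i, ∑ l ∈ Finset.range (E + 1 - (e + 1)),
        WittVector.teichmuller p (dg p l (α i) * (y i * z i) ^ ((p ^ n) ^ (l + (e + 1))))) := by
    simp only [Finset.mul_sum]
    refine valG_sum _ _ fun e he => valG_sum _ _ fun i _ => valG_sum _ _ fun l hl => ?_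
    rw [Finset.mem_range] at he hl
    have h4 := valG_term (p := p) (h2 _ (Or.inr ⟨i, l, e + 1, by omega, by omega, rfl⟩))
      (show e + 1 ≤ E by omega) i (p ^ (n * (l + (e + 1)) - (e + 1)))
    have h5 : e + 1 ≤ n * (l + (e + 1)) := by nlinarith
    simp only [← pow_mul, ← pow_add, Nat.sub_add_cancel h5] at h4
    simpa only [← pow_mul, mul_pow, mul_assoc] using h4
  obtain ⟨R, hR, hR'⟩ := valG_poly hG
  refine ⟨R, fun β => (hR β).trans h3, fun z => ?_⟩
  have t0 : ∀ a : L, dg p 0 (WittVector.teichmuller p a) = a := fun a => by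
    simpa using dg_sum_teich (p := p) (E := 0) le_rfl (fun _ => a)
  rw [dg_congr le_rfl (bW_digits _ E α _), Finset.sum_range_succ', Nat.sub_zero, val_dg_add,
    hR', add_comm, val_dg_zero_sum, Fintype.sum_prod_type]
  congr 1
  refine Finset.sum_congr rfl fun i _ => ?_
  rw [val_dg_zero_sum, Nat.sub_zero, Finset.sum_range]
  refine Finset.sum_congr rfl fun l _ => ?_
  rw [t0, add_zero, mul_pow, ← mul_assoc]
  rfl

end Vale.Agent.P217
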