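import Vale.Agent.P217.ElS
import Vale.Agent.P217.ElV
import Vale.Agent.P217.Val
import Vale.Agent.P217.Exp
import Vale.Agent.P217.Grid
import Vale.Agent.P217.TrK

namespace Vale.Agent.P217

open MvPowerSeries

variable {L : Type} [NormedField L] [IsUltrametricDist L]

variable {p n : ℕ} [Fact p.Prime] [CharP L p] [PerfectRing L p]


omit [Fact p.Prime] [CharP L p] [PerfectRing L p] in
theorem intp_eval_le {m : ℕ} (z : Fin m → L) (hz : ∀ i, ‖z i‖ ≤ 1) (T : MvPolynomial (Fin m) L)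
    (hT : ∀ β, ‖MvPolynomial.coeff β T‖ ≤ 1) : ‖MvPolynomial.eval z T‖ ≤ 1 := by
  rw [MvPolynomial.eval_eq']
  refine IsUltrametricDist.norm_sum_le_of_forall_le_of_nonneg zero_le_one fun d _ => ?_
  rw [norm_mul, norm_prod]
  refine mul_le_one₀ (hT d) (Finset.prod_nonneg fun i _ => norm_nonneg _) ?_
  refine Finset.prod_le_one (fun i _ => norm_nonneg _) fun i _ => ?_
  rw [norm_pow]; exact pow_le_one₀ (norm_nonneg _) (hz i)

omit [Fact p.Prime] [CharP L p] [PerfectRing L p] in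
theorem intp_sum_lt {ι : Type} (s : Finset ι) (x : ι → L) (hx : ∀ i ∈ s, ‖x i‖ < 1) :
    ‖∑ i ∈ s, x i‖ < 1 := by
  classical
  induction s using Finset.induction_on with
  | empty => simp
  | insert a s ha ih =>
    rw [Finset.sum_insert ha]
    refine lt_of_le_of_lt (IsUltrametricDist.norm_add_le_max _ _) (max_lt ?_ ?_)
    · exact hx a (Finset.mem_insert_self _ _)
    · exact ih fun i hi => hx i (Finset.mem_insert_of_mem hi)

omit [IsUltrametricDist L] [CharP L p] [PerfectRing L p] in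
theorem intp_ratio {c u v : L} (hv : v ≠ 0) (hc : ‖c‖ ≤ 1) (h : ‖c‖ * ‖u‖ ^ p ≤ ‖v‖ ^ p)
    (hne : ‖u‖ ≠ ‖v‖) : ‖c * u * v⁻¹‖ < 1 := by
  have hv0 : 0 < ‖v‖ := norm_pos_iff.2 hv
  rw [norm_mul, norm_mul, norm_inv, ← div_eq_mul_inv, div_lt_one hv0]
  rcases lt_or_gt_of_ne hne with h1 | h1
  · exact lt_of_le_of_lt (mul_le_of_le_one_left (norm_nonneg _) hc) h1
  · obtain ⟨k, hk⟩ : ∃ k, p = k + 1 := ⟨p - 1, by have := (Fact.out : p.Prime).pos; omega⟩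
    have hk1 : k ≠ 0 := by have := (Fact.out : p.Prime).two_le; omega
    have hu0 : 0 < ‖u‖ := hv0.trans h1
    have h2 : ‖v‖ ^ k < ‖u‖ ^ k := pow_lt_pow_left₀ h1 hv0.le hk1
    rw [hk, pow_succ, pow_succ] at h
    by_contra h3
    push Not at h3
    have h4 : ‖v‖ * ‖u‖ ^ k ≤ ‖c‖ * ‖u‖ * ‖u‖ ^ k :=
      mul_le_mul_of_nonneg_right h3 (pow_nonneg hu0.le _)
    have h5 : ‖v‖ * ‖v‖ ^ k < ‖v‖ * ‖u‖ ^ k := mul_lt_mul_of_pos_left h2 hv0
    nlinarith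

theorem intp_Q {m E r : ℕ} (hn : 1 ≤ n) (y : Fin m → L) (hy0 : ∀ i, y i ≠ 0)
    (hy1 : ∀ i, ‖y i‖ < 1) (e : Fin r ≃ Fin m × Fin (E + 1)) (σ : Fin m × Fin (E + 1))
    {α : Fin m → WittVector p L} (hα : Adm p n E y e (e.symm σ) α) :
    ∃ Q : MvPolynomial (Fin m) L, (∃ c : Fin m × Fin (E + 1) → L, (∀ τ, ‖c τ‖ ≤ 1) ∧
      (∀ τ, c τ ≠ 0 → ‖y τ.1‖ ^ ((p ^ n) ^ (τ.2 : ℕ)) = ‖y σ.1‖ ^ ((p ^ n) ^ (σ.2 : ℕ)) ∧
        ((e.symm τ : Fin r) : ℕ) < (e.symm σ : Fin r)) ∧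
      ∀ β, ‖MvPolynomial.coeff β (Q - MvPolynomial.X σ.1 ^ ((p ^ n) ^ (σ.2 : ℕ)) -
        ∑ τ, MvPolynomial.C (c τ) * MvPolynomial.X τ.1 ^ ((p ^ n) ^ (τ.2 : ℕ)))‖ < 1) ∧
      ∀ z : Fin m → L, MvPolynomial.eval z Q =
        (uu (p ^ n) y σ)⁻¹ * dg p E (bW p (p ^ n) E α (fun i => y i * z i)) := by
  classical
  obtain ⟨hA1, hA2, hA3⟩ := hα
  rw [Equiv.apply_symm_apply] at hA1 hA2 hA3
  have hu0 : ∀ τ : Fin m × Fin (E + 1), uu (p ^ n) y τ ≠ 0 := fun τ => pow_ne_zero _ (hy0 _)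
  have hun : ∀ τ : Fin m × Fin (E + 1), ‖uu (p ^ n) y τ‖ = ‖y τ.1‖ ^ ((p ^ n) ^ (τ.2 : ℕ)) :=
    fun τ => norm_pow _ _
  have hp2 := (Fact.out : p.Prime).two_le
  have hq0 : 0 < p ^ n := pow_pos (by omega) _
  have hW0 : 0 < ‖uu (p ^ n) y σ‖ := norm_pos_iff.2 (hu0 σ)
  have hW1 : ‖uu (p ^ n) y σ‖ < 1 := by
    rw [hun]; exact pow_lt_one₀ (norm_nonneg _) (hy1 _) (pow_pos hq0 _).ne'
  obtain ⟨R, hR, hRe⟩ := val_poly (p := p) n E hn α y (s := ‖uu (p ^ n) y σ‖ ^ p)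
    (pow_nonneg hW0.le _) (by
      intro i l e' he' hle
      have h1 := (hA1 (i, ⟨l, by omega⟩)).2
      refine le_trans ?_ h1
      refine mul_le_mul_of_nonneg_left ?_ (norm_nonneg _)
      rw [hun]
      show ‖y i‖ ^ ((p ^ n) ^ (l + e')) ≤ (‖y i‖ ^ ((p ^ n) ^ l)) ^ p
      rw [← pow_mul ‖y i‖]
      refine pow_le_pow_of_le_one (norm_nonneg _) (hy1 i).le ?_
      rw [pow_add]
      refine Nat.mul_le_mul_left _ ?_
      rw [← pow_mul]
      exact Nat.le_self_pow (Nat.mul_pos hn he').ne' p)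
  let c : Fin m × Fin (E + 1) → L := fun τ =>
    if ‖uu (p ^ n) y τ‖ = ‖uu (p ^ n) y σ‖ ∧ e.symm τ < e.symm σ then
      cc p α τ * uu (p ^ n) y τ * (uu (p ^ n) y σ)⁻¹ else 0
  refine ⟨∑ τ : Fin m × Fin (E + 1), MvPolynomial.C (cc p α τ * uu (p ^ n) y τ * (uu (p ^ n) y σ)⁻¹) *
      MvPolynomial.X τ.1 ^ ((p ^ n) ^ (τ.2 : ℕ)) + MvPolynomial.C (uu (p ^ n) y σ)⁻¹ * R,
    ⟨c, ?_, ?_, ?_⟩, ?_⟩
  · intro τ
    simp only [c]
    split_ifs with h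
    · rw [norm_mul, norm_mul, norm_inv, h.1, mul_assoc, mul_inv_cancel₀ hW0.ne', mul_one]
      exact (hA1 τ).1
    · simp
  · intro τ hτ
    simp only [c] at hτ
    split_ifs at hτ with h
    · exact ⟨by rw [← hun, ← hun]; exact h.1, h.2⟩
    · exact absurd rfl hτ
  · intro β
    have hX : (MvPolynomial.X σ.1 ^ ((p ^ n) ^ (σ.2 : ℕ)) : MvPolynomial (Fin m) L) =
        ∑ τ : Fin m × Fin (E + 1), MvPolynomial.C (if τ = σ then (1 : L) else 0) *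
          MvPolynomial.X τ.1 ^ ((p ^ n) ^ (τ.2 : ℕ)) := by
      rw [Finset.sum_eq_single σ]
      · simp
      · intro τ _ h; simp [h]
      · intro h; exact absurd (Finset.mem_univ _) h
    have hE : ∑ τ : Fin m × Fin (E + 1),
        MvPolynomial.C (cc p α τ * uu (p ^ n) y τ * (uu (p ^ n) y σ)⁻¹) *
          MvPolynomial.X τ.1 ^ ((p ^ n) ^ (τ.2 : ℕ)) + MvPolynomial.C (uu (p ^ n) y σ)⁻¹ * R -
        MvPolynomial.X σ.1 ^ ((p ^ n) ^ (σ.2 : ℕ)) -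
        ∑ τ, MvPolynomial.C (c τ) * MvPolynomial.X τ.1 ^ ((p ^ n) ^ (τ.2 : ℕ)) =
        ∑ τ : Fin m × Fin (E + 1), MvPolynomial.C
          (cc p α τ * uu (p ^ n) y τ * (uu (p ^ n) y σ)⁻¹ - (if τ = σ then (1 : L) else 0) - c τ) *
          (MvPolynomial.X τ.1 ^ ((p ^ n) ^ (τ.2 : ℕ)) : MvPolynomial (Fin m) L) +
          MvPolynomial.C (uu (p ^ n) y σ)⁻¹ * R := by
      rw [hX]
      simp only [map_sub, sub_mul, Finset.sum_sub_distrib]
      ring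
    rw [hE, MvPolynomial.coeff_add, MvPolynomial.coeff_sum]
    refine lt_of_le_of_lt (IsUltrametricDist.norm_add_le_max _ _) (max_lt ?_ ?_)
    · refine intp_sum_lt _ _ fun τ _ => ?_
      rw [MvPolynomial.coeff_C_mul, norm_mul]
      have hc1 : ‖MvPolynomial.coeff β
          (MvPolynomial.X τ.1 ^ ((p ^ n) ^ (τ.2 : ℕ)) : MvPolynomial (Fin m) L)‖ ≤ 1 := by
        rw [MvPolynomial.coeff_X_pow]
        split_ifs <;> simp
      refine lt_of_le_of_lt (mul_le_of_le_one_right (norm_nonneg _) hc1) ?_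
      by_cases hτ : τ = σ
      · subst hτ
        have : c τ = 0 := by simp [c]
        rw [this, if_pos rfl, sub_zero, mul_assoc, mul_inv_cancel₀ (hu0 τ), mul_one]
        exact hA2
      · rw [if_neg hτ, sub_zero]
        by_cases h1 : ‖uu (p ^ n) y τ‖ = ‖uu (p ^ n) y σ‖
        · by_cases h2 : e.symm τ < e.symm σ
          · have : c τ = cc p α τ * uu (p ^ n) y τ * (uu (p ^ n) y σ)⁻¹ := by
              simp only [c]; rw [if_pos ⟨h1, h2⟩]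
            rw [this, sub_self, norm_zero]; exact one_pos
          · have : c τ = 0 := by simp only [c]; rw [if_neg fun h => h2 h.2]
            rw [this, sub_zero, norm_mul, norm_mul, norm_inv, h1, mul_assoc,
              mul_inv_cancel₀ hW0.ne', mul_one]
            have h3 : e.symm σ < e.symm τ :=
              lt_of_le_of_ne (not_lt.1 h2) fun h => hτ (e.symm.injective h).symm
            have h4 := hA3 (e.symm τ) h3
            rw [Equiv.apply_symm_apply] at h4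
            exact h4 h1
        · have : c τ = 0 := by simp only [c]; rw [if_neg fun h => h1 h.1]
          rw [this, sub_zero]
          exact intp_ratio (p := p) (hu0 σ) (hA1 τ).1 (hA1 τ).2 h1
    · rw [MvPolynomial.coeff_C_mul, norm_mul, norm_inv, mul_comm, ← div_eq_mul_inv, div_lt_one hW0]
      refine lt_of_le_of_lt (hR β) ?_
      calc ‖uu (p ^ n) y σ‖ ^ p < ‖uu (p ^ n) y σ‖ ^ 1 :=
            pow_lt_pow_right_of_lt_one₀ hW0 hW1 (by omega)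
        _ = _ := pow_one _
  · intro z
    rw [hRe z, map_add, map_sum, map_mul, MvPolynomial.eval_C, mul_add, Finset.mul_sum]
    congr 1
    refine Finset.sum_congr rfl fun τ _ => ?_
    rw [map_mul, map_pow, MvPolynomial.eval_C, MvPolynomial.eval_X]
    show _ = _ * (_ * _ * z τ.1 ^ ((p ^ n) ^ (τ.2 : ℕ)))
    ring

theorem interp {m : ℕ} (hmn : m < n) (ι : kk p n →+* L) (E Lb : ℕ) (hL : Lb ≤ E + 1)
    (P : MvPolynomial (Fin 2) (WW p n)) (hP0 : MvPolynomial.coeff 0 P = 0)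
    (hP1 : MvPolynomial.coeff (Finsupp.single 0 1) P = 1)
    (hP2 : MvPolynomial.coeff (Finsupp.single 1 1) P = 1)
    (hP : ∀ d, Finsupp.degree d < (p ^ n) ^ (E + 1) →
        MvPolynomial.coeff d (∑ e ∈ Finset.range (E + 1),
          (p : MvPolynomial (Fin 2) (WW p n)) ^ (E - e) * (P ^ ((p ^ n) ^ e) -
            MvPolynomial.X 0 ^ ((p ^ n) ^ e) - MvPolynomial.X 1 ^ ((p ^ n) ^ e))) = 0)
    (y : Fin m → L) {r1 r2 : ℝ} (hr1 : 0 < r1) (hr2 : r2 < 1) (hr20 : 0 ≤ r2) (hr11 : r1 ≤ 1)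
    (hy : ∀ i, r1 ≤ ‖y i‖ ∧ ‖y i‖ ≤ r2) (horth : Orth p (p ^ n) E y)
    (H : MvPolynomial (Fin m) (kk p n)) (β0 : Fin m →₀ ℕ) (hβ0 : MvPolynomial.coeff β0 H ≠ 0)
    (h2 : r2 ^ ((p ^ n) ^ (E + 1)) < r1 ^ (3 * n * p ^ n * (p ^ n) ^ Lb))
    (h3 : r2 ^ ((p ^ n) ^ Lb) < r1 ^ (3 * n * p ^ n * Finsupp.degree β0)) :
    ∃ (a : ℕ → kk p n) (r : ℕ), r1 ^ (3 * n * p ^ n * Finsupp.degree β0) ≤
      ‖MvPolynomial.eval (fun i => zP (MvPolynomial.map (ι.comp WittVector.constantCoeff) P) p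
        (fun s => ι (a s)) (y i) r) (MvPolynomial.map ι H)‖ := by
  classical
  have hn : 1 ≤ n := by omega
  have hp2 := (Fact.out : p.Prime).two_le
  have hq0 : 0 < p ^ n := pow_pos (by omega) _
  have hy0 : ∀ i, y i ≠ 0 := fun i => norm_pos_iff.1 (hr1.trans_le (hy i).1)
  have hy1 : ∀ i, ‖y i‖ < 1 := fun i => (hy i).2.trans_lt hr2
  obtain ⟨K, hK⟩ : ∃ K, 3 * n * p ^ n = K + 1 :=
    ⟨3 * n * p ^ n - 1, by have : 0 < 3 * n * p ^ n := Nat.mul_pos (by omega) hq0; omega⟩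
  obtain ⟨e, he⟩ := exists_enum (fun σ : Fin m × Fin (E + 1) => ‖uu (p ^ n) y σ‖)
  generalize Fintype.card (Fin m × Fin (E + 1)) = r at e he
  let w : ℕ → ℝ := fun t => if h : t < r then ‖uu (p ^ n) y (e ⟨t, h⟩)‖ else 0
  have hw : ∀ t : Fin r, w t = ‖uu (p ^ n) y (e t)‖ := fun t => by simp [w, t.2]
  have hanti : ∀ t t' : Fin r, t ≤ t' → w t' ≤ w t := fun t t' h => by
    rw [hw, hw]; exact he t t' h
  let cs : Fin m × Fin Lb → Fin m × Fin (E + 1) := fun σ => (σ.1, Fin.castLE hL σ.2)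
  have hun : ∀ σ : Fin m × Fin Lb, ‖uu (p ^ n) y (cs σ)‖ = ‖y σ.1‖ ^ ((p ^ n) ^ (σ.2 : ℕ)) :=
    fun σ => norm_pow _ _
  have hu0 : ∀ σ, uu (p ^ n) y (cs σ) ≠ 0 := fun σ => pow_ne_zero _ (hy0 _)
  have hwj : ∀ σ, w (e.symm (cs σ)) = ‖uu (p ^ n) y (cs σ)‖ := fun σ => by
    rw [hw, Equiv.apply_symm_apply]
  have hj : ∀ σ, r2 ^ ((p ^ n) ^ (E + 1)) < w (e.symm (cs σ)) ^ (3 * n * p ^ n) := by
    intro σ
    refine lt_of_lt_of_le h2 ?_
    rw [hwj, hun, mul_comm (3 * n * p ^ n), pow_mul]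
    refine pow_le_pow_left₀ (pow_nonneg hr1.le _) ?_ _
    calc r1 ^ (p ^ n) ^ Lb ≤ r1 ^ (p ^ n) ^ (σ.2 : ℕ) :=
          pow_le_pow_of_le_one hr1.le hr11 (Nat.pow_le_pow_right hq0 σ.2.2.le)
      _ ≤ _ := pow_le_pow_left₀ hr1.le (hy _).1 _
  choose α d κ hS using fun σ => elim hmn y hy0 hr2 (fun i => (hy i).2) e w hw hanti horth
    (e.symm (cs σ)) (hj σ)
  have hdK : ∀ σ, w (e.symm (cs σ)) ^ (3 * n * p ^ n) ≤ ‖d σ‖ := fun σ =>
    (t_K hmn y hy0 (fun i => (hy1 i).le) e w hw hanti _).trans (hS σ).2.1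
  have hd : ∀ σ, r2 ^ ((p ^ n) ^ (E + 1)) < ‖d σ‖ := fun σ => (hj σ).trans_le (hdK σ)
  have hd0 : ∀ σ, d σ ≠ 0 := fun σ => norm_pos_iff.1 ((pow_nonneg hr20 _).trans_lt (hd σ))
  choose Q hQ hQe using fun σ => intp_Q hn y hy0 hy1 e (cs σ) (hS σ).1
  obtain ⟨π, R, hπ1, hπ2, hR1, hR2, hR3, hRe⟩ := scaled_poly hn ι P hP0 hP1 hP2 y hy0 hy1 H β0 hβ0
  have hπ0 : r1 ^ Finsupp.degree β0 ≤ ‖π‖ := by
    refine le_trans ?_ hπ1
    rw [Finsupp.degree_eq_sum, ← Finset.prod_pow_eq_pow_sum]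
    exact Finset.prod_le_prod (fun i _ => pow_nonneg hr1.le _)
      fun i _ => pow_le_pow_left₀ hr1.le (hy i).1 _
  have hπpos : 0 < ‖π‖ := (pow_pos hr1 _).trans_le hπ0
  have hπK : r1 ^ (3 * n * p ^ n * Finsupp.degree β0) ≤ ‖π‖ ^ (K + 1) := by
    rw [hK, mul_comm, pow_mul]
    exact pow_le_pow_left₀ (pow_nonneg hr1.le _) hπ0 _
  have hπK' : ‖π‖ ^ (K + 1) ≤ ‖π‖ ^ K := pow_le_pow_of_le_one hπpos.le hπ2 (Nat.le_succ _)
  have hπK'' : ‖π‖ ^ (K + 1) ≤ ‖π‖ := by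
    rw [pow_succ]; exact mul_le_of_le_one_left hπpos.le (pow_le_one₀ hπpos.le hπ2)
  obtain ⟨f, T, hT, ⟨e0, hf0, he0⟩, hRQ⟩ := expand_box (p := p) hn hL (fun i => ‖y i‖)
    (fun i => norm_pos_iff.2 (hy0 i)) hy1 (fun τ => ((e.symm τ : Fin r) : ℕ)) Q hQ R hR1 ‖π‖ hR2 hR3
    (fun i => lt_of_le_of_lt (pow_le_pow_left₀ (norm_nonneg _) (hy i).2 _)
      (h3.trans_le (hπK.trans hπK'')))
  let lam : (ℕ → kk p n) → Fin m → L := fun a i =>
    lamP (MvPolynomial.map (ι.comp WittVector.constantCoeff) P) p (fun s => ι (a s)) (y i) r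
  let z : (ℕ → kk p n) → Fin m → L := fun a i => (y i)⁻¹ * lam a i
  have hyz : ∀ a i, y i * z a i = lam a i := fun a i => by
    simp only [z]; rw [← mul_assoc, mul_inv_cancel₀ (hy0 i), one_mul]
  have hz : ∀ a i, ‖z a i‖ ≤ r2 := by
    intro a i
    have h1 : ‖lam a i‖ ≤ ‖y i‖ ^ p := lamP_norm hn ι P hP0 a (y i) (hy1 i).le r
    have h0 : 0 < ‖y i‖ := norm_pos_iff.2 (hy0 i)
    refine le_trans ?_ (hy i).2
    simp only [z]
    rw [norm_mul, norm_inv, mul_comm, ← div_eq_mul_inv, div_le_iff₀ h0]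
    refine h1.trans ?_
    rw [← pow_two]
    exact pow_le_pow_of_le_one h0.le (hy1 i).le hp2
  let ψ : Fin m × Fin Lb → (ℕ → kk p n) → L := fun σ a =>
    dg p E (bW p (p ^ n) E (α σ) (lam a)) * (d σ)⁻¹
  have hψ : ∀ σ a, ‖ψ σ a - ι (a (((e.symm (cs σ) : Fin r) : ℕ) + 1))‖ < 1 := by
    intro σ a
    have hx : Sm p E (r2 ^ ((p ^ n) ^ (E + 1))) (bW p (p ^ n) E (α σ) (lam a) -
        ∑ s ∈ Finset.Icc 1 r, WittVector.teichmuller p (ι (a s)) *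
          bW p (p ^ n) E (α σ) (fun i => y i ^ (p ^ s))) := by
      have hE : bW p (p ^ n) E (α σ) (lam a) -
          ∑ s ∈ Finset.Icc 1 r, WittVector.teichmuller p (ι (a s)) *
            bW p (p ^ n) E (α σ) (fun i => y i ^ (p ^ s)) =
          ∑ i, α σ i * (hW p (p ^ n) E (lam a i) - ∑ s ∈ Finset.Icc 1 r,
            WittVector.teichmuller p (ι (a s)) * hW p (p ^ n) E (y i ^ (p ^ s))) := by
        simp only [bW, mul_sub, Finset.sum_sub_distrib, Finset.mul_sum]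
        congr 1
        rw [Finset.sum_comm]
        exact Finset.sum_congr rfl fun i _ => Finset.sum_congr rfl fun s _ => by ring
      rw [hE]
      refine sm_sum (pow_nonneg hr20 _) _ _ fun i _ => ?_
      have hα1 : Sm p E 1 (α σ i) := fun l hl => ((hS σ).1.1 (i, ⟨l, by omega⟩)).1
      refine (hα1.mul (hW_lamP hn ι E P hP0 hP a (y i) (hy1 i).le r)).mono le_rfl ?_
      rw [one_mul]
      exact pow_le_pow_left₀ (norm_nonneg _) (hy i).2 _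
    have h1 := elim_value hmn y hy0 hr2 (fun i => (hy i).2) e w hw hanti (e.symm (cs σ)) (hS σ)
      (hd σ) (fun s => ι (a s)) (fun s => norm_iota_le hn ι _) (r' := r) (e.symm (cs σ)).2 _ hx
    have h0 : 0 < ‖d σ‖ := norm_pos_iff.2 (hd0 σ)
    have h4 : ψ σ a - ι (a (((e.symm (cs σ) : Fin r) : ℕ) + 1)) =
        (dg p E (bW p (p ^ n) E (α σ) (lam a)) -
          ι (a (((e.symm (cs σ) : Fin r) : ℕ) + 1)) * d σ) * (d σ)⁻¹ := by
      simp only [ψ]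
      rw [sub_mul, mul_assoc, mul_inv_cancel₀ (hd0 σ), mul_one]
    rw [h4, norm_mul, norm_inv, ← div_eq_mul_inv, div_lt_one h0]
    exact h1
  have hJ : Function.Injective fun σ : Fin m × Fin Lb => ((e.symm (cs σ) : Fin r) : ℕ) + 1 := by
    intro σ σ' h
    have h1 : e.symm (cs σ) = e.symm (cs σ') := Fin.ext (by simpa using h)
    have h4 := e.symm.injective h1
    simp only [cs, Prod.mk.injEq] at h4
    exact Prod.ext h4.1 (Fin.castLE_injective hL h4.2)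
  obtain ⟨a, ha⟩ := grid hn ι _ hJ ψ hψ
    (fun b => f b * ∏ σ, (d σ * (uu (p ^ n) y (cs σ))⁻¹) ^ (b σ : ℕ)) e0
  refine ⟨a, r, ?_⟩
  have hzP : (fun i => zP (MvPolynomial.map (ι.comp WittVector.constantCoeff) P) p
      (fun s => ι (a s)) (y i) r) = fun i => MvPolynomial.eval ![y i, y i * z a i]
        (MvPolynomial.map (ι.comp WittVector.constantCoeff) P) := by
    funext i; rw [hyz]; rfl
  rw [hzP, hRe (z a), norm_mul]
  refine hπK.trans ?_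
  rw [pow_succ, mul_comm]
  refine mul_le_mul_of_nonneg_left ?_ hπpos.le
  have hQv : ∀ σ, MvPolynomial.eval (z a) (Q σ) = d σ * (uu (p ^ n) y (cs σ))⁻¹ * ψ σ a := by
    intro σ
    rw [hQe σ (z a)]
    simp only [hyz, ψ]
    have := hd0 σ
    field_simp
  have hM : MvPolynomial.eval (z a) (∑ b, MvPolynomial.C (f b) * ∏ σ, Q σ ^ (b σ : ℕ)) =
      ∑ b : Fin m × Fin Lb → Fin (p ^ n),
        (f b * ∏ σ, (d σ * (uu (p ^ n) y (cs σ))⁻¹) ^ (b σ : ℕ)) * ∏ σ, ψ σ a ^ (b σ : ℕ) := by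
    rw [map_sum]
    refine Finset.sum_congr rfl fun b _ => ?_
    rw [map_mul, MvPolynomial.eval_C, map_prod, mul_assoc, ← Finset.prod_mul_distrib]
    congr 1
    refine Finset.prod_congr rfl fun σ _ => ?_
    rw [map_pow, hQv, mul_pow]
  have hg : ‖π‖ ^ K ≤ ‖f e0 * ∏ σ, (d σ * (uu (p ^ n) y (cs σ))⁻¹) ^ (e0 σ : ℕ)‖ := by
    rw [norm_mul, hf0, one_mul, norm_prod]
    refine (pow_le_pow_left₀ hπpos.le he0 K).trans ?_
    rw [← Finset.prod_pow]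
    refine Finset.prod_le_prod (fun σ _ => by positivity) fun σ _ => ?_
    rw [norm_pow, ← pow_mul, mul_comm, pow_mul]
    refine pow_le_pow_left₀ (by positivity) ?_ _
    have h0 : 0 < ‖uu (p ^ n) y (cs σ)‖ := norm_pos_iff.2 (hu0 σ)
    rw [norm_mul, norm_inv, ← div_eq_mul_inv, le_div_iff₀ h0, ← hun, ← pow_succ, ← hK, ← hwj]
    exact hdK σ
  have htail : ‖MvPolynomial.eval (z a) (∑ i, MvPolynomial.X i ^ ((p ^ n) ^ Lb) * T i)‖ ≤
      r2 ^ ((p ^ n) ^ Lb) := by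
    rw [map_sum]
    refine IsUltrametricDist.norm_sum_le_of_forall_le_of_nonneg (pow_nonneg hr20 _) fun i _ => ?_
    rw [map_mul, map_pow, MvPolynomial.eval_X, norm_mul, norm_pow]
    refine le_trans (mul_le_of_le_one_right (by positivity)
      (intp_eval_le _ (fun i => (hz a i).trans hr2.le) _ (hT i))) ?_
    exact pow_le_pow_left₀ (norm_nonneg _) (hz a i) _
  rw [hRQ, map_add]
  rw [← hM] at ha
  have hlt : ‖MvPolynomial.eval (z a) (∑ i, MvPolynomial.X i ^ ((p ^ n) ^ Lb) * T i)‖ <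
      ‖MvPolynomial.eval (z a) (∑ b, MvPolynomial.C (f b) * ∏ σ, Q σ ^ (b σ : ℕ))‖ :=
    lt_of_le_of_lt htail (h3.trans_le (hπK.trans (hπK'.trans (hg.trans ha))))
  rw [IsUltrametricDist.norm_add_eq_max_of_norm_ne_norm hlt.ne', max_eq_left hlt.le]
  exact hg.trans ha

end Vale.Agent.P217
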