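import Vale.Agent.P217.CPo
import Vale.Agent.P217.Intp

namespace Vale.Agent.P217

open MvPowerSeries

variable {p n : ℕ} [Fact p.Prime] {F : FormalGroup (E0 p n)}

variable {L : Type} [NormedField L] [IsUltrametricDist L] [CompleteSpace L] [IsAlgClosed L]
  [CharP L p]


theorem cpa_eval {m : ℕ} (ι : kk p n →+* OC L) (H : MvPowerSeries (Fin m) (kk p n)) {N : ℕ}
    (z : Fin m → L) (z' : Fin m → OC L) {r s : ℝ} (hr0 : 0 ≤ r) (hr : r < 1) (hN : r ^ N ≤ s)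
    (hsr : s ≤ r) (hz' : ∀ i, ‖(z' i : L)‖ ≤ r) (hz : ∀ i, ‖(z' i : L) - z i‖ ≤ s)
    (h : ‖((evR z' (map ι H) : OC L) : L)‖ ≤ s) :
    ‖MvPolynomial.eval z (MvPolynomial.map ((OC L).subtype.comp ι) (truncTotal N H))‖ ≤ s := by
  have hs0 : 0 ≤ s := (pow_nonneg hr0 N).trans hN
  have h1 : ∀ i, ‖z i‖ ≤ r := fun i => by
    have e : z i = z' i + -((z' i : L) - z i) := by ring
    rw [e]
    exact (IsUltrametricDist.norm_add_le_max _ _).trans
      (max_le (hz' i) (by rw [norm_neg]; exact (hz i).trans hsr))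
  let z'' : Fin m → OC L := fun i => ⟨z i, (h1 i).trans hr.le⟩
  have h2 : ∀ i, ‖(z'' i : L)‖ < 1 := fun i => (h1 i).trans_lt hr
  have h3 := evR_sub z' z'' (fun i => (hz' i).trans_lt hr) h2 hs0 hz (map ι H)
  have h4 := (evR_spec z'' h2).bound r 1 N
    (map ι H - (MvPolynomial.map ι (truncTotal N H) : MvPolynomial (Fin m) (OC L))) hr0 hr.le
    zero_le_one h1 (fun d => Subtype.property (p := (· ∈ OC L)) _) (fun d hd => by
      rw [map_sub, coeff_map, MvPolynomial.coeff_coe, MvPolynomial.coeff_map,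
        coeff_truncTotal _ hd, sub_self])
  rw [map_sub, evR_coe z'' h2, one_mul] at h4
  have e1 : MvPolynomial.eval z (MvPolynomial.map ((OC L).subtype.comp ι) (truncTotal N H)) =
      ((MvPolynomial.eval z'' (MvPolynomial.map ι (truncTotal N H)) : OC L) : L) := by
    rw [← MvPolynomial.map_map]
    exact (MvPolynomial.map_eval (OC L).subtype z'' _).symm
  have e2 : ∀ a b c : L, c = (a + -(a - b)) + -(b - c) := fun a b c => by ring
  rw [e1, e2 (evR z' (map ι H) : OC L) (evR z'' (map ι H) : OC L)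
    ((MvPolynomial.eval z'' (MvPolynomial.map ι (truncTotal N H)) : OC L) : L)]
  refine (IsUltrametricDist.norm_add_le_max _ _).trans (max_le
    ((IsUltrametricDist.norm_add_le_max _ _).trans (max_le h ?_)) ?_)
  · rwa [norm_neg]
  · rw [norm_neg]; exact h4.trans hN

theorem IsLT.cpa (hF : IsLT p n F) [F.IsComm] {h : ℕ} (h1 : 1 ≤ h) (hn : h < n)
    {ξ : E0 p n →+* OC L} {ρ : ℝ} (hξ : HtPt p n h ξ ρ) {J : Ideal (E0 p n)} (hJ : Inv p n F J)
    (hξJ : ∀ x ∈ J, ξ x = 0) {f : E0 p n} (hf : f ∈ J) :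
    ∃ c : ℕ, ∀ k, c ≤ k → ∀ Ψ, PsiSpec p n F (n - h) k Ψ →
      ∀ H : MvPowerSeries (Fin (n - h)) (kk p n), Ideal.Quotient.mk _ H = Ψ f →
        (((p ^ n) ^ (k - c) : ℕ) : ℕ∞) ≤ H.order := by
  have hp := (Fact.out : p.Prime)
  have hn1 : 1 ≤ n := by omega
  have hq : 1 < p ^ n := Nat.one_lt_pow (by omega) hp.one_lt
  obtain ⟨ι, hι⟩ := exists_iota p n (ξ.comp (C : WW p n →+* E0 p n))
    (Subtype.ext (by simp [CharP.cast_eq_zero]) : (p : OC L) = 0)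
  obtain ⟨inst, hG⟩ := exists_grp (F.map ξ)
  obtain ⟨c1, c10, c11, hB⟩ := hF.torB h1 hn hξ hG
  have hK : 3 * n * p ^ n ≠ 0 := by positivity
  obtain ⟨c0, hc0⟩ := exists_pow_lt_of_lt_one (pow_pos c10 (3 * n * p ^ n)) hξ.lt1
  replace hc0 : ρ ^ (p ^ n) ^ c0 < c1 ^ (3 * n * p ^ n) :=
    (pow_le_pow_of_le_one hξ.pos.le hξ.lt1.le (Nat.lt_pow_self hq).le).trans_lt hc0
  refine ⟨3 * c0 + 2, fun k hk Ψ hΨ H hH => ?_⟩
  obtain ⟨t, rfl⟩ := Nat.exists_eq_add_of_le hk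
  rw [Nat.add_sub_cancel_left]
  set k := 3 * c0 + 2 + t with hkdef
  refine nat_le_order fun β0 hβ => ?_
  by_contra hβ0
  obtain ⟨x, hx, hx1, hx2⟩ := hB k (by omega)
  have hP0 : p ^ ((n - h) * k) ≠ 0 := pow_ne_zero _ hp.ne_zero
  have hpk : p ^ (h * k) * p ^ ((n - h) * k) = (p ^ n) ^ k := by
    rw [← pow_add, ← add_mul, Nat.add_sub_cancel' hn.le, pow_mul]
  obtain ⟨r1, r10, hr1⟩ : ∃ r : ℝ, 0 < r ∧ r ^ p ^ ((n - h) * k) = c1 :=
    ⟨_, Real.rpow_pos_of_pos c10 _, Real.rpow_inv_natCast_pow c10.le hP0⟩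
  obtain ⟨r2, r20, hr2⟩ : ∃ r : ℝ, 0 < r ∧ r ^ p ^ ((n - h) * k) = ρ :=
    ⟨_, Real.rpow_pos_of_pos hξ.pos _, Real.rpow_inv_natCast_pow hξ.pos.le hP0⟩
  have r11 : r1 ≤ 1 := (pow_le_one_iff_of_nonneg r10.le hP0).1 (hr1 ▸ c11)
  have r21 : r2 < 1 := (pow_lt_one_iff_of_nonneg r20.le hP0).1 (hr2 ▸ hξ.lt1)
  have hy : ∀ i, r1 ≤ ‖((x i).1 : L) ^ p ^ (h * k)‖ ∧ ‖((x i).1 : L) ^ p ^ (h * k)‖ ≤ r2 :=
    fun i => ⟨le_of_pow_le_pow_left₀ hP0 (norm_nonneg _)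
      (by rw [hr1, norm_pow, ← pow_mul, hpk]; exact (hx1 i).2),
      le_of_pow_le_pow_left₀ hP0 r20.le
      (by rw [hr2, norm_pow, ← pow_mul, hpk]; exact (hx1 i).1)⟩
  have hr12 : r2 ^ (p ^ n) ^ c0 < r1 ^ (3 * n * p ^ n) :=
    lt_of_pow_lt_pow_left₀ (p ^ ((n - h) * k)) (by positivity)
      (by rwa [pow_right_comm r2, pow_right_comm r1, hr1, hr2])
  have horth := (hx2 (2 * c0 + t) fun i => by
    by_contra hle
    have a1 := pow_le_pow_left₀ (by positivity) (not_lt.1 hle) ((p ^ n) ^ (c0 + 2))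
    rw [← pow_mul, ← pow_add, show 2 * c0 + t + (c0 + 2) = k by omega] at a1
    have a2 : ρ ^ (p ^ n) ^ (c0 + 2) ≤ ρ ^ (p ^ n) ^ c0 :=
      pow_le_pow_of_le_one hξ.pos.le hξ.lt1.le (Nat.pow_le_pow_right (by omega) (by omega))
    have a3 := pow_le_of_le_one c10.le c11 hK
    linarith [(hx1 i).2]).frob (h * k)
  obtain ⟨P, hP, hP'⟩ := hF.polyP hn1 (2 * c0 + t)
  have hN1 : 1 < (p ^ n) ^ (2 * c0 + t + 1) := Nat.one_lt_pow (by omega) hq
  have hle : ∀ a b : ℕ, a ≤ b → r2 ^ (p ^ n) ^ b ≤ r2 ^ (p ^ n) ^ a := fun a b hab =>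
    pow_le_pow_of_le_one r20.le r21.le (Nat.pow_le_pow_right (by omega) hab)
  have hlt : ∀ a : ℕ, r2 ^ (p ^ n) ^ (c0 + a) < r1 ^ (3 * n * p ^ n * (p ^ n) ^ a) := fun a => by
    rw [pow_add, pow_mul r2, pow_mul r1]
    exact pow_lt_pow_left₀ hr12 (by positivity) (by positivity)
  have hβ1 : Finsupp.degree β0 < (p ^ n) ^ (c0 + t + 1) :=
    hβ.trans_le (Nat.pow_le_pow_right (by omega) (by omega))
  have h3 : r2 ^ (p ^ n) ^ (c0 + t + 1) < r1 ^ (3 * n * p ^ n * Finsupp.degree β0) :=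
    ((hle (c0 + t) _ (by omega)).trans_lt (hlt t)).trans_le
      (pow_le_pow_of_le_one r10.le r11 (Nat.mul_le_mul_left _ hβ.le))
  obtain ⟨a, r, har⟩ := interp (m := n - h) (by omega) ((OC L).subtype.comp ι) (2 * c0 + t)
    (c0 + t + 1) (by omega) P
    (by rw [hP 0 (by simpa using by omega)]; exact (GW p n F).zero_constantCoeff)
    (by rw [hP _ (by simpa using hN1)]; exact (GW p n F).lin_coeff_X)
    (by rw [hP _ (by simpa using hN1)]; exact (GW p n F).lin_coeff_Y) hP'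
    (fun i => ((x i).1 : L) ^ p ^ (h * k)) r10 r21 r20.le r11 hy horth
    (truncTotal ((p ^ n) ^ (c0 + t + 1)) H) β0 (by rwa [coeff_truncTotal _ hβ1])
    (by rw [show 2 * c0 + t + 1 = c0 + (c0 + t + 1) by omega]; exact hlt _) h3
  have hg := hF.gser_aut hn1 a r
  have hy1 : ∀ i, ‖(((x i).1 ^ p ^ (h * k) : OC L) : L)‖ ≤ r2 := fun i => by
    simpa using (hy i).2
  have hs := hF.orbit_small h1 hn hξ ι hι hG hJ hξJ hf hx hΨ r20.le r21 (fun i => (hy i).2)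
    (s := r2 ^ (p ^ n) ^ (c0 + t + 1)) (hle _ _ (by omega))
    (by rw [← hr2, ← pow_mul, mul_comm, hpk]; exact hle _ _ (by omega)) H hH _ hg
  refine absurd (har.trans (cpa_eval ι H _ _ r20.le r21 le_rfl
    (pow_le_of_le_one r20.le r21.le (by positivity)) (fun i => ?_) (fun i => ?_) hs))
    (not_le.2 h3)
  · refine evR_norm_le _ r20.le r21 (fun _ => hy1 i) ?_
    have := hg.1.1
    rw [← PowerSeries.coeff_zero_eq_constantCoeff_apply] at this
    show PowerSeries.constantCoeff (PowerSeries.map ι _) = 0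
    rw [← PowerSeries.coeff_zero_eq_constantCoeff_apply, PowerSeries.coeff_map, this, map_zero]
  · refine (gser_approx ι P hN1.le hP a r _ ((hy1 i).trans_lt r21)).trans ?_
    exact (pow_le_pow_left₀ (norm_nonneg _) (hy1 i) _).trans (hle _ _ (by omega))

end Vale.Agent.P217
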