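import Vale.Agent.P217.Ev

namespace Vale.Agent.P217

open MvPowerSeries

variable {L : Type} [NormedField L] [IsUltrametricDist L] [CompleteSpace L]


omit [CompleteSpace L] in
theorem ball_nil {s : ℝ} (hs : 0 < s) {x : OC L} (hx : ‖(x : L)‖ < 1) :
    IsNilpotent (Ideal.Quotient.mk (ball L s) x) :=   by
  obtain ⟨N, hN⟩ := exists_pow_lt_of_lt_one hs hx
  refine ⟨N, ?_⟩
  rw [← map_pow, Ideal.Quotient.eq_zero_iff_mem, mem_ball hs.le, Subring.coe_pow, norm_pow]
  exact hN.le

omit [CompleteSpace L] in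
theorem ball_pow {r s : ℝ} (hr0 : 0 ≤ r) (hr : r < 1) (hs : 0 < s) :
    ∃ N, ((ball L r).map (Ideal.Quotient.mk (ball L s))) ^ N = ⊥ :=   by
  obtain ⟨N, hN⟩ := exists_pow_lt_of_lt_one hs hr
  refine ⟨N, ?_⟩
  rw [← Ideal.map_pow, Ideal.map_eq_bot_iff_le_ker, Ideal.mk_ker]
  exact fun x hx => (mem_ball hs.le x).2
    (((mem_ball (by positivity) x).1 (ball_pow_Ev hr0 N hx)).trans hN.le)

omit [CompleteSpace L] in
theorem ball_eq_span (x : OC L) : ball L ‖(x : L)‖ = Ideal.span {x} :=   by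
  ext y
  rw [mem_ball (norm_nonneg _), Ideal.mem_span_singleton]
  constructor
  · intro h
    by_cases hx : (x : L) = 0
    · rw [hx, norm_zero, norm_le_zero_iff, ZeroMemClass.coe_eq_zero] at h
      simp [h]
    · refine ⟨⟨y / x, ?_⟩, Subtype.ext (mul_div_cancel₀ _ hx).symm⟩
      show ‖(y : L) / x‖ ≤ 1
      rw [norm_div]
      exact div_le_one_of_le₀ h (norm_nonneg _)
  · rintro ⟨c, rfl⟩
    rw [Subring.coe_mul, norm_mul]
    exact mul_le_of_le_one_right (norm_nonneg _) c.2

theorem span_complete (x : OC L) (hx : ‖(x : L)‖ < 1) : IsAdicComplete (Ideal.span {x}) (OC L) :=   by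
  have key : ∀ n (a b : OC L), a ≡ b [SMOD (Ideal.span {x} ^ n • ⊤ : Submodule (OC L) (OC L))] ↔
      dist a b ≤ ‖(x : L)‖ ^ n := fun n a b => by
    rw [SModEq.sub_mem, smul_eq_mul, Ideal.mul_top, Ideal.span_singleton_pow, ← ball_eq_span,
      mem_ball (norm_nonneg _), Subring.coe_pow, norm_pow, dist_eq_norm]
    rfl
  have t := tendsto_pow_atTop_nhds_zero_of_lt_one (norm_nonneg _) hx
  have : CompleteSpace (OC L) := IsClosed.completeSpace_coe
    (hs := isClosed_le continuous_norm continuous_const)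
  have : IsHausdorff (Ideal.span {x}) (OC L) :=
    ⟨fun y hy => dist_le_zero.1 (ge_of_tendsto' t fun n => (key n y 0).1 (hy n))⟩
  have : IsPrecomplete (Ideal.span {x}) (OC L) := ⟨fun f hf => by
    obtain ⟨a, ha⟩ := cauchySeq_tendsto_of_complete
      (cauchySeq_of_le_tendsto_0' _ (fun n m h => (key n _ _).1 (hf h)) t)
    refine ⟨a, fun n => (key n _ _).2 (le_of_tendsto (tendsto_const_nhds.dist ha) ?_)⟩
    filter_upwards [Filter.eventually_ge_atTop n] with m h using (key n _ _).1 (hf h)⟩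
  exact {}

omit [CompleteSpace L] in
theorem isUnit_iff_norm (x : OC L) : IsUnit x ↔ ‖(x : L)‖ = 1 :=   by
  constructor
  · intro h
    obtain ⟨y, hy⟩ := h.exists_right_inv
    have h1 : ‖(x : L)‖ * ‖(y : L)‖ = 1 := by rw [← norm_mul, ← Subring.coe_mul, hy]; simp
    exact le_antisymm x.2 (h1.ge.trans (mul_le_of_le_one_right (norm_nonneg _) y.2))
  · intro h
    have h0 : (x : L) ≠ 0 := norm_ne_zero_iff.1 (by rw [h]; exact one_ne_zero)
    refine IsUnit.of_mul_eq_one ⟨(x : L)⁻¹, ?_⟩ (Subtype.ext (mul_inv_cancel₀ h0))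
    show ‖(x : L)⁻¹‖ ≤ 1
    rw [norm_inv, h, inv_one]

theorem ext_Ev2 {σ R S : Type} [Finite σ] [CommRing R] [CommRing S]
    {e e' : MvPowerSeries σ R →+* S} {J : Ideal S} {N : ℕ} (hJ : J ^ N = ⊥)
    (hx : ∀ i, e (X i) ∈ J) (hC : ∀ a, e (C a) = e' (C a)) (hX : ∀ i, e (X i) = e' (X i)) :
    e = e' := by
  haveI := Fintype.ofFinite σ
  have key : ∀ e : MvPowerSeries σ R →+* S, (∀ i, e (X i) ∈ J) → ∀ f : MvPowerSeries σ R,
      e f = e (truncTotal N f : MvPolynomial σ R) := fun e hx f => by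
    have h1 : f - (truncTotal N f : MvPolynomial σ R) ∈ J.comap e ^ N :=
      mem_pow_Cpl (P := ⊥) (fun x hx => by
        rw [Ideal.mem_bot.1 hx, map_zero]; exact zero_mem _) hx N fun d => by
        by_cases h : Finsupp.degree d < N
        · rw [trunc_Ev N f d h]; exact zero_mem _
        · rw [Nat.sub_eq_zero_of_le (not_lt.1 h), pow_zero, Ideal.one_eq_top]; trivial
    have h2 := Ideal.le_comap_pow e N h1
    rwa [hJ, Ideal.mem_comap, Ideal.mem_bot, map_sub, sub_eq_zero] at h2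
  refine RingHom.ext fun f => ?_
  rw [key e hx, key e' fun i => hX i ▸ hx i, coe_Ev e, coe_Ev e',
    show e.comp C = e'.comp C from RingHom.ext hC, funext hX]
theorem evR_mk {σ : Type} [Finite σ] (x : σ → OC L) (hx : ∀ i, ‖(x i : L)‖ < 1) {s : ℝ}
    (hs : 0 < s) (f : MvPowerSeries σ (OC L)) :
    PowerSeries.C (Ideal.Quotient.mk (ball L s) (evR x f)) =
      subst (fun i => (PowerSeries.C (Ideal.Quotient.mk (ball L s) (x i)) :
        PowerSeries (OC L ⧸ ball L s))) (map (Ideal.Quotient.mk (ball L s)) f) :=   by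
  obtain ⟨r, h0, h1, h2⟩ := rad_Ev (fun i => (x i : L)) hx
  obtain ⟨N, hN⟩ := ball_pow (L := L) h0 h1 hs
  have ha : HasSubst (fun i => (PowerSeries.C (Ideal.Quotient.mk (ball L s) (x i)) :
      PowerSeries (OC L ⧸ ball L s))) :=
    hasSubst_of_constantCoeff_nilpotent fun i => ball_nil hs (hx i)
  have := ext_Ev2 (N := N) (J := ((ball L r).map (Ideal.Quotient.mk (ball L s))).map PowerSeries.C)
    (e := ((PowerSeries.C (R := OC L ⧸ ball L s)).comp (Ideal.Quotient.mk (ball L s))).comp (evR x))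
    (e' := (substAlgHom (R := OC L ⧸ ball L s) ha).toRingHom.comp
      (map (Ideal.Quotient.mk (ball L s))))
    (by rw [← Ideal.map_pow, hN, Ideal.map_bot])
    (fun i => Ideal.mem_map_of_mem _ (Ideal.mem_map_of_mem _ ((mem_ball h0 _).2 (by
      rw [(evR_spec x hx).eX]; exact h2 i))))
    (fun c => by
      simp only [RingHom.comp_apply, (evR_spec x hx).eC, map_C]
      exact ((substAlgHom (R := OC L ⧸ ball L s) ha).commutes _).symm)
    (fun i => by
      simp only [RingHom.comp_apply, (evR_spec x hx).eX, map_X]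
      exact (substAlgHom_X ha i).symm)
  refine (DFunLike.congr_fun this f).trans ?_
  rw [← coe_substAlgHom ha]; rfl

omit [CompleteSpace L] in
theorem split_Ev2 [IsAlgClosed L] (d : ℕ) (R : Polynomial (OC L)) (hR : R.degree < d) {w : OC L}
    (hw : ‖(w : L)‖ < 1) (hc : ∀ i < d, R.coeff i ∈ Ideal.span {w}) :
    ∃ r : Fin d → OC L, (∀ i, ‖(r i : L)‖ < 1) ∧
      Polynomial.X ^ d - R = ∏ i, (Polynomial.X - Polynomial.C (r i)) := by
  have h1 : R.degree < (Polynomial.X (R := OC L) ^ d).degree := by rwa [Polynomial.degree_X_pow]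
  have hm : (Polynomial.X ^ d - R).Monic := (Polynomial.monic_X_pow d).sub_of_left h1
  have hd : (Polynomial.X ^ d - R).natDegree = d := Polynomial.natDegree_eq_of_degree_eq_some
    (by rw [Polynomial.degree_sub_eq_left_of_degree_lt h1, Polynomial.degree_X_pow])
  have hs := IsAlgClosed.splits ((Polynomial.X ^ d - R).map (OC L).subtype)
  have h2 := hs.eq_prod_roots_of_monic (hm.map _)
  have h3 := hs.natDegree_eq_card_roots
  have h4 : ∀ z ∈ ((Polynomial.X ^ d - R).map (OC L).subtype).roots, ‖z‖ < 1 := fun z hz => by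
    by_contra hz1
    rw [not_lt] at hz1
    have h5 := (Polynomial.isRoot_of_mem_roots hz).eq_zero
    rw [Polynomial.eval_map, Polynomial.eval₂_sub, Polynomial.eval₂_X_pow, sub_eq_zero,
      Polynomial.eval₂_eq_sum_range] at h5
    have h6 : ‖z ^ d‖ ≤ ‖(w : L)‖ * ‖z‖ ^ d := by
      rw [h5]
      refine IsUltrametricDist.norm_sum_le_of_forall_le_of_nonneg (by positivity) fun i _ => ?_
      by_cases hi : i < d
      · rw [norm_mul, norm_pow]
        exact mul_le_mul ((mem_ball (norm_nonneg _) _).1 (ball_eq_span w ▸ hc i hi))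
          (pow_le_pow_right₀ hz1 hi.le) (by positivity) (norm_nonneg _)
      · rw [Polynomial.coeff_eq_zero_of_degree_lt (hR.trans_le (by exact_mod_cast not_lt.1 hi))]
        simp only [map_zero, zero_mul, norm_zero]
        positivity
    rw [norm_pow] at h6
    have h7 : 0 < ‖z‖ ^ d := by positivity
    nlinarith
  rw [hm.natDegree_map, hd] at h3
  generalize ((Polynomial.X ^ d - R).map (OC L).subtype).roots = s at h2 h3 h4
  induction s using Quotient.inductionOn with
  | h l =>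
    subst h3
    refine ⟨fun i => ⟨l[i.1], (h4 _ (List.getElem_mem _)).le⟩, fun i => h4 _ (List.getElem_mem _),
      Polynomial.map_injective (OC L).subtype Subtype.val_injective ?_⟩
    rw [h2, Polynomial.map_prod]
    simp only [Polynomial.map_sub, Polynomial.map_X, Polynomial.map_C]
    exact (Fin.prod_univ_fun_getElem l fun z => Polynomial.X - Polynomial.C z).symm
theorem weier [IsAlgClosed L] (V : PowerSeries (OC L)) (d : ℕ) {ρ : ℝ} (hρ : ρ < 1)
    (hV : CoefIn (ball L ρ) (V - PowerSeries.X ^ d)) :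
    ∃ (r : Fin d → OC L) (U : PowerSeries (OC L)), IsUnit U ∧ (∀ i, ‖(r i : L)‖ < 1) ∧
      V = U * ∏ i, (PowerSeries.X - PowerSeries.C (r i)) :=   by
  obtain ⟨i₀, -, h1⟩ := (Finset.range (d + 1)).exists_max_image
    (fun i => ‖((PowerSeries.coeff i (V - PowerSeries.X ^ d) : OC L) : L)‖) ⟨0, by simp⟩
  set w := PowerSeries.coeff i₀ (V - PowerSeries.X ^ d)
  have hw : ‖(w : L)‖ < 1 := lt_of_le_of_lt (hV (Finsupp.single () i₀)) (max_lt hρ one_pos)
  have hI : ∀ y : OC L, y ∈ Ideal.span {w} ↔ ‖(y : L)‖ ≤ ‖(w : L)‖ := fun y => by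
    rw [← ball_eq_span, mem_ball (norm_nonneg _)]
  have hu : ∀ y : OC L, y - 1 ∈ Ideal.span {w} → IsUnit y := fun y hy => by
    rw [isUnit_iff_norm]
    have h2 : ‖(y : L) - 1‖ < ‖(1 : L)‖ := by rw [norm_one]; exact ((hI _).1 hy).trans_lt hw
    have := IsUltrametricDist.norm_add_eq_max_of_norm_ne_norm h2.ne
    rwa [sub_add_cancel, max_eq_right h2.le, norm_one] at this
  have h2 : ∀ i < d, PowerSeries.coeff i V ∈ Ideal.span {w} := fun i hi => by
    have := (hI _).2 (h1 i (Finset.mem_range.2 (by omega)))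
    rwa [map_sub, PowerSeries.coeff_X_pow, if_neg hi.ne, sub_zero] at this
  have h3 : PowerSeries.coeff d V - 1 ∈ Ideal.span {w} := by
    have := (hI _).2 (h1 d (Finset.mem_range.2 (by omega)))
    rwa [map_sub, PowerSeries.coeff_X_pow, if_pos rfl] at this
  have h4 : (V.map (Ideal.Quotient.mk (Ideal.span {w}))).order.toNat = d := by
    rw [PowerSeries.order_eq_nat.2 ⟨fun h => ?_, fun i hi =>
      Ideal.Quotient.eq_zero_iff_mem.2 (h2 i hi)⟩, ENat.toNat_coe]
    have h5 := (isUnit_iff_norm _).1 (hu _ h3)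
    exact ((hI _).1 (Ideal.Quotient.eq_zero_iff_mem.1 h)).not_gt (h5 ▸ hw)
  have H : V.IsWeierstrassDivisorAt (Ideal.span {w}) := by
    rw [PowerSeries.IsWeierstrassDivisorAt, h4]; exact hu _ h3
  have := span_complete w hw
  have h5 := H.isWeierstrassDivisionAt_div_mod (PowerSeries.X ^ d)
  generalize H.div (PowerSeries.X ^ d) = q, H.mod (PowerSeries.X ^ d) = R at h5
  have h6 : R.degree < d := h4 ▸ h5.1
  obtain ⟨r, h7, h8⟩ := split_Ev2 d R h6 hw fun i hi => by
    have := h5.coeff_f_sub_r_mem (i := i) (h4.symm ▸ hi)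
    rwa [map_sub, PowerSeries.coeff_X_pow, if_neg hi.ne, zero_sub, neg_mem_iff,
      Polynomial.coeff_coe] at this
  have h9 : IsUnit q := by
    have e := congrArg (fun f => Ideal.Quotient.mk (Ideal.span {w}) (PowerSeries.coeff d f)) h5.2
    simp only [PowerSeries.coeff_X_pow, if_true, map_add, Polynomial.coeff_coe,
      Polynomial.coeff_eq_zero_of_degree_lt h6, add_zero, PowerSeries.coeff_mul, map_sum,
      map_mul] at e
    rw [Finset.sum_eq_single (d, 0) (fun z hz hn => ?_) (by simp), Ideal.Quotient.eq.2 h3,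
      ← map_mul, one_mul] at e
    · rw [PowerSeries.isUnit_iff_constantCoeff, ← PowerSeries.coeff_zero_eq_constantCoeff_apply]
      exact hu _ (Ideal.Quotient.eq.1 e.symm)
    · rw [Finset.HasAntidiagonal.mem_antidiagonal] at hz
      rw [Ideal.Quotient.eq_zero_iff_mem.2 (h2 z.1 ?_), zero_mul]
      by_contra hc
      exact hn (Prod.ext (by simp only; omega) (by simp only; omega))
  obtain ⟨U, hU⟩ := h9.exists_right_inv
  refine ⟨r, U, IsUnit.of_mul_eq_one_right q hU, h7, ?_⟩
  have e := congrArg (Polynomial.coeToPowerSeries.ringHom (R := OC L)) h8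
  simp only [map_prod, map_sub, map_pow, Polynomial.coeToPowerSeries.ringHom_apply,
    Polynomial.coe_X, Polynomial.coe_C] at e
  rw [← e, sub_eq_iff_eq_add.2 h5.2, mul_comm, mul_assoc, hU, mul_one]

end Vale.Agent.P217
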