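import Vale.Agent.P217.Def2

namespace Vale.Agent.P217

open MvPowerSeries

variable {A : Type} [CommRing A]

theorem hom_hs2 {σ : Type} {a b : MvPowerSeries σ A} (ha : PowerSeries.HasSubst a)
    (hb : PowerSeries.HasSubst b) : HasSubst ![a, b] :=
  hasSubst_of_constantCoeff_nilpotent fun s => by fin_cases s <;> simpa

theorem hom_sub2 {σ τ : Type} {a b : MvPowerSeries σ A} (ha : PowerSeries.HasSubst a)
    (hb : PowerSeries.HasSubst b) {c : σ → MvPowerSeries τ A} (hc : HasSubst c)
    (f : MvPowerSeries (Fin 2) A) :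
    subst c (subst ![a, b] f) = subst ![subst c a, subst c b] f := by
  rw [subst_comp_subst_apply (hom_hs2 ha hb) hc]
  congr 1
  funext s
  fin_cases s <;> rfl

theorem hom_sub1 {σ τ : Type} {a : MvPowerSeries σ A} (ha : PowerSeries.HasSubst a)
    {c : σ → MvPowerSeries τ A} (hc : HasSubst c) (φ : PowerSeries A) :
    subst c (PowerSeries.subst a φ) = PowerSeries.subst (subst c a) φ :=
  subst_comp_subst_apply ha.const hc φ

theorem hom_sub2' {τ : Type} {a b : PowerSeries A} (ha : PowerSeries.HasSubst a)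
    (hb : PowerSeries.HasSubst b) {c : MvPowerSeries τ A} (hc : PowerSeries.HasSubst c)
    (f : MvPowerSeries (Fin 2) A) :
    PowerSeries.subst c (subst ![a, b] f) =
      subst ![PowerSeries.subst c a, PowerSeries.subst c b] f :=
  hom_sub2 ha hb hc.const f

theorem hom_hsG {σ : Type} (G : FormalGroup A) {a b : MvPowerSeries σ A}
    (ha : PowerSeries.HasSubst a) (hb : PowerSeries.HasSubst b) :
    PowerSeries.HasSubst (subst ![a, b] G.toPowerSeries) :=
  IsNilpotent_subst (hom_hs2 ha hb) (G.zero_constantCoeff ▸ IsNilpotent.zero)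

theorem hom_hsP {σ : Type} {φ : PowerSeries A} (h0 : PowerSeries.constantCoeff φ = 0)
    {a : MvPowerSeries σ A} (ha : PowerSeries.HasSubst a) :
    PowerSeries.HasSubst (PowerSeries.subst a φ) := by
  have h : IsNilpotent (constantCoeff φ) := by
    have h1 : constantCoeff φ = 0 := h0
    rw [h1]; exact IsNilpotent.zero
  exact IsNilpotent_subst ha.const h

theorem hom_hsF (G : FormalGroup A) : PowerSeries.HasSubst G.toPowerSeries :=
  PowerSeries.HasSubst.of_constantCoeff_zero G.zero_constantCoeff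

theorem hom_self (f : MvPowerSeries (Fin 2) A) :
    subst ![(X 0 : MvPowerSeries (Fin 2) A), X 1] f = f := by
  have e : ![(X 0 : MvPowerSeries (Fin 2) A), X 1] = X := by
    funext s
    fin_cases s <;> rfl
  rw [e, subst_self, id]

theorem hom_const2 {σ : Type} {a b : MvPowerSeries σ A} (ha : constantCoeff a = 0)
    (hb : constantCoeff b = 0) {f : MvPowerSeries (Fin 2) A} (hf : constantCoeff f = 0) :
    constantCoeff (subst ![a, b] f) = 0 :=
  constantCoeff_subst_eq_zero
    (hom_hs2 (.of_constantCoeff_zero ha) (.of_constantCoeff_zero hb))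
    (fun s => by fin_cases s <;> simpa) hf

theorem hom_map2 {B σ : Type} [CommRing B] {a b : MvPowerSeries σ A}
    (ha : PowerSeries.HasSubst a) (hb : PowerSeries.HasSubst b) (h : A →+* B)
    (f : MvPowerSeries (Fin 2) A) :
    map h (subst ![a, b] f) = subst ![map h a, map h b] (map h f) := by
  rw [map_subst (hom_hs2 ha hb)]
  congr 1
  funext s
  fin_cases s <;> rfl

theorem nser_const (G : FormalGroup A) (m : ℕ) : PowerSeries.constantCoeff (nser G m) = 0 := by
  induction m with
  | zero => simp [nser]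
  | succ m ih => exact hom_const2 ih PowerSeries.constantCoeff_X G.zero_constantCoeff

theorem hom_hsN (G : FormalGroup A) (m : ℕ) : PowerSeries.HasSubst (nser G m) :=
  PowerSeries.HasSubst.of_constantCoeff_zero' (nser_const G m)

theorem nser_one (G : FormalGroup A) : nser G 1 = PowerSeries.X :=
  G.zero_add PowerSeries.HasSubst.X'

theorem hom_coeff_one (G : FormalGroup A) {a b : PowerSeries A}
    (ha : PowerSeries.constantCoeff a = 0) (hb : PowerSeries.constantCoeff b = 0) :
    PowerSeries.coeff 1 (subst ![a, b] G.toPowerSeries) =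
      PowerSeries.coeff 1 a + PowerSeries.coeff 1 b := by
  have hs := hom_hs2 (PowerSeries.HasSubst.of_constantCoeff_zero' ha)
    (PowerSeries.HasSubst.of_constantCoeff_zero' hb)
  have h2 : (2 : ℕ∞) ≤ (G.toPowerSeries - X 0 - X 1).order := by
    refine nat_le_order (n := 2) fun d hd => ?_
    rw [Finsupp.degree_eq_sum, Fin.sum_univ_two] at hd
    have h3 : d = 0 ∨ d = Finsupp.single 0 1 ∨ d = Finsupp.single 1 1 := by
      have h4 : (d 0 = 0 ∧ d 1 = 0) ∨ (d 0 = 1 ∧ d 1 = 0) ∨ (d 0 = 0 ∧ d 1 = 1) := by omega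
      rcases h4 with h | h | h
      · left; ext s; fin_cases s <;> simp [h.1, h.2]
      · right; left; ext s; fin_cases s <;> simp [h.1, h.2]
      · right; right; ext s; fin_cases s <;> simp [h.1, h.2]
    rcases h3 with rfl | rfl | rfl
    · simp [G.zero_constantCoeff]
    · simp [G.lin_coeff_X, coeff_index_single_X]
    · simp [G.lin_coeff_Y, coeff_index_single_X]
  have h1 : (1 : ℕ∞) ≤ ⨅ i, MvPowerSeries.order (σ := Unit) (![a, b] i) := by
    refine le_iInf fun s => one_le_order_iff_constCoeff_eq_zero.2 ?_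
    fin_cases s
    · exact ha
    · exact hb
  have h5 := (mul_le_mul' h1 h2).trans (le_order_subst hs (G.toPowerSeries - X 0 - X 1))
  have h6 := coeff_of_lt_order (d := Finsupp.single () 1) (lt_of_lt_of_le (by simp) h5)
  rw [subst_sub hs, subst_sub hs, subst_X hs, subst_X hs, map_sub, map_sub] at h6
  have h7 : PowerSeries.coeff 1 (subst ![a, b] G.toPowerSeries) - PowerSeries.coeff 1 a -
    PowerSeries.coeff 1 b = 0 := h6
  linear_combination h7

theorem nser_coeff_one (G : FormalGroup A) (m : ℕ) : PowerSeries.coeff 1 (nser G m) = (m : A) := by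
  induction m with
  | zero => simp [nser]
  | succ m ih =>
    rw [nser, hom_coeff_one G (nser_const G m) PowerSeries.constantCoeff_X, ih]
    simp

theorem nser_map {B : Type} [CommRing B] (G : FormalGroup A) (f : A →+* B) (m : ℕ) :
    nser (G.map f) m = PowerSeries.map f (nser G m) := by
  induction m with
  | zero => simp [nser]
  | succ m ih =>
    rw [nser, nser, ih, ← PowerSeries.map_X f]
    exact (hom_map2 (hom_hsN G m) PowerSeries.HasSubst.X' f G.toPowerSeries).symm

theorem nser_add (G : FormalGroup A) (a b : ℕ) :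
    nser G (a + b) = subst ![nser G a, nser G b] G.toPowerSeries := by
  induction b with
  | zero => exact (G.add_zero (hom_hsN G a)).symm
  | succ b ih =>
    rw [← add_assoc, nser, nser, ih]
    exact G.assoc' (hom_hsN G a) (hom_hsN G b) PowerSeries.HasSubst.X'

theorem nser_mul (G : FormalGroup A) (a b : ℕ) :
    nser G (a * b) = PowerSeries.subst (nser G a) (nser G b) := by
  induction b with
  | zero => rw [mul_zero, nser, ← PowerSeries.coe_substAlgHom (hom_hsN G a), map_zero]
  | succ b ih =>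
    rw [mul_add, mul_one, nser_add, nser,
      hom_sub2' (hom_hsN G b) PowerSeries.HasSubst.X' (hom_hsN G a), ← ih,
      PowerSeries.subst_X (hom_hsN G a)]

theorem isHom_X (G : FormalGroup A) : IsHom G G PowerSeries.X := by
  refine ⟨PowerSeries.constantCoeff_X, ?_⟩
  rw [PowerSeries.subst_X (hom_hsF G), PowerSeries.subst_X (PowerSeries.HasSubst.X 0),
    PowerSeries.subst_X (PowerSeries.HasSubst.X 1), hom_self]

theorem isHom_zero (G G' : FormalGroup A) : IsHom G G' 0 := by
  refine ⟨map_zero _, ?_⟩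
  rw [← PowerSeries.coe_substAlgHom (hom_hsF G),
    ← PowerSeries.coe_substAlgHom (PowerSeries.HasSubst.X 0),
    ← PowerSeries.coe_substAlgHom (PowerSeries.HasSubst.X 1), map_zero, map_zero, map_zero,
    G'.add_zero PowerSeries.HasSubst.zero]

theorem IsHom.apply {σ : Type} {G G' : FormalGroup A} {φ : PowerSeries A} (hφ : IsHom G G' φ)
    {a b : MvPowerSeries σ A} (ha : PowerSeries.HasSubst a) (hb : PowerSeries.HasSubst b) :
    PowerSeries.subst (subst ![a, b] G.toPowerSeries) φ =
      subst ![PowerSeries.subst a φ, PowerSeries.subst b φ] G'.toPowerSeries := by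
  have hs := hom_hs2 ha hb
  have h := congrArg (subst ![a, b]) hφ.2
  rw [hom_sub1 (hom_hsF G) hs, hom_sub2 (hom_hsP hφ.1 (PowerSeries.HasSubst.X 0))
    (hom_hsP hφ.1 (PowerSeries.HasSubst.X 1)) hs, hom_sub1 (PowerSeries.HasSubst.X 0) hs,
    hom_sub1 (PowerSeries.HasSubst.X 1) hs, subst_X hs, subst_X hs] at h
  exact h

theorem IsHom.comp {G G' G'' : FormalGroup A} {φ ψ : PowerSeries A} (hφ : IsHom G G' φ)
    (hψ : IsHom G' G'' ψ) : IsHom G G'' (PowerSeries.subst φ ψ) := by
  have h0 := PowerSeries.HasSubst.of_constantCoeff_zero' hφ.1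
  refine ⟨PowerSeries.constantCoeff_subst_eq_zero hφ.1 ψ hψ.1, ?_⟩
  rw [PowerSeries.subst_comp_subst_apply h0 (hom_hsF G),
    PowerSeries.subst_comp_subst_apply h0 (PowerSeries.HasSubst.X 0),
    PowerSeries.subst_comp_subst_apply h0 (PowerSeries.HasSubst.X 1), hφ.2]
  exact hψ.apply (hom_hsP hφ.1 (PowerSeries.HasSubst.X 0))
    (hom_hsP hφ.1 (PowerSeries.HasSubst.X 1))

theorem IsHom.map {B : Type} [CommRing B] {G G' : FormalGroup A} {φ : PowerSeries A}
    (hφ : IsHom G G' φ) (f : A →+* B) : IsHom (G.map f) (G'.map f) (PowerSeries.map f φ) := by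
  refine ⟨?_, ?_⟩
  · rw [← PowerSeries.coeff_zero_eq_constantCoeff_apply, PowerSeries.coeff_map,
      PowerSeries.coeff_zero_eq_constantCoeff_apply, hφ.1, map_zero]
  · have h := congrArg (MvPowerSeries.map f) hφ.2
    rw [PowerSeries.map_subst (hom_hsF G), hom_map2 (hom_hsP hφ.1 (PowerSeries.HasSubst.X 0))
      (hom_hsP hφ.1 (PowerSeries.HasSubst.X 1)),
      PowerSeries.map_subst (PowerSeries.HasSubst.X 0),
      PowerSeries.map_subst (PowerSeries.HasSubst.X 1), map_X, map_X] at h
    exact h

theorem hom_medial {σ : Type} (G : FormalGroup A) [G.IsComm] {a b c d : MvPowerSeries σ A}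
    (ha : PowerSeries.HasSubst a) (hb : PowerSeries.HasSubst b) (hc : PowerSeries.HasSubst c)
    (hd : PowerSeries.HasSubst d) :
    subst ![subst ![a, b] G.toPowerSeries, subst ![c, d] G.toPowerSeries] G.toPowerSeries =
      subst ![subst ![a, c] G.toPowerSeries, subst ![b, d] G.toPowerSeries] G.toPowerSeries :=
  congrArg Subtype.val
    (add_add_add_comm (G := G.Point σ) ⟨a, ha⟩ ⟨b, hb⟩ ⟨c, hc⟩ ⟨d, hd⟩)

theorem IsHom.add {G G' : FormalGroup A} [G'.IsComm] {φ ψ : PowerSeries A} (hφ : IsHom G G' φ)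
    (hψ : IsHom G G' ψ) : IsHom G G' (subst ![φ, ψ] G'.toPowerSeries) := by
  have h0 := PowerSeries.HasSubst.of_constantCoeff_zero' hφ.1
  have h1 := PowerSeries.HasSubst.of_constantCoeff_zero' hψ.1
  refine ⟨hom_const2 hφ.1 hψ.1 G'.zero_constantCoeff, ?_⟩
  rw [hom_sub2' h0 h1 (hom_hsF G), hom_sub2' h0 h1 (PowerSeries.HasSubst.X 0),
    hom_sub2' h0 h1 (PowerSeries.HasSubst.X 1), hφ.2, hψ.2]
  exact hom_medial G' (hom_hsP hφ.1 (PowerSeries.HasSubst.X 0))
    (hom_hsP hφ.1 (PowerSeries.HasSubst.X 1)) (hom_hsP hψ.1 (PowerSeries.HasSubst.X 0))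
    (hom_hsP hψ.1 (PowerSeries.HasSubst.X 1))

theorem isHom_nser (G : FormalGroup A) [G.IsComm] (m : ℕ) : IsHom G G (nser G m) := by
  induction m with
  | zero => exact isHom_zero G G
  | succ m ih => exact ih.add (isHom_X G)

theorem IsHom.nser_comm {G G' : FormalGroup A} {φ : PowerSeries A} (hφ : IsHom G G' φ) (m : ℕ) :
    PowerSeries.subst (nser G m) φ = PowerSeries.subst φ (nser G' m) := by
  have h0 := PowerSeries.HasSubst.of_constantCoeff_zero' hφ.1
  induction m with
  | zero =>
    rw [nser, nser, ← PowerSeries.coe_substAlgHom h0, map_zero]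
    exact PowerSeries.subst_zero_of_constantCoeff_zero hφ.1
  | succ m ih =>
    rw [nser, nser, hφ.apply (hom_hsN G m) PowerSeries.HasSubst.X',
      hom_sub2' (hom_hsN G' m) PowerSeries.HasSubst.X' h0, ih, PowerSeries.X_subst,
      PowerSeries.subst_X h0]

theorem fg_map_map {B D : Type} [CommRing B] [CommRing D] (G : FormalGroup A) (f : A →+* B)
    (g : B →+* D) : (G.map f).map g = G.map (g.comp f) := by
  ext d
  simp

theorem isHom_frob (p : ℕ) [Fact p.Prime] [CharP A p] (G : FormalGroup A) (s : ℕ) :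
    IsHom G (G.map (iterateFrobenius A p s)) (PowerSeries.X ^ (p ^ s)) := by
  have hp : p ≠ 0 := (Fact.out : p.Prime).ne_zero
  refine ⟨by simp [hp], ?_⟩
  rw [PowerSeries.subst_pow (hom_hsF G), PowerSeries.subst_X (hom_hsF G),
    PowerSeries.subst_pow (PowerSeries.HasSubst.X 0),
    PowerSeries.subst_X (PowerSeries.HasSubst.X 0),
    PowerSeries.subst_pow (PowerSeries.HasSubst.X 1),
    PowerSeries.subst_X (PowerSeries.HasSubst.X 1), ← map_iterateFrobenius_expand p hp,
    map_expand, expand, coe_substAlgHom, FormalGroup.map_toPowerSeries]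
  congr 1
  funext i
  fin_cases i <;> rfl

theorem isHom_frob' (p : ℕ) [Fact p.Prime] (hp : (p : A) = 0) (G G' : FormalGroup A) (s : ℕ)
    (h : ∀ d, coeff d G'.toPowerSeries = coeff d G.toPowerSeries ^ (p ^ s)) :
    IsHom G G' (PowerSeries.X ^ (p ^ s)) := by
  rcases subsingleton_or_nontrivial A with hA | hA
  · exact ⟨Subsingleton.elim _ _, by ext d; exact Subsingleton.elim _ _⟩
  · haveI : CharP A p := (CharP.charP_iff_prime_eq_zero Fact.out).2 hp
    have e : G' = G.map (iterateFrobenius A p s) := by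
      ext d
      rw [h, FormalGroup.map_toPowerSeries, coeff_map, iterateFrobenius_def]
    rw [e]
    exact isHom_frob p G s

end Vale.Agent.P217
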