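import Vale.Agent.P217.Hon
import Vale.Agent.P217.Ev2
import Vale.Agent.P217.Hom

namespace Vale.Agent.P217

open MvPowerSeries

variable {p n : ℕ} [Fact p.Prime] {F : FormalGroup (E0 p n)}

variable {L : Type} [NormedField L] [IsUltrametricDist L] [CompleteSpace L]

theorem gs_mono_const {A : Type} [CommRing A] (c : A) (s : ℕ) :
    PowerSeries.constantCoeff (PowerSeries.C c * PowerSeries.X ^ (p ^ s) : PowerSeries A) = 0 := by
  have hp : p ≠ 0 := (Fact.out : p.Prime).ne_zero
  simp [hp]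

theorem gs_lamS_const {A : Type} [CommRing A] (G : FormalGroup A) (a : ℕ → A) (s : ℕ) :
    PowerSeries.constantCoeff (lamS G p a s) = 0 := by
  induction s with
  | zero => simp [lamS]
  | succ s ih => exact hom_const2 ih (gs_mono_const _ _) G.zero_constantCoeff

theorem gs_lamS_one {A : Type} [CommRing A] (G : FormalGroup A) (a : ℕ → A) (s : ℕ) :
    PowerSeries.coeff 1 (lamS G p a s) = 0 := by
  induction s with
  | zero => simp [lamS]
  | succ s ih =>
    rw [lamS, hom_coeff_one G (gs_lamS_const G a s) (gs_mono_const _ _), ih,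
      PowerSeries.coeff_C_mul, PowerSeries.coeff_X_pow, if_neg, mul_zero, add_zero]
    exact (Nat.one_lt_pow (Nat.succ_ne_zero s) (Fact.out : p.Prime).one_lt).ne

theorem gs_lamS_map {A B : Type} [CommRing A] [CommRing B] (G : FormalGroup A) (f : A →+* B)
    (a : ℕ → A) (s : ℕ) :
    PowerSeries.map f (lamS G p a s) = lamS (G.map f) p (fun i => f (a i)) s := by
  induction s with
  | zero => simp [lamS]
  | succ s ih =>
    have h := hom_map2 (PowerSeries.HasSubst.of_constantCoeff_zero' (gs_lamS_const (p := p) G a s))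
      (PowerSeries.HasSubst.of_constantCoeff_zero' (gs_mono_const (p := p) (a (s + 1)) (s + 1))) f
      G.toPowerSeries
    have h2 : PowerSeries.map f (PowerSeries.C (a (s + 1)) * PowerSeries.X ^ (p ^ (s + 1))) =
        PowerSeries.C (f (a (s + 1))) * PowerSeries.X ^ (p ^ (s + 1)) := by simp
    rw [lamS, lamS, ← ih, ← h2]
    exact h

theorem gs_gser_map {A B : Type} [CommRing A] [CommRing B] (G : FormalGroup A) (f : A →+* B)
    (a : ℕ → A) (r : ℕ) :
    PowerSeries.map f (gser G p a r) = gser (G.map f) p (fun i => f (a i)) r := by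
  have h := hom_map2 PowerSeries.HasSubst.X'
    (PowerSeries.HasSubst.of_constantCoeff_zero' (gs_lamS_const (p := p) G a r)) f G.toPowerSeries
  rw [gser, gser, ← gs_lamS_map, ← PowerSeries.map_X f]
  exact h

theorem gs_lamP_map {A B : Type} [CommRing A] [CommRing B] (P : MvPolynomial (Fin 2) A)
    (f : A →+* B) (q : ℕ) (a : ℕ → A) (y : A) (s : ℕ) :
    f (lamP P q a y s) = lamP (MvPolynomial.map f P) q (fun i => f (a i)) (f y) s := by
  induction s with
  | zero => simp [lamP]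
  | succ s ih =>
    rw [lamP, lamP, ← ih, MvPolynomial.eval_map, ← MvPolynomial.eval₂_id,
      MvPolynomial.eval₂_comp_left, RingHom.comp_id]
    congr 1
    funext i
    fin_cases i <;> simp

theorem gs_zP_map {A B : Type} [CommRing A] [CommRing B] (P : MvPolynomial (Fin 2) A)
    (f : A →+* B) (q : ℕ) (a : ℕ → A) (y : A) (s : ℕ) :
    f (zP P q a y s) = zP (MvPolynomial.map f P) q (fun i => f (a i)) (f y) s := by
  rw [zP, zP, ← gs_lamP_map, MvPolynomial.eval_map, ← MvPolynomial.eval₂_id,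
    MvPolynomial.eval₂_comp_left, RingHom.comp_id]
  congr 1
  funext i
  fin_cases i <;> simp

theorem IsLT.gser_aut (hF : IsLT p n F) (hn : 1 ≤ n) (a : ℕ → kk p n) (r : ℕ) :
    IsAut p n F (gser (Gk p n F) p a r) := by
  haveI := hF.isComm
  have h : ∀ s, IsHom (Gk p n F) (Gk p n F) (lamS (Gk p n F) p a s) := by
    intro s
    induction s with
    | zero => exact isHom_zero _ _
    | succ s ih => exact ih.add (hF.Gk_mono hn _ _)
  refine ⟨(isHom_X _).add (h r), ?_⟩
  rw [gser, hom_coeff_one _ PowerSeries.constantCoeff_X (gs_lamS_const _ a r), gs_lamS_one]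
  simp

theorem IsLT.isAut_map (hF : IsLT p n F) (hn : 1 ≤ n) (τ : kk p n →+* kk p n)
    {g : PowerSeries (kk p n)} (hg : IsAut p n F g) : IsAut p n F (PowerSeries.map τ g) := by
  refine ⟨?_, ?_⟩
  · have h := hg.1.map τ
    have h2 : (F.map (res p n)).map τ = F.map (res p n) := hF.Gk_map hn τ
    rwa [h2] at h
  · rw [PowerSeries.coeff_map]
    exact (map_ne_zero τ).2 hg.2

theorem gs_step {G : MvPowerSeries (Fin 2) (OC L)} {P : MvPolynomial (Fin 2) (OC L)} {N : ℕ}
    (hP : ∀ d, Finsupp.degree d < N → MvPolynomial.coeff d P = coeff d G) {ρ : ℝ} (h0 : 0 ≤ ρ)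
    (h1 : ρ < 1) {u u' : Fin 2 → OC L} (hu : ∀ i, ‖(u i : L)‖ ≤ ρ) (hu' : ∀ i, ‖(u' i : L)‖ ≤ ρ)
    (h : ∀ i, ‖(u i : L) - u' i‖ ≤ ρ ^ N) :
    ‖((evR u G : OC L) : L) - (MvPolynomial.eval u' P : OC L)‖ ≤ ρ ^ N := by
  have hv : ∀ i, ‖(u i : L)‖ < 1 := fun i => (hu i).trans_lt h1
  have hv' : ∀ i, ‖(u' i : L)‖ < 1 := fun i => (hu' i).trans_lt h1
  have e1 := evR_sub u u' hv hv' (pow_nonneg h0 N) h G
  have e2 := (evR_spec u' hv').bound ρ 1 N (G - (P : MvPowerSeries (Fin 2) (OC L))) h0 h1.le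
    zero_le_one hu' (fun d => (coeff d (G - (P : MvPowerSeries (Fin 2) (OC L)))).2)
    (fun d hd => by rw [map_sub, MvPolynomial.coeff_coe, hP d hd, sub_self])
  rw [one_mul, map_sub, evR_coe u' hv'] at e2
  have e3 : ((evR u G : OC L) : L) - (MvPolynomial.eval u' P : OC L) =
      (((evR u G : OC L) : L) - (evR u' G : OC L)) +
        ((evR u' G - MvPolynomial.eval u' P : OC L) : L) := by
    push_cast
    ring
  rw [e3]
  exact (IsUltrametricDist.norm_add_le_max _ _).trans (max_le e1 e2)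

theorem gs_ev2 (y : OC L) (hy : ‖(y : L)‖ < 1) {a b : PowerSeries (OC L)}
    (ha : PowerSeries.constantCoeff a = 0) (hb : PowerSeries.constantCoeff b = 0)
    (G : MvPowerSeries (Fin 2) (OC L)) :
    ev1 y (subst ![a, b] G) = evR ![ev1 y a, ev1 y b] G := by
  have h := evR_subst (fun _ : Unit => y) (fun _ => hy) ![a, b]
    (fun s => by fin_cases s <;> assumption) G
  refine h.trans ?_
  congr 2
  funext s
  fin_cases s <;> rfl

theorem gs_evX (y : OC L) (hy : ‖(y : L)‖ < 1) : ev1 y PowerSeries.X = y :=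
  (evR_spec (fun _ : Unit => y) (fun _ => hy)).eX ()

theorem gs_evC (y : OC L) (hy : ‖(y : L)‖ < 1) (c : OC L) : ev1 y (PowerSeries.C c) = c :=
  (evR_spec (fun _ : Unit => y) (fun _ => hy)).eC c

theorem gs_ev_le (y : OC L) (hy : ‖(y : L)‖ < 1) {f : PowerSeries (OC L)}
    (hf : PowerSeries.constantCoeff f = 0) : ‖((ev1 y f : OC L) : L)‖ ≤ ‖(y : L)‖ :=
  evR_norm_le (fun _ : Unit => y) (norm_nonneg _) hy (fun _ => le_rfl) hf

theorem gs_lam_approx (G : FormalGroup (OC L)) {P : MvPolynomial (Fin 2) (OC L)} {N : ℕ}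
    (hN : 1 ≤ N) (hP : ∀ d, Finsupp.degree d < N → MvPolynomial.coeff d P = coeff d G.toPowerSeries)
    (a : ℕ → OC L) (y : OC L) (hy : ‖(y : L)‖ < 1) (s : ℕ) :
    ‖((lamP P p a y s : OC L) : L)‖ ≤ ‖(y : L)‖ ∧
      ‖((ev1 y (lamS G p a s) : OC L) : L) - (lamP P p a y s : OC L)‖ ≤ ‖(y : L)‖ ^ N := by
  have hNy : ‖(y : L)‖ ^ N ≤ ‖(y : L)‖ := pow_le_of_le_one (norm_nonneg _) hy.le (by omega)
  suffices h : ‖((ev1 y (lamS G p a s) : OC L) : L) - (lamP P p a y s : OC L)‖ ≤ ‖(y : L)‖ ^ N ∧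
      ‖((lamP P p a y s : OC L) : L)‖ ≤ ‖(y : L)‖ from ⟨h.2, h.1⟩
  have key : ∀ s, ‖((ev1 y (lamS G p a s) : OC L) : L) - (lamP P p a y s : OC L)‖ ≤
      ‖(y : L)‖ ^ N → ‖((lamP P p a y s : OC L) : L)‖ ≤ ‖(y : L)‖ := by
    intro s h
    have e : ((lamP P p a y s : OC L) : L) = ((ev1 y (lamS G p a s) : OC L) : L) -
        (((ev1 y (lamS G p a s) : OC L) : L) - (lamP P p a y s : OC L)) := by ring
    rw [e, sub_eq_add_neg]
    refine (IsUltrametricDist.norm_add_le_max _ _).trans (max_le ?_ ?_)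
    · exact gs_ev_le y hy (gs_lamS_const G a s)
    · rw [norm_neg]
      exact h.trans hNy
  induction s with
  | zero =>
    refine ⟨?_, key 0 ?_⟩ <;> simp [lamS, lamP]
  | succ s ih =>
    have hm : ev1 y (PowerSeries.C (a (s + 1)) * PowerSeries.X ^ (p ^ (s + 1))) =
        a (s + 1) * y ^ (p ^ (s + 1)) := by
      rw [map_mul, map_pow, gs_evX y hy, gs_evC y hy]
    have hm2 := gs_ev_le y hy (gs_mono_const (p := p) (a (s + 1)) (s + 1))
    have h : ‖((ev1 y (lamS G p a (s + 1)) : OC L) : L) - (lamP P p a y (s + 1) : OC L)‖ ≤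
        ‖(y : L)‖ ^ N := by
      rw [lamS, lamP, gs_ev2 y hy (gs_lamS_const G a s) (gs_mono_const _ _), hm]
      rw [hm] at hm2
      refine gs_step hP (norm_nonneg _) hy (fun i => ?_) (fun i => ?_) (fun i => ?_)
      · fin_cases i
        · exact gs_ev_le y hy (gs_lamS_const G a s)
        · exact hm2
      · fin_cases i
        · exact ih.2
        · exact hm2
      · fin_cases i
        · exact ih.1
        · simp
    exact ⟨h, key _ h⟩

theorem gser_approx (ι : kk p n →+* OC L) (P : MvPolynomial (Fin 2) (WW p n)) {N : ℕ} (hN : 1 ≤ N)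
    (hP : ∀ d, Finsupp.degree d < N →
      MvPolynomial.coeff d P = coeff d (GW p n F).toPowerSeries)
    (a : ℕ → kk p n) (r : ℕ) (y : OC L) (hy : ‖(y : L)‖ < 1) :
    ‖((ev1 y (PowerSeries.map ι (gser (Gk p n F) p a r)) : OC L) : L) -
      zP (MvPolynomial.map (((OC L).subtype.comp ι).comp WittVector.constantCoeff) P) p
        (fun s => ((ι (a s) : OC L) : L)) (y : L) r‖ ≤ ‖(y : L)‖ ^ N := by
  set P' := MvPolynomial.map (ι.comp (WittVector.constantCoeff : WW p n →+* kk p n)) P with hP'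
  have h1 : ∀ d, Finsupp.degree d < N →
      MvPolynomial.coeff d P' = coeff d ((Gk p n F).map ι).toPowerSeries := by
    intro d hd
    rw [hP', MvPolynomial.coeff_map, hP d hd, Gk_eq, fg_map_map]
    rfl
  have h2 := gs_zP_map P' (OC L).subtype p (fun s => ι (a s)) y r
  rw [hP', MvPolynomial.map_map, ← hP'] at h2
  have h3 := gs_lam_approx (p := p) ((Gk p n F).map ι) hN h1 (fun s => ι (a s)) y hy r
  refine le_of_eq_of_le ?_ (gs_step (u := ![y, ev1 y (lamS ((Gk p n F).map ι) p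
    (fun s => ι (a s)) r)]) (u' := ![y, lamP P' p (fun s => ι (a s)) y r]) h1 (norm_nonneg _) hy
    (fun i => ?_) (fun i => ?_) (fun i => ?_))
  · rw [gs_gser_map, gser, gs_ev2 y hy PowerSeries.constantCoeff_X (gs_lamS_const _ _ r),
      gs_evX y hy]
    congr 2
    exact h2.symm
  · fin_cases i
    · exact le_rfl
    · exact gs_ev_le y hy (gs_lamS_const _ _ r)
  · fin_cases i
    · exact le_rfl
    · exact h3.1
  · fin_cases i
    · simp
    · exact h3.2

end Vale.Agent.P217
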