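import Vale.Agent.P217.Pser
import Vale.Agent.P217.Iso

namespace Vale.Agent.P217

open MvPowerSeries

variable {p n : ℕ} [Fact p.Prime] {F : FormalGroup (E0 p n)}

theorem invi_dvd {A : Type} [CommRing A] {G G' : FormalGroup A} {φ ψ : PowerSeries A}
    (hφ : IsHom G G' φ) (hψ : PowerSeries.constantCoeff ψ = 0)
    (h : PowerSeries.subst φ ψ = PowerSeries.X) {m D : ℕ}
    (hD : PowerSeries.X ^ D ∣ nser G' m) : PowerSeries.X ^ D ∣ nser G m := by
  have h0 := PowerSeries.HasSubst.of_constantCoeff_zero' hφ.1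
  have h1 := hom_hsP (nser_const G' m) h0
  have e : nser G m = PowerSeries.subst (PowerSeries.subst φ (nser G' m)) ψ := by
    rw [← hφ.nser_comm, ← PowerSeries.subst_comp_subst_apply h0 (hom_hsN G m), h,
      PowerSeries.subst_X (hom_hsN G m)]
  obtain ⟨ψ', rfl⟩ := PowerSeries.X_dvd_iff.2 hψ
  obtain ⟨c, hc⟩ := hD
  rw [e, PowerSeries.subst_mul h1, PowerSeries.subst_X h1, hc, PowerSeries.subst_mul h0,
    PowerSeries.subst_pow h0, PowerSeries.subst_X h0]
  exact ((pow_dvd_pow_of_dvd (PowerSeries.X_dvd_iff.2 hφ.1) D).mul_right _).mul_right _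

theorem invi_le {A : Type} [CommRing A] {G G' : FormalGroup A} {φ ψ : PowerSeries A}
    (hφ : IsHom G G' φ) (hψ : PowerSeries.constantCoeff ψ = 0)
    (h : PowerSeries.subst φ ψ = PowerSeries.X) (m D : ℕ) :
    Ideal.span {x | ∃ d, d < D ∧ x = PowerSeries.coeff d (nser G m)} ≤
      Ideal.span {x | ∃ d, d < D ∧ x = PowerSeries.coeff d (nser G' m)} := by
  rw [Ideal.span_le]
  rintro _ ⟨d, hd, rfl⟩
  set I := Ideal.span {x | ∃ d, d < D ∧ x = PowerSeries.coeff d (nser G' m)} with hI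
  have h0 := PowerSeries.HasSubst.of_constantCoeff_zero' hφ.1
  have h1 : PowerSeries.subst (PowerSeries.map (Ideal.Quotient.mk I) φ)
      (PowerSeries.map (Ideal.Quotient.mk I) ψ) = PowerSeries.X := by
    rw [← PowerSeries.map_X (Ideal.Quotient.mk I), ← h]
    exact (PowerSeries.map_subst h0 ψ).symm
  have h2 : PowerSeries.constantCoeff (PowerSeries.map (Ideal.Quotient.mk I) ψ) = 0 := by
    rw [← PowerSeries.coeff_zero_eq_constantCoeff_apply, PowerSeries.coeff_map,
      PowerSeries.coeff_zero_eq_constantCoeff_apply, hψ, map_zero]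
  have h3 := invi_dvd (hφ.map (Ideal.Quotient.mk I)) h2 h1 (m := m) (D := D) (by
    rw [PowerSeries.X_pow_dvd_iff, nser_map]
    intro e he
    rw [PowerSeries.coeff_map, Ideal.Quotient.eq_zero_iff_mem]
    exact Ideal.subset_span ⟨e, he, rfl⟩)
  have h4 := PowerSeries.X_pow_dvd_iff.1 h3 d hd
  rwa [nser_map, PowerSeries.coeff_map, Ideal.Quotient.eq_zero_iff_mem] at h4

theorem IsHom.span_eq {A : Type} [CommRing A] {G G' : FormalGroup A} {φ : PowerSeries A}
    (hφ : IsHom G G' φ) (hu : IsUnit (PowerSeries.coeff 1 φ)) (m D : ℕ) :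
    Ideal.span {x | ∃ d, d < D ∧ x = PowerSeries.coeff d (nser G m)} =
      Ideal.span {x | ∃ d, d < D ∧ x = PowerSeries.coeff d (nser G' m)} := by
  obtain ⟨ψ, hψ, h1, h2⟩ := hφ.inv hu
  exact le_antisymm (invi_le hφ hψ.1 h1 m D) (invi_le hψ hφ.1 h2 m D)

theorem IsLT.inv_II (hF : IsLT p n F) {h : ℕ} (hn : h ≤ n) : Inv p n F (II p n h) := by
  rintro τ g σ hg ⟨-, φ, hφ, hr⟩
  have hu : IsUnit (PowerSeries.coeff 1 φ) := by
    rw [isUnit_iff_res, ← PowerSeries.coeff_map, hr]
    exact hg.2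
  rw [hF.II_eq hn, Ideal.map_span, hφ.span_eq hu, nser_map]
  congr 1
  ext x
  simp only [Set.mem_image, Set.mem_setOf_eq, PowerSeries.coeff_map]
  constructor
  · rintro ⟨_, ⟨d, hd, rfl⟩, rfl⟩
    exact ⟨d, hd, rfl⟩
  · rintro ⟨d, hd, rfl⟩
    exact ⟨_, ⟨d, hd, rfl⟩, rfl⟩

theorem invi_kill {σ R : Type} [CommRing R] [DecidableEq σ] (S : Finset σ)
    (f : MvPowerSeries σ R) : f - rescale (fun i => if i ∈ S then 0 else 1) f ∈
      Ideal.span ((X : σ → MvPowerSeries σ R) '' (S : Set σ)) := by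
  induction S using Finset.induction_on with
  | empty =>
    have e : (fun i : σ => if i ∈ (∅ : Finset σ) then (0 : R) else 1) = 1 := by
      funext i; simp
    rw [e, rescale_one]
    simp
  | insert i S _ ih =>
    have h1 : (X i : MvPowerSeries σ R) ∣ rescale (fun i => if i ∈ S then 0 else 1) f -
        rescale (fun j => if j ∈ insert i S then 0 else 1) f := by
      rw [X_dvd_iff]
      intro m hm
      rw [map_sub, coeff_rescale, coeff_rescale, sub_eq_zero]
      congr 1
      refine Finsupp.prod_congr fun j hj => ?_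
      have : j ≠ i := by
        rintro rfl
        exact Finsupp.mem_support_iff.1 hj hm
      simp [this]
    obtain ⟨c, hc⟩ := h1
    rw [← sub_add_sub_cancel _ (rescale (fun i => if i ∈ S then 0 else 1) f), hc]
    refine Ideal.add_mem _ (Ideal.span_mono (Set.image_mono (by simp)) ih)
      (Ideal.mul_mem_right _ _ (Ideal.subset_span ⟨i, by simp, rfl⟩))

theorem invi_rescale_X {σ R : Type} [CommRing R] (a : σ → R) (i : σ) :
    rescale a (X i : MvPowerSeries σ R) = C (a i) * X i := by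
  classical
  ext d
  rw [coeff_rescale, coeff_C_mul, coeff_X]
  split_ifs with h
  · subst h; simp
  · simp

/-- reduction modulo the height ideal -/
noncomputable def inviK (p n : ℕ) [Fact p.Prime] (h : ℕ) :
    E0 p n →+* MvPowerSeries (Fin (n - 1)) (kk p n) :=
  (map (WittVector.constantCoeff : WW p n →+* kk p n)).comp (rescale fun i =>
    if i ∈ Finset.univ.filter (fun i : Fin (n - 1) => (i : ℕ) + 1 < h) then 0 else 1)

theorem invi_X (h : ℕ) (i : Fin (n - 1)) :
    inviK p n h (X i) = if (i : ℕ) + 1 < h then 0 else X i := by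
  rw [inviK, RingHom.comp_apply, invi_rescale_X]
  by_cases hi : (i : ℕ) + 1 < h <;> simp [hi]

theorem invi_ker {h : ℕ} (h1 : 1 ≤ h) (hn : h ≤ n) : II p n h = RingHom.ker (inviK p n h) := by
  rw [II, if_neg (by omega)]
  refine le_antisymm (Ideal.span_le.2 ?_) fun f hf => ?_
  · rintro x (rfl | ⟨i, hi1, hi2, rfl⟩)
    · show inviK p n h p = 0
      rw [map_natCast, ← map_natCast (C : kk p n →+* MvPowerSeries (Fin (n - 1)) (kk p n)) p,
        CharP.cast_eq_zero, map_zero]
    · show inviK p n h (vv p n i) = 0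
      rw [vv, dif_pos ⟨hi1, by omega⟩, invi_X, if_pos (by simp only; omega)]
  · have h2 := feq_ker (f := rescale (fun i => if i ∈ Finset.univ.filter
      (fun i : Fin (n - 1) => (i : ℕ) + 1 < h) then 0 else 1) f) hf
    have h3 := invi_kill (Finset.univ.filter (fun i : Fin (n - 1) => (i : ℕ) + 1 < h)) f
    rw [← sub_add_cancel f (rescale (fun i =>
      if i ∈ Finset.univ.filter (fun i : Fin (n - 1) => (i : ℕ) + 1 < h) then 0 else 1) f)]
    refine Ideal.add_mem _ (Ideal.span_mono ?_ h3) (Ideal.span_mono (by simp) h2)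
    rintro _ ⟨i, hi, rfl⟩
    have hi' : (i : ℕ) + 1 < h := by simpa using hi
    refine Or.inr ⟨i + 1, by omega, hi', ?_⟩
    rw [vv, dif_pos ⟨by omega, by omega⟩]
    rfl

theorem II_prime {h : ℕ} (hn : h ≤ n) : (II p n h).IsPrime := by
  rcases Nat.eq_zero_or_pos h with rfl | h1
  · rw [II, if_pos rfl]
    exact Ideal.isPrime_bot
  · haveI : IsDomain (MvPowerSeries (Fin (n - 1)) (kk p n)) := NoZeroDivisors.to_isDomain _
    rw [invi_ker h1 hn]
    exact RingHom.ker_isPrime _

theorem vv_not_mem_II {h : ℕ} (h1 : 1 ≤ h) (hn : h < n) : vv p n h ∉ II p n h := by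
  rw [invi_ker h1 hn.le, RingHom.mem_ker, vv, dif_pos ⟨h1, hn⟩, invi_X,
    if_neg (by simp only; omega)]
  intro h0
  have := congrArg (coeff (Finsupp.single ⟨h - 1, by omega⟩ 1)) h0
  rw [coeff_index_single_self_X, map_zero] at this
  exact one_ne_zero this

theorem vv_mem_mm {h : ℕ} (hn : h ≠ n) : vv p n h ∈ mm p n := by
  rw [mm, RingHom.mem_ker, vv]
  split_ifs
  · simp [res]
  · exact map_zero _

theorem II_succ {h : ℕ} (h1 : 1 ≤ h) : II p n (h + 1) = II p n h ⊔ Ideal.span {vv p n h} := by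
  rw [II, II, if_neg (by omega), if_neg (by omega), ← Ideal.span_union]
  congr 1
  ext x
  simp only [Set.mem_insert_iff, Set.mem_setOf_eq, Set.mem_union, Set.mem_singleton_iff]
  constructor
  · rintro (h2 | ⟨i, hi1, hi2, rfl⟩)
    · exact Or.inl (Or.inl h2)
    · rcases Nat.lt_succ_iff_lt_or_eq.1 hi2 with h3 | rfl
      · exact Or.inl (Or.inr ⟨i, hi1, h3, rfl⟩)
      · exact Or.inr rfl
  · rintro ((h2 | ⟨i, hi1, hi2, rfl⟩) | rfl)
    · exact Or.inl h2
    · exact Or.inr ⟨i, hi1, by omega, rfl⟩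
    · exact Or.inr ⟨h, h1, by omega, rfl⟩

end Vale.Agent.P217
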