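import Vale.Agent.P217.Cmp
import Vale.Agent.P217.Gser
import Vale.Agent.P217.Act
import Vale.Agent.P217.InvI
import Vale.Agent.P217.TorB

namespace Vale.Agent.P217

open MvPowerSeries

variable {p n : ℕ} [Fact p.Prime] {F : FormalGroup (E0 p n)}

variable {L : Type} [NormedField L] [IsUltrametricDist L] [CompleteSpace L] [IsAlgClosed L]
  [CharP L p]

omit [CompleteSpace L] [IsAlgClosed L] [CharP L p] in
theorem IsLT.htpt_CPo (hF : IsLT p n F) {h : ℕ} (h1 : 1 ≤ h) (hn : h < n)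
    {ξ : E0 p n →+* OC L} {ρ : ℝ} (hξ : HtPt p n h ξ ρ) {τ : kk p n ≃+* kk p n}
    {g : PowerSeries (kk p n)} {σ : E0 p n ≃+* E0 p n} (hg : IsAut p n F g)
    (hσ : Acts p n F τ g σ) : HtPt p n h (ξ.comp (σ : E0 p n →+* E0 p n)) ρ where
  hI := fun x hx => by
    have h2 := hF.inv_II hn.le τ g σ hg hσ
    refine hξ.hI (σ x) ?_
    rw [← h2]
    exact Ideal.mem_map_of_mem (σ : E0 p n →+* E0 p n) hx
  hu := fun h0 => by
    have h2 := hF.inv_II hn.le τ g σ hg hσ
    have h3 := hF.inv_II (h := h + 1) hn τ g σ hg hσ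
    have h4 : vv p n h ∈ II p n (h + 1) := by
      rw [II_succ h1]
      exact Ideal.mem_sup_right (Ideal.mem_span_singleton_self _)
    rw [← h3, Ideal.mem_map_iff_of_surjective (σ : E0 p n →+* E0 p n) σ.surjective] at h4
    obtain ⟨y, hy, hyv⟩ := h4
    apply hξ.hu
    rw [← hyv]
    rw [II_succ h1] at hy
    obtain ⟨a, ha, b, hb, rfl⟩ := Submodule.mem_sup.mp hy
    obtain ⟨c, rfl⟩ := Ideal.mem_span_singleton'.mp hb
    have h5 : ξ ((σ : E0 p n →+* E0 p n) a) = 0 := by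
      refine hξ.hI _ ?_
      rw [← h2]
      exact Ideal.mem_map_of_mem (σ : E0 p n →+* E0 p n) ha
    have h6 : ξ ((σ : E0 p n →+* E0 p n) (vv p n h)) = 0 := h0
    rw [map_add, map_add, h5, map_mul, map_mul, h6, mul_zero, add_zero]
  hρ := fun x hx => hξ.hρ _ (aut_mm p n σ hx)
  pos := hξ.pos
  lt1 := hξ.lt1

theorem IsLT.orbit_small (hF : IsLT p n F) [F.IsComm] {h : ℕ} (h1 : 1 ≤ h) (hn : h < n)
    {ξ : E0 p n →+* OC L} {ρ : ℝ} (hξ : HtPt p n h ξ ρ) (ι : kk p n →+* OC L)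
    (hι : ∀ w, ξ (C w) = ι (WittVector.constantCoeff w)) [AddCommGroup (Pts (F.map ξ))]
    (hG : GrpSpec (F.map ξ)) {J : Ideal (E0 p n)} (hJ : Inv p n F J) (hξJ : ∀ x ∈ J, ξ x = 0)
    {f : E0 p n} (hf : f ∈ J) {k : ℕ} {x : Fin (n - h) → Pts (F.map ξ)} (hx : IsBasis (p ^ k) x)
    {Ψ : E0 p n →+* Bq (n - h) (kk p n) ((p ^ n) ^ (k - 1))} (hΨ : PsiSpec p n F (n - h) k Ψ)
    {r s : ℝ} (hr0 : 0 ≤ r) (hr1 : r < 1) (hr : ∀ i, ‖((x i).1 : L) ^ (p ^ (h * k))‖ ≤ r)
    (hs1 : r ^ ((p ^ n) ^ (k - 1)) ≤ s) (hs2 : ρ ^ (p ^ (h * k)) ≤ s)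
    (H : MvPowerSeries (Fin (n - h)) (kk p n)) (hH : Ideal.Quotient.mk _ H = Ψ f)
    (g : PowerSeries (kk p n)) (hg : IsAut p n F g) :
    ‖((evR (fun i => ev1 ((x i).1 ^ (p ^ (h * k))) (PowerSeries.map ι g)) (map ι H) : OC L) : L)‖
      ≤ s := by
  have hn1 : 1 ≤ n := by omega
  have hs0 : 0 ≤ s := (pow_nonneg hξ.pos.le _).trans hs2
  set τ : kk p n ≃+* kk p n := (iterateFrobeniusEquiv (kk p n) p (h * k)).symm with hτ
  have hg' : IsAut p n F (PowerSeries.map (τ : kk p n →+* kk p n) g) := hF.isAut_map hn1 _ hg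
  obtain ⟨σ, hσ, -⟩ := hF.acts_exists hn1 (RingEquiv.refl _) _ hg'
  have hη := hF.htpt_CPo h1 hn hξ hg' hσ
  obtain ⟨hσC, φ, hφ, hφg⟩ := id hσ
  set η := ξ.comp (σ : E0 p n →+* E0 p n) with hηdef
  have hι' : ∀ w, η (C w) = ι (WittVector.constantCoeff w) := by
    intro w
    have h2 : η (C w) = ξ (σ (C w)) := rfl
    rw [h2, hσC, hι]
    rfl
  obtain ⟨inst, hG'⟩ := exists_grp (F.map η)
  have hhom : IsHom (F.map ξ) (F.map η) (PowerSeries.map ξ φ) := by
    have h2 := hφ.map ξ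
    rwa [fg_map_map] at h2
  have hcoef : ∀ d, res p n (PowerSeries.coeff d φ) = τ (PowerSeries.coeff d g) := by
    intro d
    have h2 := congrArg (PowerSeries.coeff d) hφg
    rwa [PowerSeries.coeff_map, PowerSeries.coeff_map] at h2
  have hu : IsUnit (PowerSeries.coeff 1 (PowerSeries.map ξ φ)) := by
    rw [PowerSeries.coeff_map]
    refine IsUnit.map ξ ((isUnit_iff_res p n _).mpr ?_)
    rw [hcoef]
    exact (map_ne_zero τ).mpr hg.2
  obtain ⟨e, he⟩ := hG.iso hG' hhom hu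
  have hr' : ∀ i, ‖((e (x i)).1 : L) ^ (p ^ (h * k))‖ ≤ r := by
    intro i
    rw [norm_pow, (he (x i)).2, ← norm_pow]
    exact hr i
  have hcmp := hF.cmp h1 hn hη ι hι' hG' (hx.map e) hΨ hr0 hr1 hr' hs1 hs2 f H hH
  have hηf : η f = 0 := by
    refine hξJ (σ f) ?_
    rw [← hJ _ _ σ hg' hσ]
    exact Ideal.mem_map_of_mem (σ : E0 p n →+* E0 p n) hf
  rw [hηf, ZeroMemClass.coe_zero, zero_sub, norm_neg] at hcmp
  have hxr : ∀ i, ‖(((x i).1 ^ (p ^ (h * k)) : OC L) : L)‖ ≤ r := fun i => by simpa using hr i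
  have hA : ∀ i, ‖((ev1 ((x i).1 ^ (p ^ (h * k))) (PowerSeries.map ι g) : OC L) : L)‖ < 1 := by
    intro i
    refine lt_of_le_of_lt (evR_norm_le (fun _ : Unit => (x i).1 ^ (p ^ (h * k))) hr0 hr1
      (fun _ => hxr i) ?_) hr1
    have h2 : PowerSeries.constantCoeff (PowerSeries.map ι g) = 0 := by
      rw [← PowerSeries.coeff_zero_eq_constantCoeff_apply, PowerSeries.coeff_map,
        PowerSeries.coeff_zero_eq_constantCoeff_apply, hg.1.1, map_zero]
    exact h2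
  have hB : ∀ i, ‖(((e (x i)).1 ^ (p ^ (h * k)) : OC L) : L)‖ < 1 := fun i =>
    lt_of_le_of_lt (by simpa using hr' i) hr1
  have hAB : ∀ i, ‖((ev1 ((x i).1 ^ (p ^ (h * k))) (PowerSeries.map ι g) : OC L) : L) -
      (((e (x i)).1 ^ (p ^ (h * k)) : OC L) : L)‖ ≤ s := by
    intro i
    have h2 := evR_frob p (fun _ : Unit => (x i).1) (fun _ => (x i).2) (h * k)
      (PowerSeries.map ξ φ)
    have h3 : (e (x i)).1 ^ (p ^ (h * k)) = ev1 ((x i).1 ^ (p ^ (h * k)))
        (PowerSeries.map (iterateFrobenius (OC L) p (h * k)) (PowerSeries.map ξ φ)) := by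
      rw [(he (x i)).1]
      exact h2
    rw [h3, ← AddSubgroupClass.coe_sub, ← map_sub]
    have h4 := (evR_spec (fun _ : Unit => (x i).1 ^ (p ^ (h * k)))
      (fun _ => lt_of_le_of_lt (hxr i) hr1)).bound r s 0
      (PowerSeries.map ι g -
        PowerSeries.map (iterateFrobenius (OC L) p (h * k)) (PowerSeries.map ξ φ))
      hr0 hr1.le hs0 (fun _ => hxr i) ?_ (fun d hd => absurd hd (Nat.not_lt_zero _))
    · rw [pow_zero, mul_one] at h4
      exact h4
    · intro d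
      have h5 : d = Finsupp.single () (d ()) := by
        ext
        simp
      rw [h5]
      show ‖((PowerSeries.coeff (d ()) (PowerSeries.map ι g -
        PowerSeries.map (iterateFrobenius (OC L) p (h * k)) (PowerSeries.map ξ φ)) : OC L) : L)‖ ≤ s
      set c := PowerSeries.coeff (d ()) φ with hc
      have h6 : PowerSeries.coeff (d ()) g = res p n c ^ (p ^ (h * k)) := by
        rw [hc, hcoef, ← iterateFrobenius_def, ← iterateFrobeniusEquiv_apply, hτ,
          RingEquiv.apply_symm_apply]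
      have h7 : ι (res p n c) = ξ (C (constantCoeff c)) := by
        rw [hι]
        rfl
      have h8 : C (constantCoeff c) - c ∈ mm p n := by
        rw [mm, RingHom.mem_ker, res, RingHom.comp_apply, map_sub, constantCoeff_C, sub_self,
          map_zero]
      rw [map_sub, PowerSeries.coeff_map, PowerSeries.coeff_map, PowerSeries.coeff_map, h6,
        map_pow, h7, ← hc, ← iterateFrobenius_def, ← map_sub, ← map_sub, iterateFrobenius_def,
        SubmonoidClass.coe_pow, norm_pow]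
      exact (pow_le_pow_left₀ (norm_nonneg _) (hξ.hρ _ h8) _).trans hs2
  have h9 := evR_sub _ _ hA hB hs0 hAB (map ι H)
  have h10 := IsUltrametricDist.norm_add_le_max
    (((evR (fun i => ev1 ((x i).1 ^ (p ^ (h * k))) (PowerSeries.map ι g)) (map ι H) : OC L) : L) -
      (evR (fun i => (e (x i)).1 ^ (p ^ (h * k))) (map ι H) : OC L))
    ((evR (fun i => (e (x i)).1 ^ (p ^ (h * k))) (map ι H) : OC L) : L)
  rw [sub_add_cancel] at h10
  exact h10.trans (max_le h9 hcmp)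

end Vale.Agent.P217
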