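import Vale.Agent.P217.Def2

/-! More proof-level definitions for P217. -/

namespace Vale.Agent.P217

open MvPowerSeries

/-- `N(X_s)` in each variable -/
noncomputable def sN {A : Type} [CommRing A] (σ : Type) (N : PowerSeries A) :
    σ → MvPowerSeries σ A := fun s => PowerSeries.subst (X s : MvPowerSeries σ A) N

/-- the classifying map of the quotient of the Honda law by the universal level structure -/
def PsiSpec (p n : ℕ) [Fact p.Prime] (F : FormalGroup (E0 p n)) [F.IsComm] (m k : ℕ)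
    (Ψ : E0 p n →+* Bq m (kk p n) ((p ^ n) ^ (k - 1))) : Prop :=
  ∃ Φ : FormalGroup (Bq m (kk p n) ((p ^ n) ^ (k - 1))), Φ.IsComm ∧
    IsHom ((Gk p n F).map (iB m (kk p n) _)) Φ
      (Nser ((Gk p n F).map (iB m (kk p n) _)) (tB m (kk p n) _) (tB_nil m (kk p n) _) (p ^ k)) ∧
    Classifies p n F (aB m (kk p n) _)
      ((iB m (kk p n) _).comp (WittVector.constantCoeff : WW p n →+* kk p n)) Φ Ψ

/-- `X +_G [p^r] h` -/
noncomputable def phi0 {A : Type} [CommRing A] (G : FormalGroup A) (p r : ℕ) (h : PowerSeries A) :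
    PowerSeries A :=
  subst ![PowerSeries.X, PowerSeries.subst h (nser G (p ^ r))] G.toPowerSeries

/-- `V ∘ (c X ^ (p ^ i)) ∘ X ^ (p ^ M)` -/
noncomputable def hser {A : Type} [CommRing A] (p M i : ℕ) (c : A) (V : PowerSeries A) :
    PowerSeries A :=
  PowerSeries.subst (PowerSeries.X ^ (p ^ M) : PowerSeries A)
    (PowerSeries.subst (PowerSeries.C c * PowerSeries.X ^ (p ^ i) : PowerSeries A) V)

/-- Frobenius and Verschiebung modulo `p` between the deformation and the Honda law -/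
def VerSpec (p n : ℕ) [Fact p.Prime] (F : FormalGroup (E0 p n)) {S : Type} [CommRing S]
    (a : Ideal S) (ξ : E0 p n →+* S) (M : ℕ) (V : PowerSeries S) : Prop :=
  PowerSeries.constantCoeff V = 0 ∧
    IsHom ((F.map ξ).map (Ideal.Quotient.mk (Ideal.span {(p : S)})))
      ((F.map (sp0 p n ξ)).map (Ideal.Quotient.mk (Ideal.span {(p : S)})))
      (PowerSeries.X ^ (p ^ M)) ∧
    IsHom ((F.map (sp0 p n ξ)).map (Ideal.Quotient.mk (Ideal.span {(p : S)})))
      ((F.map ξ).map (Ideal.Quotient.mk (Ideal.span {(p : S)})))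
      (PowerSeries.map (Ideal.Quotient.mk (Ideal.span {(p : S)})) V) ∧
    CoefIn (Ideal.span {(p : S)})
      (PowerSeries.subst (PowerSeries.X ^ (p ^ M) : PowerSeries S) V - nser (F.map ξ) (p ^ M)) ∧
    CoefIn a (V - PowerSeries.X ^ (p ^ ((n - 1) * M)))

section valued
variable {L : Type} [NormedField L]

/-- tropical value of the row `s` -/
noncomputable def GG (p : ℕ) {ι : Type} (c u : ι → L) (s : ℕ) : ℝ := ⨆ σ, ‖c σ * u σ ^ (p ^ s)‖

/-- cancellation in the row `s` -/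
def Can (p : ℕ) {ι : Type} [Fintype ι] (c u : ι → L) (s : ℕ) : Prop :=
  ‖∑ σ, c σ * u σ ^ (p ^ s)‖ < GG p c u s

/-- the product `∏_{s=1}^{t} w(t-s) ^ (p^(s+1) - p^s)` -/
noncomputable def DD (p : ℕ) (w : ℕ → ℝ) (t : ℕ) : ℝ :=
  ∏ s ∈ Finset.Icc 1 t, w (t - s) ^ (p ^ (s + 1) - p ^ s)

variable [IsUltrametricDist L] (p : ℕ) [Fact p.Prime] [CharP L p] [PerfectRing L p]

/-- digits of the coefficient vector -/
noncomputable def cc {m E : ℕ} (α : Fin m → WittVector p L) (σ : Fin m × Fin (E + 1)) : L :=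
  dg p σ.2 (α σ.1)

/-- admissible coefficient vectors for the column `j` -/
def Adm (n E : ℕ) {m r : ℕ} (y : Fin m → L) (e : Fin r ≃ Fin m × Fin (E + 1)) (j : Fin r)
    (α : Fin m → WittVector p L) : Prop :=
  (∀ σ : Fin m × Fin (E + 1), ‖cc p α σ‖ ≤ 1 ∧
      ‖cc p α σ‖ * ‖uu (p ^ n) y σ‖ ^ p ≤ ‖uu (p ^ n) y (e j)‖ ^ p) ∧
    ‖cc p α (e j) - 1‖ < 1 ∧
    ∀ t, j < t → ‖uu (p ^ n) y (e t)‖ = ‖uu (p ^ n) y (e j)‖ → ‖cc p α (e t)‖ < 1

/-- output of the elimination for the column `j` -/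
def ElimSpec (n E : ℕ) {m r : ℕ} (y : Fin m → L) (e : Fin r ≃ Fin m × Fin (E + 1)) (w : ℕ → ℝ)
    (j : Fin r) (α : Fin m → WittVector p L) (d : L) (κ : ℝ) : Prop :=
  Adm p n E y e j α ∧ w j ^ p * DD p w j ≤ ‖d‖ ∧ 0 ≤ κ ∧ κ < ‖d‖ ∧
    ∀ s, 1 ≤ s → s ≤ n → Sm p E κ (bW p (p ^ n) E α (fun i => y i ^ (p ^ s)) -
      if s = (j : ℕ) % n + 1 then
        (p : WittVector p L) ^ (E - (j : ℕ) / n) * WittVector.teichmuller p d else 0)

end valued

end Vale.Agent.P217
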