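import Vale.Agent.P217.Pser
import Vale.Agent.P217.Iso
import Vale.Agent.P217.Tay
import Vale.Agent.P217.Def3
import Vale.Agent.P217.MkH
import Vale.Agent.P217.Hon

namespace Vale.Agent.P217

open MvPowerSeries

variable {p n : ℕ} [Fact p.Prime] {F : FormalGroup (E0 p n)}

theorem coeff_one_subst_Ver {A : Type} [CommRing A] {b : PowerSeries A}
    (hb : PowerSeries.constantCoeff b = 0) (f : PowerSeries A) :
    PowerSeries.coeff 1 (PowerSeries.subst b f : PowerSeries A) =
      PowerSeries.coeff 1 f * PowerSeries.coeff 1 b := by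
  rw [PowerSeries.coeff_subst' (PowerSeries.HasSubst.of_constantCoeff_zero' hb),
    finsum_eq_single _ 1]
  · simp
  · intro d hd
    rcases Nat.eq_zero_or_pos d with rfl | h
    · simp [PowerSeries.coeff_one]
    · have h2 : (PowerSeries.X : PowerSeries A) ^ 2 ∣ b ^ d :=
        (pow_dvd_pow _ (by omega)).trans
          (pow_dvd_pow_of_dvd (PowerSeries.X_dvd_iff.mpr hb) d)
      rw [PowerSeries.X_pow_dvd_iff.mp h2 1 (by norm_num), smul_zero]

theorem coefIn_ps_Ver {A : Type} [CommRing A] {a : Ideal A} {f : PowerSeries A}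
    (h : ∀ d, PowerSeries.coeff d f ∈ a) : CoefIn a f := by
  intro e
  have : e = Finsupp.single () (e ()) := by
    ext
    simp
  rw [this]
  exact h _

theorem coefIn_iff_Ver {A : Type} [CommRing A] {a : Ideal A} {N : PowerSeries A} {d : ℕ} :
    CoefIn a (N - PowerSeries.X ^ d) ↔
      PowerSeries.map (Ideal.Quotient.mk a) N = PowerSeries.X ^ d := by
  have h2 : PowerSeries.map (Ideal.Quotient.mk a) (PowerSeries.X ^ d : PowerSeries A) =
      PowerSeries.X ^ d := by rw [map_pow, PowerSeries.map_X]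
  rw [← h2]
  exact coefIn_iff_map a N (PowerSeries.X ^ d)

theorem pmap_subst_Ver {A B : Type} [CommRing A] [CommRing B] (φ : A →+* B) {b : PowerSeries A}
    (hb : PowerSeries.HasSubst b) (f : PowerSeries A) :
    PowerSeries.map φ (PowerSeries.subst b f : PowerSeries A) =
      PowerSeries.subst (PowerSeries.map φ b) (PowerSeries.map φ f) :=
  PowerSeries.map_subst hb f

theorem frob_pow_Ver {A : Type} [CommRing A] [CharP A p] (s : ℕ) (f : PowerSeries A) :
    f ^ (p ^ s) = PowerSeries.subst (PowerSeries.X ^ (p ^ s) : PowerSeries A)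
      (PowerSeries.map (iterateFrobenius A p s) f) := by
  have hp : p ≠ 0 := (Fact.out : p.Prime).ne_zero
  rw [← map_iterateFrobenius_expand p hp, map_expand, expand, substAlgHom_apply]
  rfl

theorem IsLT.exists_V1_Ver (hF : IsLT p n F) {A : Type} [CommRing A] (a : Ideal A)
    (η : E0 p n →+* A) (hη : Cts p n a η) {h : ℕ} (h1 : 1 ≤ h) (hn : h ≤ n)
    (hI : ∀ x ∈ II p n h, η x = 0) :
    ∃ V : PowerSeries A, PowerSeries.constantCoeff V = 0 ∧
      nser (F.map η) p = PowerSeries.subst (PowerSeries.X ^ (p ^ h) : PowerSeries A) V ∧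
      PowerSeries.coeff 1 V = η (vv p n h) ∧
      CoefIn a (V - PowerSeries.X ^ (p ^ (n - h))) := by
  have hp : p.Prime := Fact.out
  have hq : p ^ h ≠ 0 := pow_ne_zero _ hp.ne_zero
  refine ⟨PowerSeries.mk fun d => η (PowerSeries.coeff (p ^ h * d) (nser F p)), ?_, ?_, ?_, ?_⟩
  · rw [← PowerSeries.coeff_zero_eq_constantCoeff_apply, PowerSeries.coeff_mk, mul_zero,
      PowerSeries.coeff_zero_eq_constantCoeff_apply, nser_const, map_zero]
  · ext d
    rw [nser_map, PowerSeries.coeff_map, PowerSeries.coeff_subst_X_pow hq]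
    split_ifs with hd
    · rw [PowerSeries.coeff_mk, Nat.mul_div_cancel' hd]
      rfl
    · exact hI _ (hF.pser_not_dvd h1 hn hd)
  · have := hI _ (hF.pser_lead h1 hn)
    rw [map_sub, sub_eq_zero] at this
    rw [PowerSeries.coeff_mk, mul_one, this]
  · refine coefIn_ps_Ver fun d => ?_
    have h2 : PowerSeries.coeff (p ^ h * d) (nser F p) - (if p ^ h * d = p ^ n then 1 else 0) ∈
        mm p n := by
      have h3 := congrArg (PowerSeries.coeff (p ^ h * d)) (hF.pser_res (h1.trans hn))
      rw [nser_map, PowerSeries.coeff_map, PowerSeries.coeff_X_pow] at h3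
      rw [mm, RingHom.mem_ker, map_sub, h3]
      split_ifs <;> simp
    have h4 := hη _ h2
    have h5 : p ^ h * d = p ^ n ↔ d = p ^ (n - h) := by
      have : p ^ n = p ^ h * p ^ (n - h) := by
        rw [← pow_add]
        congr 1
        omega
      rw [this]
      exact Nat.mul_right_inj hq
    rw [map_sub, PowerSeries.coeff_mk, PowerSeries.coeff_X_pow]
    rw [map_sub] at h4
    convert h4 using 2
    simp only [h5]
    split_ifs <;> simp

theorem IsLT.exists_V (hF : IsLT p n F) {A : Type} [CommRing A] [CharP A p] (a : Ideal A)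
    (η : E0 p n →+* A) (hη : Cts p n a η) {h : ℕ} (h1 : 1 ≤ h) (hn : h ≤ n)
    (hI : ∀ x ∈ II p n h, η x = 0) (k : ℕ) :
    ∃ V : PowerSeries A,
      nser (F.map η) (p ^ k) = PowerSeries.subst (PowerSeries.X ^ (p ^ (h * k)) : PowerSeries A) V ∧
      IsHom ((F.map η).map (iterateFrobenius A p (h * k))) (F.map η) V ∧
      (∃ e, PowerSeries.coeff 1 V = η (vv p n h) ^ e) ∧
      CoefIn a (V - PowerSeries.X ^ (p ^ ((n - h) * k))) := by
  have hp : p.Prime := Fact.out
  haveI := hF.isComm
  obtain ⟨V1, hV0, hV1, hV2, hV3⟩ := hF.exists_V1_Ver a η hη h1 hn hI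
  have key : ∃ V : PowerSeries A,
      nser (F.map η) (p ^ k) = PowerSeries.subst (PowerSeries.X ^ (p ^ (h * k)) : PowerSeries A) V ∧
      (∃ e, PowerSeries.coeff 1 V = η (vv p n h) ^ e) ∧
      CoefIn a (V - PowerSeries.X ^ (p ^ ((n - h) * k))) := by
    induction k with
    | zero =>
      refine ⟨PowerSeries.X, ?_, ⟨0, by simp⟩, ?_⟩
      · rw [pow_zero, nser_one, mul_zero, pow_zero, pow_one, PowerSeries.X_subst]
      · rw [mul_zero, pow_zero, pow_one, sub_self]
        exact CoefIn.zeroT _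
    | succ k ih =>
      obtain ⟨V, e1, ⟨e, e2⟩, e3⟩ := ih
      set φ := iterateFrobenius A p (h * k) with hφ
      have hW0 : PowerSeries.constantCoeff (PowerSeries.map φ V1) = 0 := const_map_Pser φ hV0
      have hW := PowerSeries.HasSubst.of_constantCoeff_zero' hW0
      have hX : ∀ s : ℕ, PowerSeries.HasSubst (PowerSeries.X ^ (p ^ s) : PowerSeries A) :=
        fun s => PowerSeries.HasSubst.X_pow (pow_ne_zero _ hp.ne_zero)
      have hN : PowerSeries.HasSubst (nser (F.map η) p) :=
        PowerSeries.HasSubst.of_constantCoeff_zero' (nser_const _ _)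
      refine ⟨PowerSeries.subst (PowerSeries.map φ V1) V, ?_, ⟨e + p ^ (h * k), ?_⟩, ?_⟩
      · rw [pow_succ', nser_mul, e1, PowerSeries.subst_comp_subst_apply (hX _) hN,
          PowerSeries.subst_comp_subst_apply hW (hX _), PowerSeries.subst_pow hN,
          PowerSeries.subst_X hN, frob_pow_Ver, hV1, pmap_subst_Ver _ (hX _), map_pow,
          PowerSeries.map_X, PowerSeries.subst_comp_subst_apply (hX _) (hX _),
          PowerSeries.subst_pow (hX _), PowerSeries.subst_X (hX _), ← pow_mul, ← pow_add,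
          Nat.mul_succ]
      · rw [coeff_one_subst_Ver hW0, e2, PowerSeries.coeff_map, hV2, hφ, iterateFrobenius_def,
          pow_add]
      · have e4 : CoefIn a (PowerSeries.map φ V1 - PowerSeries.X ^ (p ^ (n - h))) := by
          have : PowerSeries.map φ V1 - PowerSeries.X ^ (p ^ (n - h)) =
              PowerSeries.map φ (V1 - PowerSeries.X ^ (p ^ (n - h))) := by
            rw [map_sub, map_pow, PowerSeries.map_X]
          rw [this]
          refine coefIn_ps_Ver fun d => ?_
          rw [PowerSeries.coeff_map, hφ, iterateFrobenius_def]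
          exact Ideal.pow_mem_of_mem a (hV3 _) _ (pow_pos hp.pos _)
        have hY : PowerSeries.HasSubst
            (PowerSeries.X ^ (p ^ (n - h)) : PowerSeries (A ⧸ a)) :=
          PowerSeries.HasSubst.X_pow (pow_ne_zero _ hp.ne_zero)
        rw [coefIn_iff_Ver] at e3 e4 ⊢
        rw [pmap_subst_Ver _ hW, e3, e4, PowerSeries.subst_pow hY, PowerSeries.subst_X hY,
          ← pow_mul, ← pow_add, Nat.mul_succ, add_comm]
  obtain ⟨V, e1, e2, e3⟩ := key
  refine ⟨V, e1, ?_, e2, e3⟩
  refine IsHom.of_X_pow (pow_ne_zero _ hp.ne_zero) (isHom_frob p (F.map η) (h * k)) ?_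
  rw [← e1]
  exact isHom_nser _ _

theorem IsLT.exists_verSpec (hF : IsLT p n F) (hn : 1 ≤ n) {S : Type} [CommRing S] (a : Ideal S)
    (ha : a ≠ ⊤) (hp : (p : S) ∈ a) (N : ℕ) (hN : a ^ N ≤ Ideal.span {(p : S)})
    (ξ : E0 p n →+* S) (hξ : Cts p n a ξ) : ∃ M V, VerSpec p n F a ξ M V := by
  have hpp : p.Prime := Fact.out
  set I : Ideal S := Ideal.span {(p : S)} with hI
  have hIa : I ≤ a := (Ideal.span_singleton_le_iff_mem a).mpr hp
  have hp0 : (p : S ⧸ I) = 0 := by
    rw [← map_natCast (Ideal.Quotient.mk I), Ideal.Quotient.eq_zero_iff_mem]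
    exact Ideal.mem_span_singleton_self _
  haveI : Nontrivial (S ⧸ I) := Ideal.Quotient.nontrivial_iff.mpr fun h =>
    ha (top_le_iff.mp (h ▸ hIa))
  haveI : CharP (S ⧸ I) p := (CharP.charP_iff_prime_eq_zero hpp).mpr hp0
  set η : E0 p n →+* S ⧸ I := (Ideal.Quotient.mk I).comp ξ with hη
  have hηc : Cts p n (a.map (Ideal.Quotient.mk I)) η := fun x hx =>
    Ideal.mem_map_of_mem _ (hξ x hx)
  have hII : ∀ x ∈ II p n 1, η x = 0 := by
    have : II p n 1 ≤ RingHom.ker η := by
      unfold II
      rw [if_neg one_ne_zero, Ideal.span_le]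
      rintro x (rfl | ⟨i, h1, h2, -⟩)
      · rw [SetLike.mem_coe, RingHom.mem_ker, map_natCast, hp0]
      · omega
    exact fun x hx => this hx
  obtain ⟨W, e1, e2, -, e3⟩ := hF.exists_V (a.map (Ideal.Quotient.mk I)) η hηc le_rfl hn hII N
  rw [one_mul] at e1 e2
  obtain ⟨ι, hι⟩ := exists_iota p n (η.comp (C : WW p n →+* E0 p n)) hp0
  have hG : (F.map ξ).map (Ideal.Quotient.mk I) = F.map η := fg_map_map _ _ _
  have hΓ : (F.map η).map (iterateFrobenius (S ⧸ I) p N) =
      (F.map (sp0 p n ξ)).map (Ideal.Quotient.mk I) := by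
    have a1 : (iterateFrobenius (S ⧸ I) p N).comp η =
        (ι.comp (iterateFrobenius (kk p n) p N)).comp (res p n) := by
      ext1 f
      have b1 : (ξ f - ξ (C (constantCoeff f))) ^ (p ^ N) ∈ I :=
        hN (Ideal.pow_le_pow_right (Nat.lt_pow_self hpp.one_lt).le
          (Ideal.pow_mem_pow (cts_sub_C hξ f) _))
      have b2 : (η f - η (C (constantCoeff f))) ^ (p ^ N) = 0 := by
        rw [← Ideal.Quotient.eq_zero_iff_mem, map_pow, map_sub] at b1
        exact b1
      rw [sub_pow_char_pow, sub_eq_zero] at b2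
      have b3 : η (C (constantCoeff f)) = ι (res p n f) := hι _
      simp only [RingHom.comp_apply, iterateFrobenius_def, map_pow]
      rw [b2, b3]
    have a2 : (Ideal.Quotient.mk I).comp (sp0 p n ξ) = ι.comp (res p n) := by
      ext1 f
      exact hι _
    rw [fg_map_map, fg_map_map, a1, a2, ← fg_map_map F (res p n), ← fg_map_map F (res p n),
      ← fg_map_map _ _ ι, hF.Gk_map hn]
  let V : PowerSeries S := PowerSeries.mk fun d =>
    if d = 0 then 0 else
      Function.surjInv (Ideal.Quotient.mk_surjective (I := I)) (PowerSeries.coeff d W)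
  have hV : PowerSeries.map (Ideal.Quotient.mk I) V = W := by
    ext d
    rw [PowerSeries.coeff_map, PowerSeries.coeff_mk]
    split_ifs with hd
    · rw [hd, map_zero, PowerSeries.coeff_zero_eq_constantCoeff_apply, e2.1]
    · exact Function.surjInv_eq _ _
  refine ⟨N, V, ?_, ?_, ?_, ?_, ?_⟩
  · rw [← PowerSeries.coeff_zero_eq_constantCoeff_apply, PowerSeries.coeff_mk, if_pos rfl]
  · have b1 := isHom_frob p (F.map η) N
    rw [hΓ, ← hG] at b1
    exact b1
  · rw [hΓ, ← hG, ← hV] at e2
    exact e2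
  · rw [← hI, coefIn_iff_map]
    have hX : PowerSeries.HasSubst (PowerSeries.X ^ (p ^ N) : PowerSeries S) :=
      PowerSeries.HasSubst.X_pow (pow_ne_zero _ hpp.ne_zero)
    have b1 := pmap_subst_Ver (Ideal.Quotient.mk I) hX V
    rw [map_pow, PowerSeries.map_X, hV, ← e1, ← hG, nser_map] at b1
    exact b1
  · refine coefIn_ps_Ver fun d => ?_
    rw [← Ideal.mem_quotient_iff_mem hIa]
    have b1 : PowerSeries.coeff d (W - PowerSeries.X ^ (p ^ ((n - 1) * N))) ∈
        a.map (Ideal.Quotient.mk I) := e3 _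
    rw [← hV, ← PowerSeries.map_X (Ideal.Quotient.mk I), ← map_pow, ← map_sub,
      PowerSeries.coeff_map] at b1
    exact b1

end Vale.Agent.P217
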