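import Vale.Agent.P217.Z2
import Vale.Agent.P217.Ver
import Vale.Agent.P217.LTU
import Vale.Agent.P217.Act
import Vale.Agent.P217.Iso
import Vale.Agent.P217.Hon

namespace Vale.Agent.P217

open MvPowerSeries

variable {p n : ℕ} [Fact p.Prime] {F : FormalGroup (E0 p n)}

section aux
variable {A : Type} [CommRing A]

theorem coefIn_monoZ5 {σ : Type} {I J : Ideal A} (h : I ≤ J) {f : MvPowerSeries σ A}
    (hf : CoefIn I f) : CoefIn J f := fun d => h (hf d)

theorem coefIn_CZ5 {σ : Type} {I : Ideal A} {x : A} (hx : x ∈ I) :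
    CoefIn I (C x : MvPowerSeries σ A) := by
  classical
  intro d
  rw [coeff_C]
  split_ifs
  · exact hx
  · exact I.zero_mem

theorem nser_expZ5 (G : FormalGroup A) (m : ℕ) : ∃ R : PowerSeries A,
    nser G m = PowerSeries.C (m : A) * PowerSeries.X + PowerSeries.X ^ 2 * R := by
  have : (PowerSeries.X : PowerSeries A) ^ 2 ∣ nser G m - PowerSeries.C (m : A) * PowerSeries.X := by
    rw [PowerSeries.X_pow_dvd_iff]
    intro d hd
    rw [map_sub, PowerSeries.coeff_C_mul]
    interval_cases d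
    · rw [PowerSeries.coeff_zero_eq_constantCoeff_apply, nser_const]
      simp
    · rw [nser_coeff_one]
      simp
  obtain ⟨R, hR⟩ := this
  exact ⟨R, by rw [← hR]; ring⟩

theorem nser_p_stepZ5 {σ : Type} (G : FormalGroup A) (p : ℕ) {c : MvPowerSeries σ A}
    (hc : PowerSeries.HasSubst c) (s : ℕ) (h : CoefIn (Ideal.span {(p : A) ^ (s + 1)}) c) :
    CoefIn (Ideal.span {(p : A) ^ (s + 2)}) (PowerSeries.subst c (nser G p)) := by
  obtain ⟨R, hR⟩ := nser_expZ5 G p
  rw [hR, PowerSeries.subst_add hc, PowerSeries.subst_mul hc, PowerSeries.subst_mul hc,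
    PowerSeries.subst_pow hc, PowerSeries.subst_X hc, PowerSeries.subst_C, pow_two]
  refine CoefIn.addT ?_ (CoefIn.mul_rightT _ ?_)
  · refine coefIn_monoZ5 ?_ ((coefIn_CZ5 (Ideal.mem_span_singleton_self (p : A))).mul h)
    rw [Ideal.span_singleton_mul_span_singleton, ← pow_succ']
  · refine coefIn_monoZ5 ?_ (h.mul h)
    rw [Ideal.span_singleton_mul_span_singleton, ← pow_add, Ideal.span_singleton_le_span_singleton]
    exact pow_dvd_pow _ (by omega)

theorem nser_powZ5 {σ : Type} (G : FormalGroup A) (p : ℕ) {c : MvPowerSeries σ A}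
    (hc : PowerSeries.HasSubst c) (h : CoefIn (Ideal.span {(p : A)}) c) (r : ℕ) :
    CoefIn (Ideal.span {(p : A) ^ (r + 1)}) (PowerSeries.subst c (nser G (p ^ r))) := by
  induction r with
  | zero => rw [pow_zero, nser_one, PowerSeries.subst_X hc, zero_add, pow_one]; exact h
  | succ r ih =>
    rw [pow_succ p r, nser_mul, PowerSeries.subst_comp_subst_apply (hom_hsN G _) hc]
    exact nser_p_stepZ5 G p (hom_hsP (nser_const G _) hc) r ih

theorem nser_congrZ5 {σ : Type} (G : FormalGroup A) [G.IsComm] (p : ℕ) {a b : MvPowerSeries σ A}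
    (ha : PowerSeries.HasSubst a) (hb : PowerSeries.HasSubst b)
    (h : CoefIn (Ideal.span {(p : A)}) (a - b)) (r : ℕ) :
    CoefIn (Ideal.span {(p : A) ^ (r + 1)})
      (PowerSeries.subst a (nser G (p ^ r)) - PowerSeries.subst b (nser G (p ^ r))) := by
  obtain ⟨ι, hι0, hι⟩ := exists_neg G
  have hιb := hom_hsP hι0 hb
  have e1 : subst ![b, PowerSeries.subst b ι] G.toPowerSeries = 0 := by
    have := hom_sub2' PowerSeries.HasSubst.X' (PowerSeries.HasSubst.of_constantCoeff_zero' hι0) hb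
      G.toPowerSeries
    rw [hι, PowerSeries.subst_X hb, ← PowerSeries.coe_substAlgHom hb, map_zero,
      PowerSeries.coe_substAlgHom] at this
    exact this.symm
  have hc := hom_hsG G ha hιb
  have e2 : subst ![subst ![a, PowerSeries.subst b ι] G.toPowerSeries, b] G.toPowerSeries = a := by
    rw [G.assoc' ha hιb hb, G.comm' hιb hb, e1, G.add_zero ha]
  have hcp : CoefIn (Ideal.span {(p : A)}) (subst ![a, PowerSeries.subst b ι] G.toPowerSeries) := by
    have := CoefIn.subst_congr (I := Ideal.span {(p : A)}) G.toPowerSeries (hom_hs2 ha hιb)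
      (hom_hs2 hb hιb) (fun s => by
        fin_cases s
        · exact h
        · simpa using CoefIn.zeroT _)
    rwa [e1, sub_zero] at this
  have e3 := (isHom_nser G (p ^ r)).apply hc hb
  rw [e2] at e3
  have hu := hom_hsP (nser_const G (p ^ r)) hb
  have := CoefIn.subst_congr (I := Ideal.span {(p : A) ^ (r + 1)}) G.toPowerSeries
    (hom_hs2 (hom_hsP (nser_const G (p ^ r)) hc) hu) (hom_hs2 PowerSeries.HasSubst.zero hu)
    (fun s => by
      fin_cases s
      · simpa using nser_powZ5 G p hc hcp r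
      · simpa using CoefIn.zeroT _)
  rwa [← e3, G.zero_add hu] at this

theorem isHom_map_iffZ5 {B : Type} [CommRing B] (G G' : FormalGroup A) {φ : PowerSeries A}
    (h0 : PowerSeries.constantCoeff φ = 0) (f : A →+* B) :
    IsHom (G.map f) (G'.map f) (PowerSeries.map f φ) ↔
      map f (PowerSeries.subst G.toPowerSeries φ) =
        map f (subst ![PowerSeries.subst (X 0 : MvPowerSeries (Fin 2) A) φ,
          PowerSeries.subst (X 1 : MvPowerSeries (Fin 2) A) φ] G'.toPowerSeries) := by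
  rw [hom_map2 (hom_hsP h0 (PowerSeries.HasSubst.X 0)) (hom_hsP h0 (PowerSeries.HasSubst.X 1)),
    PowerSeries.map_subst (hom_hsF G), PowerSeries.map_subst (PowerSeries.HasSubst.X 0),
    PowerSeries.map_subst (PowerSeries.HasSubst.X 1), map_X, map_X, IsHom]
  refine and_iff_right ?_
  rw [← PowerSeries.coeff_zero_eq_constantCoeff_apply, PowerSeries.coeff_map,
    PowerSeries.coeff_zero_eq_constantCoeff_apply, h0, map_zero]

theorem psubst_constZ5 {a b : PowerSeries A} (ha : PowerSeries.constantCoeff a = 0)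
    (hb : PowerSeries.constantCoeff b = 0) :
    PowerSeries.constantCoeff (PowerSeries.subst a b) = 0 :=
  PowerSeries.constantCoeff_subst_eq_zero ha b hb

theorem phi0_constZ5 (G : FormalGroup A) (p r : ℕ) {h : PowerSeries A}
    (h0 : PowerSeries.constantCoeff h = 0) : PowerSeries.constantCoeff (phi0 G p r h) = 0 :=
  hom_const2 PowerSeries.constantCoeff_X (psubst_constZ5 h0 (nser_const G _)) G.zero_constantCoeff

theorem phi0_mapZ5 {B : Type} [CommRing B] (G : FormalGroup A) (p r : ℕ) {h : PowerSeries A}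
    (h0 : PowerSeries.constantCoeff h = 0) (f : A →+* B) :
    PowerSeries.map f (phi0 G p r h) = phi0 (G.map f) p r (PowerSeries.map f h) := by
  have := hom_map2 PowerSeries.HasSubst.X' (PowerSeries.HasSubst.of_constantCoeff_zero'
    (psubst_constZ5 h0 (nser_const G (p ^ r)))) f G.toPowerSeries
  refine this.trans ?_
  rw [phi0, nser_map, ← act_map_subst f h0, ← PowerSeries.map_X f]
  rfl

theorem phi0_coeff_oneZ5 (G : FormalGroup A) (p r : ℕ) {h : PowerSeries A}
    (h0 : PowerSeries.constantCoeff h = 0) :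
    PowerSeries.coeff 1 (phi0 G p r h) = 1 + (p : A) ^ r * PowerSeries.coeff 1 h := by
  have hs := PowerSeries.HasSubst.of_constantCoeff_zero' h0
  rw [phi0, hom_coeff_one G PowerSeries.constantCoeff_X (psubst_constZ5 h0 (nser_const G _))]
  obtain ⟨R, hR⟩ := nser_expZ5 G (p ^ r)
  rw [hR, PowerSeries.subst_add hs, PowerSeries.subst_mul hs, PowerSeries.subst_mul hs,
    PowerSeries.subst_pow hs, PowerSeries.subst_X hs, PowerSeries.subst_C]
  obtain ⟨h', rfl⟩ := PowerSeries.X_dvd_iff.mpr h0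
  have e : ∀ T : PowerSeries A, PowerSeries.coeff 1 ((PowerSeries.X * h') ^ 2 * T) = 0 := by
    intro T
    rw [mul_pow, mul_assoc, PowerSeries.coeff_X_pow_mul']
    simp
  rw [map_add, e, add_zero, PowerSeries.coeff_one_X, Nat.cast_pow]
  congr 1
  exact PowerSeries.coeff_C_mul _ _ _

theorem mono_constZ5 (c : A) (i : ℕ) :
    PowerSeries.constantCoeff (PowerSeries.C c * PowerSeries.X ^ (p ^ i) : PowerSeries A) = 0 := by
  rw [map_mul, map_pow, PowerSeries.constantCoeff_X,
    zero_pow (pow_ne_zero _ (Fact.out : p.Prime).ne_zero), mul_zero]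

theorem Xpow_constZ5 (i : ℕ) :
    PowerSeries.constantCoeff (PowerSeries.X ^ (p ^ i) : PowerSeries A) = 0 := by
  rw [map_pow, PowerSeries.constantCoeff_X, zero_pow (pow_ne_zero _ (Fact.out : p.Prime).ne_zero)]

theorem hser_constZ5 (M i : ℕ) (c : A) {V : PowerSeries A}
    (hV : PowerSeries.constantCoeff V = 0) : PowerSeries.constantCoeff (hser p M i c V) = 0 :=
  psubst_constZ5 (Xpow_constZ5 M) (psubst_constZ5 (mono_constZ5 c i) hV)

theorem hser_mapZ5 {B : Type} [CommRing B] (M i : ℕ) (c : A) (V : PowerSeries A) (f : A →+* B) :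
    PowerSeries.map f (hser p M i c V) = hser p M i (f c) (PowerSeries.map f V) := by
  rw [hser, hser, act_map_subst f (Xpow_constZ5 M), act_map_subst f (mono_constZ5 c i), map_mul,
    map_pow, map_pow, PowerSeries.map_X, PowerSeries.map_C]

theorem iota_resZ5 (ξ : E0 p n →+* A) {B : Type} [CommRing B] (π : A →+* B) (hp : (p : B) = 0) :
    ∃ ι : kk p n →+* B, π.comp (sp0 p n ξ) = ι.comp (res p n) ∧
      ∀ b, ι b = π (ξ (C (WittVector.teichmuller p b))) := by
  obtain ⟨ι, hι⟩ := exists_iota p n ((π.comp ξ).comp (C : WW p n →+* E0 p n)) hp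
  refine ⟨ι, RingHom.ext fun f => hι (constantCoeff f), fun b => ?_⟩
  have := hι (WittVector.teichmuller p b)
  have h4 : (WittVector.constantCoeff : WW p n →+* kk p n) (WittVector.teichmuller p b) = b := by
    simp
  rw [h4] at this
  exact this.symm

end aux

variable {S : Type} [CommRing S] [IsDomain S]


omit [IsDomain S] in
theorem phi0_hom {G : FormalGroup S} [G.IsComm] {h : PowerSeries S}
    (h0 : PowerSeries.constantCoeff h = 0)
    (hh : IsHom (G.map (Ideal.Quotient.mk (Ideal.span {(p : S)})))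
      (G.map (Ideal.Quotient.mk (Ideal.span {(p : S)})))
      (PowerSeries.map (Ideal.Quotient.mk (Ideal.span {(p : S)})) h)) (r : ℕ) :
    IsHom (G.map (Ideal.Quotient.mk (Ideal.span {(p : S) ^ (r + 1)})))
      (G.map (Ideal.Quotient.mk (Ideal.span {(p : S) ^ (r + 1)})))
      (PowerSeries.map (Ideal.Quotient.mk (Ideal.span {(p : S) ^ (r + 1)})) (phi0 G p r h)) := by
  rw [phi0_mapZ5 G p r h0, phi0]
  refine (isHom_X _).add ?_
  rw [nser_map, ← act_map_subst _ h0, isHom_map_iffZ5 _ _ (psubst_constZ5 h0 (nser_const G _)),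
    ← coefIn_iff_map]
  rw [isHom_map_iffZ5 _ _ h0, ← coefIn_iff_map] at hh
  have hs := PowerSeries.HasSubst.of_constantCoeff_zero' h0
  have hx := hom_hsP h0 (PowerSeries.HasSubst.X (S := S) (0 : Fin 2))
  have hy := hom_hsP h0 (PowerSeries.HasSubst.X (S := S) (1 : Fin 2))
  have := nser_congrZ5 G p (hom_hsP h0 (hom_hsF G)) (hom_hsG G hx hy) hh r
  rw [(isHom_nser G (p ^ r)).apply hx hy] at this
  rw [PowerSeries.subst_comp_subst_apply hs (hom_hsF G),
    PowerSeries.subst_comp_subst_apply hs (PowerSeries.HasSubst.X 0),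
    PowerSeries.subst_comp_subst_apply hs (PowerSeries.HasSubst.X 1)]
  exact this

omit [IsDomain S] in
theorem IsLT.hser_hom (hF : IsLT p n F) (hn : 1 ≤ n) {a : Ideal S} {ξ : E0 p n →+* S} {M : ℕ}
    {V : PowerSeries S} (hV : VerSpec p n F a ξ M V) (b : kk p n) (i : ℕ) :
    PowerSeries.constantCoeff (hser p M i (ξ (C (WittVector.teichmuller p b))) V) = 0 ∧
    IsHom ((F.map ξ).map (Ideal.Quotient.mk (Ideal.span {(p : S)})))
      ((F.map ξ).map (Ideal.Quotient.mk (Ideal.span {(p : S)})))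
      (PowerSeries.map (Ideal.Quotient.mk (Ideal.span {(p : S)}))
        (hser p M i (ξ (C (WittVector.teichmuller p b))) V)) := by
  refine ⟨hser_constZ5 M i _ hV.1, ?_⟩
  have hp : ((p : ℕ) : S ⧸ Ideal.span {(p : S)}) = 0 := by
    rw [← map_natCast (Ideal.Quotient.mk (Ideal.span {(p : S)})), Ideal.Quotient.eq_zero_iff_mem]
    exact Ideal.mem_span_singleton_self _
  obtain ⟨ι, hι, hιb⟩ := iota_resZ5 ξ (Ideal.Quotient.mk (Ideal.span {(p : S)})) hp
  have h1 := (hF.Gk_mono hn b i).map ι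
  rw [fg_map_map, ← hι, ← fg_map_map, map_mul, map_pow, PowerSeries.map_X, PowerSeries.map_C,
    hιb] at h1
  rw [hser_mapZ5, hser]
  exact hV.2.1.comp (h1.comp hV.2.2.1)

theorem IsLT.move (hF : IsLT p n F) (hn : 1 ≤ n) (a : Ideal S) [IsAdicComplete a S] (hp : (p : S) ∈ a)
    (hp0 : (p : S) ≠ 0) (ξ : E0 p n →+* S) (hξ : Cts p n a ξ) (N : ℕ) (hN : a ^ N ≤ Ideal.span {(p : S)}) {M : ℕ}
    {V : PowerSeries S} (hV : VerSpec p n F a ξ M V) (b : kk p n) (i r : ℕ) (hr : 1 ≤ r) :
    ∃ g σ, IsAut p n F g ∧ Acts p n F (RingEquiv.refl _) g σ ∧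
      (∀ t, ξ (σ (X t)) - ξ (X t) ∈ Ideal.span {(p : S) ^ (r + 1)}) ∧
      ∃ c : FractionRing S, Itg S ((p : FractionRing S) ^ (r + 1))
        (PowerSeries.subst (PowerSeries.map (algebraMap S (FractionRing S))
            (phi0 (F.map ξ) p r (hser p M i (ξ (C (WittVector.teichmuller p b))) V)))
          (logA p n ((algebraMap S (FractionRing S)).comp (ξ.comp (σ : E0 p n →+* E0 p n)))) -
        PowerSeries.C c * logA p n ((algebraMap S (FractionRing S)).comp ξ)) := by
  have := hF.isComm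
  obtain ⟨h0, hh⟩ := hF.hser_hom hn hV b i
  set h := hser p M i (ξ (C (WittVector.teichmuller p b))) V with hhdef
  set hk : PowerSeries (kk p n) := hser p M i b (PowerSeries.X ^ (p ^ ((n - 1) * M))) with hkdef
  have hk0 : PowerSeries.constantCoeff hk = 0 := hser_constZ5 M i b (Xpow_constZ5 _)
  have hXp : ∀ s, IsHom (Gk p n F) (Gk p n F) (PowerSeries.X ^ (p ^ s)) := fun s => by
    have := hF.Gk_mono hn 1 s
    rwa [map_one, one_mul] at this
  have hkh : IsHom (Gk p n F) (Gk p n F) hk :=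
    (hXp M).comp ((hF.Gk_mono hn b i).comp (hXp _))
  have hg : IsAut p n F (phi0 (Gk p n F) p r hk) := by
    refine ⟨(isHom_X _).add (hkh.comp (isHom_nser _ _)), ?_⟩
    rw [phi0_coeff_oneZ5 _ p r hk0, CharP.cast_eq_zero, zero_pow (by omega), zero_mul, add_zero]
    exact one_ne_zero
  obtain ⟨σ, hσ, -⟩ := hF.acts_exists hn (RingEquiv.refl _) _ hg
  refine ⟨_, σ, hg, hσ, ?_⟩
  obtain ⟨hσC, φ, hφ, hφg⟩ := hσ
  have hσC' : ∀ w, σ (C w) = C w := fun w => by
    rw [hσC]
    congr 1
  -- reduction modulo `a`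
  have hpa : ((p : ℕ) : S ⧸ a) = 0 := by
    rw [← map_natCast (Ideal.Quotient.mk a), Ideal.Quotient.eq_zero_iff_mem]
    exact hp
  obtain ⟨ι, hι, hιb⟩ := iota_resZ5 ξ (Ideal.Quotient.mk a) hpa
  have hι' : (Ideal.Quotient.mk a).comp ξ = ι.comp (res p n) := by
    rw [← hι]
    refine RingHom.ext fun f => ?_
    exact Ideal.Quotient.eq.mpr (cts_sub_C hξ f)
  have hcongr : CoefIn a (σ := Unit) (PowerSeries.map ξ φ - phi0 (F.map ξ) p r h) := by
    rw [coefIn_iff_map]
    have hVa := (coefIn_iff_map a _ _).mp hV.2.2.2.2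
    change PowerSeries.map _ V = PowerSeries.map _ _ at hVa
    change PowerSeries.map _ (PowerSeries.map ξ φ) = PowerSeries.map _ _
    rw [act_map_map, hι', ← act_map_map, hφg, phi0_mapZ5 _ p r hk0, phi0_mapZ5 _ p r h0,
      fg_map_map, fg_map_map, hι', hkdef, hhdef, hser_mapZ5, hser_mapZ5, hVa, hιb, map_pow, map_pow,
      PowerSeries.map_X, PowerSeries.map_X]
  -- work modulo `p ^ (r + 1)`
  set π := Ideal.Quotient.mk (Ideal.span {(p : S) ^ (r + 1)}) with hπ
  have hnil : (a.map π) ^ (N * (r + 1)) = ⊥ := by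
    rw [← Ideal.map_pow, pow_mul, Ideal.map_eq_bot_iff_le_ker, hπ, Ideal.mk_ker,
      ← Ideal.span_singleton_pow]
    exact Ideal.pow_right_mono hN _
  have := nilp_complete _ _ hnil
  have hpA : ((p : ℕ) : S ⧸ Ideal.span {(p : S) ^ (r + 1)}) ∈ a.map π := by
    rw [← map_natCast π]
    exact Ideal.mem_map_of_mem _ hp
  have hφ0 := phi0_hom h0 hh r
  rw [← hπ, fg_map_map] at hφ0
  have hu : IsUnit (PowerSeries.coeff 1 (PowerSeries.map π (phi0 (F.map ξ) p r h))) := by
    rw [PowerSeries.coeff_map, phi0_coeff_oneZ5 _ p r h0, map_add, map_one]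
    refine IsNilpotent.isUnit_one_add ⟨r + 1, ?_⟩
    rw [← map_pow, hπ, Ideal.Quotient.eq_zero_iff_mem, Ideal.mem_span_singleton, mul_pow, ← pow_mul]
    exact Dvd.dvd.mul_right (pow_dvd_pow _ (by nlinarith)) _
  obtain ⟨χ, hχ, e1, e2⟩ := hφ0.inv hu
  have hφ1 := hφ.map (π.comp ξ)
  rw [fg_map_map] at hφ1
  have hθ := hχ.comp hφ1
  have hcongr' : PowerSeries.map (Ideal.Quotient.mk (a.map π)) (PowerSeries.map (π.comp ξ) φ) =
      PowerSeries.map (Ideal.Quotient.mk (a.map π)) (PowerSeries.map π (phi0 (F.map ξ) p r h)) := by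
    refine (coefIn_iff_map (σ := Unit) (a.map π) _ _).mp fun d => ?_
    have := Ideal.mem_map_of_mem π (hcongr d)
    rw [← act_map_map]
    exact this
  obtain ⟨k1, k2⟩ := hF.lt_unique hn (a.map π) hpA (ψ := π.comp ξ)
    (ψ' := (π.comp ξ).comp (σ : E0 p n →+* E0 p n))
    (fun x hx => Ideal.mem_map_of_mem _ (hξ x hx))
    (fun x hx => Ideal.mem_map_of_mem _ (hξ _ (aut_mm p n σ hx)))
    (fun w => by simp [hσC']) hθ (by
      rw [act_map_subst _ hχ.1, hcongr', ← act_map_subst _ hχ.1, e2, PowerSeries.map_X])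
  have k3 : PowerSeries.map (π.comp ξ) φ = PowerSeries.map π (phi0 (F.map ξ) p r h) := by
    have hs0 := PowerSeries.HasSubst.of_constantCoeff_zero' hφ0.1
    have := congrArg (PowerSeries.subst (PowerSeries.map π (phi0 (F.map ξ) p r h))) k2
    rw [PowerSeries.subst_comp_subst_apply (PowerSeries.HasSubst.of_constantCoeff_zero' hχ.1) hs0,
      e1, PowerSeries.X_subst, PowerSeries.subst_X hs0] at this
    exact this
  refine ⟨fun t => Ideal.Quotient.eq.mp (RingHom.congr_fun k1 (X t)), ?_⟩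
  -- characteristic zero
  have := charZero_of ξ hp0
  have hpK : IsUnit ((p : ℕ) : FractionRing S) :=
    IsUnit.mk0 _ (Nat.cast_ne_zero.mpr (Fact.out : p.Prime).ne_zero)
  set al := algebraMap S (FractionRing S) with hal
  have hφK := hφ.map (al.comp ξ)
  rw [fg_map_map] at hφK
  have hsK := PowerSeries.HasSubst.of_constantCoeff_zero' hφK.1
  have hL' := hF.log ((al.comp ξ).comp (σ : E0 p n →+* E0 p n)) hpK
  have hcob : cob (F.map (al.comp ξ)) (PowerSeries.subst (PowerSeries.map (al.comp ξ) φ)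
      (logA p n ((al.comp ξ).comp (σ : E0 p n →+* E0 p n)))) = 0 := by
    rw [cob, PowerSeries.subst_comp_subst_apply hsK (hom_hsF _),
      PowerSeries.subst_comp_subst_apply hsK (PowerSeries.HasSubst.X 0),
      PowerSeries.subst_comp_subst_apply hsK (PowerSeries.HasSubst.X 1), hφK.2,
      cob_applyL hL' (hom_hsP hφK.1 (PowerSeries.HasSubst.X 0))
        (hom_hsP hφK.1 (PowerSeries.HasSubst.X 1))]
    ring
  have hc := cob_zero_smul (logA_const _) (logA_one _) (hF.log (al.comp ξ) hpK)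
    (psubst_constZ5 hφK.1 (logA_const _)) hcob
  refine ⟨PowerSeries.coeff 1 (PowerSeries.subst (PowerSeries.map (al.comp ξ) φ)
      (logA p n ((al.comp ξ).comp (σ : E0 p n →+* E0 p n)))), ?_⟩
  rw [← hc, ← act_map_map]
  refine DInt.congr (σ := Unit) p hp0 (unit_of_not_dvd ξ)
    (dint_logA (ξ.comp (σ : E0 p n →+* E0 p n)) hp0) (phi0_constZ5 _ p r h0) (hφ.map ξ).1
    (by omega) ?_
  rw [coefIn_iff_map]
  change PowerSeries.map π _ = PowerSeries.map π (PowerSeries.map ξ φ)
  rw [act_map_map, k3]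

end Vale.Agent.P217
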