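import Vale.Agent.P217.Z6a
import Vale.Agent.P217.Hon
import Vale.Agent.P217.Z5

namespace Vale.Agent.P217

open MvPowerSeries

variable {p n : ℕ} [Fact p.Prime] {F : FormalGroup (E0 p n)}

variable {S : Type} [CommRing S] [IsDomain S]

theorem frob_injZ7 (hn : 1 ≤ n) {e e' : ℕ} (he : e < n) (he' : e' < n)
    (h : ∀ b : kk p n, b ^ (p ^ e) = b ^ (p ^ e')) : e = e' := by
  have hf : Module.finrank (ZMod p) (kk p n) = n := GaloisField.finrank p (by omega)
  have := (FiniteField.bijective_frobeniusAlgHom_pow (ZMod p) (kk p n)).1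
    (a₁ := ⟨e, by omega⟩) (a₂ := ⟨e', by omega⟩) (by
      ext b
      simp only [AlgHom.coe_pow, FiniteField.coe_frobeniusAlgHom, pow_iterate, ZMod.card]
      exact h b)
  exact congrArg Fin.val this

/-- the exponents `0, 1, ..., n - 1` -/
def exZ7 (n : ℕ) : Option (Fin (n - 1)) → ℕ
  | none => 0
  | some t => t + 1

theorem exZ7_lt (hn : 1 ≤ n) (o : Option (Fin (n - 1))) : exZ7 n o < n := by
  cases o with
  | none => exact hn
  | some t => have := t.2; simp only [exZ7]; omega

theorem exZ7_inj {o o' : Option (Fin (n - 1))} (h : exZ7 n o = exZ7 n o') : o = o' := by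
  cases o <;> cases o' <;> simp only [exZ7] at h
  · rfl
  · omega
  · omega
  · congr 1; ext; omega

theorem char_indepZ7 (hn : 1 ≤ n) (ξ : E0 p n →+* S) (g : Option (Fin (n - 1)) → S)
    (h : ∀ b : kk p n, ∑ o, g o * ξ (C (WittVector.teichmuller p b)) ^ (p ^ exZ7 n o) = 0)
    (o : Option (Fin (n - 1))) : g o = 0 := by
  let χ : Option (Fin (n - 1)) → (kk p n →* S) := fun o =>
    (powMonoidHom (p ^ exZ7 n o)).comp
      ((ξ.comp (C : WW p n →+* E0 p n)).toMonoidHom.comp (WittVector.teichmuller p))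
  have hχ : ∀ o b, χ o b = ξ (C (WittVector.teichmuller p b)) ^ (p ^ exZ7 n o) := fun _ _ => rfl
  have hinj : Function.Injective χ := by
    intro o o' hoo
    refine exZ7_inj (frob_injZ7 (p := p) hn (exZ7_lt hn o) (exZ7_lt hn o') fun b => ?_)
    by_contra hne
    have hu : IsUnit (WittVector.teichmuller p (b ^ (p ^ exZ7 n o)) -
        WittVector.teichmuller p (b ^ (p ^ exZ7 n o'))) := by
      apply WittVector.isUnit_of_coeff_zero_ne_zero
      rw [← WittVector.constantCoeff_apply, map_sub, WittVector.constantCoeff_apply,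
        WittVector.constantCoeff_apply, WittVector.teichmuller_coeff_zero,
        WittVector.teichmuller_coeff_zero]
      exact sub_ne_zero.mpr hne
    have hu' := (hu.map (ξ.comp (C : WW p n →+* E0 p n))).ne_zero
    apply hu'
    have := DFunLike.congr_fun hoo b
    rw [hχ, hχ] at this
    simp only [map_sub, map_pow, RingHom.comp_apply]
    rw [this, sub_self]
  have hl := (linearIndependent_monoidHom (kk p n) S).comp χ hinj
  refine Fintype.linearIndependent_iff.mp hl g ?_ o
  funext b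
  simp only [Finset.sum_apply, Pi.smul_apply, Function.comp_apply, smul_eq_mul, hχ, Pi.zero_apply]
  exact h b

theorem itg1_smulZ7 {σ : Type} (c : S) {f : MvPowerSeries σ (FractionRing S)} (hf : Itg S 1 f) :
    Itg S 1 (C (algebraMap S (FractionRing S) c) * f) := by
  refine Itg.mono c ?_
  rw [mul_comm]
  exact hf.C_mul _

theorem itg_zeroZ7 {σ : Type} (c : FractionRing S) :
    Itg S c (0 : MvPowerSeries σ (FractionRing S)) := fun d => ⟨0, by simp⟩

/-- decomposition of a quasi-logarithm together with the value of the functional -/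
def DecZ7 (ξ : E0 p n →+* S) (D : Fin (n - 1) → S) (l : PowerSeries (FractionRing S)) (x : S) :
    Prop :=
  ∃ (s : Fin (n - 1) → S) (κ : FractionRing S), Itg S 1 (σ := Unit) (l -
      ∑ i, PowerSeries.C ((algebraMap S (FractionRing S)) (s i)) *
        dlogA p n ((algebraMap S (FractionRing S)).comp ξ) i -
      PowerSeries.C κ * logA p n ((algebraMap S (FractionRing S)).comp ξ)) ∧ ∑ i, s i * D i = x

section dec
variable {ξ : E0 p n →+* S} {D : Fin (n - 1) → S}

theorem DecZ7.congr {l l' : PowerSeries (FractionRing S)} {x : S} (h : DecZ7 ξ D l x)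
    (hl : Itg S 1 (σ := Unit) (l' - l)) : DecZ7 ξ D l' x := by
  obtain ⟨s, κ, h1, h2⟩ := h
  refine ⟨s, κ, ?_, h2⟩
  convert h1.add hl using 1
  ring

theorem DecZ7.add {l l' : PowerSeries (FractionRing S)} {x x' : S} (h : DecZ7 ξ D l x)
    (h' : DecZ7 ξ D l' x') : DecZ7 ξ D (l + l') (x + x') := by
  obtain ⟨s, κ, h1, h2⟩ := h
  obtain ⟨s', κ', h1', h2'⟩ := h'
  refine ⟨s + s', κ + κ', ?_, ?_⟩
  · convert h1.add h1' using 1
    simp only [Pi.add_apply, map_add, add_mul, Finset.sum_add_distrib]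
    ring
  · simp only [Pi.add_apply, add_mul, Finset.sum_add_distrib, h2, h2']

theorem DecZ7.smul {l : PowerSeries (FractionRing S)} {x : S} (h : DecZ7 ξ D l x) (c : S) :
    DecZ7 ξ D (PowerSeries.C (algebraMap S (FractionRing S) c) * l) (c * x) := by
  obtain ⟨s, κ, h1, h2⟩ := h
  refine ⟨fun i => c * s i, algebraMap S (FractionRing S) c * κ, ?_, ?_⟩
  · have := itg1_smulZ7 c h1
    change Itg S 1 (σ := Unit) (PowerSeries.C (algebraMap S (FractionRing S) c) * _) at this
    convert this using 1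
    simp only [map_mul, mul_sub, Finset.mul_sum, mul_assoc]
  · simp only [mul_assoc, ← Finset.mul_sum, h2]

theorem DecZ7.zero : DecZ7 ξ D 0 0 :=
  ⟨0, 0, by simpa using itg_zeroZ7 (S := S) (σ := Unit) 1, by simp⟩

theorem DecZ7.sum {ι : Type} (T : Finset ι) {l : ι → PowerSeries (FractionRing S)} {x : ι → S}
    (h : ∀ i ∈ T, DecZ7 ξ D (l i) (x i)) : DecZ7 ξ D (∑ i ∈ T, l i) (∑ i ∈ T, x i) := by
  classical
  induction T using Finset.induction_on with
  | empty => simpa using DecZ7.zero
  | insert a T ha ih =>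
    rw [Finset.sum_insert ha, Finset.sum_insert ha]
    exact (h a (Finset.mem_insert_self _ _)).add (ih fun i hi => h i (Finset.mem_insert_of_mem hi))

theorem DecZ7.lam (t : Fin (n - 1)) :
    DecZ7 ξ D (dlogA p n ((algebraMap S (FractionRing S)).comp ξ) t) (D t) := by
  classical
  refine ⟨Pi.single t 1, 0, ?_, ?_⟩
  · rw [Finset.sum_eq_single t (fun i _ hi => by simp [hi]) (by simp)]
    simpa using itg_zeroZ7 (S := S) (σ := Unit) 1
  · rw [Finset.sum_eq_single t (fun i _ hi => by simp [hi]) (by simp)]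
    simp

theorem DecZ7.unique (hF : IsLT p n F) (hn : 1 ≤ n) (a : Ideal S) [IsAdicComplete a S]
    (hp : (p : S) ∈ a) (hp0 : (p : S) ≠ 0) (hξ : Cts p n a ξ)
    {l : PowerSeries (FractionRing S)} {x x' : S} (h : DecZ7 ξ D l x)
    (h' : DecZ7 ξ D l x') : x = x' := by
  obtain ⟨s, κ, h1, h2⟩ := h
  obtain ⟨s', κ', h1', h2'⟩ := h'
  have := (hF.q1_unique hn a hp hp0 ξ hξ (s' - s) (κ' - κ) (by
    convert h1.sub h1' using 1
    simp only [Pi.sub_apply, map_sub, sub_mul, Finset.sum_sub_distrib]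
    ring)).1
  rw [← h2, ← h2']
  refine Finset.sum_congr rfl fun i _ => ?_
  rw [sub_eq_zero.mp (this i)]

end dec

theorem quasi_ofZ7 (hp0 : (p : S) ≠ 0) (hu : ∀ m : ℕ, ¬ p ∣ m → IsUnit (m : S))
    {G G' : FormalGroup S} {h : PowerSeries S} (h0 : PowerSeries.constantCoeff h = 0)
    (hh : IsHom (G.map (Ideal.Quotient.mk (Ideal.span {(p : S)})))
      (G'.map (Ideal.Quotient.mk (Ideal.span {(p : S)})))
      (PowerSeries.map (Ideal.Quotient.mk (Ideal.span {(p : S)})) h))
    {l : PowerSeries (FractionRing S)} (hl0 : PowerSeries.constantCoeff l = 0) (hl : DInt S l)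
    (c : FractionRing S) (y : S) (hy : (p : FractionRing S) = c * algebraMap S (FractionRing S) y)
    (hc : Itg S c (cob (G'.map (algebraMap S (FractionRing S))) l)) :
    Itg S c (cob (G.map (algebraMap S (FractionRing S)))
      (PowerSeries.subst (PowerSeries.map (algebraMap S (FractionRing S)) h) l)) := by
  have h1 := quasi_comp hp0 hu h0 hh hl0 hl
  rw [hy] at h1
  have h2 := hc.subst2 (a := ![PowerSeries.subst (X 0 : MvPowerSeries (Fin 2) S) h,
    PowerSeries.subst (X 1 : MvPowerSeries (Fin 2) S) h]) (fun s => by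
      fin_cases s
      · exact PowerSeries.constantCoeff_subst_eq_zero (constantCoeff_X _) _ h0
      · exact PowerSeries.constantCoeff_subst_eq_zero (constantCoeff_X _) _ h0)
  have e : (fun s => map (algebraMap S (FractionRing S))
      (![PowerSeries.subst (X 0 : MvPowerSeries (Fin 2) S) h,
        PowerSeries.subst (X 1 : MvPowerSeries (Fin 2) S) h] s)) =
      ![PowerSeries.subst (X 0 : MvPowerSeries (Fin 2) (FractionRing S))
          (PowerSeries.map (algebraMap S (FractionRing S)) h),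
        PowerSeries.subst (X 1 : MvPowerSeries (Fin 2) (FractionRing S))
          (PowerSeries.map (algebraMap S (FractionRing S)) h)] := by
    funext s
    fin_cases s
    · simp [PowerSeries.map_subst (PowerSeries.HasSubst.X (0 : Fin 2))]
    · simp [PowerSeries.map_subst (PowerSeries.HasSubst.X (1 : Fin 2))]
  rw [e] at h2
  have := (Itg.mono y h1).add h2
  rwa [sub_add_cancel] at this

section honda
variable {K : Type} [Field K]

/-- `l_0 (X ^ (p ^ k)) / p` -/
noncomputable def PZ7 (ψ : E0 p n →+* K) (k : ℕ) : PowerSeries K :=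
  PowerSeries.C ((p : K)⁻¹) *
    PowerSeries.subst (PowerSeries.X ^ (p ^ k) : PowerSeries K) (logA p n (sp0 p n ψ))

theorem hsXZ7 (k : ℕ) : PowerSeries.HasSubst (PowerSeries.X ^ (p ^ k) : PowerSeries K) :=
  PowerSeries.HasSubst.of_constantCoeff_zero' (Xpow_constZ5 k)

theorem l0_scaleZ7 (hn : 1 ≤ n) (ψ : E0 p n →+* K) (hp : IsUnit (p : K)) {c : K}
    (hc : ∀ e, c ^ ((p ^ n) ^ e) = c) :
    PowerSeries.subst (PowerSeries.C c * PowerSeries.X : PowerSeries K) (logA p n (sp0 p n ψ)) =
      PowerSeries.C c * logA p n (sp0 p n ψ) := by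
  rw [← PowerSeries.smul_eq_C_mul, ← PowerSeries.rescale_eq_subst]
  ext d
  rw [PowerSeries.coeff_rescale, PowerSeries.coeff_C_mul, logA_sp0 hn _ hp]
  split_ifs with h
  · congr 1
    rw [h, hc]
  · simp

theorem PZ7_subst (hn : 1 ≤ n) (ψ : E0 p n →+* K) (hp : IsUnit (p : K)) {c : K}
    (hc : ∀ e, c ^ ((p ^ n) ^ e) = c) (j k : ℕ) :
    PowerSeries.subst (PowerSeries.C c * PowerSeries.X ^ (p ^ j) : PowerSeries K) (PZ7 ψ k) =
      PowerSeries.C (c ^ (p ^ k)) * PZ7 ψ (j + k) := by
  have hs := PowerSeries.HasSubst.of_constantCoeff_zero' (mono_constZ5 (p := p) c j)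
  have hc' : ∀ e, (c ^ (p ^ k)) ^ ((p ^ n) ^ e) = c ^ (p ^ k) := fun e => by
    rw [← pow_mul, mul_comm, pow_mul, hc]
  have h1 := congrArg (PowerSeries.subst (PowerSeries.X ^ (p ^ (j + k)) : PowerSeries K))
    (l0_scaleZ7 hn ψ hp hc')
  rw [PowerSeries.subst_comp_subst_apply (PowerSeries.HasSubst.of_constantCoeff_zero' (by simp))
    (hsXZ7 _), PowerSeries.subst_mul (hsXZ7 _), PowerSeries.subst_mul (hsXZ7 _),
    PowerSeries.subst_X (hsXZ7 _), PowerSeries.subst_C] at h1
  rw [PZ7, PZ7, PowerSeries.subst_mul hs, PowerSeries.subst_C,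
    PowerSeries.subst_comp_subst_apply (hsXZ7 _) hs, PowerSeries.subst_pow hs,
    PowerSeries.subst_X hs, mul_pow, ← map_pow, ← pow_mul, ← pow_add]
  change PowerSeries.C _ * PowerSeries.subst (PowerSeries.C _ * _) _ = _
  change PowerSeries.subst (PowerSeries.C _ * _) _ = PowerSeries.C _ * _ at h1
  rw [h1]
  ring

theorem l0_frobZ7 (hn : 1 ≤ n) (ψ : E0 p n →+* K) (hp : IsUnit (p : K)) :
    PowerSeries.subst (PowerSeries.X ^ (p ^ n) : PowerSeries K) (logA p n (sp0 p n ψ)) =
      PowerSeries.C (p : K) * (logA p n (sp0 p n ψ) - PowerSeries.X) := by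
  have hq := q_one_lt (p := p) hn
  have c1 : ∀ e, PowerSeries.coeff ((p ^ n) ^ e) (logA p n (sp0 p n ψ)) =
      Ring.inverse (p : K) ^ e := fun e => by
    rw [logA_sp0 hn _ hp, Nat.log_pow hq, if_pos rfl]
  have c2 : ∀ d, (∀ e, d ≠ (p ^ n) ^ e) → PowerSeries.coeff d (logA p n (sp0 p n ψ)) = 0 :=
    fun d hd => by rw [logA_sp0 hn _ hp, if_neg (hd _)]
  ext d
  rw [PowerSeries.coeff_subst_X_pow (by omega), PowerSeries.coeff_C_mul, map_sub,
    PowerSeries.coeff_X]
  by_cases h : ∃ e, d = (p ^ n) ^ e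
  · obtain ⟨e, rfl⟩ := h
    cases e with
    | zero =>
      rw [c1, pow_zero, pow_zero, if_neg (Nat.not_dvd_of_pos_of_lt one_pos hq), if_pos rfl]
      simp
    | succ e =>
      have h1 : (p ^ n) ^ (e + 1) ≠ 1 := (Nat.one_lt_pow (by omega) hq).ne'
      rw [c1, if_neg h1, if_pos (dvd_pow_self _ (by omega)), pow_succ (p ^ n),
        Nat.mul_div_cancel _ (by omega), c1, sub_zero, pow_succ', ← mul_assoc,
        Ring.mul_inverse_cancel _ hp, one_mul]
      rfl
  · push Not at h
    have h1 : d ≠ 1 := by simpa using h 0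
    rw [c2 d h, if_neg h1, sub_zero, mul_zero]
    split_ifs with h2
    · obtain ⟨m, rfl⟩ := h2
      rw [Nat.mul_div_cancel_left _ (by omega), c2 m, map_zero]
      rintro e rfl
      exact h (e + 1) (by rw [pow_succ'])
    · rfl

theorem PZ7_shift (hn : 1 ≤ n) (ψ : E0 p n →+* K) (hp : IsUnit (p : K)) (k : ℕ) :
    PZ7 ψ (k + n) - PowerSeries.C (p : K) * PZ7 ψ k = - PowerSeries.X ^ (p ^ k) := by
  have h1 := congrArg (PowerSeries.subst (PowerSeries.X ^ (p ^ k) : PowerSeries K))
    (l0_frobZ7 hn ψ hp)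
  rw [PowerSeries.subst_comp_subst_apply (hsXZ7 _) (hsXZ7 _), PowerSeries.subst_pow (hsXZ7 _),
    PowerSeries.subst_X (hsXZ7 _), ← pow_mul, ← pow_add, PowerSeries.subst_mul (hsXZ7 _),
    PowerSeries.subst_C, PowerSeries.subst_sub (hsXZ7 _), PowerSeries.subst_X (hsXZ7 _)] at h1
  change _ = PowerSeries.C _ * _ at h1
  have h2 : PowerSeries.C ((p : K)⁻¹) * PowerSeries.C (p : K) = (1 : PowerSeries K) := by
    rw [← map_mul, inv_mul_cancel₀ hp.ne_zero, map_one]
  rw [PZ7, PZ7, h1]
  linear_combination (- PowerSeries.X ^ (p ^ k)) * h2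

end honda

theorem IsLT.expandZ7 (hF : IsLT p n F) (hn : 1 ≤ n) (a : Ideal S) [IsAdicComplete a S]
    (hp : (p : S) ∈ a) (hp0 : (p : S) ≠ 0) (ξ : E0 p n →+* S) (hξ : Cts p n a ξ)
    (m : PowerSeries (FractionRing S)) (h0 : PowerSeries.constantCoeff m = 0)
    (hm : Itg S 1 (cob (F.map ((algebraMap S (FractionRing S)).comp (sp0 p n ξ))) m))
    (x : S) (hx : (p : FractionRing S) * PowerSeries.coeff 1 m = algebraMap S (FractionRing S) x) :
    ∃ w : Option (Fin (n - 1)) → S, Itg S 1 (σ := Unit) (m - ∑ o,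
      PowerSeries.C (algebraMap S (FractionRing S) (w o)) *
        PZ7 ((algebraMap S (FractionRing S)).comp ξ) (exZ7 n o)) := by
  have := charZero_of ξ hp0
  have hpK : IsUnit ((p : ℕ) : FractionRing S) :=
    IsUnit.mk0 _ (Nat.cast_ne_zero.mpr (Fact.out : p.Prime).ne_zero)
  obtain ⟨s, κ, h⟩ := hF.q1_exists hn a hp hp0 (sp0 p n ξ) (cts_sp0 hξ) m h0 hm
  have e0 : (algebraMap S (FractionRing S)).comp (sp0 p n ξ) =
      sp0 p n ((algebraMap S (FractionRing S)).comp ξ) := rfl
  rw [e0] at h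
  obtain ⟨z, hz⟩ := h (Finsupp.single () 1)
  change PowerSeries.coeff 1 _ = _ at hz
  have e1 : ∀ i, PowerSeries.coeff 1
      (dlogA p n (sp0 p n ((algebraMap S (FractionRing S)).comp ξ)) i) = 0 := fun i => by
    rw [dlogA, PowerSeries.coeff_mk]
    simp [bet]
  simp only [map_sub, map_sum, PowerSeries.coeff_C_mul, e1, logA_one, mul_zero,
    Finset.sum_const_zero, sub_zero, mul_one, one_mul] at hz
  refine ⟨fun o => o.elim (x - p * z) s, ?_⟩
  have e2 : PowerSeries.C (algebraMap S (FractionRing S) (x - p * z)) *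
      PZ7 ((algebraMap S (FractionRing S)).comp ξ) 0 =
      PowerSeries.C κ * logA p n (sp0 p n ((algebraMap S (FractionRing S)).comp ξ)) := by
    rw [PZ7, pow_zero, pow_one, PowerSeries.X_subst, ← mul_assoc, ← map_mul]
    congr 2
    rw [map_sub, map_mul, map_natCast, ← hx, ← hz]
    field_simp [hpK.ne_zero]
    ring
  rw [Fintype.sum_option]
  simp only [Option.elim, exZ7]
  rw [e2]
  convert h using 1
  simp only [dlogA_sp0 hn _ hpK, Ring.inverse_eq_inv', PZ7]
  ring

theorem IsLT.span_tau (hF : IsLT p n F) (hn : 1 ≤ n) (a : Ideal S) [IsAdicComplete a S] (hp : (p : S) ∈ a)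
    (hp0 : (p : S) ≠ 0) (ξ : E0 p n →+* S) (hξ : Cts p n a ξ) {M : ℕ}
    {V : PowerSeries S} (hV : VerSpec p n F a ξ M V) (D : Fin (n - 1) → S)
    (hD : ∀ (b : kk p n) (i : ℕ) (s : Fin (n - 1) → S) (κ : FractionRing S),
      Itg S 1 (PowerSeries.C ((p : FractionRing S)⁻¹) * PowerSeries.subst (PowerSeries.map (algebraMap S (FractionRing S))
          (hser p M i (ξ (C (WittVector.teichmuller p b))) V)) (logA p n ((algebraMap S (FractionRing S)).comp ξ)) -
        ∑ t, PowerSeries.C ((algebraMap S (FractionRing S)) (s t)) * dlogA p n ((algebraMap S (FractionRing S)).comp ξ) t -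
        PowerSeries.C κ * logA p n ((algebraMap S (FractionRing S)).comp ξ)) → ∑ t, s t * D t = 0) (t : Fin (n - 1)) :
    D t = 0 := by
  have := charZero_of ξ hp0
  have hpK : IsUnit ((p : ℕ) : FractionRing S) :=
    IsUnit.mk0 _ (Nat.cast_ne_zero.mpr (Fact.out : p.Prime).ne_zero)
  have hu := unit_of_not_dvd ξ
  set al := algebraMap S (FractionRing S) with hal
  have e0 : al.comp (sp0 p n ξ) = sp0 p n (al.comp ξ) := rfl
  have hV0 := hV.1
  have hVK : PowerSeries.constantCoeff (PowerSeries.map al V) = 0 := by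
    rw [← PowerSeries.coeff_zero_eq_constantCoeff_apply, PowerSeries.coeff_map,
      PowerSeries.coeff_zero_eq_constantCoeff_apply, hV0, map_zero]
  have hsV := PowerSeries.HasSubst.of_constantCoeff_zero' hVK
  -- the quasi-logarithms `E_i`
  have hE : ∀ i, ∃ x, DecZ7 ξ D (PZ7 (al.comp ξ) (M + i)) x := by
    intro i
    have hp' : ((p : ℕ) : S ⧸ Ideal.span {(p : S)}) = 0 := by
      rw [← map_natCast (Ideal.Quotient.mk (Ideal.span {(p : S)})), Ideal.Quotient.eq_zero_iff_mem]
      exact Ideal.mem_span_singleton_self _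
    obtain ⟨ι, hι, -⟩ := iota_resZ5 ξ (Ideal.Quotient.mk (Ideal.span {(p : S)})) hp'
    have h1 := (hF.Gk_mono hn 1 i).map ι
    rw [fg_map_map, ← hι, ← fg_map_map, map_one, one_mul, map_pow, PowerSeries.map_X] at h1
    have h2 := hV.2.1.comp h1
    have hsM := PowerSeries.HasSubst.of_constantCoeff_zero' hV.2.1.1
    rw [PowerSeries.subst_pow hsM, PowerSeries.subst_X hsM, ← pow_mul, ← pow_add,
      ← PowerSeries.map_X (Ideal.Quotient.mk (Ideal.span {(p : S)})), ← map_pow] at h2
    have h3 := quasi_ofZ7 hp0 hu (Xpow_constZ5 (M + i)) h2 (logA_const _)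
      (dint_logA (sp0 p n ξ) hp0) (p : FractionRing S) 1 (by simp) (by
        rw [fg_map_map, hF.log _ hpK]
        exact itg_zeroZ7 _)
    have h4 := h3.C_mul ((p : FractionRing S)⁻¹)
    rw [inv_mul_cancel₀ hpK.ne_zero, ← cob_C_mul, fg_map_map, map_pow, PowerSeries.map_X] at h4
    obtain ⟨s, κ, h5⟩ := hF.q1_exists hn a hp hp0 ξ hξ _ (by
      rw [map_mul, psubst_constZ5 (Xpow_constZ5 _) (logA_const _), mul_zero]) h4
    exact ⟨_, s, κ, h5, rfl⟩
  choose τ hτ using hE
  have hτn : ∀ i, τ (i + n) = p * τ i := by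
    intro i
    refine DecZ7.unique hF hn a hp hp0 hξ (hτ (i + n)) (((hτ i).smul p).congr ?_)
    rw [map_natCast, ← add_assoc, PZ7_shift hn _ hpK]
    have := itg_map (σ := Unit) (-PowerSeries.X ^ (p ^ (M + i)) : PowerSeries S)
    change Itg S 1 (σ := Unit) (PowerSeries.map al _) at this
    rwa [map_neg, map_pow, PowerSeries.map_X] at this
  -- substitution of monomials into an expansion
  have hsub : ∀ (m : PowerSeries (FractionRing S)) (w : Option (Fin (n - 1)) → S),
      Itg S 1 (σ := Unit) (m - ∑ o, PowerSeries.C (al (w o)) * PZ7 (al.comp ξ) (exZ7 n o)) →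
      ∀ (b : kk p n) (j : ℕ), DecZ7 ξ D (PowerSeries.subst (PowerSeries.map al
        (PowerSeries.C (ξ (C (WittVector.teichmuller p b))) * PowerSeries.X ^ (p ^ (M + j)))) m)
        (∑ o, w o * τ (j + exZ7 n o) * ξ (C (WittVector.teichmuller p b)) ^ (p ^ exZ7 n o)) := by
    intro m w hw b j
    have h1 := hw.subst (σ := Unit) (mono_constZ5 (p := p) (ξ (C (WittVector.teichmuller p b))) (M + j))
    change Itg S 1 (σ := Unit) (PowerSeries.subst (PowerSeries.map al _) _) at h1
    have hc : ∀ e, al (ξ (C (WittVector.teichmuller p b))) ^ ((p ^ n) ^ e) =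
        al (ξ (C (WittVector.teichmuller p b))) := fun e => by
      rw [← map_pow, ← map_pow, ← map_pow, teich_pow hn]
    rw [map_mul, map_pow, PowerSeries.map_C, PowerSeries.map_X] at h1 ⊢
    have hs := PowerSeries.HasSubst.of_constantCoeff_zero'
      (mono_constZ5 (p := p) (al (ξ (C (WittVector.teichmuller p b)))) (M + j))
    rw [PowerSeries.subst_sub hs, ← PowerSeries.coe_substAlgHom hs, map_sum,
      PowerSeries.coe_substAlgHom] at h1
    simp only [PowerSeries.subst_mul hs, PowerSeries.subst_C, PZ7_subst hn _ hpK hc] at h1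
    refine (DecZ7.sum Finset.univ (l := fun o => PowerSeries.C (al (w o *
      ξ (C (WittVector.teichmuller p b)) ^ (p ^ exZ7 n o))) * PZ7 (al.comp ξ) (M + (j + exZ7 n o)))
      fun o _ => ?_).congr ?_
    · have := (hτ (j + exZ7 n o)).smul (w o * ξ (C (WittVector.teichmuller p b)) ^ (p ^ exZ7 n o))
      rwa [mul_right_comm] at this
    · convert h1 using 3 with o
      rw [map_mul, map_mul, map_pow, add_assoc, mul_assoc]
      rfl
  have hone : ξ (C (WittVector.teichmuller p (1 : kk p n))) = 1 := by simp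
  have hVM : ∀ {l : PowerSeries (FractionRing S)}, DInt S l → Itg S (p : FractionRing S) (σ := Unit)
      (PowerSeries.subst (PowerSeries.map al (PowerSeries.C (ξ (C (WittVector.teichmuller p 1))) *
        PowerSeries.X ^ (p ^ (M + 0)))) (PowerSeries.subst (PowerSeries.map al V) l) -
        PowerSeries.subst (PowerSeries.map al (nser (F.map ξ) (p ^ M))) l) := by
    intro l hl
    have h1 := hl.congr (σ := Unit) p hp0 hu (psubst_constZ5 (Xpow_constZ5 M) hV0)
      (nser_const (F.map ξ) (p ^ M)) le_rfl (by rw [pow_one]; exact hV.2.2.2.1)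
    rw [pow_one] at h1
    change Itg S _ (σ := Unit) (PowerSeries.subst (PowerSeries.map al _) _ -
      PowerSeries.subst (PowerSeries.map al _) _) at h1
    rw [act_map_subst al (Xpow_constZ5 M)] at h1
    rw [hone, map_one, one_mul, add_zero, PowerSeries.subst_comp_subst_apply hsV
      (by rw [map_pow, PowerSeries.map_X]; exact hsXZ7 M)]
    exact h1
  -- expansion of `L ∘ V / p`
  have hLV := quasi_ofZ7 hp0 hu hV0 hV.2.2.1 (logA_const _) (dint_logA ξ hp0)
    (p : FractionRing S) 1 (by simp) (by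
      rw [fg_map_map, hF.log _ hpK]
      exact itg_zeroZ7 _)
  have hLV' := hLV.C_mul ((p : FractionRing S)⁻¹)
  rw [inv_mul_cancel₀ hpK.ne_zero, ← cob_C_mul, fg_map_map] at hLV'
  have hcoef : ∀ l : PowerSeries (FractionRing S), PowerSeries.constantCoeff l = 0 →
      PowerSeries.coeff 1 (PowerSeries.subst (PowerSeries.map al V) l) =
        PowerSeries.coeff 1 l * al (PowerSeries.coeff 1 V) := by
    intro l hl
    rw [PowerSeries.coeff_subst' hsV, finsum_eq_single _ 1, pow_one, smul_eq_mul,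
      PowerSeries.coeff_map]
    intro d hd
    rcases Nat.eq_zero_or_pos d with rfl | hd0
    · rw [PowerSeries.coeff_zero_eq_constantCoeff_apply, hl, zero_smul]
    · rw [PowerSeries.coeff_of_lt_order (φ := PowerSeries.map al V ^ d), smul_zero]
      refine lt_of_lt_of_le ?_ (PowerSeries.le_order_pow_of_constantCoeff_eq_zero d hVK)
      exact_mod_cast (by omega : 1 < d)
  obtain ⟨w, hw⟩ := hF.expandZ7 hn a hp hp0 ξ hξ _ (by
      rw [map_mul, psubst_constZ5 hVK (logA_const _), mul_zero]) hLV' (PowerSeries.coeff 1 V) (by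
      rw [PowerSeries.coeff_C_mul, hcoef _ (logA_const _), logA_one, one_mul, ← mul_assoc,
        mul_inv_cancel₀ hpK.ne_zero, one_mul])
  have hw0 : ∀ j o, w o * τ (j + exZ7 n o) = 0 := by
    intro j
    refine char_indepZ7 hn ξ _ fun b => ?_
    obtain ⟨s, κ, h1, h2⟩ := hsub _ w hw b j
    rw [← h2]
    refine hD b j s κ ?_
    have hs := PowerSeries.HasSubst.of_constantCoeff_zero'
      (mono_constZ5 (p := p) (ξ (C (WittVector.teichmuller p b))) j)
    have hs' := PowerSeries.HasSubst.of_constantCoeff_zero' (Xpow_constZ5 (p := p) (A := S) M)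
    have e1 : hser p M j (ξ (C (WittVector.teichmuller p b))) V = PowerSeries.subst
        (PowerSeries.C (ξ (C (WittVector.teichmuller p b))) * PowerSeries.X ^ (p ^ (M + j))) V := by
      rw [hser, PowerSeries.subst_comp_subst_apply hs hs', PowerSeries.subst_mul hs',
        PowerSeries.subst_pow hs', PowerSeries.subst_X hs', ← pow_mul, ← pow_add,
        PowerSeries.subst_C]
      rfl
    have hs2 : PowerSeries.HasSubst (PowerSeries.map al
        (PowerSeries.C (ξ (C (WittVector.teichmuller p b))) * PowerSeries.X ^ (p ^ (M + j)))) := by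
      rw [map_mul, map_pow, PowerSeries.map_C, PowerSeries.map_X]
      exact PowerSeries.HasSubst.of_constantCoeff_zero' (mono_constZ5 _ _)
    rw [PowerSeries.subst_mul hs2, PowerSeries.subst_C,
      PowerSeries.subst_comp_subst_apply hsV hs2, ← act_map_subst al (mono_constZ5 _ _), ← e1] at h1
    exact h1
  have hwne : ∃ o, w o ≠ 0 := by
    by_contra hcon
    push Not at hcon
    simp only [hcon, map_zero, zero_mul, Finset.sum_const_zero, sub_zero] at hw
    have h1 := hw.subst (σ := Unit)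
      (mono_constZ5 (p := p) (ξ (C (WittVector.teichmuller p (1 : kk p n)))) (M + 0))
    change Itg S 1 (σ := Unit) (PowerSeries.subst (PowerSeries.map al _) _) at h1
    have hs2 : PowerSeries.HasSubst (PowerSeries.map al (PowerSeries.C
        (ξ (C (WittVector.teichmuller p (1 : kk p n)))) * PowerSeries.X ^ (p ^ (M + 0)))) := by
      rw [map_mul, map_pow, PowerSeries.map_C, PowerSeries.map_X]
      exact PowerSeries.HasSubst.of_constantCoeff_zero' (mono_constZ5 _ _)
    rw [PowerSeries.subst_mul hs2, PowerSeries.subst_C] at h1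
    have h2 := (hVM (dint_logA ξ hp0)).C_mul ((p : FractionRing S)⁻¹)
    rw [inv_mul_cancel₀ hpK.ne_zero, ← nser_map, fg_map_map,
      cob_nser (logA_const _) (hF.log _ hpK)] at h2
    have h3 := h1.sub h2
    have h4 := (hF.q1_unique hn a hp hp0 ξ hξ 0 ((p : FractionRing S)⁻¹ * (p ^ M : ℕ)) (by
      convert h3 using 1
      simp only [Pi.zero_apply, map_zero, zero_mul, Finset.sum_const_zero, zero_add, map_mul,
        map_natCast]
      change _ = PowerSeries.C _ * _ - PowerSeries.C _ * _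
      ring)).2
    rw [mul_eq_zero, _root_.inv_eq_zero, Nat.cast_pow] at h4
    rcases h4 with h4 | h4
    · exact hpK.ne_zero h4
    · exact pow_ne_zero _ hpK.ne_zero h4
  obtain ⟨o, ho⟩ := hwne
  have hτ0 : ∀ k, τ k = 0 := by
    intro k
    have h1 := hw0 (k + n - exZ7 n o) o
    have h2 := exZ7_lt hn o
    rw [Nat.sub_add_cancel (by omega), hτn, mul_eq_zero, mul_eq_zero] at h1
    tauto
  -- the last step
  have hlam : Itg S 1 (cob (F.map (al.comp ξ)) (dlogA p n (al.comp ξ) t)) := by
    rw [hF.cob_dlog _ hpK, map_comp, RingHom.comp_apply, ← map_neg]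
    exact itg_map _
  have hlV := quasi_ofZ7 hp0 hu hV0 hV.2.2.1 (dlogA_constD _ t) (dint_dlogA ξ hp0 t)
    1 (p : S) (by simp) (by rw [fg_map_map]; exact hlam)
  rw [fg_map_map] at hlV
  obtain ⟨w', hw'⟩ := hF.expandZ7 hn a hp hp0 ξ hξ _ (psubst_constZ5 hVK (dlogA_constD _ t)) hlV 0
    (by
      rw [hcoef _ (dlogA_constD _ t), dlogA, PowerSeries.coeff_mk]
      simp [bet])
  have h1 := hsub _ w' hw' 1 0
  simp only [hτ0, mul_zero, zero_mul, Finset.sum_const_zero] at h1
  have h2 := hVM (dint_dlogA ξ hp0 t)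
  have h3 := quasi_nser (G := F.map ξ) (dlogA_constD (al.comp ξ) t)
    (by rw [fg_map_map]; exact hlam) (p ^ M)
  rw [← map_natCast al, ← one_mul (al (p : S))] at h2
  have h6 := (Itg.mono _ h2).add h3
  rw [sub_add_sub_cancel, ← map_natCast al] at h6
  have h4 := ((DecZ7.lam (ξ := ξ) (D := D) t).smul ((p ^ M : ℕ) : S)).congr h6
  have h5 := DecZ7.unique hF hn a hp hp0 hξ h4 h1
  rw [mul_eq_zero, Nat.cast_pow] at h5
  exact h5.resolve_left (pow_ne_zero _ hp0)

end Vale.Agent.P217
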