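import Vale.Agent.P217.Z6
import Vale.Agent.P217.Z7
import Vale.Agent.P217.PrQ

namespace Vale.Agent.P217

open MvPowerSeries

variable {p n : ℕ} [Fact p.Prime] {F : FormalGroup (E0 p n)}


theorem IsLT.cz (hF : IsLT p n F) (hn : 1 ≤ n) {J Q : Ideal (E0 p n)}
    (hJ : ∀ g σ, IsAut p n F g → Acts p n F (RingEquiv.refl _) g σ → ∀ x ∈ J, σ x ∈ J)
    (hQ : Q.IsPrime) (hJQ : J ≤ Q) (hp : (p : E0 p n) ∉ Q)
    (hN : ∃ N, mm p n ^ N ≤ Q ⊔ Ideal.span {(p : E0 p n)}) {f : E0 p n} (hf : f ∈ J)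
    (i : Fin (n - 1)) : pderiv (WW p n) i f ∈ Q := by
  obtain ⟨N, hN⟩ := hN
  have hcomp := quot_complete p n Q
  set ξ : E0 p n →+* E0 p n ⧸ Q := Ideal.Quotient.mk Q with hξdef
  set a : Ideal (E0 p n ⧸ Q) := (mm p n).map ξ with hadef
  have hξ : Cts p n a ξ := fun x hx => Ideal.mem_map_of_mem ξ hx
  have hpa : ((p : ℕ) : E0 p n ⧸ Q) ∈ a := by
    have h2 := hξ _ (p_mem_Cpl p n)
    rwa [map_natCast] at h2
  have hp0 : ((p : ℕ) : E0 p n ⧸ Q) ≠ 0 := by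
    intro h0
    apply hp
    rw [← Ideal.Quotient.eq_zero_iff_mem, map_natCast]
    exact h0
  have hNa : a ^ N ≤ Ideal.span {((p : ℕ) : E0 p n ⧸ Q)} := by
    have h2 := Ideal.map_mono (f := ξ) hN
    rw [Ideal.map_pow, Ideal.map_sup, Ideal.map_quotient_self, bot_sup_eq, Ideal.map_span,
      Set.image_singleton, map_natCast] at h2
    exact h2
  have hat : a ≠ ⊤ := by
    intro h0
    have h2 : (1 : E0 p n ⧸ Q) ∈ a := by rw [h0]; trivial
    rw [hadef, Ideal.mem_map_iff_of_surjective ξ Ideal.Quotient.mk_surjective] at h2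
    obtain ⟨y, hy, hy1⟩ := h2
    have h3 : y - 1 ∈ Q := by
      rw [← Ideal.Quotient.eq, map_one]
      exact hy1
    have h4 := (mm p n).sub_mem hy (le_mm p n hQ.ne_top h3)
    rw [sub_sub_cancel] at h4
    exact (mm_isMaximal p n).ne_top ((Ideal.eq_top_iff_one _).mpr h4)
  obtain ⟨M, V, hV⟩ := hF.exists_verSpec hn a hat hpa N hNa ξ hξ
  have hfQ : ξ f = 0 := Ideal.Quotient.eq_zero_iff_mem.mpr (hJQ hf)
  have key := hF.span_tau hn a hpa hp0 ξ hξ hV (fun t => ξ (pderiv (WW p n) t f))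
    (fun b j s κ hs => by
      obtain ⟨h0, hh⟩ := hF.hser_hom hn hV b j
      refine hF.tau hn a hpa hp0 ξ hξ N hNa h0 hh f hfQ (fun r hr => ?_) s κ hs
      obtain ⟨g, σ, hg, hσ, hX, hc⟩ := hF.move hn a hpa hp0 ξ hξ N hNa hV b j r hr
      refine ⟨ξ.comp (σ : E0 p n →+* E0 p n), fun x hx => hξ _ (aut_mm p n σ hx), fun w => ?_,
        Ideal.Quotient.eq_zero_iff_mem.mpr (hJQ (hJ g σ hg hσ f hf)), hX, hc⟩
      have h2 : (ξ.comp (σ : E0 p n →+* E0 p n)) (C w) = ξ (σ (C w)) := rfl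
      rw [h2, hσ.1]
      rfl) i
  exact Ideal.Quotient.eq_zero_iff_mem.mp key

theorem exists_colon_CZ {A : Type} [CommRing A] (J : Ideal A) (a : A) :
    ∃ J1 : Ideal A, ∀ f, f ∈ J1 ↔ a * f ∈ J :=
  ⟨J.colon {a}, fun f => by
    rw [Submodule.mem_colon_singleton, smul_eq_mul, mul_comm]⟩

theorem pderiv_p_CZ {A σ : Type} [CommRing A] (m : ℕ) (i : σ) (f : MvPowerSeries σ A) :
    pderiv A i ((m : MvPowerSeries σ A) * f) = (m : MvPowerSeries σ A) * pderiv A i f := by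
  rw [← nsmul_eq_mul, map_nsmul, nsmul_eq_mul]

theorem IsLT.char0 (hF : IsLT p n F) (hn : 1 ≤ n) {J : Ideal (E0 p n)} (hJ : Inv p n F J)
    (hrad : J.IsRadical) (hp : (p : E0 p n) ∉ J) : J = ⊥ := by
  have hJ' : ∀ g σ, IsAut p n F g → Acts p n F (RingEquiv.refl _) g σ → ∀ x ∈ J, σ x ∈ J := by
    intro g σ hg hσ x hx
    rw [← hJ _ g σ hg hσ]
    exact Ideal.mem_map_of_mem (σ : E0 p n →+* E0 p n) hx
  obtain ⟨J1, hmem⟩ := exists_colon_CZ J (p : E0 p n)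
  obtain ⟨Q0, hQ0, hJQ0, hpQ0, -⟩ := exists_primeQ J (p : E0 p n) (p_mem_Cpl p n)
    (fun h => hp (hrad h))
  have hbot : J1 = ⊥ := by
    refine eq_bot_of_pderiv J1 Q0 hQ0 hpQ0
      (fun f hf => (hQ0.mem_or_mem (hJQ0 ((hmem f).mp hf))).resolve_left hpQ0) (fun f hf => ?_)
      (fun f hf i => ?_)
    · rw [hmem] at hf ⊢
      refine hrad ⟨2, ?_⟩
      have h2 : ((p : E0 p n) * f) ^ 2 = f * ((p : E0 p n) * ((p : E0 p n) * f)) := by ring
      rw [h2]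
      exact J.mul_mem_left f hf
    · rw [hmem] at hf ⊢
      by_contra hs
      obtain ⟨Q, hQ, hJQ, hsQ, ⟨N, hN⟩, -⟩ := exists_primeQ J
        ((p : E0 p n) * pderiv (WW p n) i f) ((mm p n).mul_mem_right _ (p_mem_Cpl p n))
        (fun h => hs (hrad h))
      have hpQ : (p : E0 p n) ∉ Q := fun h => hsQ (Q.mul_mem_right _ h)
      have hN' : mm p n ^ N ≤ Q ⊔ Ideal.span {(p : E0 p n)} := by
        refine hN.trans (sup_le_sup_left ?_ Q)
        rw [Ideal.span_singleton_le_iff_mem]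
        exact Ideal.mul_mem_right _ _ (Ideal.mem_span_singleton_self _)
      have h2 := hF.cz hn hJ' hQ hJQ hpQ ⟨N, hN'⟩ hf i
      rw [pderiv_p_CZ] at h2
      exact hsQ h2
  rw [eq_bot_iff, ← hbot]
  intro f hf
  exact (hmem f).mpr (J.mul_mem_left _ hf)

end Vale.Agent.P217
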