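import Vale.Agent.P217.Wit

namespace Vale.Agent.P217

open MvPowerSeries

variable {L : Type} [NormedField L] [IsUltrametricDist L]

variable {p : ℕ} [Fact p.Prime] [CharP L p] [PerfectRing L p]


theorem bW_digits (q E : ℕ) {m : ℕ} (α : Fin m → WittVector p L) (z : Fin m → L) :
    (p : WittVector p L) ^ (E + 1) ∣ bW p q E α z - ∑ e ∈ Finset.range (E + 1),
      (p : WittVector p L) ^ (E - e) * ∑ i, ∑ l ∈ Finset.range (E + 1 - e),
        WittVector.teichmuller p (dg p l (α i) * z i ^ (q ^ (l + e))) := by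
  have key : ∀ (a : WittVector p L) (x : L), (p : WittVector p L) ^ (E + 1) ∣
      a * hW p q E x - ∑ e ∈ Finset.range (E + 1), ∑ l ∈ Finset.range (E + 1 - e),
        (p : WittVector p L) ^ (E - e) *
          WittVector.teichmuller p (dg p l a * x ^ (q ^ (l + e))) := by
    intro a x
    rw [← Finset.sum_range_diag_flip (E + 1) (fun e l => (p : WittVector p L) ^ (E - e) *
      WittVector.teichmuller p (dg p l a * x ^ (q ^ (l + e)))), hW, Finset.mul_sum,
      ← Finset.sum_sub_distrib]
    refine Finset.dvd_sum fun e he => ?_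
    have he' : e ≤ E := Nat.lt_succ_iff.1 (Finset.mem_range.1 he)
    have h1 := mul_dvd_mul_left ((p : WittVector p L) ^ (E - e)) (dvd_sub_digits e a)
    rw [← pow_add, show E - e + (e + 1) = E + 1 by omega] at h1
    refine (h1.mul_right (WittVector.teichmuller p (x ^ q ^ e))).trans (dvd_of_eq ?_)
    rw [mul_sub, sub_mul, ← Finset.sum_flip, Finset.mul_sum, Finset.sum_mul]
    congr 1
    · ring
    · refine Finset.sum_congr rfl fun k hk => ?_
      have hk' : k ≤ e := Nat.lt_succ_iff.1 (Finset.mem_range.1 hk)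
      rw [Nat.sub_add_cancel hk', map_mul, show E - k = E - e + (e - k) by omega, pow_add]
      ring
  have h2 := Finset.dvd_sum (s := Finset.univ) fun i _ => key (α i) (z i)
  refine h2.trans (dvd_of_eq ?_)
  rw [Finset.sum_sub_distrib, bW, Finset.sum_comm]
  simp only [Finset.mul_sum]

theorem dg_pow_Car (k : ℕ) (x : WittVector p L) :
    dg p k ((p : WittVector p L) ^ k * x) = dg p 0 x := by
  induction k with
  | zero => rw [pow_zero, one_mul]
  | succ k ih => rw [pow_succ', mul_assoc, dg_p_mul_succ, ih]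

theorem dg_sum_Car {ι : Type} (s : Finset ι) (x : ι → WittVector p L) :
    dg p 0 (∑ i ∈ s, x i) = ∑ i ∈ s, dg p 0 (x i) := by
  classical
  induction s using Finset.induction_on with
  | empty =>
    have := dg_zero_add (p := p) (0 : WittVector p L) 0
    rw [add_zero] at this
    simpa using this
  | insert a s ha ih => rw [Finset.sum_insert ha, Finset.sum_insert ha, dg_zero_add, ih]

theorem dg_teich_Car (c : L) : dg p 0 (WittVector.teichmuller p c) = c := by
  simpa using dg_sum_teich (p := p) (le_refl 0) (fun _ => c)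

theorem carry (q E : ℕ) {m : ℕ} (α : Fin m → WittVector p L) (z : Fin m → L) {e : ℕ} (he : e ≤ E)
    {B : ℝ} (hB : 0 ≤ B)
    (h : ∀ i l e', e < e' → l + e' ≤ E → ‖dg p l (α i)‖ * ‖z i‖ ^ (q ^ (l + e')) ≤ B) :
    ‖dg p (E - e) (bW p q E α z) -
      ∑ i, ∑ l ∈ Finset.range (E + 1 - e), dg p l (α i) * z i ^ (q ^ (l + e))‖ ≤ B := by
  set S : ℕ → WittVector p L := fun e => ∑ i, ∑ l ∈ Finset.range (E + 1 - e),
    WittVector.teichmuller p (dg p l (α i) * z i ^ (q ^ (l + e))) with hS
  set U := ∑ e' ∈ Finset.Ico (e + 1) (E + 1), (p : WittVector p L) ^ (E - e') * S e' with hU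
  have h1 : dg p (E - e) (bW p q E α z) =
      dg p (E - e) (U + (p : WittVector p L) ^ (E - e) * S e) := by
    rw [dg_congr (Nat.sub_le E e) (bW_digits q E α z)]
    refine dg_congr le_rfl ?_
    rw [← Finset.sum_range_add_sum_Ico _ (show e + 1 ≤ E + 1 by omega), Finset.sum_range_succ,
      show ∀ a b c : WittVector p L, a + b + c - (c + b) = a from fun a b c => by ring]
    refine Finset.dvd_sum fun e' he' => Dvd.dvd.mul_right (pow_dvd_pow _ ?_) _
    have := Finset.mem_range.1 he'
    omega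
  have hUs : ∀ k, Sm p k B U := fun k => by
    refine sm_sum hB _ _ fun e' he' => ?_
    rw [Finset.mem_Ico] at he'
    rw [← one_mul B]
    refine (sm_p_pow k _).mul (sm_sum hB _ _ fun i _ => sm_sum hB _ _ fun l hl => ?_)
    refine (sm_teich k _).mono le_rfl ?_
    rw [norm_mul, norm_pow]
    have := Finset.mem_range.1 hl
    exact h i l e' (by omega) (by omega)
  have h2 : dg p (E - e) ((p : WittVector p L) ^ (E - e) * S e) =
      ∑ i, ∑ l ∈ Finset.range (E + 1 - e), dg p l (α i) * z i ^ (q ^ (l + e)) := by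
    rw [dg_pow_Car, hS]
    simp only [dg_sum_Car, dg_teich_Car]
  rw [h1, ← h2]
  generalize E - e = k
  cases k with
  | zero => rw [dg_zero_add, add_sub_cancel_right]; exact hUs 0 0 le_rfl
  | succ k =>
    have h3 := dg_add_le (hUs k) ((sm_of_dvd (E := k) (Dvd.intro (S e) rfl)).mono le_rfl hB)
    have h4 := hUs (k + 1) (k + 1) le_rfl
    have h5 := IsUltrametricDist.norm_add_le_max
      (dg p (k + 1) (U + (p : WittVector p L) ^ (k + 1) * S e) - dg p (k + 1) U -
        dg p (k + 1) ((p : WittVector p L) ^ (k + 1) * S e)) (dg p (k + 1) U)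
    rw [show ∀ a b c : L, a - b - c + b = a - c from fun a b c => by ring] at h5
    exact h5.trans (max_le h3 h4)

theorem bW_shift (q E : ℕ) {m : ℕ} (α : Fin m → WittVector p L) (hα : ∀ i, Sm p E 1 (α i))
    (z : Fin m → L) {δ : ℝ} (hδ : 0 ≤ δ) (hz : ∀ i, ‖z i‖ ^ (q ^ (E + 1)) ≤ δ) :
    Sm p E δ (bW p q E α (fun i => z i ^ q) - (p : WittVector p L) * bW p q E α z) := by
  have key : ∀ x : L, hW p q E (x ^ q) - (p : WittVector p L) * hW p q E x =
      WittVector.teichmuller p (x ^ (q ^ (E + 1))) -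
        (p : WittVector p L) ^ (E + 1) * WittVector.teichmuller p x := fun x => by
    have := Finset.sum_range_sub (fun e => (p : WittVector p L) ^ (E + 1 - e) *
      WittVector.teichmuller p (x ^ (q ^ e))) (E + 1)
    simp only [Nat.sub_self, pow_zero, one_mul, Nat.sub_zero, pow_one] at this
    rw [← this, hW, hW, Finset.mul_sum, ← Finset.sum_sub_distrib]
    refine Finset.sum_congr rfl fun e he => ?_
    have he' : e ≤ E := Nat.lt_succ_iff.1 (Finset.mem_range.1 he)
    rw [← pow_mul, ← pow_succ', show E + 1 - (e + 1) = E - e by omega,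
      show E + 1 - e = E - e + 1 by omega, pow_succ' _ (E - e), mul_assoc]
  rw [bW, bW, Finset.mul_sum, ← Finset.sum_sub_distrib]
  refine sm_sum hδ _ _ fun i _ => ?_
  rw [mul_left_comm, ← mul_sub, key, ← one_mul δ]
  refine (hα i).mul (((sm_teich E _).mono le_rfl ?_).sub
    ((sm_of_dvd (Dvd.intro _ rfl)).mono le_rfl hδ))
  rw [norm_pow]; exact hz i

theorem bW_sub (q E : ℕ) {m : ℕ} (α : Fin m → WittVector p L) {ι : Type} (s : Finset ι)
    (γ : ι → WittVector p L) (β : ι → Fin m → WittVector p L) (z : Fin m → L) :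
    bW p q E (fun i => α i - ∑ t ∈ s, γ t * β t i) z =
      bW p q E α z - ∑ t ∈ s, γ t * bW p q E (β t) z := by
  simp only [bW, sub_mul, Finset.sum_sub_distrib, Finset.sum_mul, Finset.mul_sum, mul_assoc]
  rw [Finset.sum_comm]

end Vale.Agent.P217
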