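import Vale.Agent.P217.CZ
import Vale.Agent.P217.CP

namespace Vale.Agent.P217

open MvPowerSeries

variable {p n : ℕ} [Fact p.Prime] {F : FormalGroup (E0 p n)}


theorem IsLT.radical_iff (hF : IsLT p n F) (hn : 1 ≤ n) (J : Ideal (E0 p n)) :
    (J.IsRadical ∧ Inv p n F J) ↔ (J = ⊤ ∨ ∃ h ≤ n, J = II p n h) := by
  constructor
  · rintro ⟨hr, hi⟩
    by_cases ht : J = ⊤
    · exact Or.inl ht
    right
    by_cases hp : (p : E0 p n) ∈ J
    · have key : ∀ d h, h + d = n → 1 ≤ h → II p n h ≤ J → ∃ h ≤ n, J = II p n h := by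
        intro d
        induction d with
        | zero =>
          intro h e _ hI
          rw [add_zero] at e
          subst e
          exact ⟨h, le_rfl, le_antisymm (by rw [II_top p h hn]; exact le_mm p h ht) hI⟩
        | succ d ih =>
          intro h e h1 hI
          by_cases hv : vv p n h ∈ J
          · refine ih (h + 1) (by omega) (by omega) ?_
            rw [II_succ h1]
            exact sup_le hI ((Ideal.span_singleton_le_iff_mem J).2 hv)
          · exact ⟨h, by omega, le_antisymm (hF.cp h1 (by omega) hi hI (by rwa [hr.radical])) hI⟩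
      refine key (n - 1) 1 (by omega) le_rfl ?_
      rw [II, if_neg one_ne_zero, Ideal.span_le]
      rintro x (rfl | ⟨i, h1, h2, -⟩)
      · exact hp
      · omega
    · exact ⟨0, Nat.zero_le _, by rw [hF.char0 hn hi hr hp, II, if_pos rfl]⟩
  · rintro (rfl | ⟨h, hh, rfl⟩)
    · exact ⟨fun _ _ => Submodule.mem_top, fun _ _ _ _ _ => Ideal.map_top _⟩
    · exact ⟨(II_prime hh).isRadical, hF.inv_II hh⟩

theorem IsLT.prime_iff (hF : IsLT p n F) (hn : 1 ≤ n) (P : Ideal (E0 p n)) :
    (P.IsPrime ∧ Inv p n F P) ↔ ∃ h ≤ n, P = II p n h := by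
  constructor
  · rintro ⟨hr, hi⟩
    exact ((hF.radical_iff hn P).1 ⟨hr.isRadical, hi⟩).resolve_left hr.ne_top
  · rintro ⟨h, hh, rfl⟩
    exact ⟨II_prime hh, hF.inv_II hh⟩

end Vale.Agent.P217
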