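import Vale.Agent.P217.Iso
import Vale.Agent.P217.Tay
import Vale.Agent.P217.Def3

namespace Vale.Agent.P217

open MvPowerSeries

variable {A : Type} [CommRing A]

/-- substitution is additive on points -/
noncomputable def nfa_subH {σ τ : Type} (G : FormalGroup A) {c : σ → MvPowerSeries τ A}
    (hc : HasSubst c) : G.Point σ →+ G.Point τ where
  toFun x := ⟨subst c x.val, IsNilpotent_subst hc x.prop⟩
  map_zero' := Subtype.ext (by
    show subst c (0 : MvPowerSeries σ A) = 0
    rw [← coe_substAlgHom hc, map_zero])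
  map_add' x y := Subtype.ext (hom_sub2 x.prop y.prop hc G.toPowerSeries)

theorem nfa_subH_val {σ τ : Type} (G : FormalGroup A) {c : σ → MvPowerSeries τ A}
    (hc : HasSubst c) (x : G.Point σ) : (nfa_subH G hc x).val = subst c x.val := rfl

/-- base change is additive on points -/
noncomputable def nfa_mapH {B σ : Type} [CommRing B] (f : A →+* B) (G : FormalGroup A) :
    G.Point σ →+ (G.map f).Point σ where
  toFun x := ⟨map f x.val, (x.prop.const.map f).const_coeff ()⟩
  map_zero' := Subtype.ext (map_zero (map f))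
  map_add' x y := Subtype.ext (hom_map2 x.prop y.prop f G.toPowerSeries)

theorem nfa_mapH_val {B σ : Type} [CommRing B] (f : A →+* B) (G : FormalGroup A)
    (x : G.Point σ) : (nfa_mapH f G x).val = map f x.val := rfl

theorem nfa_subH_ptC (G : FormalGroup A) {c : Unit → PowerSeries A}
    (hc : HasSubst c) (t : A) (ht : IsNilpotent t) : nfa_subH G hc (ptC G t ht) = ptC G t ht :=
  Subtype.ext (subst_C t)

theorem nfa_nsmul {σ : Type} (G : FormalGroup A) (x : G.Point σ) (c : ℕ) :
    (c • x).val = PowerSeries.subst x.val (nser G c) := by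
  induction c with
  | zero =>
    rw [zero_nsmul, nser, ← PowerSeries.coe_substAlgHom x.prop, map_zero]
    rfl
  | succ c ih =>
    rw [succ_nsmul, FormalGroup.add_apply, ih, nser,
      hom_sub2' (hom_hsN G c) PowerSeries.HasSubst.X' x.prop, PowerSeries.subst_X x.prop]

theorem sum_ptC (G : FormalGroup A) [G.IsComm] {m : ℕ} (t : Fin m → A) (ht : ∀ i, IsNilpotent (t i))
    (b : Fin m → ℕ) :
    ∃ s, IsNilpotent s ∧ (∑ i, b i • ptC G (t i) (ht i)).val = PowerSeries.C s := by
  refine ⟨constantCoeff (∑ i, b i • ptC G (t i) (ht i)).val,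
    (∑ i, b i • ptC G (t i) (ht i)).prop, ?_⟩
  have h0 : HasSubst (0 : Unit → PowerSeries A) := HasSubst.zero
  have h : nfa_subH G h0 (∑ i, b i • ptC G (t i) (ht i)) = ∑ i, b i • ptC G (t i) (ht i) := by
    rw [map_sum]
    refine Finset.sum_congr rfl fun i _ => ?_
    rw [map_nsmul, nfa_subH_ptC]
  have h1 := congrArg Subtype.val h
  rw [nfa_subH_val, subst_zero_eq_C_constantCoeff, map_C] at h1
  exact h1.symm

theorem Nser_const (G : FormalGroup A) [G.IsComm] {m : ℕ} (t : Fin m → A)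
    (ht : ∀ i, IsNilpotent (t i)) {K : ℕ} (hK : 1 ≤ K) :
    PowerSeries.constantCoeff (Nser G t ht K) = 0 := by
  rw [Nser, map_prod]
  refine Finset.prod_eq_zero (Finset.mem_univ (fun _ => ⟨0, hK⟩)) ?_
  simp only [zero_nsmul, Finset.sum_const_zero, add_zero]
  exact PowerSeries.constantCoeff_X

theorem Nser_map {B : Type} [CommRing B] (f : A →+* B) (G : FormalGroup A) [G.IsComm] {m : ℕ}
    (t : Fin m → A) (ht : ∀ i, IsNilpotent (t i)) (G' : FormalGroup B) [G'.IsComm]
    (hG : G' = G.map f) (t' : Fin m → B) (ht' : ∀ i, IsNilpotent (t' i)) (h : ∀ i, t' i = f (t i))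
    (K : ℕ) : PowerSeries.map f (Nser G t ht K) = Nser G' t' ht' K := by
  subst hG
  rw [Nser, Nser, map_prod]
  refine Finset.prod_congr rfl fun a _ => ?_
  have h1 : nfa_mapH f G (ptX G + ∑ i, (a i : ℕ) • ptC G (t i) (ht i)) =
      ptX (G.map f) + ∑ i, (a i : ℕ) • ptC (G.map f) (t' i) (ht' i) := by
    rw [map_add, map_sum]
    congr 1
    · exact Subtype.ext (PowerSeries.map_X f)
    · refine Finset.sum_congr rfl fun i _ => ?_
      rw [map_nsmul]
      congr 1
      refine Subtype.ext ?_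
      show PowerSeries.map f (PowerSeries.C (t i)) = PowerSeries.C (t' i)
      rw [PowerSeries.map_C, h]
  exact congrArg Subtype.val h1

theorem Nser_red (a : Ideal A) (G : FormalGroup A) [G.IsComm] {m : ℕ} (t : Fin m → A)
    (ht : ∀ i, IsNilpotent (t i)) (hta : ∀ i, t i ∈ a) (K : ℕ) :
    CoefIn a (Nser G t ht K - PowerSeries.X ^ (K ^ m)) := by
  rw [coefIn_iff_map]
  have h := Nser_map (Ideal.Quotient.mk a) G t ht (G.map (Ideal.Quotient.mk a)) rfl
    (fun _ => 0) (fun _ => IsNilpotent.zero)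
    (fun i => (Ideal.Quotient.eq_zero_iff_mem.2 (hta i)).symm) K
  have h0 : ptC (G.map (Ideal.Quotient.mk a)) 0 IsNilpotent.zero = 0 :=
    Subtype.ext (map_zero PowerSeries.C)
  refine h.trans ?_
  rw [Nser]
  simp only [h0, nsmul_zero, Finset.sum_const_zero, add_zero, Finset.prod_const, Finset.card_univ,
    Fintype.card_fun, Fintype.card_fin]
  show (PowerSeries.X : PowerSeries (A ⧸ a)) ^ (K ^ m) =
    PowerSeries.map (Ideal.Quotient.mk a) (PowerSeries.X ^ (K ^ m))
  rw [map_pow, PowerSeries.map_X]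

theorem Nser_transl (G : FormalGroup A) [G.IsComm] {m : ℕ} (t : Fin m → A)
    (ht : ∀ i, IsNilpotent (t i)) {K : ℕ} (hK : 1 ≤ K) (hKt : ∀ i, K • ptC G (t i) (ht i) = 0)
    (b : Fin m → ℕ) :
    PowerSeries.subst (ptX G + ∑ i, b i • ptC G (t i) (ht i)).val (Nser G t ht K) =
      Nser G t ht K := by
  have : NeZero K := ⟨by omega⟩
  set T := ptX G + ∑ i, b i • ptC G (t i) (ht i) with hT
  have hs := T.prop
  rw [Nser, ← PowerSeries.coe_substAlgHom hs, map_prod]
  refine Fintype.prod_equiv (Equiv.addRight (fun i => Fin.ofNat K (b i))) _ _ fun a => ?_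
  have h1 : nfa_subH G hs.const (ptX G + ∑ i, (a i : ℕ) • ptC G (t i) (ht i)) =
      ptX G + ∑ i, (((Equiv.addRight (fun i => Fin.ofNat K (b i))) a) i : ℕ) •
        ptC G (t i) (ht i) := by
    rw [map_add, map_sum]
    have h2 : nfa_subH G hs.const (ptX G) = ptX G + ∑ i, b i • ptC G (t i) (ht i) :=
      Subtype.ext (PowerSeries.subst_X hs)
    rw [h2, add_assoc, ← Finset.sum_add_distrib]
    congr 1
    refine Finset.sum_congr rfl fun i _ => ?_
    rw [map_nsmul, nfa_subH_ptC, ← add_nsmul, nsmul_eq_mod_nsmul _ (hKt i)]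
    congr 1
    simp [Fin.val_add, add_comm]
  rw [PowerSeries.coe_substAlgHom]
  exact congrArg Subtype.val h1

theorem nsmul_ptC (G : FormalGroup A) (t : A) (ht : IsNilpotent t) (c : ℕ) :
    (c • ptC G t ht).val = PowerSeries.subst (PowerSeries.C t : PowerSeries A) (nser G c) :=
  nfa_nsmul G (ptC G t ht) c

theorem nfa_nser_pow (G : FormalGroup A) (p q : ℕ) (hq : q ≠ 0)
    (hp : nser G p = PowerSeries.X ^ q) (e : ℕ) : nser G (p ^ e) = PowerSeries.X ^ (q ^ e) := by
  induction e with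
  | zero => rw [pow_zero, pow_zero, pow_one, nser_one]
  | succ e ih =>
    have hs : PowerSeries.HasSubst (PowerSeries.X ^ (q ^ e) : PowerSeries A) :=
      PowerSeries.HasSubst.X_pow (pow_ne_zero e hq)
    rw [pow_succ, nser_mul, ih, hp, PowerSeries.subst_pow hs, PowerSeries.subst_X hs, ← pow_mul,
      ← pow_succ]

theorem nfa_hsC (m : ℕ) (κ : Type) [CommRing κ] (M : ℕ) :
    HasSubst (fun i => (C (tB m κ M i) : MvPowerSeries Unit (Bq m κ M))) :=
  hasSubst_of_constantCoeff_nilpotent fun i => by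
    rw [constantCoeff_C]; exact tB_nil m κ M i

theorem nfa_ev (m : ℕ) (κ : Type) [CommRing κ] (M : ℕ) (f : MvPowerSeries (Fin m) κ) :
    subst (fun i => (C (tB m κ M i) : MvPowerSeries Unit (Bq m κ M))) (map (iB m κ M) f) =
      C (Ideal.Quotient.mk _ f) := by
  have hs := nfa_hsC m κ M
  let θ : MvPowerSeries (Fin m) κ →+* MvPowerSeries Unit (Bq m κ M) :=
    (substAlgHom (R := Bq m κ M) hs).toRingHom.comp (map (iB m κ M))
  have hθ : ∀ g, θ g = subst (fun i => (C (tB m κ M i) : MvPowerSeries Unit (Bq m κ M)))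
      (map (iB m κ M) g) := fun g => substAlgHom_apply hs _
  have hpoly : ∀ P : MvPolynomial (Fin m) κ, θ P = C (Ideal.Quotient.mk _ (P : MvPowerSeries _ κ)) := by
    intro P
    induction P using MvPolynomial.induction_on with
    | C a => rw [MvPolynomial.coe_C, hθ, map_C, subst_C]; rfl
    | add P Q hP hQ => rw [MvPolynomial.coe_add, map_add, hP, hQ, map_add, map_add]
    | mul_X P i hP =>
      rw [MvPolynomial.coe_mul, MvPolynomial.coe_X, map_mul, hP, map_mul, map_mul, hθ, map_X,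
        subst_X hs]
      rfl
  have hker : ∀ g ∈ ordI (Fin m) κ M, θ g = 0 := by
    intro g hg
    refine MvPowerSeries.ext fun e => ?_
    rw [hθ, coeff_subst hs, map_zero]
    refine finsum_eq_zero_of_forall_eq_zero fun d => ?_
    by_cases hd : Finsupp.degree d < M
    · have h1 : coeff d g = 0 := coeff_of_lt_order (lt_of_lt_of_le (by exact_mod_cast hd) hg)
      rw [coeff_map, h1, map_zero, smul_eq_mul, zero_mul]
    · have h1 : (d.prod fun s k => (C (tB m κ M s) : MvPowerSeries Unit (Bq m κ M)) ^ k) =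
          C (Ideal.Quotient.mk _ (monomial d (1 : κ))) := by
        rw [monomial_one_eq, map_finsuppProd, map_finsuppProd]
        refine Finsupp.prod_congr fun s _ => ?_
        rw [map_pow, map_pow]
        rfl
      have h2 : monomial d (1 : κ) ∈ ordI (Fin m) κ M := by
        refine nat_le_order fun d' hd' => coeff_monomial_ne ?_ _
        rintro rfl
        exact hd hd'
      rw [h1, Ideal.Quotient.eq_zero_iff_mem.2 h2, map_zero, map_zero, smul_zero]
  have hg : f - (truncTotal M f : MvPolynomial (Fin m) κ) ∈ ordI (Fin m) κ M := by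
    refine nat_le_order fun d hd => ?_
    rw [map_sub, MvPolynomial.coeff_coe, coeff_truncTotal _ hd, sub_self]
  have h1 := hker _ hg
  rw [map_sub, hpoly, sub_eq_zero] at h1
  rw [← hθ, h1, Ideal.Quotient.eq.2 hg]

theorem nfa_order_one {κ : Type} [Field κ] (Γ : FormalGroup κ) [Γ.IsComm] {m : ℕ}
    (x : Fin m → Γ.Point (Fin m)) (hx : ∀ i, (x i).val = X i) (β β' : Fin m → ℕ) (i : Fin m)
    (hi : (β i : κ) ≠ (β' i : κ)) :
    ((∑ j, β j • x j).val - (∑ j, β' j • x j).val).order = 1 := by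
  classical
  have hc : ∀ y : Γ.Point (Fin m), constantCoeff y.val = 0 := fun y => y.prop.eq_zero
  refine le_antisymm ?_ (one_le_order_iff_constCoeff_eq_zero.2 (by rw [map_sub, hc, hc, sub_self]))
  let c : Fin m → MvPowerSeries Unit κ := fun j => if j = i then X () else 0
  have hc0 : ∀ j, constantCoeff (c j) = 0 := fun j => by
    by_cases h : j = i <;> simp [c, h]
  have hs : HasSubst c := hasSubst_of_constantCoeff_zero hc0
  have hsum : ∀ γ : Fin m → ℕ, subst c (∑ j, γ j • x j).val = nser Γ (γ i) := by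
    intro γ
    have h1 : nfa_subH Γ hs (∑ j, γ j • x j) = γ i • ptX Γ := by
      rw [map_sum, Finset.sum_eq_single i]
      · rw [map_nsmul]
        congr 1
        refine Subtype.ext ?_
        rw [nfa_subH_val, hx, subst_X hs]
        simp only [c, if_true]
        rfl
      · intro j _ hj
        have h2 : nfa_subH Γ hs (x j) = 0 := by
          refine Subtype.ext ?_
          rw [nfa_subH_val, hx, subst_X hs]
          simp only [c, if_neg hj]
          rfl
        rw [map_nsmul, h2, nsmul_zero]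
      · intro h
        exact absurd (Finset.mem_univ i) h
    have h2 := congrArg Subtype.val h1
    rw [nfa_subH_val, nfa_nsmul] at h2
    exact h2.trans (PowerSeries.X_subst _)
  have h1 : (1 : ℕ∞) ≤ ⨅ j, (c j).order :=
    le_iInf fun j => one_le_order_iff_constCoeff_eq_zero.2 (hc0 j)
  have h2 := le_order_subst hs ((∑ j, β j • x j).val - (∑ j, β' j • x j).val)
  rw [subst_sub hs, hsum, hsum] at h2
  have h3 : coeff (Finsupp.single () 1) (nser Γ (β i) - nser Γ (β' i)) ≠ 0 := by
    have h4 : PowerSeries.coeff 1 (nser Γ (β i) - nser Γ (β' i)) ≠ 0 := by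
      rw [map_sub, nser_coeff_one, nser_coeff_one]
      exact sub_ne_zero.2 hi
    exact h4
  have h5 := order_le h3
  rw [Finsupp.degree_single, Nat.cast_one] at h5
  refine le_trans ?_ (h2.trans h5)
  exact le_mul_of_one_le_left' h1

theorem sum_ptC_order {κ : Type} [Field κ] (p : ℕ) [Fact p.Prime] [CharP κ p] {n : ℕ}
    (Γ : FormalGroup κ) [Γ.IsComm] (hp : nser Γ p = PowerSeries.X ^ (p ^ n)) {m : ℕ} (M : ℕ)
    (b b' : Fin m → ℕ) (e : ℕ) (h1 : ∀ i, (p : ℤ) ^ e ∣ (b i : ℤ) - (b' i : ℤ))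
    (h2 : ∃ i, ¬ (p : ℤ) ^ (e + 1) ∣ (b i : ℤ) - (b' i : ℤ)) (s s' : Bq m κ M)
    (hs : (∑ i, b i • ptC (Γ.map (iB m κ M)) (tB m κ M i) (tB_nil m κ M i)).val = PowerSeries.C s)
    (hs' : (∑ i, b' i • ptC (Γ.map (iB m κ M)) (tB m κ M i) (tB_nil m κ M i)).val =
      PowerSeries.C s') :
    ∃ (u : Bq m κ M) (w : MvPowerSeries (Fin m) κ), IsUnit u ∧
      w.order = (((p ^ n) ^ e : ℕ) : ℕ∞) ∧ s - s' = u * Ideal.Quotient.mk _ w := by
  have hp0 : p ≠ 0 := (Fact.out : p.Prime).ne_zero
  let x : Fin m → Γ.Point (Fin m) := fun i => ⟨X i, PowerSeries.HasSubst.X i⟩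
  have hx : ∀ i, (x i).val = X i := fun i => rfl
  have key : ∀ (γ : Fin m → ℕ) (r : Bq m κ M),
      (∑ i, γ i • ptC (Γ.map (iB m κ M)) (tB m κ M i) (tB_nil m κ M i)).val = PowerSeries.C r →
      r = Ideal.Quotient.mk _ (∑ i, γ i • x i).val := by
    intro γ r hr
    have h3 : nfa_subH _ (nfa_hsC m κ M) (nfa_mapH (iB m κ M) Γ (∑ i, γ i • x i)) =
        ∑ i, γ i • ptC (Γ.map (iB m κ M)) (tB m κ M i) (tB_nil m κ M i) := by
      rw [map_sum, map_sum]
      refine Finset.sum_congr rfl fun i _ => ?_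
      rw [map_nsmul, map_nsmul]
      congr 1
      refine Subtype.ext ?_
      rw [nfa_subH_val, nfa_mapH_val, hx, map_X, subst_X (nfa_hsC m κ M)]
      rfl
    have h4 := congrArg Subtype.val h3
    rw [nfa_subH_val, nfa_mapH_val, nfa_ev, hr] at h4
    exact (C_injective h4).symm
  have hd : ∀ i, ∃ c β β' : ℕ, b i = p ^ e * β + c ∧ b' i = p ^ e * β' + c := by
    intro i
    rcases le_total (b' i) (b i) with h | h
    · obtain ⟨β, hβ⟩ : p ^ e ∣ b i - b' i := by
        have h3 := h1 i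
        rw [← Nat.cast_sub h] at h3
        exact_mod_cast h3
      exact ⟨b' i, β, 0, by omega, by simp⟩
    · obtain ⟨β, hβ⟩ : p ^ e ∣ b' i - b i := by
        have h3 := (h1 i).neg_right
        rw [neg_sub, ← Nat.cast_sub h] at h3
        exact_mod_cast h3
      exact ⟨b i, 0, β, by simp, by omega⟩
  choose c β β' hb hb' using hd
  obtain ⟨i, hi⟩ := h2
  have hne : (β i : κ) ≠ (β' i : κ) := by
    intro h
    apply hi
    have h3 : (p : ℤ) ∣ (β i : ℤ) - (β' i : ℤ) := by
      rw [← CharP.intCast_eq_zero_iff κ p]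
      push_cast
      rw [h, sub_self]
    rw [hb, hb', pow_succ]
    push_cast
    rw [add_sub_add_right_eq_sub, ← mul_sub]
    exact mul_dvd_mul_left _ h3
  have hsplit : ∀ γ δ : Fin m → ℕ, (∀ j, γ j = p ^ e * δ j + c j) →
      (∑ j, γ j • x j).val =
        subst ![(∑ j, δ j • x j).val ^ ((p ^ n) ^ e), (∑ j, c j • x j).val] Γ.toPowerSeries := by
    intro γ δ h
    have h3 : ∑ j, γ j • x j = p ^ e • ∑ j, δ j • x j + ∑ j, c j • x j := by
      rw [Finset.smul_sum, ← Finset.sum_add_distrib]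
      refine Finset.sum_congr rfl fun j _ => ?_
      rw [h, add_nsmul, mul_nsmul']
    rw [h3, FormalGroup.add_apply, nfa_nsmul, nfa_nser_pow Γ p (p ^ n) (pow_ne_zero n hp0) hp,
      PowerSeries.subst_pow (∑ j, δ j • x j).prop, PowerSeries.subst_X (∑ j, δ j • x j).prop]
  have hpw : ∀ y : Γ.Point (Fin m), PowerSeries.HasSubst (y.val ^ ((p ^ n) ^ e)) := fun y =>
    (y.prop.const.pow (pow_ne_zero e (pow_ne_zero n hp0))).const_coeff ()
  obtain ⟨u, hu, h3⟩ := sub_unit_left Γ (hpw (∑ j, β j • x j)) (hpw (∑ j, β' j • x j))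
    (∑ j, c j • x j).prop
  have hch : CharP (MvPowerSeries (Fin m) κ) p :=
    charP_of_injective_ringHom (f := (C : κ →+* MvPowerSeries (Fin m) κ)) C_injective p
  refine ⟨Ideal.Quotient.mk _ u, ((∑ j, β j • x j).val - (∑ j, β' j • x j).val) ^ ((p ^ n) ^ e),
    hu.map _, ?_, ?_⟩
  · have h4 := order_prod (fun _ : ℕ => (∑ j, β j • x j).val - (∑ j, β' j • x j).val)
      (Finset.range ((p ^ n) ^ e))
    rw [Finset.prod_const, Finset.sum_const, Finset.card_range,
      nfa_order_one Γ x hx β β' i hne] at h4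
    rw [h4, nsmul_eq_mul, mul_one]
  · rw [key b s hs, key b' s' hs', hsplit b β hb, hsplit b' β' hb', ← map_sub, h3, map_mul,
      ← pow_mul p n e, sub_pow_char_pow]

end Vale.Agent.P217
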