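import Vale.Agent.P217.Tor
import Vale.Agent.P217.Fac
import Vale.Agent.P217.Nfa
import Vale.Agent.P217.LTU
import Vale.Agent.P217.Hon

namespace Vale.Agent.P217

open MvPowerSeries

section general
variable {A : Type} [CommRing A]

theorem unit_one_Cmp {a : Ideal A} {N : ℕ} (ha : a ^ N = ⊥) {φ : PowerSeries A}
    (hX : PowerSeries.map (Ideal.Quotient.mk a) φ = PowerSeries.X) :
    IsUnit (PowerSeries.coeff 1 φ) := by
  have := nilp_complete a N ha
  have h := congrArg (PowerSeries.coeff 1) hX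
  rw [PowerSeries.coeff_map, PowerSeries.coeff_one_X, ← map_one (Ideal.Quotient.mk a),
    Ideal.Quotient.eq] at h
  simpa using Ideal.mem_jacobson_bot.1 (IsAdicComplete.le_jacobson_bot a h) 1

theorem star_comp_Cmp {a : Ideal A} {N : ℕ} (ha : a ^ N = ⊥) {G₁ G₂ Φ : FormalGroup A}
    {ψ φ : PowerSeries A} (h1 : IsHom G₁ Φ ψ)
    (e1 : PowerSeries.map (Ideal.Quotient.mk a) ψ = PowerSeries.X) (h2 : IsHom G₂ Φ φ)
    (e2 : PowerSeries.map (Ideal.Quotient.mk a) φ = PowerSeries.X) :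
    ∃ χ, IsHom G₁ G₂ χ ∧ PowerSeries.map (Ideal.Quotient.mk a) χ = PowerSeries.X := by
  obtain ⟨χ, c1, -, c3⟩ := h2.inv (unit_one_Cmp ha e2)
  have hχ := PowerSeries.HasSubst.of_constantCoeff_zero' c1.1
  have hψ := PowerSeries.HasSubst.of_constantCoeff_zero' h1.1
  have e3 : PowerSeries.map (Ideal.Quotient.mk a) χ = PowerSeries.X := by
    have h : PowerSeries.map (Ideal.Quotient.mk a) (PowerSeries.subst χ φ) =
        PowerSeries.subst (PowerSeries.map (Ideal.Quotient.mk a) χ)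
          (PowerSeries.map (Ideal.Quotient.mk a) φ) :=
      PowerSeries.map_subst hχ (h := Ideal.Quotient.mk a) φ
    rw [c3, e2, PowerSeries.subst_X
      (PowerSeries.HasSubst.of_constantCoeff_zero' (const_map_Pser _ c1.1))] at h
    exact h.symm.trans (PowerSeries.map_X _)
  refine ⟨_, h1.comp c1, ?_⟩
  have h : PowerSeries.map (Ideal.Quotient.mk a) (PowerSeries.subst ψ χ) =
      PowerSeries.subst (PowerSeries.map (Ideal.Quotient.mk a) ψ)
        (PowerSeries.map (Ideal.Quotient.mk a) χ) :=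
    PowerSeries.map_subst hψ (h := Ideal.Quotient.mk a) χ
  rw [e3, PowerSeries.subst_X
    (PowerSeries.HasSubst.of_constantCoeff_zero' (const_map_Pser _ h1.1))] at h
  exact h.trans e1

theorem map_X_of_le_Cmp {B : Type} [CommRing B] {b : Ideal B} {a : Ideal A} (f : B →+* A)
    (hf : ∀ x ∈ b, f x ∈ a) {φ : PowerSeries B}
    (e : PowerSeries.map (Ideal.Quotient.mk b) φ = PowerSeries.X) :
    PowerSeries.map (Ideal.Quotient.mk a) (PowerSeries.map f φ) = PowerSeries.X := by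
  ext d
  have h := congrArg (PowerSeries.coeff d) e
  rw [← PowerSeries.map_X (Ideal.Quotient.mk b), PowerSeries.coeff_map, PowerSeries.coeff_map,
    Ideal.Quotient.eq] at h
  have h2 := hf _ h
  rw [map_sub, ← Ideal.Quotient.eq, ← PowerSeries.coeff_map f, ← PowerSeries.coeff_map f,
    PowerSeries.map_X] at h2
  rw [PowerSeries.coeff_map, h2, ← PowerSeries.coeff_map, PowerSeries.map_X]

theorem coefIn_map_Cmp {B : Type} [CommRing B] {b : Ideal B} {a : Ideal A} (f : B →+* A)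
    (hf : ∀ x ∈ b, f x ∈ a) {V : PowerSeries B} {d : ℕ}
    (h : CoefIn b (V - PowerSeries.X ^ d)) :
    CoefIn a (PowerSeries.map f V - PowerSeries.X ^ d) := by
  intro e
  have e1 : PowerSeries.map f V - PowerSeries.X ^ d =
      PowerSeries.map f (V - PowerSeries.X ^ d) := by simp
  rw [e1]
  exact hf _ (h e)

theorem Nser_unit_Cmp (Γ : FormalGroup A) [Γ.IsComm] {T : Type} [AddCommGroup T] {m K : ℕ}
    {x : Fin m → T} (hx : IsBasis K x) (c : T → A) (hc : ∀ z, IsNilpotent (c z))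
    (θ : T →+ Γ.Point Unit) (hθ : ∀ z, θ z = ptC Γ (c z) (hc z)) (S : Finset T)
    (hS : ∀ z, z ∈ S ↔ K • z = 0) :
    ∃ u : PowerSeries A, IsUnit u ∧ Nser Γ (fun i => c (x i)) (fun i => hc (x i)) K =
      u * ∏ z ∈ S, (PowerSeries.X - PowerSeries.C (c z)) := by
  have key : ∀ z, ∃ u : PowerSeries A, IsUnit u ∧
      (ptX Γ + θ z).val = u * (PowerSeries.X - PowerSeries.C (c (-z))) := by
    intro z
    obtain ⟨u, hu, h⟩ := sub_unit_left Γ (ptX Γ).2 (θ (-z)).2 (θ z).2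
    refine ⟨u, hu, ?_⟩
    have h0 : subst ![(θ (-z)).val, (θ z).val] Γ.toPowerSeries = 0 := by
      rw [← FormalGroup.add_apply, ← map_add, neg_add_cancel, map_zero]; rfl
    rw [h0, sub_zero, hθ (-z)] at h
    exact h
  choose u hu h using key
  refine ⟨∏ b : Fin m → Fin K, u (∑ i, (b i : ℕ) • x i), IsUnit.prod_iff.2 fun b _ => hu _, ?_⟩
  have e1 : ∏ z ∈ S, (PowerSeries.X - PowerSeries.C (c z)) =
      ∏ b : Fin m → Fin K, (PowerSeries.X - PowerSeries.C (c (-∑ i, (b i : ℕ) • x i))) := by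
    symm
    refine Finset.prod_bij (fun b _ => -∑ i, (b i : ℕ) • x i) (fun b _ => ?_)
      (fun b _ b' _ hb => hx.1 (neg_injective hb)) (fun z hz => ?_) fun b _ => rfl
    · rw [hS, smul_neg, (hx.2 _).2 ⟨b, rfl⟩, neg_zero]
    · obtain ⟨b, hb⟩ := (hx.2 (-z)).1 (by rw [smul_neg, (hS z).1 hz, neg_zero])
      exact ⟨b, Finset.mem_univ _, by rw [← hb, neg_neg]⟩
  rw [e1, ← Finset.prod_mul_distrib, Nser]
  refine Finset.prod_congr rfl fun b _ => ?_
  rw [← h, map_sum]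
  simp only [map_nsmul]
  simp only [hθ]

end general

variable {p n : ℕ} [Fact p.Prime] {F : FormalGroup (E0 p n)}

variable {L : Type} [NormedField L] [IsUltrametricDist L] [CompleteSpace L] [IsAlgClosed L]
  [CharP L p]

omit [IsAlgClosed L] in
theorem exists_theta_Cmp {G : FormalGroup (OC L)} [AddCommGroup (Pts G)] (hG : GrpSpec G) {s : ℝ}
    (hs : 0 < s) (e : ℕ) (Γ : FormalGroup (OC L ⧸ ball L s))
    (hΓ : Γ = (G.map (iterateFrobenius (OC L) p e)).map (Ideal.Quotient.mk (ball L s)))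
    (hc : ∀ z : Pts G, IsNilpotent (Ideal.Quotient.mk (ball L s) (z.1 ^ (p ^ e)))) :
    ∃ θ : Pts G →+ Γ.Point Unit, ∀ z, θ z = ptC Γ _ (hc z) := by
  have hp0 : p ^ e ≠ 0 := pow_ne_zero _ (Fact.out : p.Prime).ne_zero
  refine ⟨⟨⟨fun z => ptC Γ _ (hc z), Subtype.ext ?_⟩, fun z z' => Subtype.ext ?_⟩, fun z => rfl⟩
  · show PowerSeries.C (Ideal.Quotient.mk (ball L s) ((0 : Pts G).1 ^ (p ^ e))) = 0
    rw [hG.zero, zero_pow hp0, map_zero, map_zero]
  · show PowerSeries.C (Ideal.Quotient.mk (ball L s) ((z + z').1 ^ (p ^ e))) =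
      subst ![PowerSeries.C (Ideal.Quotient.mk (ball L s) (z.1 ^ (p ^ e))),
        PowerSeries.C (Ideal.Quotient.mk (ball L s) (z'.1 ^ (p ^ e)))] Γ.toPowerSeries
    have h1 : ∀ i, ‖((![z.1, z'.1] i : OC L) : L)‖ < 1 := by
      intro i
      fin_cases i
      · exact z.2
      · exact z'.2
    have h2 : ∀ i, ‖((![z.1, z'.1] i ^ (p ^ e) : OC L) : L)‖ < 1 := by
      intro i
      rw [SubmonoidClass.coe_pow, norm_pow]
      exact pow_lt_one₀ (norm_nonneg _) (h1 i) hp0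
    rw [hG.add, evR_frob p _ h1, evR_mk _ h2 hs, hΓ]
    congr 1
    funext i
    fin_cases i <;> rfl

omit [IsAlgClosed L] in
theorem exists_evy_Cmp {κ : Type} [CommRing κ] (ι : κ →+* OC L) {m M : ℕ} (y : Fin m → OC L)
    {r s : ℝ} (hr0 : 0 ≤ r) (hr1 : r < 1) (hr : ∀ i, ‖(y i : L)‖ ≤ r) (hs : r ^ M ≤ s) :
    ∃ g : Bq m κ M →+* OC L ⧸ ball L s, ∀ H, g (Ideal.Quotient.mk _ H) =
      Ideal.Quotient.mk _ (evR y (map ι H)) := by
  have hy : ∀ i, ‖(y i : L)‖ < 1 := fun i => (hr i).trans_lt hr1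
  refine ⟨Ideal.Quotient.lift _ ((Ideal.Quotient.mk (ball L s)).comp ((evR y).comp (map ι)))
    fun f hf => ?_, fun H => rfl⟩
  show Ideal.Quotient.mk (ball L s) (evR y (map ι f)) = 0
  rw [Ideal.Quotient.eq_zero_iff_mem, mem_ball ((pow_nonneg hr0 M).trans hs)]
  have := (evR_spec y hy).bound r 1 M (map ι f) hr0 hr1.le zero_le_one hr
    (fun d => (coeff d (map ι f)).2) fun d hd => by
      rw [coeff_map, mem_ordI.1 hf d hd, map_zero]
  rw [one_mul] at this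
  exact this.trans hs

omit [CompleteSpace L] [IsAlgClosed L] in
theorem frob_eta_Cmp {η : E0 p n →+* OC L} {ρ s : ℝ}
    (hρ : ∀ x ∈ mm p n, ‖((η x : OC L) : L)‖ ≤ ρ) (ι : kk p n →+* OC L)
    (hι : ∀ w, η (C w) = ι (WittVector.constantCoeff w)) (e : ℕ) (hs0 : 0 ≤ s)
    (hs : ρ ^ (p ^ e) ≤ s) :
    ((Ideal.Quotient.mk (ball L s)).comp (iterateFrobenius (OC L) p e)).comp η =
      (((Ideal.Quotient.mk (ball L s)).comp ι).comp (iterateFrobenius (kk p n) p e)).comp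
        (res p n) := by
  refine RingHom.ext fun c => ?_
  have h1 : ι (iterateFrobenius (kk p n) p e (res p n c)) =
      iterateFrobenius (OC L) p e (η (C (constantCoeff c))) := by
    rw [hι, iterateFrobenius_def, iterateFrobenius_def, map_pow]; rfl
  simp only [RingHom.comp_apply]
  rw [h1, Ideal.Quotient.eq, ← map_sub, ← map_sub, iterateFrobenius_def, mem_ball hs0,
    SubmonoidClass.coe_pow, norm_pow]
  exact (pow_le_pow_left₀ (norm_nonneg _) (hρ _ ((mem_mm_Cpl p n _).2 (by simp))) _).trans hs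

theorem IsLT.cmp (hF : IsLT p n F) [F.IsComm] {h : ℕ} (h1 : 1 ≤ h) (hn : h < n)
    {η : E0 p n →+* OC L} {ρ : ℝ} (hη : HtPt p n h η ρ) (ι : kk p n →+* OC L)
    (hι : ∀ w, η (C w) = ι (WittVector.constantCoeff w)) [AddCommGroup (Pts (F.map η))]
    (hG : GrpSpec (F.map η)) {k : ℕ} {x : Fin (n - h) → Pts (F.map η)} (hx : IsBasis (p ^ k) x)
    {Ψ : E0 p n →+* Bq (n - h) (kk p n) ((p ^ n) ^ (k - 1))} (hΨ : PsiSpec p n F (n - h) k Ψ)
    {r s : ℝ} (hr0 : 0 ≤ r) (hr1 : r < 1) (hr : ∀ i, ‖((x i).1 : L) ^ (p ^ (h * k))‖ ≤ r)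
    (hs1 : r ^ ((p ^ n) ^ (k - 1)) ≤ s) (hs2 : ρ ^ (p ^ (h * k)) ≤ s) (f : E0 p n)
    (H : MvPowerSeries (Fin (n - h)) (kk p n)) (hH : Ideal.Quotient.mk _ H = Ψ f) :
    ‖((η f : OC L) : L) - (evR (fun i => (x i).1 ^ (p ^ (h * k))) (map ι H) : OC L)‖ ≤ s := by
  have hp : p.Prime := Fact.out
  have hp0 : p ^ (h * k) ≠ 0 := pow_ne_zero _ hp.ne_zero
  have hs : 0 < s := (pow_pos hη.pos _).trans_le hs2
  have ht0 : 0 ≤ max r ρ := le_max_of_le_left hr0
  have hr' : ∀ i, ‖(((x i).1 ^ (p ^ (h * k)) : OC L) : L)‖ ≤ r := hr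
  have hy : ∀ i, ‖(((x i).1 ^ (p ^ (h * k)) : OC L) : L)‖ < 1 := fun i => (hr' i).trans_lt hr1
  obtain ⟨N, hN⟩ := ball_pow (L := L) ht0 (max_lt hr1 hη.lt1) hs
  obtain ⟨g, hg⟩ := exists_evy_Cmp ι (fun i => (x i).1 ^ (p ^ (h * k))) hr0 hr1 hr' hs1
  have hE := evR_spec _ hy
  generalize ha : (ball L (max r ρ)).map (Ideal.Quotient.mk (ball L s)) = a at hN
  have hma : ∀ z : OC L, ‖(z : L)‖ ≤ max r ρ → Ideal.Quotient.mk (ball L s) z ∈ a := by
    intro z hz
    rw [← ha]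
    exact Ideal.mem_map_of_mem _ ((mem_ball ht0 z).2 hz)
  have hgi : g.comp (iB (n - h) (kk p n) _) = (Ideal.Quotient.mk (ball L s)).comp ι := by
    refine RingHom.ext fun c => ?_
    show g (Ideal.Quotient.mk _ (C c)) = _
    rw [hg, map_C, hE.eC]; rfl
  have hga : ∀ z ∈ aB (n - h) (kk p n) ((p ^ n) ^ (k - 1)), g z ∈ a := by
    intro z hz
    obtain ⟨w, hw, rfl⟩ := (Ideal.mem_map_iff_of_surjective _ Ideal.Quotient.mk_surjective).1 hz
    rw [hg]
    refine hma _ (le_max_of_le_left (evR_norm_le _ hr0 hr1 hr' ?_))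
    rw [constantCoeff_map, ← coeff_zero_eq_constantCoeff_apply, mem_ordI.1 hw 0 (by simp),
      map_zero]
  obtain ⟨Φ, -, hΦ, c1, c2, φ, c3, c4⟩ := hΨ
  obtain ⟨V, U, T, v1, v2, v3, v4, -, v6⟩ := hF.tor h1 hn hη hG k
  have hc : ∀ z : Pts (F.map η),
      IsNilpotent (Ideal.Quotient.mk (ball L s) (z.1 ^ (p ^ (h * k)))) := fun z => by
    rw [map_pow]; exact (ball_nil hs z.2).pow_of_pos hp0
  generalize hΓ : (Gk p n F).map ((Ideal.Quotient.mk (ball L s)).comp ι) = Γ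
  have hcomm : Γ.IsComm := hΓ ▸ inferInstance
  have hΓ1 : Γ = ((F.map η).map (iterateFrobenius (OC L) p (h * k))).map
      (Ideal.Quotient.mk (ball L s)) := by
    rw [fg_map_map, fg_map_map, frob_eta_Cmp hη.hρ ι hι _ hs.le hs2, ← fg_map_map,
      ← fg_map_map _ (iterateFrobenius (kk p n) p (h * k)), ← hΓ]
    congr 1
    exact (hF.Gk_map (by omega) _).symm
  have hΓ2 : Γ = ((Gk p n F).map (iB (n - h) (kk p n) ((p ^ n) ^ (k - 1)))).map g := by
    rw [fg_map_map, hgi, hΓ]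
  obtain ⟨θ, hθ⟩ := exists_theta_Cmp hG hs (h * k) Γ hΓ1 hc
  obtain ⟨u, hu, hNu⟩ := Nser_unit_Cmp Γ hx _ hc θ hθ T v4
  have hV := v1.map (Ideal.Quotient.mk (ball L s))
  have hN' := hΦ.map g
  rw [Nser_map g _ _ _ Γ hΓ2 _ (fun i => hc (x i)) (fun i => by
    rw [tB, hg, map_X, hE.eX]), ← hΓ2] at hN'
  rw [← hΓ1] at hV
  obtain ⟨w, hw⟩ := v3.map (PowerSeries.map (Ideal.Quotient.mk (ball L s)))
  have hNd := Nser_red a Γ _ (fun i => hc (x i))
    (fun i => hma _ (le_max_of_le_left (hr' i))) (p ^ k)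
  rw [← pow_mul, mul_comm k] at hNd
  obtain ⟨ψ, d1, d2⟩ := fac a N hN hV hN' (Nat.one_le_pow _ _ hp.pos)
    (coefIn_map_Cmp _ (fun z hz => hma z (le_max_of_le_right ((mem_ball hη.pos.le z).1 hz))) v2)
    hNd (hu.mul (Units.isUnit w⁻¹)) (by
      rw [hNu, v6, map_mul, ← hw, mul_assoc, Units.inv_mul_cancel_left, map_prod]
      simp only [map_sub, PowerSeries.map_X, PowerSeries.map_C])
  obtain ⟨χ, e1, e2⟩ := star_comp_Cmp hN d1 d2 (c3.map g) (map_X_of_le_Cmp g hga c4)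
  rw [fg_map_map, fg_map_map] at e1
  have := nilp_complete a N hN
  have hpa : (p : OC L ⧸ ball L s) ∈ a := by
    rw [← map_natCast (Ideal.Quotient.mk (ball L s)), CharP.cast_eq_zero, map_zero]
    exact zero_mem _
  have key := (hF.lt_unique (by omega) a hpa
    (fun z hz => hma _ (le_max_of_le_right (hη.hρ z hz))) (fun z hz => hga _ (c2 z hz))
    (fun w => by
      rw [RingHom.comp_apply, c1, RingHom.comp_apply, ← RingHom.comp_apply g, hgi,
        RingHom.comp_apply, RingHom.comp_apply, hι]) e1 e2).1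
  have k2 := RingHom.congr_fun key f
  rw [RingHom.comp_apply, RingHom.comp_apply, ← hH, hg, eq_comm, Ideal.Quotient.eq,
    mem_ball hs.le] at k2
  exact k2

end Vale.Agent.P217
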