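import Vale.Agent.P217.Defs

/-! Proof-level definitions for P217. -/

namespace Vale.Agent.P217

open MvPowerSeries

section general
variable {A : Type} [CommRing A]

instance isComm_map {B : Type} [CommRing B] (G : FormalGroup A) [G.IsComm] (f : A →+* B) :
    (G.map f).IsComm where
  comm := by
    have h := congrArg (MvPowerSeries.map f) (FormalGroup.IsComm.comm (F := G))
    rw [MvPowerSeries.map_subst HasSubst.X_X] at h
    simp only [FormalGroup.map_toPowerSeries]
    refine h.trans ?_
    congr 1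
    funext i
    fin_cases i <;> simp

/-- all coefficients lie in `I` -/
def CoefIn {σ : Type} (I : Ideal A) (f : MvPowerSeries σ A) : Prop := ∀ d, coeff d f ∈ I

/-- additive coboundary `e(G(X,Y)) - e(X) - e(Y)` -/
noncomputable def cob (G : FormalGroup A) (e : PowerSeries A) : MvPowerSeries (Fin 2) A :=
  PowerSeries.subst G.toPowerSeries e - PowerSeries.subst (X 0 : MvPowerSeries (Fin 2) A) e -
    PowerSeries.subst (X 1 : MvPowerSeries (Fin 2) A) e

/-- symmetric additive 2-cocycle on `G` -/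
def IsCoc (G : FormalGroup A) (c : MvPowerSeries (Fin 2) A) : Prop :=
  constantCoeff c = 0 ∧ subst ![(X 1 : MvPowerSeries (Fin 2) A), X 0] c = c ∧
    subst ![subst ![(X 0 : MvPowerSeries (Fin 3) A), X 1] G.toPowerSeries, X 2] c +
        subst ![(X 0 : MvPowerSeries (Fin 3) A), X 1] c =
      subst ![(X 0 : MvPowerSeries (Fin 3) A), subst ![(X 1 : MvPowerSeries (Fin 3) A), X 2]
          G.toPowerSeries] c +
        subst ![(X 1 : MvPowerSeries (Fin 3) A), X 2] c

/-- the point `X` -/
noncomputable def ptX (G : FormalGroup A) : G.Point Unit := ⟨PowerSeries.X, PowerSeries.HasSubst.X'⟩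

/-- a constant nilpotent point -/
noncomputable def ptC (G : FormalGroup A) (t : A) (ht : IsNilpotent t) : G.Point Unit :=
  ⟨PowerSeries.C t, by
    have h : MvPowerSeries.constantCoeff (PowerSeries.C t) = t := PowerSeries.constantCoeff_C t
    show IsNilpotent (MvPowerSeries.constantCoeff (PowerSeries.C t))
    rw [h]; exact ht⟩

/-- the norm series `∏_a (X +_G ∑ [a_i] t_i)` -/
noncomputable def Nser (G : FormalGroup A) [G.IsComm] {m : ℕ} (t : Fin m → A)
    (ht : ∀ i, IsNilpotent (t i)) (K : ℕ) : PowerSeries A :=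
  ∏ a : Fin m → Fin K, (ptX G + ∑ i, (a i : ℕ) • ptC G (t i) (ht i)).val

/-- series of order at least `M` -/
def ordI (σ : Type) (A : Type) [CommRing A] (M : ℕ) : Ideal (MvPowerSeries σ A) where
  carrier := {f | (M : ℕ∞) ≤ f.order}
  add_mem' := fun {f g} hf hg => le_trans (le_min hf hg) min_order_le_add
  zero_mem' := by simp [order_zero]
  smul_mem' := fun c f hf => le_trans (le_trans hf le_add_self) le_order_mul

/-- truncated power series ring -/
abbrev Bq (m : ℕ) (κ : Type) [CommRing κ] (M : ℕ) : Type :=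
  MvPowerSeries (Fin m) κ ⧸ ordI (Fin m) κ M

/-- structure map of the truncated ring -/
noncomputable def iB (m : ℕ) (κ : Type) [CommRing κ] (M : ℕ) : κ →+* Bq m κ M :=
  (Ideal.Quotient.mk _).comp (C : κ →+* MvPowerSeries (Fin m) κ)

/-- the variables of the truncated ring -/
noncomputable def tB (m : ℕ) (κ : Type) [CommRing κ] (M : ℕ) (i : Fin m) : Bq m κ M :=
  Ideal.Quotient.mk _ (X i)

/-- augmentation ideal of the truncated ring -/
noncomputable def aB (m : ℕ) (κ : Type) [CommRing κ] (M : ℕ) : Ideal (Bq m κ M) :=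
  (ordI (Fin m) κ 1).map (Ideal.Quotient.mk _)

theorem tB_nil (m : ℕ) (κ : Type) [CommRing κ] (M : ℕ) (i : Fin m) :
    IsNilpotent (tB m κ M i) := by
  refine ⟨M, ?_⟩
  rw [tB, ← map_pow, Ideal.Quotient.eq_zero_iff_mem]
  exact le_order_pow_of_constantCoeff_eq_zero M (constantCoeff_X i)

/-- `X_1, ..., X_m` is a basis of the `K`-torsion -/
def IsBasis {T : Type} [AddCommGroup T] {m : ℕ} (K : ℕ) (x : Fin m → T) : Prop :=
  Function.Injective (fun a : Fin m → Fin K => ∑ i, (a i : ℕ) • x i) ∧
    ∀ z : T, K • z = 0 ↔ ∃ a : Fin m → Fin K, z = ∑ i, (a i : ℕ) • x i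

/-- nested formal sums `∑^G a_s X ^ (p ^ s)` -/
noncomputable def lamS (G : FormalGroup A) (p : ℕ) (a : ℕ → A) : ℕ → PowerSeries A
  | 0 => 0
  | s + 1 => subst ![lamS G p a s, PowerSeries.C (a (s + 1)) * PowerSeries.X ^ (p ^ (s + 1))]
      G.toPowerSeries

/-- `X +_G ∑^G a_s X ^ (p ^ s)` -/
noncomputable def gser (G : FormalGroup A) (p : ℕ) (a : ℕ → A) (r : ℕ) : PowerSeries A :=
  subst ![PowerSeries.X, lamS G p a r] G.toPowerSeries

/-- polynomial version of `lamS` -/
noncomputable def lamP (P : MvPolynomial (Fin 2) A) (p : ℕ) (a : ℕ → A) (y : A) : ℕ → A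
  | 0 => 0
  | s + 1 => MvPolynomial.eval ![lamP P p a y s, a (s + 1) * y ^ (p ^ (s + 1))] P

/-- polynomial version of `gser` -/
noncomputable def zP (P : MvPolynomial (Fin 2) A) (p : ℕ) (a : ℕ → A) (y : A) (r : ℕ) : A :=
  MvPolynomial.eval ![y, lamP P p a y r] P

/-- a series over the fraction field lies in `c · S[[X]]` -/
def Itg (S : Type) [CommRing S] {σ : Type} (c : FractionRing S)
    (f : MvPowerSeries σ (FractionRing S)) : Prop :=
  ∀ d, ∃ x : S, coeff d f = c * algebraMap S (FractionRing S) x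

/-- the derivative of the series is integral -/
def DInt (S : Type) [CommRing S] (f : PowerSeries (FractionRing S)) : Prop :=
  ∀ d : ℕ, ∃ x : S, (d : FractionRing S) * PowerSeries.coeff d f = algebraMap S (FractionRing S) x

end general

section lt
variable (p n : ℕ) [Fact p.Prime]

/-- derivative of the logarithm (invariant differential) -/
noncomputable def wE : PowerSeries (E0 p n) :=
  PowerSeries.mk fun d => if d + 1 = p ^ Nat.log p (d + 1) then bet p n (Nat.log p (d + 1)) else 0

/-- coefficientwise derivative of `F` in `u_i` -/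
noncomputable def dF (F : FormalGroup (E0 p n)) (i : Fin (n - 1)) :
    MvPowerSeries (Fin 2) (E0 p n) :=
  fun d => pderiv (WW p n) i (coeff d F.toPowerSeries)

/-- the universal cocycles -/
noncomputable def cE (F : FormalGroup (E0 p n)) (i : Fin (n - 1)) :
    MvPowerSeries (Fin 2) (E0 p n) :=
  PowerSeries.subst F.toPowerSeries (wE p n) * dF p n F i

/-- derivative of the logarithm in `u_i` -/
noncomputable def dlogA {A : Type} [CommRing A] (ψ : E0 p n →+* A) (i : Fin (n - 1)) :
    PowerSeries A :=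
  PowerSeries.mk fun d => if d = p ^ Nat.log p d then
    ψ (pderiv (WW p n) i (bet p n (Nat.log p d))) * Ring.inverse (p : A) ^ Nat.log p d else 0

/-- `ψ` maps the maximal ideal into `a` -/
def Cts {A : Type} [CommRing A] (a : Ideal A) (ψ : E0 p n →+* A) : Prop :=
  ∀ x ∈ mm p n, ψ x ∈ a

/-- the Honda law over `W` -/
noncomputable abbrev GW (F : FormalGroup (E0 p n)) : FormalGroup (WW p n) :=
  F.map (constantCoeff : E0 p n →+* WW p n)

/-- the Honda law over the residue field -/
noncomputable abbrev Gk (F : FormalGroup (E0 p n)) : FormalGroup (kk p n) := F.map (res p n)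

/-- the specialization `u ↦ 0` of `ψ` -/
noncomputable def sp0 {A : Type} [CommRing A] (ψ : E0 p n →+* A) : E0 p n →+* A :=
  (ψ.comp (C : WW p n →+* E0 p n)).comp (constantCoeff : E0 p n →+* WW p n)

end lt

section valued
variable (L : Type) [NormedField L] [IsUltrametricDist L]

/-- closed unit ball -/
def OC : Subring L where
  carrier := {x | ‖x‖ ≤ 1}
  mul_mem' := fun {a b} ha hb => by
    simp only [Set.mem_setOf_eq, norm_mul] at *
    exact mul_le_one₀ ha (norm_nonneg _) hb
  one_mem' := by simp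
  add_mem' := fun {a b} ha hb => le_trans (IsUltrametricDist.norm_add_le_max a b) (max_le ha hb)
  zero_mem' := by simp
  neg_mem' := fun {a} ha => by simpa using ha

/-- closed ball ideal -/
def ball (r : ℝ) : Ideal (OC L) where
  carrier := {x | ‖(x : L)‖ ≤ max r 0}
  add_mem' := fun {a b} ha hb => le_trans (IsUltrametricDist.norm_add_le_max (a : L) b)
    (max_le ha hb)
  zero_mem' := by simp
  smul_mem' := fun c x hx => by
    simp only [Set.mem_setOf_eq, smul_eq_mul, Subring.coe_mul, norm_mul] at *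
    exact le_trans (mul_le_of_le_one_left (norm_nonneg _) c.2) hx

variable {L}

theorem mem_ball {r : ℝ} (hr : 0 ≤ r) (x : OC L) : x ∈ ball L r ↔ ‖(x : L)‖ ≤ r := by
  show ‖(x : L)‖ ≤ max r 0 ↔ _
  rw [max_eq_left hr]

/-- specification of evaluation of power series at points of the open unit disc -/
structure EvSpec {σ : Type} (x : σ → OC L) (e : MvPowerSeries σ (OC L) →+* OC L) : Prop where
  eC : ∀ a, e (C a) = a
  eX : ∀ i, e (X i) = x i
  bound : ∀ (r s : ℝ) (N : ℕ) (f : MvPowerSeries σ (OC L)), 0 ≤ r → r ≤ 1 → 0 ≤ s →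
    (∀ i, ‖(x i : L)‖ ≤ r) → (∀ d, ‖((coeff d f : OC L) : L)‖ ≤ s) →
    (∀ d, Finsupp.degree d < N → coeff d f = 0) → ‖((e f : OC L) : L)‖ ≤ s * r ^ N

open Classical in
/-- evaluation -/
noncomputable def evR {σ : Type} (x : σ → OC L) : MvPowerSeries σ (OC L) →+* OC L :=
  if h : ∃ e, EvSpec x e then h.choose else constantCoeff

/-- one variable evaluation -/
noncomputable def ev1 (z : OC L) : PowerSeries (OC L) →+* OC L := evR (fun _ : Unit => z)

/-- points of a formal group in the open unit disc -/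
def Pts (_G : FormalGroup (OC L)) : Type := {x : OC L // ‖(x : L)‖ < 1}

/-- the group structure on points is the formal group law -/
structure GrpSpec (G : FormalGroup (OC L)) [AddCommGroup (Pts G)] : Prop where
  add : ∀ x y : Pts G, (x + y).1 = evR ![x.1, y.1] G.toPowerSeries
  zero : (0 : Pts G).1 = 0

/-- a point of exact height `h` -/
structure HtPt (p n : ℕ) [Fact p.Prime] (h : ℕ) (η : E0 p n →+* OC L) (ρ : ℝ) : Prop where
  hI : ∀ x ∈ II p n h, η x = 0
  hu : η (vv p n h) ≠ 0
  hρ : ∀ x ∈ mm p n, ‖((η x : OC L) : L)‖ ≤ ρ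
  pos : 0 < ρ
  lt1 : ρ < 1

/-- `u_σ = y_i ^ (q ^ l)` -/
def uu {m E : ℕ} (q : ℕ) (y : Fin m → L) (σ : Fin m × Fin (E + 1)) : L := y σ.1 ^ (q ^ (σ.2 : ℕ))

/-- orthogonality of the `u_σ` over the prime field -/
def Orth (p q E : ℕ) {m : ℕ} (y : Fin m → L) : Prop :=
  ∀ c : Fin m × Fin (E + 1) → Fin p, ∀ σ, (c σ : ℕ) ≠ 0 →
    ‖uu q y σ‖ ≤ ‖∑ τ, ((c τ : ℕ) : L) * uu q y τ‖

variable (p : ℕ) [Fact p.Prime] [CharP L p] [PerfectRing L p]

/-- Teichmueller digit -/
noncomputable def dg (i : ℕ) (w : WittVector p L) : L :=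
  (iterateFrobeniusEquiv L p i).symm (w.coeff i)

/-- all digits up to `E` have norm at most `ρ` -/
def Sm (E : ℕ) (ρ : ℝ) (w : WittVector p L) : Prop := ∀ i ≤ E, ‖dg p i w‖ ≤ ρ

/-- truncated Witt covector `∑_{e ≤ E} p ^ (E - e) [z ^ (q ^ e)]` -/
noncomputable def hW (q E : ℕ) (z : L) : WittVector p L :=
  ∑ e ∈ Finset.range (E + 1), (p : WittVector p L) ^ (E - e) * WittVector.teichmuller p (z ^ (q ^ e))

/-- `∑_i α_i h(z_i)` -/
noncomputable def bW (q E : ℕ) {m : ℕ} (α : Fin m → WittVector p L) (z : Fin m → L) :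
    WittVector p L := ∑ i, α i * hW p q E (z i)

end valued

end Vale.Agent.P217
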