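import Mathlib

/-! Definitions for the Chai invariant ideal question. -/

namespace Vale.Agent.P217

open MvPowerSeries

/-- The `m`-series `[m]_G(X)` of a formal group law. -/
noncomputable def nser {A : Type} [CommRing A] (G : FormalGroup A) : ℕ → PowerSeries A
  | 0 => 0
  | m + 1 => MvPowerSeries.subst ![nser G m, PowerSeries.X] G.toPowerSeries

/-- `φ` is a homomorphism of formal group laws `G → G'`. -/
def IsHom {A : Type} [CommRing A] (G G' : FormalGroup A) (φ : PowerSeries A) : Prop :=
  PowerSeries.constantCoeff φ = 0 ∧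
    PowerSeries.subst G.toPowerSeries φ =
      MvPowerSeries.subst ![PowerSeries.subst (X 0 : MvPowerSeries (Fin 2) A) φ,
        PowerSeries.subst (X 1 : MvPowerSeries (Fin 2) A) φ] G'.toPowerSeries

variable (p n : ℕ) [Fact p.Prime]

/-- The field with `p ^ n` elements. -/
abbrev kk : Type := GaloisField p n

/-- Its ring of Witt vectors. -/
abbrev WW : Type := WittVector p (GaloisField p n)

/-- The Lubin-Tate ring `W[[u_1, ..., u_{n-1}]]`. -/
abbrev E0 : Type := MvPowerSeries (Fin (n - 1)) (WittVector p (GaloisField p n))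

/-- `v_i = u_i` for `1 ≤ i < n`, `v_n = 1`, and `v_i = 0` otherwise. -/
noncomputable def vv (i : ℕ) : E0 p n :=
  if h : 1 ≤ i ∧ i < n then X ⟨i - 1, by omega⟩ else if i = n then 1 else 0

/-- Numerators `β_j = p ^ j b_j` of the Hazewinkel logarithm coefficients,
`p b_j = ∑_{i < j} b_i v_{j-i} ^ (p ^ i)`, `b_0 = 1`. -/
noncomputable def bet : ℕ → E0 p n
  | 0 => 1
  | j + 1 => ∑ i : Fin (j + 1),
      (p : E0 p n) ^ (j - i) * bet i * vv p n (j + 1 - i) ^ (p ^ (i : ℕ))

/-- The logarithm `∑_j b_j X ^ (p ^ j)` pushed along `ψ` to a ring where `p` is a unit. -/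
noncomputable def logA {A : Type} [CommRing A] (ψ : E0 p n →+* A) : PowerSeries A :=
  PowerSeries.mk fun d => if d = p ^ Nat.log p d then
    ψ (bet p n (Nat.log p d)) * Ring.inverse (p : A) ^ Nat.log p d else 0

/-- The ring `E0[1/p]`. -/
abbrev E0p : Type := Localization.Away (p : E0 p n)

/-- `F` is the formal group law over `E0` with the Hazewinkel logarithm. -/
def IsLT (F : FormalGroup (E0 p n)) : Prop :=
  PowerSeries.subst (F.map (algebraMap (E0 p n) (E0p p n))).toPowerSeries
      (logA p n (algebraMap (E0 p n) (E0p p n))) =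
    PowerSeries.subst (X 0 : MvPowerSeries (Fin 2) (E0p p n))
        (logA p n (algebraMap (E0 p n) (E0p p n))) +
      PowerSeries.subst (X 1 : MvPowerSeries (Fin 2) (E0p p n))
        (logA p n (algebraMap (E0 p n) (E0p p n)))

/-- The residue map `E0 → F_{p^n}`. -/
noncomputable def res : E0 p n →+* kk p n :=
  (WittVector.constantCoeff : WW p n →+* kk p n).comp
    (MvPowerSeries.constantCoeff : E0 p n →+* WW p n)

/-- The maximal ideal of `E0`. -/
noncomputable def mm : Ideal (E0 p n) := RingHom.ker (res p n)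

/-- The height ideals `I_0 = 0`, `I_h = (p, u_1, ..., u_{h-1})`. -/
noncomputable def II (h : ℕ) : Ideal (E0 p n) :=
  if h = 0 then ⊥ else
    Ideal.span (insert (p : E0 p n) {x | ∃ i, 1 ≤ i ∧ i < h ∧ x = vv p n i})

/-- `g` is an automorphism over `F_{p^n}` of the special fibre of `F`. -/
def IsAut (F : FormalGroup (E0 p n)) (g : PowerSeries (kk p n)) : Prop :=
  IsHom (F.map (res p n)) (F.map (res p n)) g ∧ PowerSeries.coeff 1 g ≠ 0

/-- The ring automorphism `σ` of `E0` is the action of the element `(g, τ)` of the extended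
stabilizer group: it is `τ`-semilinear on Witt vectors and `F` is isomorphic to `σ^* F` by an
isomorphism reducing to `g`. -/
def Acts (F : FormalGroup (E0 p n)) (τ : kk p n ≃+* kk p n) (g : PowerSeries (kk p n))
    (σ : E0 p n ≃+* E0 p n) : Prop :=
  (∀ w : WW p n, σ (C w) = C (WittVector.map (τ : kk p n →+* kk p n) w)) ∧
    ∃ φ : PowerSeries (E0 p n), IsHom F (F.map (σ : E0 p n →+* E0 p n)) φ ∧
      PowerSeries.map (res p n) φ = g

/-- An ideal of `E0` invariant under the extended stabilizer group. -/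
def Inv (F : FormalGroup (E0 p n)) (J : Ideal (E0 p n)) : Prop :=
  ∀ τ g σ, IsAut p n F g → Acts p n F τ g σ → J.map (σ : E0 p n →+* E0 p n) = J

/-- `ψ` classifies the deformation `G` over `(A, a)` with structure map `j`: it is a continuous
map of `W`-algebras and `ψ^* F` is star-isomorphic to `G`. -/
def Classifies (F : FormalGroup (E0 p n)) {A : Type} [CommRing A] (a : Ideal A)
    (j : WW p n →+* A) (G : FormalGroup A) (ψ : E0 p n →+* A) : Prop :=
  (∀ w, ψ (C w) = j w) ∧ (∀ x ∈ mm p n, ψ x ∈ a) ∧
    ∃ φ : PowerSeries A, IsHom (F.map ψ) G φ ∧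
      PowerSeries.map (Ideal.Quotient.mk a) φ = PowerSeries.X

/-- `F` is a universal deformation of its special fibre (Lubin-Tate universal property). -/
def IsUniversal (F : FormalGroup (E0 p n)) : Prop :=
  ∀ (A : Type) [CommRing A] (a : Ideal A) [IsAdicComplete a A] (j : WW p n →+* A)
    (G : FormalGroup A), (p : A) ∈ a → G.IsComm →
    G.map (Ideal.Quotient.mk a) =
      F.map (((Ideal.Quotient.mk a).comp j).comp
        (MvPowerSeries.constantCoeff : E0 p n →+* WW p n)) →
    ∃! ψ : E0 p n →+* A, Classifies p n F a j G ψ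

end Vale.Agent.P217
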