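import Vale.Agent.P217.Moo

namespace Vale.Agent.P217

open MvPowerSeries

variable {L : Type} [NormedField L] [IsUltrametricDist L]

variable {p : ℕ} [Fact p.Prime] [CharP L p]


omit [IsUltrametricDist L] [CharP L p] in
theorem GG_ge {ι : Type} [Fintype ι] (c u : ι → L) (s : ℕ) (σ : ι) :
    ‖c σ * u σ ^ (p ^ s)‖ ≤ GG p c u s :=
  le_ciSup (f := fun σ => ‖c σ * u σ ^ (p ^ s)‖) (Finite.bddAbove_range _) σ

omit [IsUltrametricDist L] [CharP L p] in
theorem GG_le {ι : Type} [Fintype ι] (c u : ι → L) (s : ℕ) {B : ℝ} (hB : 0 ≤ B)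
    (h : ∀ σ, ‖c σ * u σ ^ (p ^ s)‖ ≤ B) : GG p c u s ≤ B := Real.iSup_le h hB

omit [IsUltrametricDist L] [CharP L p] [Fact p.Prime] in
theorem trop_nonneg {ι : Type} (c u : ι → L) (s : ℕ) : 0 ≤ GG p c u s :=
  Real.iSup_nonneg fun _ => norm_nonneg _

omit [IsUltrametricDist L] [CharP L p] in
theorem trop_split (c u : L) {s s' : ℕ} (h : s ≤ s') :
    ‖c * u ^ (p ^ s')‖ = ‖c * u ^ (p ^ s)‖ * ‖u‖ ^ (p ^ s' - p ^ s) := by
  have h1 : p ^ s ≤ p ^ s' := Nat.pow_le_pow_right (Fact.out : p.Prime).pos h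
  rw [← norm_pow, ← norm_mul, mul_assoc, ← pow_add, Nat.add_sub_cancel' h1]

theorem trop_gap {s s' : ℕ} (h : s < s') : p ^ s' - p ^ s ≠ 0 :=
  Nat.sub_ne_zero_of_lt (Nat.pow_lt_pow_right (Fact.out : p.Prime).one_lt h)

omit [IsUltrametricDist L] [CharP L p] in
theorem GG_dec {ι : Type} [Fintype ι] (c u : ι → L) {r : ℝ} (hr0 : 0 ≤ r) (hr : r ≤ 1)
    (hu : ∀ σ, ‖u σ‖ ≤ r) {s s' : ℕ} (h : s < s') : GG p c u s' ≤ r * GG p c u s := by
  refine GG_le c u s' (mul_nonneg hr0 (trop_nonneg c u s)) fun σ => ?_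
  rw [trop_split _ _ h.le, mul_comm r]
  exact mul_le_mul (GG_ge c u s σ) ((pow_le_of_le_one (norm_nonneg _) ((hu σ).trans hr)
    (trop_gap h)).trans (hu σ)) (by positivity) (trop_nonneg c u s)

omit [CharP L p] in
theorem lin_le_GG {ι : Type} [Fintype ι] (c u : ι → L) (s : ℕ) :
    ‖∑ σ, c σ * u σ ^ (p ^ s)‖ ≤ GG p c u s :=
  IsUltrametricDist.norm_sum_le_of_forall_le_of_nonneg (trop_nonneg c u s)
    fun σ _ => GG_ge c u s σ

omit [IsUltrametricDist L] [CharP L p] in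
theorem trop_pos {ι : Type} [Fintype ι] {c u : ι → L} (hu : ∀ σ, u σ ≠ 0) (hc : ∃ σ, c σ ≠ 0)
    (s : ℕ) : 0 < GG p c u s := by
  obtain ⟨σ, h⟩ := hc
  exact (norm_pos_iff.2 (mul_ne_zero h (pow_ne_zero _ (hu σ)))).trans_le (GG_ge c u s σ)

omit [IsUltrametricDist L] [CharP L p] in
theorem trop_cmp {ι : Type} [Fintype ι] {c u : ι → L} {a b : ℕ} (hab : a < b)
    (h0 : 0 < GG p c u a) {σ τ : ι} (hσ : ‖c σ * u σ ^ (p ^ a)‖ = GG p c u a)
    (hτ : ‖c τ * u τ ^ (p ^ b)‖ = GG p c u b) : ‖u σ‖ ≤ ‖u τ‖ := by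
  by_contra h
  have h1 := pow_lt_pow_left₀ (not_le.1 h) (norm_nonneg _) (trop_gap (p := p) hab)
  have h2 := GG_ge (p := p) c u b σ
  rw [← hτ, trop_split _ _ hab.le, trop_split (c τ) _ hab.le, hσ] at h2
  have h3 := mul_le_mul_of_nonneg_right (GG_ge (p := p) c u a τ)
    (pow_nonneg (norm_nonneg (u τ)) (p ^ b - p ^ a))
  exact absurd (h2.trans h3) (not_le.2 (mul_lt_mul_of_pos_left h1 h0))

omit [IsUltrametricDist L] [CharP L p] [Fact p.Prime] in
theorem trop_act {ι : Type} [Fintype ι] [Nonempty ι] (c u : ι → L) (s : ℕ) (f : ι → ℝ) :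
    ∃ σ, ‖c σ * u σ ^ (p ^ s)‖ = GG p c u s ∧
      ∀ τ, ‖c τ * u τ ^ (p ^ s)‖ = GG p c u s → f σ ≤ f τ := by
  classical
  obtain ⟨σ, hσ⟩ := exists_eq_ciSup_of_finite (f := fun σ => ‖c σ * u σ ^ (p ^ s)‖)
  obtain ⟨τ, h1, h2⟩ := (Finset.univ.filter fun σ =>
    ‖c σ * u σ ^ (p ^ s)‖ = GG p c u s).exists_min_image f ⟨σ, Finset.mem_filter.2 ⟨Finset.mem_univ _, hσ⟩⟩
  exact ⟨τ, (Finset.mem_filter.1 h1).2, fun t ht => h2 t (Finset.mem_filter.2 ⟨Finset.mem_univ _, ht⟩)⟩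

theorem trop_card {ι : Type} {r : ℕ} (e : Fin r ≃ ι) (S : Finset ι) (T : Finset ℕ)
    (h : ∀ τ ∈ S, (e.symm τ : ℕ) ∈ T) : S.card ≤ T.card :=
  Finset.card_le_card_of_injOn (fun τ => (e.symm τ : ℕ)) h
    fun _ _ _ _ h => e.symm.injective (Fin.ext h)

theorem t_low {ι : Type} [Fintype ι] {r : ℕ} (e : Fin r ≃ ι) (u c : ι → L) (hu : ∀ σ, u σ ≠ 0)
    (horth : ∀ b : ι → Fin p, ∀ σ, (b σ : ℕ) ≠ 0 → ‖u σ‖ ≤ ‖∑ τ, ((b τ : ℕ) : L) * u τ‖)
    (w : ℕ → ℝ) (hw : ∀ t : Fin r, w t = ‖u (e t)‖) (hanti : ∀ t t' : Fin r, t ≤ t' → w t' ≤ w t)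
    (hc : ∃ σ, c σ ≠ 0) {t : ℕ} (ht : t < r) (h : ∀ s, 1 ≤ s → s ≤ t → Can p c u s) :
    GG p c u (t + 1) ≤ GG p c u 1 * DD p w t := by
  classical
  have : Nonempty ι := ⟨hc.choose⟩
  have hw0 : ∀ k, k < r → 0 ≤ w k := fun k hk => by
    have := hw ⟨k, hk⟩
    simp only at this
    rw [this]; exact norm_nonneg _
  have step : ∀ s, s ≤ t →
      GG p c u (s + 1) ≤ GG p c u s * w (t - s) ^ (p ^ (s + 1) - p ^ s) := by
    intro s hs
    obtain ⟨σ, h1, h2⟩ := trop_act (p := p) c u (s + 1) (fun σ => ‖u σ‖)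
    have key : ‖u σ‖ ≤ w (t - s) := by
      by_contra hlt
      have hk : t - s < r := by omega
      have idx : ∀ τ, ‖u σ‖ ≤ ‖u τ‖ → (e.symm τ : ℕ) ∈ Finset.range (t - s) := fun τ hτ => by
        rw [Finset.mem_range]
        by_contra h3
        have h4 := hanti ⟨t - s, hk⟩ (e.symm τ) (not_lt.1 h3)
        rw [hw (e.symm τ), e.apply_symm_apply] at h4
        exact hlt (hτ.trans h4)
      rcases hs.eq_or_lt with rfl | hs'
      · simpa using idx σ le_rfl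
      · have h5 := kc u c hu horth hc (s1 := s + 1) (s2 := t) hs'
          fun s' a b => h s' (by omega) b
        have h6 := h5.trans (trop_card e _ (Finset.range (t - s)) fun τ hτ => idx τ (by
          obtain ⟨s', a, -, b⟩ := (Finset.mem_filter.1 hτ).2
          rcases a.eq_or_lt with rfl | a'
          · exact h2 τ b
          · exact trop_cmp a' (trop_pos hu hc _) h1 b))
        rw [Finset.card_range] at h6
        omega
    rw [← h1, trop_split _ _ (Nat.le_succ s)]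
    exact mul_le_mul (GG_ge c u s σ) (pow_le_pow_left₀ (norm_nonneg _) key _) (by positivity)
      (trop_nonneg c u s)
  have main : ∀ s, s ≤ t → GG p c u (s + 1) ≤
      GG p c u 1 * ∏ s ∈ Finset.Icc 1 s, w (t - s) ^ (p ^ (s + 1) - p ^ s) := by
    intro s
    induction s with
    | zero => intro _; simp
    | succ s ih =>
      intro hs
      rw [Finset.prod_Icc_succ_top (by omega), ← mul_assoc]
      exact (step _ hs).trans (mul_le_mul_of_nonneg_right (ih (by omega))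
        (pow_nonneg (hw0 _ (by omega)) _))
  exact main t le_rfl

theorem t_up {ι : Type} [Fintype ι] {r : ℕ} (e : Fin r ≃ ι) (u c : ι → L) (hu : ∀ σ, u σ ≠ 0)
    (hu1 : ∀ σ, ‖u σ‖ ≤ 1)
    (horth : ∀ b : ι → Fin p, ∀ σ, (b σ : ℕ) ≠ 0 → ‖u σ‖ ≤ ‖∑ τ, ((b τ : ℕ) : L) * u τ‖)
    (w : ℕ → ℝ) (hw : ∀ t : Fin r, w t = ‖u (e t)‖) (hanti : ∀ t t' : Fin r, t ≤ t' → w t' ≤ w t)
    (j : Fin r) (hlate : ∀ t, j < t → ∀ s, 1 ≤ s → ‖c (e t) * u (e t) ^ (p ^ s)‖ < GG p c u s)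
    (h1 : w j ^ p ≤ GG p c u 1) :
    ∃ t0 : ℕ, 1 ≤ t0 ∧ t0 ≤ (j : ℕ) + 1 ∧ ¬ Can p c u t0 ∧ (∀ s, 1 ≤ s → s < t0 → Can p c u s) ∧
      w j ^ p * DD p w j ≤ GG p c u t0 := by
  classical
  have : Nonempty ι := ⟨e j⟩
  have hwk : ∀ k, k < r → 0 < w k ∧ w k ≤ 1 := fun k hk => by
    have := hw ⟨k, hk⟩
    simp only at this
    rw [this]; exact ⟨norm_pos_iff.2 (hu _), hu1 _⟩
  have hc : ∃ σ, c σ ≠ 0 := by
    by_contra h
    push Not at h
    have := GG_le (p := p) c u 1 le_rfl fun σ => by simp [h σ]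
    exact absurd (h1.trans this) (not_le.2 (pow_pos (hwk j j.2).1 _))
  have idx : ∀ τ s, 1 ≤ s → ‖c τ * u τ ^ (p ^ s)‖ = GG p c u s → (e.symm τ : ℕ) ≤ j :=
    fun τ s hs h => by
      by_contra h3
      have := hlate (e.symm τ) (not_le.1 h3) s hs
      rw [e.apply_symm_apply] at this
      exact this.ne h
  have ex : ∃ s, 1 ≤ s ∧ s ≤ (j : ℕ) + 1 ∧ ¬ Can p c u s := by
    by_contra h
    push Not at h
    have h5 := kc u c hu horth hc (s1 := 1) (s2 := j + 1) (by omega) h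
    have h6 := h5.trans (trop_card e _ (Finset.range (j + 1)) fun τ hτ => by
      obtain ⟨s', a, -, b⟩ := (Finset.mem_filter.1 hτ).2
      exact Finset.mem_range.2 (Nat.lt_succ_of_le (idx τ s' a b)))
    rw [Finset.card_range] at h6
    omega
  obtain ⟨a1, a2, a3⟩ := Nat.find_spec ex
  have hcan : ∀ s, 1 ≤ s → s < Nat.find ex → Can p c u s := fun s hs hs' => by
    by_contra h
    exact Nat.find_min ex hs' ⟨hs, by omega, h⟩
  refine ⟨Nat.find ex, a1, a2, a3, hcan, ?_⟩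
  have step : ∀ s, 1 ≤ s → s < Nat.find ex →
      GG p c u s * w (j - s) ^ (p ^ (s + 1) - p ^ s) ≤ GG p c u (s + 1) := by
    intro s hs hs'
    obtain ⟨σ, h1, h2⟩ := trop_act (p := p) c u s (fun σ => -‖u σ‖)
    have key : w (j - s) ≤ ‖u σ‖ := by
      by_contra hlt
      have hk : j - s < r := by omega
      have h5 := kc u c hu horth hc (s1 := 1) (s2 := s) hs fun s' a b => hcan s' a (by omega)
      have h6 := h5.trans (trop_card e _ (Finset.Ioc (j - s) j) fun τ hτ => by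
        obtain ⟨s', a, b, d⟩ := (Finset.mem_filter.1 hτ).2
        refine Finset.mem_Ioc.2 ⟨?_, idx τ s' a d⟩
        by_contra h3
        have h4 := hanti (e.symm τ) ⟨j - s, hk⟩ (not_lt.1 h3)
        rw [hw (e.symm τ), e.apply_symm_apply] at h4
        refine hlt (h4.trans ?_)
        rcases b.eq_or_lt with rfl | b'
        · exact neg_le_neg_iff.1 (h2 τ d)
        · exact trop_cmp b' (trop_pos hu hc _) d h1)
      rw [Nat.card_Ioc] at h6
      omega
    refine le_trans ?_ (GG_ge c u (s + 1) σ)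
    rw [trop_split _ _ (Nat.le_succ s), h1]
    exact mul_le_mul_of_nonneg_left (pow_le_pow_left₀ (hwk _ (by omega)).1.le key _)
      (trop_nonneg c u s)
  have main : ∀ s, s < Nat.find ex → GG p c u 1 *
      ∏ s ∈ Finset.Icc 1 s, w (j - s) ^ (p ^ (s + 1) - p ^ s) ≤ GG p c u (s + 1) := by
    intro s
    induction s with
    | zero => intro _; simp
    | succ s ih =>
      intro hs
      rw [Finset.prod_Icc_succ_top (by omega), ← mul_assoc]
      exact (mul_le_mul_of_nonneg_right (ih (by omega))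
        (pow_nonneg (hwk _ (by omega)).1.le _)).trans (step _ (by omega) hs)
  have h7 := main (Nat.find ex - 1) (by omega)
  rw [Nat.sub_add_cancel a1] at h7
  refine le_trans (mul_le_mul h1 ?_ (Finset.prod_nonneg fun s _ =>
    pow_nonneg (hwk _ (by omega)).1.le _) (trop_nonneg c u 1)) h7
  exact Finset.prod_le_prod_of_subset_of_le_one (Finset.Icc_subset_Icc_right (by omega))
    (fun s _ => pow_nonneg (hwk _ (by omega)).1.le _)
    fun s _ _ => pow_le_one₀ (hwk _ (by omega)).1.le (hwk _ (by omega)).2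

end Vale.Agent.P217
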