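import Vale.Agent.P217.Car
import Vale.Agent.P217.Trop

namespace Vale.Agent.P217

open MvPowerSeries

variable {L : Type} [NormedField L] [IsUltrametricDist L]

variable {p : ℕ} [Fact p.Prime] [CharP L p] [PerfectRing L p]


omit [IsUltrametricDist L] [CharP L p] [PerfectRing L p] in
theorem ela_upos {m E q : ℕ} (y : Fin m → L) (hy0 : ∀ i, y i ≠ 0) (σ : Fin m × Fin (E + 1)) :
    0 < ‖uu q y σ‖ := norm_pos_iff.2 (pow_ne_zero _ (hy0 _))

omit [IsUltrametricDist L] [CharP L p] [PerfectRing L p] in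
theorem ela_ult {m n E : ℕ} (hn : 0 < n) (y : Fin m → L) (hy0 : ∀ i, y i ≠ 0)
    (hy : ∀ i, ‖y i‖ < 1) (i : Fin m) {l l' : Fin (E + 1)} (h : l' < l) :
    ‖uu (p ^ n) y (i, l)‖ < ‖uu (p ^ n) y (i, l')‖ := by
  simp only [uu, norm_pow]
  refine pow_lt_pow_right_of_lt_one₀ (norm_pos_iff.2 (hy0 i)) (hy i) ?_
  exact Nat.pow_lt_pow_right (Nat.one_lt_pow hn.ne' (Fact.out : p.Prime).one_lt) h

omit [IsUltrametricDist L] [CharP L p] [PerfectRing L p] in
theorem ela_ule {m n E : ℕ} (hn : 0 < n) (y : Fin m → L) (hy0 : ∀ i, y i ≠ 0)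
    (hy : ∀ i, ‖y i‖ < 1) (i : Fin m) {l l' : Fin (E + 1)} (h : l' ≤ l) :
    ‖uu (p ^ n) y (i, l)‖ ≤ ‖uu (p ^ n) y (i, l')‖ := by
  rcases h.lt_or_eq with h | rfl
  · exact (ela_ult hn y hy0 hy i h).le
  · exact le_rfl

omit [IsUltrametricDist L] in
theorem ela_sm {E : ℕ} {x : WittVector p L} (h : ∀ i ≤ E, ‖dg p i x‖ < 1) :
    ∃ κ : ℝ, 0 ≤ κ ∧ κ < 1 ∧ Sm p E κ x := by
  obtain ⟨i, hi, hmax⟩ := Finset.exists_max_image (Finset.range (E + 1)) (fun i => ‖dg p i x‖)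
    ⟨0, by simp⟩
  refine ⟨_, norm_nonneg _, h i (by simpa [Nat.lt_succ_iff] using hi), fun k hk => hmax k ?_⟩
  simpa [Nat.lt_succ_iff] using hk

theorem ela_sm_sum {E : ℕ} {ι : Type} (s : Finset ι) (x : ι → WittVector p L)
    (h : ∀ t ∈ s, ∀ i ≤ E, ‖dg p i (x t)‖ < 1) :
    ∃ κ : ℝ, 0 ≤ κ ∧ κ < 1 ∧ Sm p E κ (∑ t ∈ s, x t) := by
  classical
  induction s using Finset.induction_on with
  | empty => exact ⟨0, le_rfl, one_pos, by simpa using sm_zero E le_rfl⟩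
  | insert a s ha ih =>
    obtain ⟨κ, h0, h1, h2⟩ := ih fun t ht => h t (Finset.mem_insert_of_mem ht)
    obtain ⟨κ', h0', h1', h2'⟩ := ela_sm (h a (Finset.mem_insert_self _ _))
    refine ⟨max κ κ', le_max_of_le_left h0, max_lt h1 h1', ?_⟩
    rw [Finset.sum_insert ha]
    exact (h2'.mono le_rfl (le_max_right _ _)).add (h2.mono le_rfl (le_max_left _ _))

omit [CharP L p] [PerfectRing L p] in
theorem ela_norm_one {x : L} (h : ‖x - 1‖ < 1) : ‖x‖ = 1 := by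
  have h2 := IsUltrametricDist.norm_add_eq_max_of_norm_ne_norm (x := x - 1) (y := (1 : L))
    (by rw [norm_one]; exact h.ne)
  rw [sub_add_cancel, norm_one, max_eq_right h.le] at h2
  exact h2

theorem adm_init {m n E r : ℕ} (hmn : m < n) (y : Fin m → L) (hy0 : ∀ i, y i ≠ 0) {r2 : ℝ}
    (hr2 : r2 < 1) (hy : ∀ i, ‖y i‖ ≤ r2) (e : Fin r ≃ Fin m × Fin (E + 1)) (w : ℕ → ℝ)
    (hw : ∀ t : Fin r, w t = ‖uu (p ^ n) y (e t)‖) (hanti : ∀ t t' : Fin r, t ≤ t' → w t' ≤ w t) (j : Fin r) : ∃ α, Adm p n E y e j α := by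
  classical
  have key : ∀ σ : Fin m × Fin (E + 1), cc p (fun i => ∑ l ∈ Finset.range (E + 1),
      (p : WittVector p L) ^ l * WittVector.teichmuller p
        (if i = (e j).1 ∧ l = ((e j).2 : ℕ) then (1 : L) else 0)) σ =
      if σ = e j then 1 else 0 := by
    intro σ
    rw [cc, dg_sum_teich (Nat.lt_succ_iff.1 σ.2.2)]
    congr 1
    rw [Prod.ext_iff, Fin.ext_iff (a := σ.2)]
  refine ⟨fun i => ∑ l ∈ Finset.range (E + 1),
      (p : WittVector p L) ^ l * WittVector.teichmuller p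
        (if i = (e j).1 ∧ l = ((e j).2 : ℕ) then (1 : L) else 0), fun σ => ?_, ?_,
    fun t ht _ => ?_⟩
  · rw [key]
    split_ifs with h
    · simp [h]
    · simp
  · rw [key]; simp
  · rw [key, if_neg (e.injective.ne ht.ne')]; simp

theorem adm_sub {m n E r : ℕ} (hmn : m < n) (y : Fin m → L) (hy0 : ∀ i, y i ≠ 0) {r2 : ℝ}
    (hr2 : r2 < 1) (hy : ∀ i, ‖y i‖ ≤ r2) (e : Fin r ≃ Fin m × Fin (E + 1)) (w : ℕ → ℝ)
    (hw : ∀ t : Fin r, w t = ‖uu (p ^ n) y (e t)‖) (hanti : ∀ t t' : Fin r, t ≤ t' → w t' ≤ w t) (j : Fin r) {α : Fin m → WittVector p L}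
    (hα : Adm p n E y e j α) (s : Finset (Fin r)) (hs : ∀ t ∈ s, t < j) (γ : Fin r → L)
    (β : Fin r → Fin m → WittVector p L) (hβ : ∀ t ∈ s, Adm p n E y e t (β t))
    (hγ : ∀ t ∈ s, ‖γ t‖ * w t ^ p ≤ w j ^ p) :
    Adm p n E y e j (fun i => α i - ∑ t ∈ s, WittVector.teichmuller p (γ t) * β t i) := by
  have hn : 0 < n := by omega
  have hy1 : ∀ i, ‖y i‖ < 1 := fun i => (hy i).trans_lt hr2
  have hp0 : p ≠ 0 := (Fact.out : p.Prime).ne_zero
  have wpos : ∀ t : Fin r, 0 < w t := fun t => by rw [hw]; exact ela_upos y hy0 _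
  have hγ1 : ∀ t ∈ s, ‖γ t‖ ≤ 1 := by
    intro t ht
    have h1 := hγ t ht
    have h2 : w j ^ p ≤ w t ^ p := pow_le_pow_left₀ (wpos j).le (hanti t j (hs t ht).le) p
    have h3 : 0 < w t ^ p := pow_pos (wpos t) p
    nlinarith
  have smα : ∀ i, Sm p E 1 (α i) := fun i l hl => (hα.1 (i, ⟨l, Nat.lt_succ_iff.2 hl⟩)).1
  have dgβ : ∀ t i l, ‖dg p l (WittVector.teichmuller p (γ t) * β t i)‖ =
      ‖γ t‖ * ‖dg p l (β t i)‖ := fun t i l => by rw [dg_teich_mul, norm_mul]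
  have smβ : ∀ t ∈ s, ∀ i, Sm p E 1 (WittVector.teichmuller p (γ t) * β t i) := by
    intro t ht i l hl
    rw [dgβ]
    exact mul_le_one₀ (hγ1 t ht) (norm_nonneg _) ((hβ t ht).1 (i, ⟨l, Nat.lt_succ_iff.2 hl⟩)).1
  have bβ : ∀ t ∈ s, ∀ σ : Fin m × Fin (E + 1),
      ‖dg p σ.2 (WittVector.teichmuller p (γ t) * β t σ.1)‖ * ‖uu (p ^ n) y σ‖ ^ p ≤ w j ^ p := by
    intro t ht σ
    rw [dgβ, mul_assoc]
    have h1 := ((hβ t ht).1 σ).2
    rw [← hw] at h1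
    exact (mul_le_mul_of_nonneg_left h1 (norm_nonneg _)).trans (hγ t ht)
  have close : ∀ t' : Fin r, j ≤ t' → w t' = w j →
      ‖cc p (fun i => α i - ∑ t ∈ s, WittVector.teichmuller p (γ t) * β t i) (e t') -
        cc p α (e t')‖ < 1 := by
    intro t' ht' hw'
    obtain ⟨κ, -, h1, h2⟩ := ela_sm_sum (E := (e t').2) s
      (fun t => WittVector.teichmuller p (γ t) * β t (e t').1) (by
        intro t ht l hl
        rcases hl.lt_or_eq with hl | rfl
        · have hlE : l < E + 1 := hl.trans (e t').2.2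
          have h3 := bβ t ht ((e t').1, ⟨l, hlE⟩)
          have h4 := ela_ult (p := p) hn y hy0 hy1 (e t').1 (l := (e t').2) (l' := ⟨l, hlE⟩) hl
          have h5 : w j ^ p < ‖uu (p ^ n) y ((e t').1, (⟨l, hlE⟩ : Fin (E + 1)))‖ ^ p := by
            rw [← hw', hw]
            exact pow_lt_pow_left₀ h4 (norm_nonneg _) hp0
          have h6 := h3.trans_lt h5
          by_contra h7
          have h8 := pow_pos (ela_upos (q := p ^ n) y hy0 ((e t').1, (⟨l, hlE⟩ : Fin (E + 1)))) p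
          have h9 := not_lt.1 h7
          nlinarith
        · rw [dgβ]
          rcases (hanti t j (hs t ht).le).lt_or_eq with h | h
          · have h3 : w j ^ p < w t ^ p := pow_lt_pow_left₀ h (wpos j).le hp0
            have h4 := hγ t ht
            have h5 := pow_pos (wpos t) p
            have h6 : ‖γ t‖ < 1 := by nlinarith
            exact mul_lt_one_of_nonneg_of_lt_one_left (norm_nonneg _) h6 ((hβ t ht).1 (e t')).1
          · have h3 := (hβ t ht).2.2 t' ((hs t ht).trans_le ht') (by rw [← hw, ← hw, hw', h])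
            exact mul_lt_one_of_nonneg_of_lt_one_right (hγ1 t ht) (norm_nonneg _) h3)
    have h3 := dg_add_lt (d := (1 : L)) (i := (e t').2) le_rfl
      (x := α (e t').1) (by
        rw [norm_one]; exact (smα _).mono (Nat.lt_succ_iff.1 (e t').2.2) le_rfl) h2.neg
      (by rwa [norm_one])
    rw [norm_one, ← sub_eq_add_neg] at h3
    exact h3
  refine ⟨fun σ => ⟨?_, ?_⟩, ?_, fun t ht h => ?_⟩
  · exact ((smα σ.1).sub (sm_sum zero_le_one s _ fun t ht => smβ t ht σ.1)) σ.2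
      (Nat.lt_succ_iff.1 σ.2.2)
  · have hu := pow_pos (ela_upos (q := p ^ n) y hy0 σ) p
    rw [← hw, ← le_div_iff₀ hu]
    have low : ∀ x : WittVector p L, (∀ l : Fin (E + 1),
        ‖dg p l x‖ * ‖uu (p ^ n) y (σ.1, l)‖ ^ p ≤ w j ^ p) →
        Sm p σ.2 (w j ^ p / ‖uu (p ^ n) y σ‖ ^ p) x := by
      intro x hx l hl
      have hlE : l < E + 1 := hl.trans_lt σ.2.2
      rw [le_div_iff₀ hu]
      refine le_trans (mul_le_mul_of_nonneg_left ?_ (norm_nonneg _)) (hx ⟨l, hlE⟩)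
      exact pow_le_pow_left₀ (norm_nonneg _)
        (ela_ule (p := p) hn y hy0 hy1 σ.1 (l := σ.2) (l' := ⟨l, hlE⟩) hl) p
    refine (Sm.sub (low _ fun l => ?_) (sm_sum (div_nonneg (pow_pos (wpos j) p).le hu.le) s _
      fun t ht => low _ fun l => bβ t ht (σ.1, l))) σ.2 le_rfl
    rw [hw]
    exact (hα.1 (σ.1, l)).2
  · have h1 := close j le_rfl rfl
    have h2 := IsUltrametricDist.norm_add_le_max
      (cc p (fun i => α i - ∑ t ∈ s, WittVector.teichmuller p (γ t) * β t i) (e j) -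
        cc p α (e j)) (cc p α (e j) - 1)
    rw [sub_add_sub_cancel] at h2
    exact h2.trans_lt (max_lt h1 hα.2.1)
  · have h1 := close t ht.le (by rw [hw, hw, h])
    have h2 := IsUltrametricDist.norm_add_le_max
      (cc p (fun i => α i - ∑ t ∈ s, WittVector.teichmuller p (γ t) * β t i) (e t) -
        cc p α (e t)) (cc p α (e t))
    rw [sub_add_cancel] at h2
    exact h2.trans_lt (max_lt h1 (hα.2.2 t ht h))

theorem adm_late {m n E r : ℕ} (hmn : m < n) (y : Fin m → L) (hy0 : ∀ i, y i ≠ 0) {r2 : ℝ}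
    (hr2 : r2 < 1) (hy : ∀ i, ‖y i‖ ≤ r2) (e : Fin r ≃ Fin m × Fin (E + 1)) (w : ℕ → ℝ)
    (hw : ∀ t : Fin r, w t = ‖uu (p ^ n) y (e t)‖) (hanti : ∀ t t' : Fin r, t ≤ t' → w t' ≤ w t) (j : Fin r) {α : Fin m → WittVector p L}
    (hα : Adm p n E y e j α) :
    (∀ t, j < t → ∀ s, 1 ≤ s → ‖cc p α (e t) * uu (p ^ n) y (e t) ^ (p ^ s)‖ <
      GG p (cc (E := E) p α) (uu (p ^ n) y) s) ∧ GG p (cc (E := E) p α) (uu (p ^ n) y) 1 = w j ^ p := by
  have hp0 : p ≠ 0 := (Fact.out : p.Prime).ne_zero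
  have wpos : ∀ t : Fin r, 0 < w t := fun t => by rw [hw]; exact ela_upos y hy0 _
  have hge : ∀ s, w j ^ (p ^ s) ≤ GG p (cc (E := E) p α) (uu (p ^ n) y) s := by
    intro s
    have h := GG_ge (p := p) (cc (E := E) p α) (uu (p ^ n) y) s (e j)
    rwa [norm_mul, ela_norm_one hα.2.1, one_mul, norm_pow, ← hw] at h
  refine ⟨fun t ht s _ => lt_of_lt_of_le ?_ (hge s), le_antisymm ?_ (by simpa using hge 1)⟩
  · rw [norm_mul, norm_pow, ← hw]
    have h0 := pow_pos (wpos t) (p ^ s)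
    rcases (hanti j t ht.le).lt_or_eq with h | h
    · have h3 : w t ^ (p ^ s) < w j ^ (p ^ s) :=
        pow_lt_pow_left₀ h (wpos t).le (pow_ne_zero _ hp0)
      have h4 := (hα.1 (e t)).1
      nlinarith
    · have h4 := hα.2.2 t ht (by rw [← hw, ← hw, h])
      rw [← h]
      nlinarith
  · refine GG_le _ _ _ (pow_pos (wpos j) p).le fun σ => ?_
    rw [norm_mul, norm_pow, pow_one, hw]
    exact (hα.1 σ).2

theorem adm_digit {m n E r : ℕ} (hmn : m < n) (y : Fin m → L) (hy0 : ∀ i, y i ≠ 0) {r2 : ℝ}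
    (hr2 : r2 < 1) (hy : ∀ i, ‖y i‖ ≤ r2) (e : Fin r ≃ Fin m × Fin (E + 1)) (w : ℕ → ℝ)
    (hw : ∀ t : Fin r, w t = ‖uu (p ^ n) y (e t)‖) (hanti : ∀ t t' : Fin r, t ≤ t' → w t' ≤ w t) (j : Fin r) {α : Fin m → WittVector p L}
    (hα : Adm p n E y e j α) {s e' : ℕ} (he' : e' ≤ E) :
    ‖dg p (E - e') (bW p (p ^ n) E α (fun i => y i ^ (p ^ s))) -
      ∑ σ : Fin m × Fin (E + 1), cc p α σ * uu (p ^ n) y σ ^ (p ^ (s + n * e'))‖ ≤
      max (r2 * GG p (cc (E := E) p α) (uu (p ^ n) y) (s + n * e')) (r2 ^ ((p ^ n) ^ (E + 1))) := by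
  have hn : 0 < n := by omega
  have hp1 : 1 ≤ p := (Fact.out : p.Prime).one_lt.le
  have hr0 : 0 ≤ r2 := (norm_nonneg _).trans (hy (e j).1)
  have hu : ∀ σ : Fin m × Fin (E + 1), ‖uu (p ^ n) y σ‖ ≤ r2 := by
    intro σ
    rw [uu, norm_pow]
    exact (pow_le_of_le_one (norm_nonneg _) ((hy _).trans hr2.le)
      (pow_ne_zero _ (pow_ne_zero _ (by omega)))).trans (hy _)
  have hG0 : 0 ≤ GG p (cc (E := E) p α) (uu (p ^ n) y) (s + n * e') :=
    (norm_nonneg _).trans (GG_ge (p := p) (cc (E := E) p α) (uu (p ^ n) y) (s + n * e') (e j))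
  have hpow : ∀ i l k, (y i ^ (p ^ s)) ^ ((p ^ n) ^ (l + k)) =
      (y i ^ ((p ^ n) ^ l)) ^ (p ^ (s + n * k)) := by
    intro i l k
    rw [← pow_mul (y i), ← pow_mul (y i)]
    congr 1
    ring
  have h1 := carry (p := p) (p ^ n) E α (fun i => y i ^ (p ^ s)) he' (mul_nonneg hr0 hG0) (by
    intro i l k hk hl
    have h2 := GG_ge (p := p) (cc (E := E) p α) (uu (p ^ n) y) (s + n * k) (i, ⟨l, by omega⟩)
    have h3 := GG_dec (p := p) (cc (E := E) p α) (uu (p ^ n) y) hr0 hr2.le hu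
      (s := s + n * e') (s' := s + n * k) (by nlinarith)
    rw [← norm_pow, ← norm_mul, hpow]
    exact h2.trans h3)
  have h2 : ∑ σ : Fin m × Fin (E + 1), cc p α σ * uu (p ^ n) y σ ^ (p ^ (s + n * e')) =
      ∑ i, ∑ l ∈ Finset.range (E + 1 - e'), dg p l (α i) * (y i ^ (p ^ s)) ^ ((p ^ n) ^ (l + e')) +
      ∑ i, ∑ l ∈ Finset.Ico (E + 1 - e') (E + 1),
        dg p l (α i) * (y i ^ (p ^ s)) ^ ((p ^ n) ^ (l + e')) := by
    rw [Fintype.sum_prod_type, ← Finset.sum_add_distrib]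
    refine Finset.sum_congr rfl fun i _ => ?_
    rw [Finset.sum_range_add_sum_Ico _ (Nat.sub_le _ _), Finset.sum_range]
    refine Finset.sum_congr rfl fun l _ => ?_
    rw [hpow]
    rfl
  have h3 : ‖∑ i, ∑ l ∈ Finset.Ico (E + 1 - e') (E + 1),
        dg p l (α i) * (y i ^ (p ^ s)) ^ ((p ^ n) ^ (l + e'))‖ ≤ r2 ^ ((p ^ n) ^ (E + 1)) := by
    refine IsUltrametricDist.norm_sum_le_of_forall_le_of_nonneg (pow_nonneg hr0 _) fun i _ => ?_
    refine IsUltrametricDist.norm_sum_le_of_forall_le_of_nonneg (pow_nonneg hr0 _) fun l hl => ?_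
    rw [Finset.mem_Ico] at hl
    rw [norm_mul, ← pow_mul, norm_pow]
    have h4 : ‖dg p l (α i)‖ ≤ 1 := (hα.1 (i, ⟨l, hl.2⟩)).1
    refine (mul_le_of_le_one_left (by positivity) h4).trans ?_
    refine (pow_le_pow_left₀ (norm_nonneg _) (hy i) _).trans ?_
    refine pow_le_pow_of_le_one hr0 hr2.le ?_
    exact le_trans (Nat.pow_le_pow_right (Nat.one_le_pow _ _ hp1) (by omega))
      (Nat.le_mul_of_pos_left _ (Nat.one_le_pow _ _ hp1))
  rw [h2, ← sub_sub, sub_eq_add_neg (_ - _)]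
  refine (IsUltrametricDist.norm_add_le_max _ _).trans (max_le_max h1 ?_)
  rwa [norm_neg]

end Vale.Agent.P217
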