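import Vale.Agent.P217.ElA
import Vale.Agent.P217.TrK

namespace Vale.Agent.P217

open MvPowerSeries

variable {L : Type} [NormedField L] [IsUltrametricDist L]

variable {p : ℕ} [Fact p.Prime] [CharP L p] [PerfectRing L p]

/-- maximal digit over all rows -/
noncomputable def elsB (p : ℕ) [Fact p.Prime] [CharP L p] [PerfectRing L p] (n E : ℕ) {m : ℕ}
    (y : Fin m → L) (α : Fin m → WittVector p L) : ℝ :=
  ⨆ z : Fin n × Fin (E + 1),
    ‖dg p z.2 (bW p (p ^ n) E α (fun i => y i ^ (p ^ ((z.1 : ℕ) + 1))))‖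

omit [IsUltrametricDist L] in
theorem elsB_ge {n E m : ℕ} (y : Fin m → L) (α : Fin m → WittVector p L) {s i : ℕ} (h1 : 1 ≤ s)
    (hs : s ≤ n) (hi : i ≤ E) :
    ‖dg p i (bW p (p ^ n) E α (fun i => y i ^ (p ^ s)))‖ ≤ elsB p n E y α := by
  have h := le_ciSup (f := fun z : Fin n × Fin (E + 1) =>
    ‖dg p z.2 (bW p (p ^ n) E α (fun i => y i ^ (p ^ ((z.1 : ℕ) + 1))))‖)
    (Set.finite_range _).bddAbove (⟨s - 1, by omega⟩, ⟨i, by omega⟩)
  have e : s - 1 + 1 = s := by omega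
  simpa only [e, elsB] using h

omit [IsUltrametricDist L] in
theorem elsB_le {n E m : ℕ} (hn : 1 ≤ n) (y : Fin m → L) (α : Fin m → WittVector p L) {c : ℝ}
    (h : ∀ s, 1 ≤ s → s ≤ n → Sm p E c (bW p (p ^ n) E α (fun i => y i ^ (p ^ s)))) :
    elsB p n E y α ≤ c := by
  haveI : Nonempty (Fin n × Fin (E + 1)) := ⟨(⟨0, by omega⟩, 0)⟩
  refine ciSup_le fun z => h _ (by omega) (by have := z.1.2; omega) _ (by have := z.2.2; omega)

theorem els_div_le {m n E r : ℕ} (hmn : m < n) (e : Fin r ≃ Fin m × Fin (E + 1)) {t : ℕ}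
    (ht : t < r) : t / n ≤ E := by
  have hr : r = m * (E + 1) := by simpa using Fintype.card_congr e
  have h1 : t < n * (E + 1) := by
    have : m * (E + 1) ≤ n * (E + 1) := Nat.mul_le_mul_right _ hmn.le
    omega
  have := (Nat.div_lt_iff_lt_mul (by omega : 0 < n)).2 (by rw [mul_comm] at h1; exact h1)
  omega

theorem els_low {m n E r : ℕ} (hmn : m < n) (y : Fin m → L) (hy0 : ∀ i, y i ≠ 0) {r2 : ℝ}
    (hr2 : r2 < 1) (hy : ∀ i, ‖y i‖ ≤ r2) (e : Fin r ≃ Fin m × Fin (E + 1)) (w : ℕ → ℝ)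
    (hw : ∀ t : Fin r, w t = ‖uu (p ^ n) y (e t)‖) (hanti : ∀ t t' : Fin r, t ≤ t' → w t' ≤ w t)
    (horth : Orth p (p ^ n) E y) (j : Fin r) (hD : 0 < w j ^ p * DD p w j)
    (hδ : r2 ^ ((p ^ n) ^ (E + 1)) < w j ^ p * DD p w j) {α : Fin m → WittVector p L}
    (hα : Adm p n E y e j α) :
    ∃ t0 : ℕ, t0 ≤ (j : ℕ) + 1 ∧
      (∀ s, 1 ≤ s → s < t0 → Can p (cc (E := E) p α) (uu (p ^ n) y) s) ∧
      w j ^ p * DD p w j ≤ GG p (cc (E := E) p α) (uu (p ^ n) y) t0 ∧
      GG p (cc (E := E) p α) (uu (p ^ n) y) t0 ≤ elsB p n E y α := by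
  have hu0 : ∀ σ : Fin m × Fin (E + 1), uu (p ^ n) y σ ≠ 0 := fun σ => pow_ne_zero _ (hy0 _)
  have hu1 : ∀ σ : Fin m × Fin (E + 1), ‖uu (p ^ n) y σ‖ ≤ 1 := fun σ => by
    rw [uu, norm_pow]; exact pow_le_one₀ (norm_nonneg _) ((hy _).trans hr2.le)
  obtain ⟨hl1, hl2⟩ := adm_late hmn y hy0 hr2 hy e w hw hanti j hα
  obtain ⟨t0, h1, h2, h3, h4, h5⟩ := t_up e (uu (p ^ n) y) (cc (E := E) p α) hu0 hu1 horth w hw
    hanti j hl1 hl2.ge
  refine ⟨t0, h2, h4, h5, ?_⟩
  have he' : (t0 - 1) / n ≤ E := els_div_le hmn e (by have := j.2; omega)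
  have hn : 0 < n := by omega
  have hT : (t0 - 1) % n + 1 + n * ((t0 - 1) / n) = t0 := by
    have := Nat.mod_add_div (t0 - 1) n; omega
  have hd := adm_digit hmn y hy0 hr2 hy e w hw hanti j hα (s := (t0 - 1) % n + 1) he'
  rw [hT] at hd
  have hG : 0 < GG p (cc (E := E) p α) (uu (p ^ n) y) t0 := lt_of_lt_of_le hD h5
  have hlt : max (r2 * GG p (cc (E := E) p α) (uu (p ^ n) y) t0) (r2 ^ ((p ^ n) ^ (E + 1))) <
      GG p (cc (E := E) p α) (uu (p ^ n) y) t0 :=
    max_lt (by nlinarith) (lt_of_lt_of_le hδ h5)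
  have hge := elsB_ge (p := p) (n := n) y α (s := (t0 - 1) % n + 1) (i := E - (t0 - 1) / n)
    (by omega) (Nat.succ_le_of_lt (Nat.mod_lt _ hn)) (Nat.sub_le _ _)
  refine le_trans ?_ hge
  unfold Can at h3
  rw [not_lt] at h3
  set x := dg p (E - (t0 - 1) / n) (bW p (p ^ n) E α fun i => y i ^ p ^ ((t0 - 1) % n + 1))
  set l := ∑ σ : Fin m × Fin (E + 1), cc p α σ * uu (p ^ n) y σ ^ p ^ t0
  have h6 : ‖l‖ ≤ max ‖x‖ ‖x - l‖ := by
    have := IsUltrametricDist.norm_add_le_max x (-(x - l))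
    rw [norm_neg] at this
    simpa using this
  rcases le_max_iff.1 (h3.trans h6) with h | h
  · exact h
  · exact absurd (lt_of_le_of_lt hd hlt) (not_lt.2 h)

theorem els_clear {n E r : ℕ} (hn : 1 ≤ n) (hE : ∀ t < r, t / n ≤ E) (β : WittVector p L) {s : ℕ}
    (h1 : 1 ≤ s) (hs : s ≤ n) (T : Finset (Fin r)) (Xd : Fin r → L)
    (hX : ∀ t : Fin r, s = (t : ℕ) % n + 1 → Xd t = dg p (E - (t : ℕ) / n) β) {c : ℝ} (hc : 0 ≤ c)
    (hsmall : ∀ i ≤ E, (∀ t ∈ T, s = (t : ℕ) % n + 1 → i ≠ E - (t : ℕ) / n) → ‖dg p i β‖ ≤ c) :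
    Sm p E c (β - ∑ t ∈ T, if s = (t : ℕ) % n + 1 then
      (p : WittVector p L) ^ (E - (t : ℕ) / n) * WittVector.teichmuller p (Xd t) else 0) := by
  classical
  let good : ℕ → Prop := fun i => ∃ t ∈ T, s = (t : ℕ) % n + 1 ∧ i = E - (t : ℕ) / n
  have hsum : (∑ t ∈ T, if s = (t : ℕ) % n + 1 then
      (p : WittVector p L) ^ (E - (t : ℕ) / n) * WittVector.teichmuller p (Xd t) else 0) =
      ∑ i ∈ (Finset.range (E + 1)).filter good,
        (p : WittVector p L) ^ i * WittVector.teichmuller p (dg p i β) := by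
    rw [← Finset.sum_filter]
    refine Finset.sum_bij (fun t _ => E - (t : ℕ) / n) ?_ ?_ ?_ ?_
    · intro t ht
      rw [Finset.mem_filter] at ht ⊢
      exact ⟨Finset.mem_range.2 (Nat.lt_succ_of_le (Nat.sub_le _ _)), t, ht.1, ht.2, rfl⟩
    · intro t ht t' ht' h
      rw [Finset.mem_filter] at ht ht'
      have a1 := hE t t.2
      have a2 := hE t' t'.2
      have a3 : (t : ℕ) / n = (t' : ℕ) / n := by omega
      have a4 : (t : ℕ) % n = (t' : ℕ) % n := by omega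
      have a5 := Nat.mod_add_div (t : ℕ) n
      have a6 := Nat.mod_add_div (t' : ℕ) n
      rw [a3, a4] at a5
      exact Fin.ext (by omega)
    · intro i hi
      rw [Finset.mem_filter] at hi
      obtain ⟨t, ht, h2, h3⟩ := hi.2
      exact ⟨t, Finset.mem_filter.2 ⟨ht, h2⟩, h3.symm⟩
    · intro t ht
      rw [Finset.mem_filter] at ht
      rw [hX t ht.2]
  rw [hsum]
  have hsplit := Finset.sum_filter_add_sum_filter_not (Finset.range (E + 1)) good
    (fun i => (p : WittVector p L) ^ i * WittVector.teichmuller p (dg p i β))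
  have e1 : β - ∑ i ∈ (Finset.range (E + 1)).filter good,
        (p : WittVector p L) ^ i * WittVector.teichmuller p (dg p i β) =
      (β - ∑ i ∈ Finset.range (E + 1),
        (p : WittVector p L) ^ i * WittVector.teichmuller p (dg p i β)) +
      ∑ i ∈ (Finset.range (E + 1)).filter (fun i => ¬ good i),
        (p : WittVector p L) ^ i * WittVector.teichmuller p (dg p i β) := by
    rw [← hsplit]; ring
  rw [e1]
  refine Sm.add ((sm_of_dvd (dvd_sub_digits E β)).mono le_rfl hc) (sm_sum hc _ _ fun i hi => ?_)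
  rw [Finset.mem_filter, Finset.mem_range] at hi
  have h2 := (sm_p_pow (p := p) (L := L) E i).mul (sm_teich (p := p) E (dg p i β))
  rw [one_mul] at h2
  refine h2.mono le_rfl (hsmall i (by omega) fun t ht h3 h4 => hi.2 ⟨t, ht, h3, h4⟩)

theorem els_step {m n E r : ℕ} (hmn : m < n) (y : Fin m → L) (hy0 : ∀ i, y i ≠ 0) {r2 : ℝ}
    (hr2 : r2 < 1) (hy : ∀ i, ‖y i‖ ≤ r2) (e : Fin r ≃ Fin m × Fin (E + 1)) (w : ℕ → ℝ)
    (hw : ∀ t : Fin r, w t = ‖uu (p ^ n) y (e t)‖) (hanti : ∀ t t' : Fin r, t ≤ t' → w t' ≤ w t)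
    (horth : Orth p (p ^ n) E y) (j : Fin r)
    (hδ : r2 ^ ((p ^ n) ^ (E + 1)) < w j ^ p * DD p w j)
    (ih : ∀ t : Fin r, t < j → ∃ α d κ, ElimSpec p n E y e w t α d κ) :
    ∃ α d κ, ElimSpec p n E y e w j α d κ := by
  classical
  have hn : 1 ≤ n := by omega
  have hu0 : ∀ σ : Fin m × Fin (E + 1), uu (p ^ n) y σ ≠ 0 := fun σ => pow_ne_zero _ (hy0 _)
  have hwpos : ∀ t < r, 0 < w t := fun t ht => by
    rw [show w t = _ from hw ⟨t, ht⟩]; exact norm_pos_iff.2 (hu0 _)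
  have hDD : ∀ t < r, 0 < DD p w t := fun t ht =>
    Finset.prod_pos fun s _ => pow_pos (hwpos _ (by omega)) _
  have hr20 : 0 < r2 := lt_of_lt_of_le (norm_pos_iff.2 (hy0 (e j).1)) (hy _)
  have hur : ∀ σ : Fin m × Fin (E + 1), ‖uu (p ^ n) y σ‖ ≤ r2 := fun σ => by
    rw [uu, norm_pow]
    refine le_trans (pow_le_of_le_one (norm_nonneg _) ((hy _).trans hr2.le) ?_) (hy _)
    exact pow_ne_zero _ (pow_ne_zero _ (Fact.out : p.Prime).ne_zero)
  set D := w j ^ p * DD p w j with hDdef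
  set δ := r2 ^ ((p ^ n) ^ (E + 1)) with hδdef
  have hD : 0 < D := mul_pos (pow_pos (hwpos _ j.2) _) (hDD _ j.2)
  choose! βf dd κκ hspec using ih
  have hddpos : ∀ t : Fin r, t < j → 0 < ‖dd t‖ := fun t ht =>
    lt_of_le_of_lt (hspec t ht).2.2.1 (hspec t ht).2.2.2.1
  obtain ⟨κ, hκ1, hκr, hκδ, hκt⟩ : ∃ κ : ℝ, κ < 1 ∧ r2 ≤ κ ∧ δ ≤ κ * D ∧
      ∀ t : Fin r, t < j → κκ t ≤ κ * ‖dd t‖ := by
    let S : Finset ℝ := insert r2 (insert (δ / D)
      ((Finset.univ.filter fun t : Fin r => t < j).image fun t => κκ t / ‖dd t‖))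
    have hS : S.Nonempty := Finset.insert_nonempty _ _
    refine ⟨S.max' hS, ?_, S.le_max' _ (by simp [S]), ?_, fun t ht => ?_⟩
    · rw [Finset.max'_lt_iff]
      intro x hx
      simp only [S, Finset.mem_insert, Finset.mem_image, Finset.mem_filter, Finset.mem_univ,
        true_and] at hx
      rcases hx with rfl | rfl | ⟨t, ht, rfl⟩
      · exact hr2
      · exact (div_lt_one hD).2 hδ
      · exact (div_lt_one (hddpos t ht)).2 (hspec t ht).2.2.2.1
    · exact (div_le_iff₀ hD).1 (S.le_max' _ (by simp [S]))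
    · refine (div_le_iff₀ (hddpos t ht)).1 (S.le_max' _ ?_)
      simp only [S, Finset.mem_insert, Finset.mem_image, Finset.mem_filter, Finset.mem_univ,
        true_and]
      exact Or.inr (Or.inr ⟨t, ht, rfl⟩)
  have hκ0 : 0 < κ := lt_of_lt_of_le hr20 hκr
  let S : Set ℝ := {b | ∃ α, Adm p n E y e j α ∧ b = elsB p n E y α}
  have hSne : S.Nonempty := by
    obtain ⟨α, hα⟩ := adm_init (p := p) hmn y hy0 hr2 hy e w hw hanti j
    exact ⟨_, α, hα, rfl⟩
  have hSD : ∀ b ∈ S, D ≤ b := by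
    rintro b ⟨α, hα, rfl⟩
    obtain ⟨t0, -, -, h3, h4⟩ := els_low hmn y hy0 hr2 hy e w hw hanti horth j hD hδ hα
    exact h3.trans h4
  have hSb : BddBelow S := ⟨D, hSD⟩
  have hI : D ≤ sInf S := le_csInf hSne hSD
  have hIpos : 0 < sInf S := lt_of_lt_of_le hD hI
  obtain ⟨b, ⟨α, hα, rfl⟩, hb⟩ := exists_lt_of_csInf_lt hSne
    (show sInf S < sInf S / κ by rw [lt_div_iff₀ hκ0]; nlinarith)
  set ρ := elsB p n E y α with hρdef
  have hκρ : κ * ρ < sInf S := by rw [lt_div_iff₀ hκ0] at hb; linarith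
  have hDρ : D ≤ ρ := hSD _ ⟨α, hα, rfl⟩
  have hρ0 : 0 < ρ := lt_of_lt_of_le hD hDρ
  have hδρ : δ ≤ κ * ρ := hκδ.trans (by nlinarith)
  obtain ⟨t0, ht0, hcan, -, hGρ⟩ := els_low hmn y hy0 hr2 hy e w hw hanti horth j hD hδ hα
  have hG0 : ∀ T, 0 ≤ GG p (cc (E := E) p α) (uu (p ^ n) y) T := fun T =>
    le_trans (norm_nonneg _) (GG_ge (p := p) (cc (E := E) p α) (uu (p ^ n) y) T (e j))
  have F1 : ∀ s e', e' ≤ E → ‖dg p (E - e') (bW p (p ^ n) E α (fun i => y i ^ (p ^ s)))‖ ≤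
      max (GG p (cc (E := E) p α) (uu (p ^ n) y) (s + n * e')) δ := by
    intro s e' he'
    have hd := adm_digit hmn y hy0 hr2 hy e w hw hanti j hα (s := s) he'
    have hl := lin_le_GG (p := p) (cc (E := E) p α) (uu (p ^ n) y) (s + n * e')
    set x := dg p (E - e') (bW p (p ^ n) E α (fun i => y i ^ (p ^ s)))
    set l := ∑ σ : Fin m × Fin (E + 1), cc p α σ * uu (p ^ n) y σ ^ p ^ (s + n * e')
    have h6 : ‖x‖ ≤ max ‖x - l‖ ‖l‖ := by
      simpa using IsUltrametricDist.norm_add_le_max (x - l) l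
    refine h6.trans (max_le (hd.trans (max_le_max ?_ le_rfl)) (hl.trans (le_max_left _ _)))
    have := hG0 (s + n * e')
    nlinarith
  have F2 : ∀ s e', e' ≤ E → t0 < s + n * e' →
      ‖dg p (E - e') (bW p (p ^ n) E α (fun i => y i ^ (p ^ s)))‖ ≤ κ * ρ := by
    intro s e' he' hT
    refine (F1 s e' he').trans (max_le ?_ hδρ)
    refine (GG_dec _ _ hr20.le hr2.le hur hT).trans ?_
    exact mul_le_mul hκr hGρ (hG0 _) hκ0.le
  let Xd : Fin r → L := fun t =>
    dg p (E - (t : ℕ) / n) (bW p (p ^ n) E α (fun i => y i ^ (p ^ ((t : ℕ) % n + 1))))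
  have hXρ : ∀ t, ‖Xd t‖ ≤ ρ := fun t =>
    elsB_ge y α (by omega) (Nat.succ_le_of_lt (Nat.mod_lt _ (by omega))) (Nat.sub_le _ _)
  have hpos : ∀ t : Fin r, (t : ℕ) % n + 1 + n * ((t : ℕ) / n) = t + 1 := fun t => by
    have := Nat.mod_add_div (t : ℕ) n; omega
  let T : Finset (Fin r) := Finset.univ.filter fun t => t < j ∧ κ * ρ < ‖Xd t‖
  have hT : ∀ t, t ∈ T ↔ t < j ∧ κ * ρ < ‖Xd t‖ := fun t => by simp [T]
  let γ : Fin r → L := fun t => Xd t / dd t
  have hγ : ∀ t ∈ T, ‖γ t‖ * w t ^ p ≤ w j ^ p := by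
    intro t ht
    obtain ⟨h1, h2⟩ := (hT t).1 ht
    have hE := els_div_le hmn e t.2
    have h3 : (t : ℕ) + 1 ≤ t0 := by
      by_contra hc
      have := F2 ((t : ℕ) % n + 1) ((t : ℕ) / n) hE (by rw [hpos]; omega)
      exact absurd h2 (not_lt.2 this)
    have hc0 : ∃ σ, cc (E := E) p α σ ≠ 0 := ⟨e j, fun h => by
      have := hα.2.1
      rw [h] at this
      simp at this⟩
    have h4 := t_low e (uu (p ^ n) y) (cc (E := E) p α) hu0 horth w hw hanti hc0 t.2
      (fun s h5 h6 => hcan s h5 (by omega))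
    rw [(adm_late hmn y hy0 hr2 hy e w hw hanti j hα).2] at h4
    have h5 := F1 ((t : ℕ) % n + 1) ((t : ℕ) / n) hE
    rw [hpos] at h5
    have h6 : ‖Xd t‖ ≤ w j ^ p * DD p w t := by
      rcases le_max_iff.1 h5 with h | h
      · exact h.trans h4
      · exact absurd (lt_of_le_of_lt hδρ h2) (not_lt.2 h)
    have h7 := (hspec t h1).2.1
    have h8 := hddpos t h1
    have h9 := hDD _ t.2
    have h10 : 0 ≤ w j ^ p := (pow_pos (hwpos _ j.2) _).le
    have h11 : 0 ≤ w t ^ p := (pow_pos (hwpos _ t.2) _).le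
    simp only [γ, norm_div]
    rw [div_mul_eq_mul_div, div_le_iff₀ h8]
    calc ‖Xd t‖ * w t ^ p ≤ w j ^ p * DD p w t * w t ^ p := mul_le_mul_of_nonneg_right h6 h11
      _ = w j ^ p * (w t ^ p * DD p w t) := by ring
      _ ≤ w j ^ p * ‖dd t‖ := mul_le_mul_of_nonneg_left h7 h10
  let α' : Fin m → WittVector p L := fun i =>
    α i - ∑ t ∈ T, WittVector.teichmuller p (γ t) * βf t i
  have hα' : Adm p n E y e j α' := adm_sub hmn y hy0 hr2 hy e w hw hanti j hα T
    (fun t ht => ((hT t).1 ht).1) γ βf (fun t ht => (hspec t ((hT t).1 ht).1).1) hγ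
  have hκρ0 : 0 ≤ κ * ρ := (mul_pos hκ0 hρ0).le
  have hjT : j ∉ T := fun h => lt_irrefl _ ((hT j).1 h).1
  have hC : ∀ s, 1 ≤ s → s ≤ n → Sm p E (κ * ρ) (bW p (p ^ n) E α' (fun i => y i ^ (p ^ s)) -
      if s = (j : ℕ) % n + 1 then
        (p : WittVector p L) ^ (E - (j : ℕ) / n) * WittVector.teichmuller p (Xd j) else 0) := by
    intro s h1 hs
    have hcl := els_clear (p := p) hn (fun t ht => els_div_le hmn e ht)
      (bW p (p ^ n) E α (fun i => y i ^ (p ^ s))) h1 hs (insert j T) Xd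
      (fun t ht => by simp only [Xd]; rw [← ht]) hκρ0 (by
        intro i hi hgood
        have hi' : i = E - (E - i) := by omega
        by_cases hc : (j : ℕ) + 1 < s + n * (E - i)
        · rw [hi']
          exact F2 s (E - i) (Nat.sub_le _ _) (by omega)
        · have hlt : s - 1 + n * (E - i) < r := by have := j.2; omega
          let t : Fin r := ⟨s - 1 + n * (E - i), hlt⟩
          have a1 : (t : ℕ) % n = s - 1 := by
            show (s - 1 + n * (E - i)) % n = s - 1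
            rw [Nat.add_mul_mod_self_left, Nat.mod_eq_of_lt (by omega)]
          have a2 : (t : ℕ) / n = E - i := by
            show (s - 1 + n * (E - i)) / n = E - i
            rw [Nat.add_mul_div_left _ _ (by omega : 0 < n), Nat.div_eq_of_lt (by omega)]
            omega
          have a3 : s = (t : ℕ) % n + 1 := by omega
          have a4 : i = E - (t : ℕ) / n := by omega
          have a5 : t ∉ insert j T := fun h => hgood t h a3 a4
          rw [Finset.mem_insert, not_or] at a5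
          have a6 : t < j := by
            have b1 : (t : ℕ) ≠ j := fun h => a5.1 (Fin.ext h)
            have b2 : (t : ℕ) = s - 1 + n * (E - i) := rfl
            show (t : ℕ) < j
            omega
          have a7 : ‖Xd t‖ ≤ κ * ρ := not_lt.1 fun h => a5.2 ((hT t).2 ⟨a6, h⟩)
          have a8 : Xd t = dg p i (bW p (p ^ n) E α (fun i => y i ^ (p ^ s))) := by
            simp only [Xd]; rw [← a3, ← a4]
          rwa [a8] at a7)
    rw [Finset.sum_insert hjT] at hcl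
    have herr : Sm p E (κ * ρ) (∑ t ∈ T, WittVector.teichmuller p (γ t) *
        (bW p (p ^ n) E (βf t) (fun i => y i ^ (p ^ s)) - if s = (t : ℕ) % n + 1 then
          (p : WittVector p L) ^ (E - (t : ℕ) / n) * WittVector.teichmuller p (dd t) else 0)) := by
      refine sm_sum hκρ0 _ _ fun t ht => ?_
      have h2 := ((hT t).1 ht).1
      refine ((sm_teich (p := p) E (γ t)).mul ((hspec t h2).2.2.2.2 s h1 hs)).mono le_rfl ?_
      have h8 := hddpos t h2
      calc ‖γ t‖ * κκ t ≤ ‖γ t‖ * (κ * ‖dd t‖) :=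
            mul_le_mul_of_nonneg_left (hκt t h2) (norm_nonneg _)
        _ = κ * ‖Xd t‖ := by simp only [γ, norm_div]; field_simp
        _ ≤ κ * ρ := mul_le_mul_of_nonneg_left (hXρ t) hκ0.le
    have hsub := hcl.sub herr
    have hterm : ∀ t ∈ T, WittVector.teichmuller p (γ t) *
        (bW p (p ^ n) E (βf t) (fun i => y i ^ (p ^ s)) - if s = (t : ℕ) % n + 1 then
          (p : WittVector p L) ^ (E - (t : ℕ) / n) * WittVector.teichmuller p (dd t) else 0) =
        WittVector.teichmuller p (γ t) * bW p (p ^ n) E (βf t) (fun i => y i ^ (p ^ s)) -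
          if s = (t : ℕ) % n + 1 then
          (p : WittVector p L) ^ (E - (t : ℕ) / n) * WittVector.teichmuller p (Xd t) else 0 := by
      intro t ht
      have h8 : dd t ≠ 0 := norm_pos_iff.1 (hddpos t ((hT t).1 ht).1)
      have h9 : Xd t = γ t * dd t := by simp only [γ]; field_simp
      split_ifs
      · rw [h9, map_mul]; ring
      · ring
    rw [Finset.sum_congr rfl hterm, Finset.sum_sub_distrib] at hsub
    have hb := bW_sub (p := p) (p ^ n) E α T (fun t => WittVector.teichmuller p (γ t)) βf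
      (fun i => y i ^ (p ^ s))
    simp only [α']
    rw [hb]
    convert hsub using 1
    ring
  have hB' : elsB p n E y α' ≤ max ‖Xd j‖ (κ * ρ) := by
    refine elsB_le hn y α' fun s h1 hs => ?_
    have h2 := (hC s h1 hs).mono le_rfl (le_max_right ‖Xd j‖ (κ * ρ))
    have h3 : Sm p E (max ‖Xd j‖ (κ * ρ)) (if s = (j : ℕ) % n + 1 then
        (p : WittVector p L) ^ (E - (j : ℕ) / n) * WittVector.teichmuller p (Xd j) else 0) := by
      split_ifs
      · have h4 := (sm_p_pow (p := p) (L := L) E (E - (j : ℕ) / n)).mul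
          (sm_teich (p := p) E (Xd j))
        rw [one_mul] at h4
        exact h4.mono le_rfl (le_max_left _ _)
      · exact sm_zero E (le_trans (norm_nonneg _) (le_max_left _ _))
    simpa using h2.add h3
  have hI' : sInf S ≤ elsB p n E y α' := csInf_le hSb ⟨α', hα', rfl⟩
  have hId : sInf S ≤ ‖Xd j‖ := by
    rcases le_max_iff.1 (hI'.trans hB') with h | h
    · exact h
    · exact absurd hκρ (not_lt.2 h)
  exact ⟨α', Xd j, κ * ρ, hα', hI.trans hId, hκρ0, lt_of_lt_of_le hκρ hId, hC⟩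

theorem elim {m n E r : ℕ} (hmn : m < n) (y : Fin m → L) (hy0 : ∀ i, y i ≠ 0) {r2 : ℝ}
    (hr2 : r2 < 1) (hy : ∀ i, ‖y i‖ ≤ r2) (e : Fin r ≃ Fin m × Fin (E + 1)) (w : ℕ → ℝ)
    (hw : ∀ t : Fin r, w t = ‖uu (p ^ n) y (e t)‖) (hanti : ∀ t t' : Fin r, t ≤ t' → w t' ≤ w t)
    (horth : Orth p (p ^ n) E y) (j : Fin r)
    (hj : r2 ^ ((p ^ n) ^ (E + 1)) < w j ^ (3 * n * p ^ n)) :
    ∃ α d κ, ElimSpec p n E y e w j α d κ := by
  induction j using WellFoundedLT.induction with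
  | ind j ih =>
    refine els_step hmn y hy0 hr2 hy e w hw hanti horth j
      (lt_of_lt_of_le hj (t_K hmn y hy0 (fun i => (hy i).trans hr2.le) e w hw hanti j))
      fun t ht => ih t ht (lt_of_lt_of_le hj ?_)
    refine pow_le_pow_left₀ ?_ (hanti t j ht.le) _
    rw [hw]; exact norm_nonneg _

end Vale.Agent.P217
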