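import Vale.Agent.P217.Def3
import Vale.Agent.P217.Cpl

namespace Vale.Agent.P217

open MvPowerSeries

variable {L : Type} [NormedField L] [IsUltrametricDist L] [CompleteSpace L]


omit [CompleteSpace L] in
theorem ball_pow_Ev {r : ℝ} (hr : 0 ≤ r) (N : ℕ) : ball L r ^ N ≤ ball L (r ^ N) := by
  induction N with
  | zero => exact fun x _ => (mem_ball (by simp) x).2 (by rw [pow_zero]; exact x.2)
  | succ N ih =>
    rw [pow_succ]
    refine Ideal.mul_le.2 fun x hx y hy => (mem_ball (by positivity) _).2 ?_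
    rw [Subring.coe_mul, norm_mul, pow_succ]
    exact mul_le_mul ((mem_ball (by positivity) _).1 (ih hx)) ((mem_ball hr _).1 hy)
      (norm_nonneg _) (by positivity)

omit [CompleteSpace L] in
theorem tail_Ev {σ R : Type} [Finite σ] [CommRing R] (e : MvPowerSeries σ R →+* OC L) {r : ℝ}
    (hr : 0 ≤ r) (hx : ∀ i, ‖((e (X i) : OC L) : L)‖ ≤ r) (N : ℕ) {f : MvPowerSeries σ R}
    (hf : ∀ d, Finsupp.degree d < N → coeff d f = 0) : ‖((e f : OC L) : L)‖ ≤ r ^ N := by
  haveI := Fintype.ofFinite σ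
  have h1 : f ∈ (ball L r).comap e ^ N := mem_pow_Cpl (P := ⊥) (fun x hx => by
    rw [Ideal.mem_bot.1 hx, map_zero]; exact zero_mem _) (fun i => (mem_ball hr _).2 (hx i)) N
    fun d => by
      by_cases h : Finsupp.degree d < N
      · rw [hf d h]; exact zero_mem _
      · rw [Nat.sub_eq_zero_of_le (not_lt.1 h), pow_zero, Ideal.one_eq_top]; trivial
  exact (mem_ball (by positivity) _).1 (ball_pow_Ev hr N (Ideal.le_comap_pow e N h1))

omit [CompleteSpace L] [IsUltrametricDist L] in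
theorem rad_Ev {σ : Type} [Finite σ] (x : σ → L) (hx : ∀ i, ‖x i‖ < 1) :
    ∃ r : ℝ, 0 ≤ r ∧ r < 1 ∧ ∀ i, ‖x i‖ ≤ r := by
  haveI := Fintype.ofFinite σ
  exact ⟨‖x‖, norm_nonneg _, (pi_norm_lt_iff one_pos).2 hx, norm_le_pi_norm x⟩

theorem trunc_Ev {σ R : Type} [Finite σ] [CommRing R] (N : ℕ) (f : MvPowerSeries σ R)
    (d : σ →₀ ℕ) (hd : Finsupp.degree d < N) :
    coeff d (f - ((truncTotal N f : MvPolynomial σ R) : MvPowerSeries σ R)) = 0 := by
  rw [map_sub, MvPolynomial.coeff_coe, coeff_truncTotal _ hd, sub_self]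

omit [CompleteSpace L] in
/-- A bound valid on truncations is valid in the limit. -/
theorem lim_Ev {σ R : Type} [Finite σ] [CommRing R] (e e' : MvPowerSeries σ R →+* OC L)
    (hx : ∀ i, ‖((e (X i) : OC L) : L)‖ < 1) (hx' : ∀ i, ‖((e' (X i) : OC L) : L)‖ < 1)
    (c : OC L) {s : ℝ} (f : MvPowerSeries σ R)
    (h : ∀ N, ‖((e (truncTotal N f : MvPolynomial σ R) -
      c * e' (truncTotal N f : MvPolynomial σ R) : OC L) : L)‖ ≤ s) :
    ‖((e f - c * e' f : OC L) : L)‖ ≤ s := by
  obtain ⟨r, h0, h1, h2⟩ := rad_Ev _ hx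
  obtain ⟨r', h0', h1', h2'⟩ := rad_Ev _ hx'
  have t := (tendsto_pow_atTop_nhds_zero_of_lt_one h0 h1).add
    (tendsto_pow_atTop_nhds_zero_of_lt_one h0' h1') |>.const_add s
  rw [add_zero, add_zero] at t
  refine ge_of_tendsto' t fun N => ?_
  have k1 := tail_Ev e h0 h2 N (trunc_Ev N f)
  have k2 := tail_Ev e' h0' h2' N (trunc_Ev N f)
  have k3 := h N
  rw [map_sub] at k1 k2
  generalize e (truncTotal N f : MvPolynomial σ R) = a at *
  generalize e' (truncTotal N f : MvPolynomial σ R) = a' at *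
  have k4 : ((e f - c * e' f : OC L) : L) = (a - c * a' : OC L) +
      (((e f - a : OC L) : L) - c * (e' f - a' : OC L)) := by push_cast; ring
  rw [k4]
  refine (norm_add_le _ _).trans (add_le_add k3 ((norm_sub_le _ _).trans (add_le_add k1 ?_)))
  rw [norm_mul]
  exact (mul_le_of_le_one_left (norm_nonneg _) c.2).trans k2

theorem coe_Ev {σ R S : Type} [CommRing R] [CommRing S] (e : MvPowerSeries σ R →+* S)
    (P : MvPolynomial σ R) :
    e P = MvPolynomial.eval₂Hom (e.comp C) (fun i => e (X i)) P := by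
  have : e.comp MvPolynomial.coeToMvPowerSeries.ringHom =
      MvPolynomial.eval₂Hom (e.comp C) (fun i => e (X i)) :=
    MvPolynomial.ringHom_ext (fun a => by simp) fun i => by simp
  exact DFunLike.congr_fun this P

omit [CompleteSpace L] in
theorem ext_Ev {σ R : Type} [Finite σ] [CommRing R] {e e' : MvPowerSeries σ R →+* OC L}
    (hx : ∀ i, ‖((e (X i) : OC L) : L)‖ < 1) (hC : ∀ a, e (C a) = e' (C a))
    (hX : ∀ i, e (X i) = e' (X i)) : e = e' := by
  refine RingHom.ext fun f => ?_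
  have := lim_Ev e e' hx (fun i => hX i ▸ hx i) 1 (s := 0) f fun N => by
    rw [coe_Ev e, coe_Ev e', show e.comp C = e'.comp C from RingHom.ext hC, funext hX]
    simp
  rwa [norm_le_zero_iff, one_mul, ZeroMemClass.coe_eq_zero, sub_eq_zero] at this

omit [CompleteSpace L] in
theorem spec_Ev {σ : Type} [Finite σ] {x : σ → OC L} (hx : ∀ i, ‖(x i : L)‖ < 1)
    {e : MvPowerSeries σ (OC L) →+* OC L} (hC : ∀ a, e (C a) = a) (hX : ∀ i, e (X i) = x i) :
    EvSpec x e := by
  refine ⟨hC, hX, fun r s N f h0 h1 h2 h3 h4 h5 => ?_⟩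
  have hx' : ∀ i, ‖((e (X i) : OC L) : L)‖ < 1 := fun i => hX i ▸ hx i
  have := lim_Ev e e hx' hx' 0 (s := s * r ^ N) f fun M => by
    rw [zero_mul, sub_zero, ← mem_ball (by positivity), (truncTotal M f).as_sum,
      ← MvPolynomial.coeToMvPowerSeries.ringHom_apply, map_sum, map_sum]
    refine Ideal.sum_mem _ fun d _ => ?_
    rw [coeff_truncTotal_eq_ite]
    split_ifs
    · by_cases hd : Finsupp.degree d < N
      · simp [h5 d hd]
      rw [← mul_one (coeff d f), ← MvPolynomial.C_mul_monomial, map_mul, map_mul,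
        mem_ball (by positivity), Subring.coe_mul, norm_mul]
      refine mul_le_mul ?_ (tail_Ev e h0 (fun i => hX i ▸ h3 i) N fun d' hd' => ?_)
        (norm_nonneg _) h2
      · simpa [hC] using h4 d
      · classical
        have : d ≠ d' := fun c => hd (c ▸ hd')
        simp [MvPolynomial.coeff_monomial, coeff_monomial, this, this.symm]
    · simp
  simpa using this
theorem evR_spec {σ : Type} [Finite σ] (x : σ → OC L) (hx : ∀ i, ‖(x i : L)‖ < 1) :
    EvSpec x (evR x) :=   by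
  have : IsLinearTopology (OC L) (OC L) :=
    IsLinearTopology.mk_of_hasBasis (OC L) (S := Ideal (OC L)) (p := fun r : ℝ => 0 < r)
      (s := fun r => ball L r) (Metric.nhds_basis_closedBall.congr (fun _ => Iff.rfl)
        fun r hr => Set.ext fun y => by
          rw [SetLike.mem_coe, mem_ball hr.le, mem_closedBall_zero_iff]; rfl)
  have : CompleteSpace (OC L) := IsClosed.completeSpace_coe
    (hs := isClosed_le continuous_norm continuous_const)
  have ha : HasEval x := ⟨fun i => tendsto_pow_atTop_nhds_zero_of_norm_lt_one (hx i), by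
    rw [Filter.cofinite_eq_bot]; exact Filter.tendsto_bot⟩
  have h : ∃ e, EvSpec x e := ⟨eval₂Hom (φ := RingHom.id (OC L)) continuous_id ha,
    spec_Ev hx (fun a => by rw [coe_eval₂Hom, eval₂_C]; rfl) fun i => by
      rw [coe_eval₂Hom, eval₂_X]⟩
  rw [evR, dif_pos h]
  exact h.choose_spec

omit [CompleteSpace L] in
theorem evSpec_unique {σ : Type} [Finite σ] {x : σ → OC L} (hx : ∀ i, ‖(x i : L)‖ < 1)
    {e e' : MvPowerSeries σ (OC L) →+* OC L} (h : EvSpec x e) (h' : EvSpec x e') : e = e' :=   ext_Ev (fun i => h.eX i ▸ hx i) (fun a => by rw [h.eC, h'.eC]) fun i => by rw [h.eX, h'.eX]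

theorem evR_coe {σ : Type} [Finite σ] (x : σ → OC L) (hx : ∀ i, ‖(x i : L)‖ < 1)
    (P : MvPolynomial σ (OC L)) : evR x (P : MvPowerSeries σ (OC L)) = MvPolynomial.eval x P :=   by
  rw [coe_Ev, show (evR x).comp C = RingHom.id _ from RingHom.ext (evR_spec x hx).eC,
    funext (evR_spec x hx).eX]
  rfl

theorem evR_norm_le {σ : Type} [Finite σ] (x : σ → OC L) {r : ℝ} (hr0 : 0 ≤ r) (hr : r < 1)
    (hx : ∀ i, ‖(x i : L)‖ ≤ r) {f : MvPowerSeries σ (OC L)} (hf : constantCoeff f = 0) :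
    ‖((evR x f : OC L) : L)‖ ≤ r :=   by
  have := tail_Ev (evR x) hr0 (fun i => by
    rw [(evR_spec x fun i => (hx i).trans_lt hr).eX]; exact hx i) 1 (f := f) fun d hd => by
    rw [(Finsupp.degree_eq_zero_iff d).1 (Nat.lt_one_iff.1 hd)]; exact hf
  rwa [pow_one] at this

theorem evR_subst {σ τ : Type} [Finite σ] [Finite τ] (x : τ → OC L) (hx : ∀ i, ‖(x i : L)‖ < 1)
    (a : σ → MvPowerSeries τ (OC L)) (ha : ∀ s, constantCoeff (a s) = 0)
    (f : MvPowerSeries σ (OC L)) : evR x (subst a f) = evR (fun s => evR x (a s)) f :=   by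
  have hs : HasSubst a := hasSubst_of_constantCoeff_zero ha
  obtain ⟨r, h0, h1, h2⟩ := rad_Ev (fun i => (x i : L)) hx
  have h3 := evR_spec (fun s => evR x (a s)) fun s => (evR_norm_le x h0 h1 h2 (ha s)).trans_lt h1
  have := ext_Ev (e := evR fun s => evR x (a s))
    (e' := (evR x).comp (substAlgHom (R := OC L) hs).toRingHom)
    (fun s => by rw [h3.eX]; exact (evR_norm_le x h0 h1 h2 (ha s)).trans_lt h1)
    (fun c => by
      rw [h3.eC]
      have : substAlgHom (R := OC L) hs (C c) = C c := (substAlgHom (R := OC L) hs).commutes c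
      exact ((evR_spec x hx).eC c).symm.trans (congrArg (evR x) this.symm))
    (fun s => by rw [h3.eX]; exact congrArg (evR x) (substAlgHom_X hs s).symm)
  rw [this]
  exact congrArg (evR x) (by rw [← coe_substAlgHom hs]; rfl)

theorem evR_subst1 {τ : Type} [Finite τ] (x : τ → OC L) (hx : ∀ i, ‖(x i : L)‖ < 1)
    (a : MvPowerSeries τ (OC L)) (ha : constantCoeff a = 0)
    (f : PowerSeries (OC L)) : evR x (PowerSeries.subst a f) = ev1 (evR x a) f :=   evR_subst x hx (fun _ : Unit => a) (fun _ => ha) f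

theorem evR_sub {σ : Type} [Finite σ] (x x' : σ → OC L) (hx : ∀ i, ‖(x i : L)‖ < 1)
    (hx' : ∀ i, ‖(x' i : L)‖ < 1) {s : ℝ} (hs : 0 ≤ s) (h : ∀ i, ‖(x i : L) - x' i‖ ≤ s)
    (f : MvPowerSeries σ (OC L)) : ‖((evR x f : OC L) : L) - (evR x' f : OC L)‖ ≤ s :=   by
  have := lim_Ev (evR x) (evR x') (fun i => by rw [(evR_spec x hx).eX]; exact hx i)
    (fun i => by rw [(evR_spec x' hx').eX]; exact hx' i) 1 (s := s) f fun N => by
    rw [one_mul, ← mem_ball hs, evR_coe x hx, evR_coe x' hx', ← Ideal.Quotient.eq,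
      ← MvPolynomial.coe_aeval_eq_eval, ← MvPolynomial.coe_aeval_eq_eval]
    simp only [RingHom.coe_coe, MvPolynomial.map_aeval,
      fun i => Ideal.Quotient.eq.2 ((mem_ball hs (x i - x' i)).2 (h i))]
  simpa using this

theorem evR_frob (p : ℕ) [Fact p.Prime] [CharP L p] {σ : Type} [Finite σ] (x : σ → OC L)
    (hx : ∀ i, ‖(x i : L)‖ < 1) (s : ℕ) (f : MvPowerSeries σ (OC L)) :
    evR x f ^ (p ^ s) = evR (fun i => x i ^ (p ^ s)) (map (iterateFrobenius (OC L) p s) f) :=   by
  have h1 : ∀ i, ‖((x i ^ (p ^ s) : OC L) : L)‖ < 1 := fun i => by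
    rw [Subring.coe_pow, norm_pow]
    exact pow_lt_one₀ (norm_nonneg _) (hx i) (pow_ne_zero _ (Fact.out : p.Prime).ne_zero)
  have := ext_Ev (e := (iterateFrobenius (OC L) p s).comp (evR x))
    (e' := (evR fun i => x i ^ (p ^ s)).comp (map (iterateFrobenius (OC L) p s)))
    (fun i => by rw [RingHom.comp_apply, (evR_spec x hx).eX]; exact h1 i)
    (fun c => by simp only [RingHom.comp_apply, (evR_spec x hx).eC, map_C, (evR_spec _ h1).eC])
    (fun i => by simp only [RingHom.comp_apply, (evR_spec x hx).eX, map_X, (evR_spec _ h1).eX]; rfl)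
  exact DFunLike.congr_fun this f

end Vale.Agent.P217
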