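import Vale.Agent.P217.Log

namespace Vale.Agent.P217

open MvPowerSeries

variable {p n : ℕ} [Fact p.Prime]

theorem feq_ker {f : E0 p n}
    (h : map (WittVector.constantCoeff : WW p n →+* kk p n) f = 0) :
    f ∈ Ideal.span {(p : E0 p n)} := by
  have h1 : ∀ d, ∃ c : WW p n, c * p = coeff d f := by
    intro d
    rw [← Ideal.mem_span_singleton', ← WittVector.ker_constantCoeff, RingHom.mem_ker,
      ← coeff_map, h, map_zero]
  choose c hc using h1
  let g : E0 p n := c
  refine Ideal.mem_span_singleton'.2 ⟨g, MvPowerSeries.ext fun d => ?_⟩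
  rw [← map_natCast (C : WW p n →+* E0 p n) p, coeff_mul_C]
  exact hc d

theorem exists_frobLift : ∃ σ : E0 p n →+* E0 p n, (∀ i, σ (vv p n i) = vv p n i ^ p) ∧
    ∀ x, σ x - x ^ p ∈ Ideal.span {(p : E0 p n)} := by
  have hp : p ≠ 0 := (Fact.out : p.Prime).ne_zero
  refine ⟨(expand p hp : E0 p n →ₐ[WW p n] E0 p n).toRingHom.comp
    (map (WittVector.frobenius : WW p n →+* WW p n)), fun i => ?_, fun x => feq_ker ?_⟩
  · unfold vv
    split_ifs
    · simp
    · simp
    · simp [hp]
  · have e : (WittVector.constantCoeff : WW p n →+* kk p n).comp WittVector.frobenius =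
        (frobenius (kk p n) p).comp WittVector.constantCoeff := by
      ext w
      simp [frobenius_def]
    rw [map_sub, map_pow, ← map_frobenius_expand p hp, sub_eq_zero]
    simp only [AlgHom.toRingHom_eq_coe, RingHom.coe_comp, RingHom.coe_coe, Function.comp_apply,
      map_expand, map_map, e]

theorem feq_rec {R : Type} [CommRing R] (σ : R →+* R) (w β : ℕ → R) (h0 : β 0 = 1)
    (h : ∀ j, β (j + 1) = ∑ i ∈ Finset.range (j + 1), β i * (σ ^ i) (w (j - i))) (j : ℕ) :
    β (j + 1) = ∑ i ∈ Finset.range (j + 1), w i * (σ ^ (i + 1)) (β (j - i)) := by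
  induction j using Nat.strong_induction_on with
  | _ j ih =>
  let f : ℕ → ℕ → R := fun k l =>
    w k * (σ ^ (k + 1)) (β l) * (σ ^ (k + l + 1)) (w (j - (k + l + 1)))
  have e1 : ∑ i ∈ Finset.range j, β (i + 1) * (σ ^ (i + 1)) (w (j - (i + 1))) =
      ∑ i ∈ Finset.range j, ∑ k ∈ Finset.range (i + 1), f k (i - k) := by
    refine Finset.sum_congr rfl fun i hi => ?_
    rw [ih i (Finset.mem_range.1 hi), Finset.sum_mul]
    refine Finset.sum_congr rfl fun k hk => ?_
    have : k + (i - k) = i := by have := Finset.mem_range.1 hk; omega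
    simp only [f, this]
  have e2 : ∑ k ∈ Finset.range j, w k * (σ ^ (k + 1)) (β (j - k)) =
      ∑ k ∈ Finset.range j, ∑ l ∈ Finset.range (j - k), f k l := by
    refine Finset.sum_congr rfl fun k hk => ?_
    obtain ⟨t, ht⟩ : ∃ t, j - k = t + 1 := ⟨j - k - 1, by have := Finset.mem_range.1 hk; omega⟩
    rw [ht, h t, map_sum, Finset.mul_sum]
    refine Finset.sum_congr rfl fun l hl => ?_
    have e3 : j - (k + l + 1) = t - l := by omega
    have e4 : σ ^ (k + l + 1) = σ ^ (k + 1) * σ ^ l := by rw [← pow_add]; congr 1; ring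
    simp only [f, e3, e4, map_mul, mul_assoc]
    rfl
  rw [h j, Finset.sum_range_succ', Finset.sum_range_succ, e1, e2, Finset.sum_range_diag_flip]
  simp [h0]

theorem bet_rec2 (σ : E0 p n →+* E0 p n) (hσ : ∀ i, σ (vv p n i) = vv p n i ^ p) (j : ℕ) :
    bet p n (j + 1) = ∑ i ∈ Finset.range (j + 1),
      (p : E0 p n) ^ i * vv p n (i + 1) * (σ ^ (i + 1)) (bet p n (j - i)) := by
  have h1 : ∀ i k, (σ ^ i) (vv p n k) = vv p n k ^ (p ^ i) := by
    intro i k
    induction i with
    | zero => simp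
    | succ i ih =>
      rw [pow_succ']
      show σ ((σ ^ i) (vv p n k)) = _
      rw [ih, map_pow, hσ, ← pow_mul, ← pow_succ']
  refine feq_rec σ (fun i => (p : E0 p n) ^ i * vv p n (i + 1)) (bet p n) (by rw [bet])
    (fun j => ?_) j
  rw [bet, Finset.sum_range]
  refine Finset.sum_congr rfl fun i _ => ?_
  have : j - (i : ℕ) + 1 = j + 1 - i := by have := i.2; omega
  rw [map_mul, map_pow, map_natCast, h1, this]
  ring

theorem pow_congr_p {A : Type} [CommRing A] {a b : A} {s : ℕ} (hs : 1 ≤ s)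
    (h : a - b ∈ Ideal.span {(p : A) ^ s}) (t : ℕ) :
    a ^ (p ^ t) - b ^ (p ^ t) ∈ Ideal.span {(p : A) ^ (s + t)} := by
  simp only [Ideal.mem_span_singleton] at h ⊢
  induction t with
  | zero => simpa using h
  | succ t ih =>
    rw [pow_succ p, pow_mul, pow_mul, ← Commute.geom_sum₂_mul (Commute.all _ _), ← add_assoc,
      pow_succ']
    exact mul_dvd_mul (dvd_geom_sum₂_self ((dvd_pow_self _ (by omega)).trans ih)) ih

end Vale.Agent.P217
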