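import Vale.Agent.P217.Tay
import Vale.Agent.P217.Def3

namespace Vale.Agent.P217

open MvPowerSeries

variable {A : Type} [CommRing A]

/-- exponent vector of an index -/
noncomputable def ex_Free {σ : Type} [Fintype σ] {d : ℕ} (i : σ → Fin d) : σ →₀ ℕ :=
  Finsupp.equivFunOnFinite.symm fun s => (i s : ℕ)

theorem ex_apply_Free {σ : Type} [Fintype σ] {d : ℕ} (i : σ → Fin d) (s : σ) :
    ex_Free i s = (i s : ℕ) := rfl

theorem prod_X_Free {σ : Type} [Fintype σ] {d : ℕ} (i : σ → Fin d) :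
    (∏ s, (X s : MvPowerSeries σ A) ^ (i s : ℕ)) = monomial (ex_Free i) 1 := by
  rw [monomial_one_eq, Finsupp.prod_fintype _ _ (by simp)]
  rfl

theorem coeff_E_Free {σ : Type} [Fintype σ] [DecidableEq σ] {d : ℕ} (hd : d ≠ 0)
    (c : (σ → Fin d) → MvPowerSeries σ A) (m : σ →₀ ℕ) (i : σ → Fin d) :
    coeff (d • m + ex_Free i) (∑ j, subst (fun s => (X s : MvPowerSeries σ A) ^ d) (c j) *
      ∏ s, X s ^ (j s : ℕ)) = coeff m (c i) := by
  have he : ∀ f : MvPowerSeries σ A,
      subst (fun s => (X s : MvPowerSeries σ A) ^ d) f = expand d hd f := by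
    intro f
    rw [expand, substAlgHom_apply]
  rw [map_sum, Finset.sum_eq_single i]
  · rw [prod_X_Free, coeff_add_mul_monomial, mul_one, he, coeff_expand_smul]
  · intro j _ hj
    rw [prod_X_Free, coeff_mul_monomial]
    split_ifs with h
    · obtain ⟨s, hs⟩ := Function.ne_iff.mp hj
      rw [he, coeff_expand_of_not_dvd (i := s), zero_mul]
      have h1 := h s
      simp only [Finsupp.coe_tsub, Finsupp.coe_add, Finsupp.coe_smul, Pi.sub_apply, Pi.add_apply,
        Pi.smul_apply, smul_eq_mul, ex_apply_Free] at h1 ⊢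
      rintro ⟨t, ht⟩
      apply hs
      have h2 : d * m s + (i s : ℕ) = d * t + (j s : ℕ) := by omega
      have h3 := congrArg (· % d) h2
      simp only [Nat.mul_add_mod, Nat.mod_eq_of_lt (i s).2, Nat.mod_eq_of_lt (j s).2] at h3
      exact Fin.ext h3.symm
    · rfl
  · intro h
    exact absurd (Finset.mem_univ i) h

theorem decomp_Free {σ : Type} [Fintype σ] {d : ℕ} (hd : d ≠ 0) (e : σ →₀ ℕ) :
    ∃ (m : σ →₀ ℕ) (i : σ → Fin d), e = d • m + ex_Free i := by
  refine ⟨Finsupp.equivFunOnFinite.symm fun s => e s / d,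
    fun s => ⟨e s % d, Nat.mod_lt _ (Nat.pos_of_ne_zero hd)⟩, ?_⟩
  ext s
  simp only [Finsupp.coe_add, Finsupp.coe_smul, Pi.add_apply, Pi.smul_apply, smul_eq_mul,
    ex_apply_Free, Finsupp.equivFunOnFinite_symm_apply_apply]
  exact (Nat.div_add_mod _ _).symm

theorem hasSubst_sN_Free {σ : Type} [Finite σ] {N : PowerSeries A}
    (h0 : PowerSeries.constantCoeff N = 0) : HasSubst (sN σ N) :=
  hasSubst_of_constantCoeff_zero fun s =>
    PowerSeries.constantCoeff_subst_eq_zero (constantCoeff_X s) _ h0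

theorem diff_Free {σ : Type} [Fintype σ] [DecidableEq σ] (a : Ideal A)
    (N : PowerSeries A) (h0 : PowerSeries.constantCoeff N = 0) {d : ℕ} (hd : d ≠ 0)
    (hN : CoefIn a (N - PowerSeries.X ^ d)) {I : Ideal A} (c : (σ → Fin d) → MvPowerSeries σ A)
    (hc : ∀ i, CoefIn I (c i)) :
    CoefIn (I * a) ((∑ i, subst (sN σ N) (c i) * ∏ s, X s ^ (i s : ℕ)) -
      ∑ j, subst (fun s => (X s : MvPowerSeries σ A) ^ d) (c j) * ∏ s, X s ^ (j s : ℕ)) := by
  rw [← Finset.sum_sub_distrib]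
  refine CoefIn.sumT _ fun i _ => ?_
  rw [← sub_mul]
  refine CoefIn.mul_rightT _ ((hc i).subst_congr_mul (hasSubst_sN_Free h0) (HasSubst.X_pow hd) ?_)
  intro s
  have h1 := hN.subst_left (PowerSeries.HasSubst.X (S := A) s).const
  have h2 : subst (fun _ : Unit => (X s : MvPowerSeries σ A)) (N - PowerSeries.X ^ d) =
      sN σ N s - X s ^ d := by
    rw [← PowerSeries.subst_def, PowerSeries.subst_sub (PowerSeries.HasSubst.X s),
      PowerSeries.subst_pow (PowerSeries.HasSubst.X s),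
      PowerSeries.subst_X (PowerSeries.HasSubst.X s)]
    rfl
  rwa [h2] at h1

theorem coefIn_bot_Free {σ : Type} {f : MvPowerSeries σ A} (h : CoefIn ⊥ f) : f = 0 := by
  ext e
  rw [map_zero]
  exact Ideal.mem_bot.mp (h e)

theorem free_exists {σ : Type} [Fintype σ] [DecidableEq σ] (a : Ideal A) (M : ℕ) (ha : a ^ M = ⊥)
    (N : PowerSeries A) (h0 : PowerSeries.constantCoeff N = 0) {d : ℕ} (hd : 1 ≤ d)
    (hN : CoefIn a (N - PowerSeries.X ^ d)) (f : MvPowerSeries σ A) :
    ∃ c : (σ → Fin d) → MvPowerSeries σ A,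
      f = ∑ i, subst (sN σ N) (c i) * ∏ s, X s ^ (i s : ℕ) := by
  have hd0 : d ≠ 0 := by omega
  have hs : HasSubst (sN σ N) := hasSubst_sN_Free h0
  have key : ∀ k : ℕ, ∃ c : (σ → Fin d) → MvPowerSeries σ A,
      CoefIn (a ^ k) (f - ∑ i, subst (sN σ N) (c i) * ∏ s, X s ^ (i s : ℕ)) := by
    intro k
    induction k with
    | zero => exact ⟨0, fun e => by simp⟩
    | succ k ih =>
      obtain ⟨c, hc⟩ := ih
      set g := f - ∑ i, subst (sN σ N) (c i) * ∏ s, X s ^ (i s : ℕ) with hg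
      let c' : (σ → Fin d) → MvPowerSeries σ A := fun i m => coeff (d • m + ex_Free i) g
      have hc' : ∀ i m, coeff m (c' i) = coeff (d • m + ex_Free i) g := fun i m => rfl
      have h1 : (∑ j, subst (fun s => (X s : MvPowerSeries σ A) ^ d) (c' j) *
          ∏ s, X s ^ (j s : ℕ)) = g := by
        ext e
        obtain ⟨m, i, rfl⟩ := decomp_Free hd0 e
        rw [coeff_E_Free hd0, hc']
      have h2 := diff_Free a N h0 hd0 hN c' (I := a ^ k) (fun i m => by rw [hc']; exact hc _)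
      rw [h1, ← pow_succ] at h2
      refine ⟨c + c', ?_⟩
      have h3 : f - ∑ i, subst (sN σ N) ((c + c') i) * ∏ s, X s ^ (i s : ℕ) =
          0 - ((∑ i, subst (sN σ N) (c' i) * ∏ s, X s ^ (i s : ℕ)) - g) := by
        simp only [Pi.add_apply, subst_add hs, add_mul, Finset.sum_add_distrib, hg]
        ring
      rw [h3]
      exact (CoefIn.zeroT _).subT h2
  obtain ⟨c, hc⟩ := key M
  rw [ha] at hc
  exact ⟨c, sub_eq_zero.mp (coefIn_bot_Free hc)⟩

theorem free_ideal {σ : Type} [Fintype σ] [DecidableEq σ] (a : Ideal A) (M : ℕ) (ha : a ^ M = ⊥)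
    (N : PowerSeries A) (h0 : PowerSeries.constantCoeff N = 0) {d : ℕ} (hd : 1 ≤ d)
    (hN : CoefIn a (N - PowerSeries.X ^ d)) (J : Ideal A) (c : (σ → Fin d) → MvPowerSeries σ A)
    (h : CoefIn J (∑ i, subst (sN σ N) (c i) * ∏ s, X s ^ (i s : ℕ))) (i : σ → Fin d) :
    CoefIn J (c i) := by
  have hd0 : d ≠ 0 := by omega
  have key : ∀ k : ℕ, ∀ i, CoefIn (J ⊔ a ^ k) (c i) := by
    intro k
    induction k with
    | zero => intro i e; simp
    | succ k ih =>
      have h2 := diff_Free a N h0 hd0 hN c ih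
      have hle : (J ⊔ a ^ k) * a ≤ J ⊔ a ^ (k + 1) := by
        rw [Ideal.sup_mul, ← pow_succ]
        exact sup_le_sup_right Ideal.mul_le_left _
      intro i m
      rw [← coeff_E_Free hd0 c m i]
      have h3 := Ideal.sub_mem _ (Ideal.mem_sup_left (T := a ^ (k + 1)) (h (d • m + ex_Free i)))
        (hle (h2 (d • m + ex_Free i)))
      rwa [map_sub, sub_sub_cancel] at h3
  have := key M i
  rwa [ha, sup_bot_eq] at this

theorem subst_sN_inj {σ : Type} [Fintype σ] (a : Ideal A) (M : ℕ) (ha : a ^ M = ⊥)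
    (N : PowerSeries A) (h0 : PowerSeries.constantCoeff N = 0) {d : ℕ} (hd : 1 ≤ d)
    (hN : CoefIn a (N - PowerSeries.X ^ d)) {f g : MvPowerSeries σ A}
    (h : subst (sN σ N) f = subst (sN σ N) g) : f = g := by
  classical
  have hs : HasSubst (sN σ N) := hasSubst_sN_Free h0
  let i0 : σ → Fin d := fun _ => ⟨0, hd⟩
  have h1 := free_ideal a M ha N h0 hd hN ⊥ (fun i => if i = i0 then f - g else 0) (by
    refine CoefIn.sumT _ fun i _ => CoefIn.mul_rightT _ ?_
    split_ifs
    · rw [subst_sub hs, h, sub_self]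
      exact CoefIn.zeroT _
    · exact (CoefIn.zeroT _).subst_left hs) i0
  simp only [if_true] at h1
  exact sub_eq_zero.mp (coefIn_bot_Free h1)

end Vale.Agent.P217
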