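import Vale.Agent.P217.Ev2
import Vale.Agent.P217.Iso

namespace Vale.Agent.P217

open MvPowerSeries

variable {L : Type} [NormedField L] [IsUltrametricDist L] [CompleteSpace L]

theorem ev2_Grp {τ : Type} [Finite τ] (x : τ → OC L) (hx : ∀ i, ‖(x i : L)‖ < 1)
    {a b : MvPowerSeries τ (OC L)} (ha : constantCoeff a = 0) (hb : constantCoeff b = 0)
    (f : MvPowerSeries (Fin 2) (OC L)) :
    evR x (subst ![a, b] f) = evR ![evR x a, evR x b] f := by
  rw [evR_subst x hx _ (fun s => by fin_cases s <;> simpa)]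
  congr 2
  funext s
  fin_cases s <;> rfl

theorem lt_Grp {τ : Type} [Finite τ] (x : τ → OC L) (hx : ∀ i, ‖(x i : L)‖ < 1)
    {f : MvPowerSeries τ (OC L)} (hf : constantCoeff f = 0) : ‖((evR x f : OC L) : L)‖ < 1 := by
  cases isEmpty_or_nonempty τ with
  | inl h =>
    exact (evR_norm_le x le_rfl one_pos (fun i => isEmptyElim i) hf).trans_lt one_pos
  | inr h =>
    obtain ⟨i, hi⟩ := Finite.exists_max fun i => ‖(x i : L)‖
    exact (evR_norm_le x (norm_nonneg _) (hx i) hi hf).trans_lt (hx i)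

omit [CompleteSpace L] in
theorem two_Grp {x y : OC L} (hx : ‖(x : L)‖ < 1) (hy : ‖(y : L)‖ < 1) :
    ∀ i, ‖((![x, y] i : OC L) : L)‖ < 1 := fun i => by fin_cases i <;> simpa

theorem evX_Grp {x : OC L} (hx : ‖(x : L)‖ < 1) : ev1 x PowerSeries.X = x :=
  (evR_spec (fun _ : Unit => x) fun _ => hx).eX ()

theorem ev1two_Grp {x : OC L} (hx : ‖(x : L)‖ < 1) {a b : PowerSeries (OC L)}
    (ha : PowerSeries.constantCoeff a = 0) (hb : PowerSeries.constantCoeff b = 0)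
    (f : MvPowerSeries (Fin 2) (OC L)) :
    ev1 x (subst ![a, b] f) = evR ![ev1 x a, ev1 x b] f :=
  ev2_Grp (fun _ : Unit => x) (fun _ => hx) ha hb f

theorem ev1le_Grp {x : OC L} (hx : ‖(x : L)‖ < 1) {a : PowerSeries (OC L)}
    (ha : PowerSeries.constantCoeff a = 0) : ‖((ev1 x a : OC L) : L)‖ ≤ ‖(x : L)‖ :=
  evR_norm_le (fun _ : Unit => x) (norm_nonneg _) hx (fun _ => le_rfl) ha

theorem addzero_Grp (G : FormalGroup (OC L)) {x : OC L} (hx : ‖(x : L)‖ < 1) :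
    evR ![x, 0] G.toPowerSeries = x := by
  have h := ev1two_Grp hx (a := PowerSeries.X) (b := 0) (by simp) (by simp) G.toPowerSeries
  rw [G.add_zero PowerSeries.HasSubst.X', evX_Grp hx, map_zero] at h
  exact h.symm

theorem zeroadd_Grp (G : FormalGroup (OC L)) {x : OC L} (hx : ‖(x : L)‖ < 1) :
    evR ![0, x] G.toPowerSeries = x := by
  have h := ev1two_Grp hx (a := 0) (b := PowerSeries.X) (by simp) (by simp) G.toPowerSeries
  rw [G.zero_add PowerSeries.HasSubst.X', evX_Grp hx, map_zero] at h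
  exact h.symm

theorem hs_Grp {A τ : Type} [CommRing A] (i : τ) :
    PowerSeries.HasSubst (X i : MvPowerSeries τ A) :=
  PowerSeries.HasSubst.of_constantCoeff_zero (constantCoeff_X i)

theorem cc_Grp {A τ : Type} [CommRing A] (G : FormalGroup A) (i j : τ) :
    constantCoeff (subst ![(X i : MvPowerSeries τ A), X j] G.toPowerSeries) = 0 :=
  constantCoeff_subst_eq_zero (hasSubst_of_constantCoeff_zero fun s => by fin_cases s <;> simp)
    (fun s => by fin_cases s <;> simp) G.zero_constantCoeff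

theorem assoc_Grp (G : FormalGroup (OC L)) {x y z : OC L} (hx : ‖(x : L)‖ < 1)
    (hy : ‖(y : L)‖ < 1) (hz : ‖(z : L)‖ < 1) :
    evR ![evR ![x, y] G.toPowerSeries, z] G.toPowerSeries =
      evR ![x, evR ![y, z] G.toPowerSeries] G.toPowerSeries := by
  have h3 : ∀ i, ‖((![x, y, z] i : OC L) : L)‖ < 1 := fun i => by fin_cases i <;> simpa
  have hX := (evR_spec _ h3).eX
  have h := congrArg (evR ![x, y, z]) (G.assoc' (hs_Grp (0 : Fin 3)) (hs_Grp 1) (hs_Grp 2))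
  rw [ev2_Grp _ h3 (cc_Grp G _ _) (constantCoeff_X _),
    ev2_Grp _ h3 (constantCoeff_X _) (cc_Grp G _ _),
    ev2_Grp _ h3 (constantCoeff_X _) (constantCoeff_X _),
    ev2_Grp _ h3 (constantCoeff_X _) (constantCoeff_X _), hX, hX, hX] at h
  exact h

theorem comm_Grp (G : FormalGroup (OC L)) [G.IsComm] {x y : OC L} (hx : ‖(x : L)‖ < 1)
    (hy : ‖(y : L)‖ < 1) : evR ![x, y] G.toPowerSeries = evR ![y, x] G.toPowerSeries := by
  have h2 := two_Grp hx hy
  have hX := (evR_spec _ h2).eX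
  have h := congrArg (evR ![x, y]) (G.comm' (hs_Grp (0 : Fin 2)) (hs_Grp 1))
  rw [ev2_Grp _ h2 (constantCoeff_X _) (constantCoeff_X _),
    ev2_Grp _ h2 (constantCoeff_X _) (constantCoeff_X _), hX, hX] at h
  exact h

theorem exists_grp (G : FormalGroup (OC L)) [G.IsComm] :
    ∃ inst : AddCommGroup (Pts G), @GrpSpec L _ _ G inst := by
  obtain ⟨ι, hι0, hι⟩ := exists_neg G
  letI : Add (Pts G) := ⟨fun x y => ⟨evR ![x.1, y.1] G.toPowerSeries,
    lt_Grp _ (two_Grp x.2 y.2) G.zero_constantCoeff⟩⟩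
  letI : Zero (Pts G) := ⟨⟨0, by simp⟩⟩
  letI : Neg (Pts G) := ⟨fun x => ⟨ev1 x.1 ι, (ev1le_Grp x.2 hι0).trans_lt x.2⟩⟩
  have hc : ∀ x y : Pts G, x + y = y + x := fun x y => Subtype.ext (comm_Grp G x.2 y.2)
  letI : AddGroup (Pts G) := AddGroup.ofLeftAxioms
    (fun x y z => Subtype.ext (assoc_Grp G x.2 y.2 z.2))
    (fun x => Subtype.ext (zeroadd_Grp G x.2))
    (fun x => by
      rw [hc]
      refine Subtype.ext ?_
      have h := ev1two_Grp x.2 (a := PowerSeries.X) (by simp) hι0 G.toPowerSeries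
      rw [hι, map_zero, evX_Grp x.2] at h
      exact h.symm)
  letI inst : AddCommGroup (Pts G) := { add_comm := hc }
  exact ⟨inst, ⟨fun _ _ => rfl, rfl⟩⟩

variable {G G' : FormalGroup (OC L)} [AddCommGroup (Pts G)] [AddCommGroup (Pts G')]

theorem GrpSpec.nsmul (hG : GrpSpec G) (c : ℕ) (x : Pts G) : (c • x).1 = ev1 x.1 (nser G c) := by
  induction c with
  | zero => rw [zero_nsmul, hG.zero, nser, map_zero]
  | succ c ih =>
    rw [succ_nsmul, hG.add, ih, nser, ev1two_Grp x.2 (nser_const G c) (by simp), evX_Grp x.2]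

theorem GrpSpec.add_sub (hG : GrpSpec G) (x y : Pts G) :
    ‖((x + y).1 : L) - x.1 - y.1‖ ≤ ‖(x.1 : L)‖ * ‖(y.1 : L)‖ := by
  obtain ⟨u, -, hu⟩ := sub_unit_left G (hs_Grp (0 : Fin 2)) PowerSeries.HasSubst.zero (hs_Grp 1)
  have e : (![X 0, X 1] : Fin 2 → MvPowerSeries (Fin 2) (OC L)) = X := by
    funext s; fin_cases s <;> rfl
  rw [G.zero_add (hs_Grp 1), e, subst_self, id, sub_zero] at hu
  have h0 : ‖((0 : OC L) : L)‖ < 1 := by simp
  have h1 := congrArg (evR ![x.1, y.1]) hu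
  have h2 := congrArg (evR ![x.1, 0]) hu
  rw [map_sub, map_mul, (evR_spec _ (two_Grp x.2 y.2)).eX, (evR_spec _ (two_Grp x.2 y.2)).eX,
    ← hG.add] at h1
  rw [map_sub, map_mul, (evR_spec _ (two_Grp x.2 h0)).eX, (evR_spec _ (two_Grp x.2 h0)).eX,
    addzero_Grp G x.2] at h2
  have h3 := evR_sub ![x.1, y.1] ![x.1, 0] (two_Grp x.2 y.2) (two_Grp x.2 h0)
    (norm_nonneg (y.1 : L)) (fun i => by fin_cases i <;> simp) u
  simp only [Matrix.cons_val_zero, Matrix.cons_val_one, sub_zero] at h1 h2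
  have h1' := congrArg Subtype.val h1
  have h2' := congrArg Subtype.val h2
  push_cast at h1' h2'
  have e2 : ((x + y).1 : L) - x.1 - y.1 =
      x.1 * (((evR ![x.1, y.1] u : OC L) : L) - (evR ![x.1, 0] u : OC L)) := by
    linear_combination h1' - h2'
  rw [e2, norm_mul]
  exact mul_le_mul_of_nonneg_left h3 (norm_nonneg _)

theorem GrpSpec.add_le (hG : GrpSpec G) (x y : Pts G) :
    ‖((x + y).1 : L)‖ ≤ max ‖(x.1 : L)‖ ‖(y.1 : L)‖ := by
  rw [hG.add]
  exact evR_norm_le _ (le_max_of_le_left (norm_nonneg _)) (max_lt x.2 y.2)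
    (fun i => by fin_cases i <;> simp) G.zero_constantCoeff

theorem negle_Grp (hG : GrpSpec G) (x : Pts G) : ‖((-x).1 : L)‖ ≤ ‖(x.1 : L)‖ := by
  have h := hG.add_sub x (-x)
  rw [add_neg_cancel, hG.zero] at h
  by_contra hc
  push Not at hc
  have h1 : ‖(x.1 : L)‖ * ‖((-x).1 : L)‖ < ‖((-x).1 : L)‖ :=
    mul_lt_of_lt_one_left ((norm_nonneg _).trans_lt hc) x.2
  have h2 : ((-x).1 : L) = -((((0 : OC L) : L) - x.1 - (-x).1) + x.1) := by simp
  have h3 := IsUltrametricDist.norm_add_le_max (((0 : OC L) : L) - x.1 - (-x).1) (x.1 : L)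
  rw [← norm_neg, ← h2] at h3
  exact absurd h3 (not_le.2 (max_lt (h.trans_lt h1) hc))

theorem GrpSpec.neg_eq (hG : GrpSpec G) (x : Pts G) : ‖((-x).1 : L)‖ = ‖(x.1 : L)‖ := by
  refine le_antisymm (negle_Grp hG x) ?_
  have := negle_Grp hG (-x)
  rwa [neg_neg] at this

theorem GrpSpec.sum_sub (hG : GrpSpec G) {ι : Type} (s : Finset ι) (x : ι → Pts G) {M : ℝ}
    (hM0 : 0 ≤ M) (hM : ∀ i ∈ s, ‖((x i).1 : L)‖ ≤ M) :
    ‖((∑ i ∈ s, x i).1 : L) - ∑ i ∈ s, ((x i).1 : L)‖ ≤ M * M ∧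
      ‖((∑ i ∈ s, x i).1 : L)‖ ≤ M := by
  classical
  induction s using Finset.induction_on with
  | empty => simp [hG.zero, hM0, mul_nonneg hM0 hM0]
  | insert a s ha ih =>
    obtain ⟨h1, h2⟩ := ih fun i hi => hM i (Finset.mem_insert_of_mem hi)
    have h3 := hM a (Finset.mem_insert_self _ _)
    rw [Finset.sum_insert ha, Finset.sum_insert ha]
    refine ⟨?_, (hG.add_le _ _).trans (max_le h3 h2)⟩
    have h4 := (hG.add_sub (x a) (∑ i ∈ s, x i)).trans (mul_le_mul h3 h2 (norm_nonneg _) hM0)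
    have h5 := IsUltrametricDist.norm_add_le_max
      (((x a + ∑ i ∈ s, x i).1 : L) - (x a).1 - (∑ i ∈ s, x i).1)
      (((∑ i ∈ s, x i).1 : L) - ∑ i ∈ s, ((x i).1 : L))
    refine le_trans (le_of_eq ?_) (h5.trans (max_le h4 h1))
    congr 1; ring

theorem GrpSpec.hom (hG : GrpSpec G) (hG' : GrpSpec G') {φ : PowerSeries (OC L)}
    (hφ : IsHom G G' φ) : ∃ f : Pts G →+ Pts G', ∀ x, (f x).1 = ev1 x.1 φ := by
  refine ⟨AddMonoidHom.mk' (fun x => ⟨ev1 x.1 φ, (ev1le_Grp x.2 hφ.1).trans_lt x.2⟩)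
    fun x y => Subtype.ext ?_, fun _ => rfl⟩
  have h2 := two_Grp x.2 y.2
  have hX := (evR_spec _ h2).eX
  have h := congrArg (evR ![x.1, y.1]) hφ.2
  rw [evR_subst1 _ h2 _ G.zero_constantCoeff, ev2_Grp _ h2
    (PowerSeries.constantCoeff_subst_eq_zero (constantCoeff_X _) _ hφ.1)
    (PowerSeries.constantCoeff_subst_eq_zero (constantCoeff_X _) _ hφ.1),
    evR_subst1 _ h2 _ (constantCoeff_X _), evR_subst1 _ h2 _ (constantCoeff_X _), hX, hX] at h
  refine Eq.trans ?_ (hG'.add _ _).symm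
  refine Eq.trans (congrArg (fun t => ev1 t φ) (hG.add x y)) ?_
  exact h

theorem GrpSpec.iso (hG : GrpSpec G) (hG' : GrpSpec G') {φ : PowerSeries (OC L)}
    (hφ : IsHom G G' φ) (hu : IsUnit (PowerSeries.coeff 1 φ)) :
    ∃ f : Pts G ≃+ Pts G', ∀ x, (f x).1 = ev1 x.1 φ ∧ ‖((f x).1 : L)‖ = ‖(x.1 : L)‖ := by
  obtain ⟨ψ, hψ, h1, h2⟩ := hφ.inv hu
  obtain ⟨f, hf⟩ := hG.hom hG' hφ
  obtain ⟨g, hg⟩ := hG'.hom hG hψ
  have key : ∀ (x : OC L) (_ : ‖(x : L)‖ < 1) (a b : PowerSeries (OC L)),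
      PowerSeries.constantCoeff a = 0 → PowerSeries.subst a b = PowerSeries.X →
      ev1 (ev1 x a) b = x := by
    intro x hx a b ha hab
    have h := evR_subst1 (fun _ : Unit => x) (fun _ => hx) a ha b
    rw [hab] at h
    exact h.symm.trans (evX_Grp hx)
  have gf : ∀ x, g (f x) = x := fun x => Subtype.ext (by rw [hg, hf, key _ x.2 _ _ hφ.1 h1])
  have fg : ∀ x, f (g x) = x := fun x => Subtype.ext (by rw [hf, hg, key _ x.2 _ _ hψ.1 h2])
  refine ⟨{ f with invFun := g, left_inv := gf, right_inv := fg }, fun x => ⟨hf x, ?_⟩⟩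
  show ‖((f x).1 : L)‖ = _
  refine le_antisymm (by rw [hf]; exact ev1le_Grp x.2 hφ.1) ?_
  have := ev1le_Grp (f x).2 hψ.1
  rwa [← hg, gf] at this

omit [CompleteSpace L] in
theorem IsBasis.map {T T' : Type} [AddCommGroup T] [AddCommGroup T'] {m K : ℕ} {x : Fin m → T}
    (h : IsBasis K x) (f : T ≃+ T') : IsBasis K (fun i => f (x i)) := by
  have e : ∀ a : Fin m → Fin K, ∑ i, (a i : ℕ) • f (x i) = f (∑ i, (a i : ℕ) • x i) := by
    intro a; simp only [map_sum, map_nsmul]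
  refine ⟨fun a b hab => h.1 (f.injective ?_), fun z => ?_⟩
  · simpa only [e] using hab
  · obtain ⟨z, rfl⟩ := f.surjective z
    rw [← map_nsmul, f.map_eq_zero_iff, h.2]
    simp only [e, f.injective.eq_iff]

end Vale.Agent.P217
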