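import Vale.Agent.P217.H2E
import Vale.Agent.P217.H2U

namespace Vale.Agent.P217

open MvPowerSeries

variable {p n : ℕ} [Fact p.Prime] {F : FormalGroup (E0 p n)}

variable {A : Type} [CommRing A]

/-- the linear map `(s, e) ↦ cob e + ∑ s_i c_i` -/
noncomputable def h2cL (F : FormalGroup (E0 p n)) (ψ : E0 p n →+* A) (s : Fin (n - 1) → A)
    (e : PowerSeries A) : MvPowerSeries (Fin 2) A :=
  cob (F.map ψ) e + ∑ i, C (s i) * map ψ (cE p n F i)

lemma h2c_haus (a : Ideal A) [h : IsHausdorff a A] {x : A} (hx : ∀ N, x ∈ a ^ N) : x = 0 :=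
  h.haus x fun N => by
    rw [SModEq.zero, smul_eq_mul, Ideal.mul_top]; exact hx N

lemma h2c_lim (a : Ideal A) [h : IsPrecomplete a A] (f : ℕ → A)
    (hf : ∀ N, f (N + 1) - f N ∈ a ^ N) : ∃ L, ∀ N, L - f N ∈ a ^ N := by
  have h1 : ∀ m k, f (m + k) - f m ∈ a ^ m := by
    intro m k
    induction k with
    | zero => simp
    | succ k ih =>
      have h2 := Ideal.pow_le_pow_right (I := a) (Nat.le_add_right m k) (hf (m + k))
      have : f (m + (k + 1)) - f m = (f (m + k + 1) - f (m + k)) + (f (m + k) - f m) := by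
        rw [← add_assoc]; ring
      rw [this]
      exact add_mem h2 ih
  obtain ⟨L, hL⟩ := h.prec (f := f) fun {m k} hmk => by
    obtain ⟨k, rfl⟩ := Nat.exists_eq_add_of_le hmk
    rw [SModEq.sub_mem, smul_eq_mul, Ideal.mul_top, ← neg_mem_iff, neg_sub]
    exact h1 m k
  refine ⟨L, fun N => ?_⟩
  have := hL N
  rw [SModEq.sub_mem, smul_eq_mul, Ideal.mul_top, ← neg_mem_iff, neg_sub] at this
  exact this

lemma h2c_cob_sub (G : FormalGroup A) (e e' : PowerSeries A) :
    cob G (e - e') = cob G e - cob G e' := by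
  unfold cob
  rw [PowerSeries.subst_sub (PowerSeries.HasSubst.of_constantCoeff_zero G.zero_constantCoeff),
    PowerSeries.subst_sub (PowerSeries.HasSubst.X 0),
    PowerSeries.subst_sub (PowerSeries.HasSubst.X 1)]
  ring

lemma h2c_sub (ψ : E0 p n →+* A) (s s' : Fin (n - 1) → A) (e e' : PowerSeries A) :
    h2cL F ψ (s - s') (e - e') = h2cL F ψ s e - h2cL F ψ s' e' := by
  unfold h2cL
  rw [h2c_cob_sub]
  simp only [Pi.sub_apply, map_sub, sub_mul, Finset.sum_sub_distrib]
  ring

lemma h2c_coef_sub {σ : Type} {I : Ideal A} {f g : MvPowerSeries σ A} (hf : CoefIn I f)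
    (hg : CoefIn I g) : CoefIn I (f - g) := fun d => by
  rw [map_sub]; exact sub_mem (hf d) (hg d)

lemma h2c_coef_add {σ : Type} {I : Ideal A} {f g : MvPowerSeries σ A} (hf : CoefIn I f)
    (hg : CoefIn I g) : CoefIn I (f + g) := fun d => by
  rw [map_add]; exact add_mem (hf d) (hg d)

lemma h2c_coef (ψ : E0 p n →+* A) {I : Ideal A} {s : Fin (n - 1) → A} {e : PowerSeries A}
    (hs : ∀ i, s i ∈ I) (he : CoefIn I e) : CoefIn I (h2cL F ψ s e) := by
  refine h2c_coef_add (h2c_coef_sub (h2c_coef_sub ?_ ?_) ?_) fun d => ?_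
  · exact CoefIn.subst_left (PowerSeries.HasSubst.of_constantCoeff_zero
      (F.map ψ).zero_constantCoeff).const he
  · exact CoefIn.subst_left (PowerSeries.HasSubst.X 0).const he
  · exact CoefIn.subst_left (PowerSeries.HasSubst.X 1).const he
  · rw [map_sum]
    refine sum_mem fun i _ => ?_
    rw [coeff_C_mul]
    exact I.mul_mem_right _ (hs i)

lemma h2c_map {B : Type} [CommRing B] (ψ : E0 p n →+* A) (f : A →+* B) (s : Fin (n - 1) → A)
    (e : PowerSeries A) :
    map f (h2cL F ψ s e) = h2cL F (f.comp ψ) (fun i => f (s i)) (PowerSeries.map f e) := by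
  unfold h2cL
  rw [map_add, ← cob_map, fg_map_map, map_sum]
  congr 1
  refine Finset.sum_congr rfl fun i _ => ?_
  rw [map_mul, map_C, map_comp]
  rfl

lemma h2c_coc (hF : IsLT p n F) (ψ : E0 p n →+* A) {c : MvPowerSeries (Fin 2) A}
    (hc : IsCoc (F.map ψ) c) (s : Fin (n - 1) → A) {e : PowerSeries A}
    (he : PowerSeries.constantCoeff e = 0) : IsCoc (F.map ψ) (c - h2cL F ψ s e) := by
  haveI := hF.isComm
  have h1 : ∀ S : Finset (Fin (n - 1)),
      IsCoc (F.map ψ) (c - cob (F.map ψ) e - ∑ i ∈ S, C (s i) * map ψ (cE p n F i)) := by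
    intro S
    induction S using Finset.induction_on with
    | empty => simpa using hc.sub (cob_isCoc _ e he)
    | insert j S hj ih =>
      rw [Finset.sum_insert hj, add_comm, ← sub_sub]
      exact ih.sub (((hF.cE_coc j).map ψ).smul (s j))
  rw [h2cL, ← sub_sub]
  exact h1 _

lemma h2c_quot (a : Ideal A) (N : ℕ) :
    a.map (Ideal.Quotient.mk (a ^ (N + 1))) * (a ^ N).map (Ideal.Quotient.mk (a ^ (N + 1))) =
      ⊥ := by
  rw [← Ideal.map_mul, ← pow_succ', Ideal.map_quotient_self]

lemma h2c_cts {a : Ideal A} {ψ : E0 p n →+* A} (hψ : Cts p n a ψ) {B : Type} [CommRing B]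
    (f : A →+* B) : Cts p n (a.map f) (f.comp ψ) := fun x hx => Ideal.mem_map_of_mem f (hψ x hx)

lemma h2c_step (hF : IsLT p n F) (hn : 1 ≤ n) (a : Ideal A) (hp : (p : A) ∈ a)
    (ψ : E0 p n →+* A) (hψ : Cts p n a ψ) (c : MvPowerSeries (Fin 2) A)
    (hc : IsCoc (F.map ψ) c) (N : ℕ) (hN : CoefIn (a ^ N) c) :
    ∃ (s : Fin (n - 1) → A) (e : PowerSeries A), (∀ i, s i ∈ a ^ N) ∧ CoefIn (a ^ N) e ∧
      PowerSeries.constantCoeff e = 0 ∧ CoefIn (a ^ (N + 1)) (c - h2cL F ψ s e) := by
  set f := Ideal.Quotient.mk (a ^ (N + 1)) with hf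
  have hc' := hc.map f
  rw [fg_map_map] at hc'
  obtain ⟨ε, e, h1, h2, h3, h4⟩ := hF.h2_exists hn (a.map f) ((a ^ N).map f)
    (by rw [← map_natCast f]; exact Ideal.mem_map_of_mem f hp) (h2c_quot a N) (f.comp ψ)
    (h2c_cts hψ f) (map f c) hc' fun d => by
      rw [coeff_map]; exact Ideal.mem_map_of_mem f (hN d)
  have hs : Function.Surjective f := Ideal.Quotient.mk_surjective
  choose s hs1 hs2 using fun i => (Ideal.mem_map_iff_of_surjective f hs).1 (h1 i)
  choose t ht1 ht2 using fun d => (Ideal.mem_map_iff_of_surjective f hs).1 (h2 d)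
  let e' : MvPowerSeries Unit A := fun d => if d = 0 then 0 else t d
  have he' : ∀ d, coeff d e' = if d = 0 then 0 else t d := fun _ => rfl
  refine ⟨s, e', hs1, fun d => ?_, ?_, ?_⟩
  · rw [he']
    split_ifs
    · exact zero_mem _
    · exact ht1 d
  · exact (he' 0).trans (if_pos rfl)
  · rw [coefIn_iff_map, h2c_map, h4, h2cL]
    have e1 : PowerSeries.map f e' = e := by
      refine MvPowerSeries.ext fun d => ?_
      refine (coeff_map f d e').trans ?_
      rw [he']
      split_ifs with hd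
      · rw [map_zero, hd]
        exact h3.symm
      · exact ht2 d
    rw [e1, ← hf]
    simp only [hs2]

theorem IsLT.h2c_exists (hF : IsLT p n F) (hn : 1 ≤ n) (a : Ideal A) [IsAdicComplete a A]
    (hp : (p : A) ∈ a) (ψ : E0 p n →+* A) (hψ : Cts p n a ψ) (c : MvPowerSeries (Fin 2) A)
    (hc : IsCoc (F.map ψ) c) :
    ∃ (s : Fin (n - 1) → A) (e : PowerSeries A), PowerSeries.constantCoeff e = 0 ∧
      c = cob (F.map ψ) e + ∑ i, C (s i) * map ψ (cE p n F i) := by
  let P : ℕ → (Fin (n - 1) → A) × PowerSeries A → Prop := fun N x =>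
    PowerSeries.constantCoeff x.2 = 0 ∧ CoefIn (a ^ N) (c - h2cL F ψ x.1 x.2)
  have step : ∀ N x, P N x → ∃ y, P (N + 1) y ∧ (∀ i, y.1 i - x.1 i ∈ a ^ N) ∧
      CoefIn (a ^ N) (y.2 - x.2) := by
    rintro N ⟨s, e⟩ ⟨h0, h1⟩
    obtain ⟨s', e', k1, k2, k3, k4⟩ := h2c_step hF hn a hp ψ hψ _ (h2c_coc hF ψ hc s h0) N h1
    refine ⟨(s + s', e + e'), ⟨?_, ?_⟩, fun i => by simpa using k1 i, by simpa using k2⟩
    · simp only [map_add]
      simp only at h0
      rw [h0, k3, add_zero]
    · have := h2c_sub (F := F) ψ (s + s') s (e + e') e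
      rw [add_sub_cancel_left, add_sub_cancel_left] at this
      rw [this] at k4
      convert k4 using 1
      ring
  choose! nx hnx using step
  let x : ℕ → (Fin (n - 1) → A) × PowerSeries A := fun N => Nat.rec (0, 0) nx N
  have hx : ∀ N, P N (x N) := by
    intro N
    induction N with
    | zero => exact ⟨map_zero _, fun d => by simp⟩
    | succ N ih => exact (hnx N _ ih).1
  choose s hs using fun i => h2c_lim a (fun N => (x N).1 i) fun N => (hnx N _ (hx N)).2.1 i
  choose t ht using fun d => h2c_lim a (fun N => coeff d (x N).2) fun N => by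
    have := (hnx N _ (hx N)).2.2 d
    rwa [map_sub] at this
  let e : MvPowerSeries Unit A := t
  have he : ∀ d, coeff d e = t d := fun _ => rfl
  refine ⟨s, e, ?_, ?_⟩
  · refine (he 0).trans (h2c_haus a fun N => ?_)
    have h1 := ht 0 N
    have h2 : coeff 0 (x N).2 = 0 := (hx N).1
    rwa [h2, sub_zero] at h1
  · rw [← sub_eq_zero]
    refine MvPowerSeries.ext fun d => h2c_haus a fun N => ?_
    have h1 := h2c_coef (F := F) ψ (I := a ^ N) (s := s - (x N).1) (e := e - (x N).2)
      (fun i => hs i N) fun d => by rw [map_sub]; exact ht d N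
    rw [h2c_sub] at h1
    have h2 := h2c_coef_sub (hx N).2 h1 d
    convert h2 using 2
    change c - h2cL F ψ s e = _
    ring

theorem IsLT.h2c_unique (hF : IsLT p n F) (hn : 1 ≤ n) (a : Ideal A) [IsHausdorff a A]
    (hp : (p : A) ∈ a) (ψ : E0 p n →+* A) (hψ : Cts p n a ψ) (s : Fin (n - 1) → A)
    (e : PowerSeries A) (he0 : PowerSeries.constantCoeff e = 0)
    (h : cob (F.map ψ) e = ∑ i, C (s i) * map ψ (cE p n F i)) : (∀ i, s i = 0) ∧ e = 0 := by
  have key : ∀ N, (∀ i, s i ∈ a ^ N) ∧ CoefIn (a ^ N) e := by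
    intro N
    induction N with
    | zero => exact ⟨fun i => by simp, fun d => by simp⟩
    | succ N ih =>
      set f := Ideal.Quotient.mk (a ^ (N + 1)) with hf
      obtain ⟨h1, h2⟩ := hF.h2_unique hn (a.map f) ((a ^ N).map f)
        (by rw [← map_natCast f]; exact Ideal.mem_map_of_mem f hp) (h2c_quot a N) (f.comp ψ)
        (h2c_cts hψ f) (fun i => f (s i)) (PowerSeries.map f e)
        (fun i => Ideal.mem_map_of_mem f (ih.1 i))
        (fun d => by
          rw [show coeff d (PowerSeries.map f e) = f (coeff d e) from coeff_map f d e]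
          exact Ideal.mem_map_of_mem f (ih.2 d))
        (by
          rw [← PowerSeries.coeff_zero_eq_constantCoeff_apply, PowerSeries.coeff_map,
            PowerSeries.coeff_zero_eq_constantCoeff_apply, he0, map_zero])
        (by
          rw [← fg_map_map, cob_map, h, map_sum]
          refine Finset.sum_congr rfl fun i _ => ?_
          rw [map_mul, map_C, map_comp]
          rfl)
      refine ⟨fun i => Ideal.Quotient.eq_zero_iff_mem.1 (h1 i), fun d => ?_⟩
      refine Ideal.Quotient.eq_zero_iff_mem.1 ?_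
      have := congrArg (coeff d) h2
      rw [show coeff d (PowerSeries.map f e) = f (coeff d e) from coeff_map f d e] at this
      exact this
  exact ⟨fun i => h2c_haus a fun N => (key N).1 i,
    MvPowerSeries.ext fun d => h2c_haus a fun N => (key N).2 d⟩

end Vale.Agent.P217
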