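import Vale.Agent.P217.Laz
import Vale.Agent.P217.Lead
import Vale.Agent.P217.MkH
import Vale.Agent.P217.Tay

namespace Vale.Agent.P217

open MvPowerSeries

variable {p n : ℕ} [Fact p.Prime] {F : FormalGroup (E0 p n)}

variable {A : Type} [CommRing A]

theorem h2e_idx {D : ℕ} (d : Fin 2 →₀ ℕ) (hd : Finsupp.degree d = D) :
    d 0 ≤ D ∧ d = Finsupp.single 0 (d 0) + Finsupp.single 1 (D - d 0) := by
  rw [Finsupp.degree_eq_sum, Fin.sum_univ_two] at hd
  refine ⟨by omega, ?_⟩
  ext i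
  fin_cases i
  · simp
  · simp; omega

theorem h2e_deg (i j : ℕ) :
    Finsupp.degree (Finsupp.single (0 : Fin 2) i + Finsupp.single 1 j) = i + j := by
  simp

theorem h2e_coc_add {G : FormalGroup A} {c c' : MvPowerSeries (Fin 2) A} (hc : IsCoc G c)
    (hc' : IsCoc G c') : IsCoc G (c + c') := by
  have h := hc.sub (hc'.smul (-1))
  simpa using h

/-- the linear combination of pivots -/
noncomputable def h2eL (F : FormalGroup (E0 p n)) (ψ : E0 p n →+* A) (s : Fin (n - 1) → A)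
    (e : PowerSeries A) : MvPowerSeries (Fin 2) A :=
  cob (F.map ψ) e + ∑ i, C (s i) * map ψ (cE p n F i)

theorem h2e_coc (hF : IsLT p n F) (ψ : E0 p n →+* A) (s : Fin (n - 1) → A) {e : PowerSeries A}
    (he : PowerSeries.constantCoeff e = 0) : IsCoc (F.map ψ) (h2eL F ψ s e) := by
  haveI := hF.isComm
  have h0 := cob_isCoc (F.map ψ) e he
  refine h2e_coc_add h0 ?_
  refine Finset.sum_induction _ (IsCoc (F.map ψ)) (fun a b => h2e_coc_add) ?_ ?_
  · simpa using h0.sub h0
  · intro i _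
    exact ((hF.cE_coc i).map ψ).smul _

theorem h2e_add (ψ : E0 p n →+* A) (s s' : Fin (n - 1) → A) (e e' : PowerSeries A) :
    h2eL F ψ (s + s') (e + e') = h2eL F ψ s e + h2eL F ψ s' e' := by
  simp only [h2eL, cob_add, Pi.add_apply, map_add, add_mul, Finset.sum_add_distrib]
  ring

theorem h2e_smul (ψ : E0 p n →+* A) (s : Fin (n - 1) → A) (e : PowerSeries A) (t : A) :
    h2eL F ψ (fun i => t * s i) (PowerSeries.C t * e) = C t * h2eL F ψ s e := by
  simp only [h2eL, cob_C_mul, map_mul, mul_add, Finset.mul_sum, mul_assoc]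

theorem h2e_map (ψ : E0 p n →+* A) (s : Fin (n - 1) → E0 p n) (e : PowerSeries (E0 p n)) :
    h2eL F ψ (fun i => ψ (s i)) (PowerSeries.map ψ e) =
      map ψ (cob F e + ∑ i, C (s i) * cE p n F i) := by
  simp only [h2eL, cob_map, map_add, map_sum, map_mul, map_C]

theorem h2e_ord_mul {σ : Type} {a b : ℕ} {f g : MvPowerSeries σ A} (hf : f ∈ ordI σ A a)
    (hg : g ∈ ordI σ A b) : f * g ∈ ordI σ A (a + b) := by
  change ((a + b : ℕ) : ℕ∞) ≤ _
  push_cast
  exact le_trans (add_le_add hf hg) le_order_mul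

theorem h2e_ord_pow {σ : Type} {f : MvPowerSeries σ A} (hf : constantCoeff f = 0) (k : ℕ) :
    f ^ k ∈ ordI σ A k := le_order_pow_of_constantCoeff_eq_zero k hf

theorem h2e_pow_sub {σ : Type} {f g : MvPowerSeries σ A} (hf : constantCoeff f = 0)
    (hg : constantCoeff g = 0) (h : f - g ∈ ordI σ A 2) (D : ℕ) :
    f ^ D - g ^ D ∈ ordI σ A (D + 1) := by
  rw [← (Commute.all f g).geom_sum₂_mul D, Finset.sum_mul]
  refine Ideal.sum_mem _ fun i hi => ?_
  have hi' := Finset.mem_range.1 hi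
  have h3 := h2e_ord_mul (h2e_ord_mul (h2e_ord_pow hf i) (h2e_ord_pow hg (D - 1 - i))) h
  rwa [show i + (D - 1 - i) + 2 = D + 1 by omega] at h3

theorem h2e_binom (D i : ℕ) (hi : i ≤ D) :
    coeff (Finsupp.single 0 i + Finsupp.single 1 (D - i))
      ((X 0 + X 1 : MvPowerSeries (Fin 2) A) ^ D) = (D.choose i : A) := by
  have h : ((X 0 + X 1 : MvPowerSeries (Fin 2) A) ^ D) =
      ((((MvPolynomial.X 0 + MvPolynomial.X 1 : MvPolynomial (Fin 2) A)) ^ D :
        MvPolynomial (Fin 2) A) : MvPowerSeries (Fin 2) A) := by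
    simp
  rw [h, MvPolynomial.coeff_coe, MvPolynomial.coeff_add_pow, if_pos]
  · simp
  · simp; omega

theorem h2e_pivA (hF : IsLT p n F) (hn : 1 ≤ n) (D : ℕ) (hD : 2 ≤ D) (hp : ∀ s, D ≠ p ^ s) :
    (cob (Gk p n F) (PowerSeries.X ^ D)).order = (D : ℕ∞) := by
  obtain ⟨i, hi1, hiD, hi⟩ := exists_choose_ne (κ := kk p n) p D hD hp
  rw [order_eq_nat]
  refine ⟨⟨Finsupp.single 0 i + Finsupp.single 1 (D - i), ?_, by rw [h2e_deg]; omega⟩, ?_⟩
  · have h2 : (Gk p n F).toPowerSeries - (X 0 + X 1) ∈ ordI (Fin 2) (kk p n) 2 := by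
      change ((2 : ℕ) : ℕ∞) ≤ _
      rw [← sub_sub, hF.Gk_lead hn]
      exact_mod_cast q_one_lt (p := p) hn
    have h3 := h2e_pow_sub (Gk p n F).zero_constantCoeff (by simp) h2 D
    have h4 := mem_ordI.1 h3 (Finsupp.single 0 i + Finsupp.single 1 (D - i))
      (by rw [h2e_deg]; omega)
    rw [map_sub, sub_eq_zero, h2e_binom D i hiD.le] at h4
    rw [cob_X_pow, map_sub, map_sub, h4, coeff_X_pow, coeff_X_pow, if_neg, if_neg]
    · simpa using hi
    · intro h
      have := DFunLike.congr_fun h 0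
      simp at this; omega
    · intro h
      have := DFunLike.congr_fun h 1
      simp at this; omega
  · refine mem_ordI.1 (cob_mem_ordI _ fun k hk => ?_)
    rw [PowerSeries.coeff_X_pow, if_neg hk.ne]

theorem h2e_pivC (hF : IsLT p n F) (hn : 1 ≤ n) (s : ℕ) :
    (cob (Gk p n F) (PowerSeries.X ^ (p ^ s))).order = ((p ^ (n + s) : ℕ) : ℕ∞) := by
  haveI : CharP (MvPowerSeries (Fin 2) (kk p n)) p :=
    charP_of_injective_ringHom (f := (C : kk p n →+* MvPowerSeries (Fin 2) (kk p n)))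
      C_injective p
  rw [cob_X_pow, ← sub_pow_char_pow, ← sub_pow_char_pow, ← Finset.card_range (p ^ s),
    ← Finset.prod_const, order_prod]
  simp only [hF.Gk_lead hn, Finset.sum_const, Finset.card_range, nsmul_eq_mul]
  push_cast
  rw [pow_add, mul_comm]

theorem h2e_piv (hF : IsLT p n F) (hn : 1 ≤ n) (D : ℕ) (hD : 2 ≤ D) :
    ∃ (s : Fin (n - 1) → E0 p n) (e : PowerSeries (E0 p n)), PowerSeries.constantCoeff e = 0 ∧
      (∀ k, p ^ n * k < D → PowerSeries.coeff k e = 0) ∧ (p ^ n ≤ D → s = 0) ∧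
      (map (res p n) (cob F e + ∑ i, C (s i) * cE p n F i)).order = (D : ℕ∞) := by
  have hq := q_one_lt (p := p) hn
  have hp1 : 1 < p := (Fact.out : p.Prime).one_lt
  by_cases hp : ∀ s, D ≠ p ^ s
  · refine ⟨0, PowerSeries.X ^ D, by simp; omega, fun k hk => ?_, fun _ => rfl, ?_⟩
    · rw [PowerSeries.coeff_X_pow, if_neg]
      rintro rfl
      nlinarith
    · have h := h2e_pivA hF hn D hD hp
      simp only [Pi.zero_apply, map_zero, zero_mul, Finset.sum_const_zero, add_zero]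
      rw [← cob_map]
      simpa using h
  · push Not at hp
    obtain ⟨j, rfl⟩ := hp
    by_cases hj : j < n
    · have hj1 : 1 ≤ j := by
        rcases Nat.eq_zero_or_pos j with rfl | h
        · simp at hD
        · exact h
      refine ⟨Pi.single ⟨j - 1, by omega⟩ 1, 0, by simp, by simp, fun h => ?_, ?_⟩
      · exact absurd h (not_le.2 (Nat.pow_lt_pow_right hp1 hj))
      · have h := hF.cE_lead hn ⟨j - 1, by omega⟩
        rw [cob_zero, zero_add, Finset.sum_eq_single ⟨j - 1, by omega⟩]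
        · simp only [Pi.single_eq_same, map_one, one_mul]
          rw [h, show j - 1 + 1 = j by omega]
        · intro b _ hb
          simp [Pi.single_eq_of_ne hb]
        · simp
    · obtain ⟨s, rfl⟩ := Nat.exists_eq_add_of_le (not_lt.1 hj)
      refine ⟨0, PowerSeries.X ^ (p ^ s), by simp; omega, fun k hk => ?_, fun _ => rfl, ?_⟩
      · rw [PowerSeries.coeff_X_pow, if_neg]
        rintro rfl
        rw [pow_add] at hk
        exact lt_irrefl _ hk
      · have h := h2e_pivC hF hn s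
        simp only [Pi.zero_apply, map_zero, zero_mul, Finset.sum_const_zero, add_zero]
        rw [← cob_map]
        simpa using h

theorem h2e_mod (a M : Ideal A) (haM : a * M = ⊥) (ψ : E0 p n →+* A) (hψ : Cts p n a ψ) :
    ∃ inst : Module (kk p n) M, ∀ (f : E0 p n) (t : M),
      ((inst.toDistribMulAction.toMulAction.toSMul.smul (res p n f) t : M) : A) = ψ f * t := by
  have hT : Module.IsTorsionBySet A M a := by
    rintro x ⟨y, hy⟩
    apply Subtype.ext
    have : y * (x : A) ∈ a * M := Ideal.mul_mem_mul hy x.2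
    rw [haM] at this
    simpa using this
  letI := hT.module
  have hk : RingHom.ker (res p n) ≤ RingHom.ker ((Ideal.Quotient.mk a).comp ψ) := by
    intro x hx
    rw [RingHom.mem_ker, RingHom.comp_apply, Ideal.Quotient.eq_zero_iff_mem]
    exact hψ x hx
  refine ⟨Module.compHom M ((res p n).liftOfSurjective (res_surj p n) ⟨_, hk⟩), fun f t => ?_⟩
  change (((((res p n).liftOfSurjective (res_surj p n) ⟨_, hk⟩) (res p n f)) • t : M) : A) = _
  rw [RingHom.liftOfSurjective_comp_apply]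
  rfl

theorem h2e_step (hF : IsLT p n F) (hn : 1 ≤ n) (a M : Ideal A)
    (haM : a * M = ⊥) (ψ : E0 p n →+* A) (hψ : Cts p n a ψ) (c : MvPowerSeries (Fin 2) A)
    (hc : IsCoc (F.map ψ) c) (hcM : CoefIn M c) (D : ℕ) (hD : c ∈ ordI (Fin 2) A D) :
    ∃ (s : Fin (n - 1) → A) (e : PowerSeries A), (∀ i, s i ∈ M) ∧ CoefIn M e ∧
      PowerSeries.constantCoeff e = 0 ∧ (∀ k, p ^ n * k < D → PowerSeries.coeff k e = 0) ∧
      (p ^ n ≤ D → s = 0) ∧ c - h2eL F ψ s e ∈ ordI (Fin 2) A (D + 1) := by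
  obtain ⟨l0, l1, l2, l3⟩ := hc.lead D hD
  by_cases h2 : 2 ≤ D
  swap
  · refine ⟨0, 0, fun _ => M.zero_mem, CoefIn.zeroT M, by simp, by simp, fun _ => rfl, ?_⟩
    have h0 : h2eL F ψ 0 0 = 0 := by simp [h2eL, cob_zero]
    rw [h0, sub_zero, mem_ordI]
    intro d hd
    rcases Nat.lt_succ_iff_lt_or_eq.1 hd with hd | hd
    · exact mem_ordI.1 hD d hd
    obtain ⟨hd0, hd1⟩ := h2e_idx d hd
    rw [hd1]
    rcases (show d 0 = 0 ∨ d 0 = D by omega) with h | h
    · rw [h]; simpa using l1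
    · rw [h]; simpa using l0
  obtain ⟨s, e, he0, hek, hs, hB⟩ := h2e_piv hF hn D h2
  set B := cob F e + ∑ i, C (s i) * cE p n F i with hBdef
  have hBc : IsCoc (F.map (res p n)) (map (res p n) B) := by
    rw [hBdef, ← h2e_map]
    refine h2e_coc hF _ _ ?_
    rw [← PowerSeries.coeff_zero_eq_constantCoeff_apply, PowerSeries.coeff_map,
      PowerSeries.coeff_zero_eq_constantCoeff_apply, he0, map_zero]
  obtain ⟨m0, m1, m2, m3⟩ := hBc.lead D hB.ge
  obtain ⟨inst, hinst⟩ := h2e_mod a M haM ψ hψ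
  have hinst' : ∀ (f : E0 p n) (t : M), ((res p n f • t : M) : A) = ψ f * t := hinst
  obtain ⟨⟨d0, hd0, hd0D⟩, hlow⟩ := order_eq_nat.1 hB
  have hb : ∃ i, 1 ≤ i ∧ i < D ∧
      coeff (Finsupp.single 0 i + Finsupp.single 1 (D - i)) (map (res p n) B) ≠ 0 := by
    obtain ⟨h0, h1⟩ := h2e_idx d0 hd0D
    rw [h1] at hd0
    refine ⟨d0 0, ?_, ?_, hd0⟩
    · by_contra h
      rw [show d0 0 = 0 by omega] at hd0
      exact hd0 (by simpa using m1)
    · by_contra h
      rw [show d0 0 = D by omega] at hd0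
      exact hd0 (by simpa using m0)
  obtain ⟨t, ht⟩ := lazard_module (κ := kk p n) (M := M) p D
    (fun i => coeff (Finsupp.single 0 i + Finsupp.single 1 (D - i)) (map (res p n) B)) m2 m3 hb
    (fun i => ⟨coeff (Finsupp.single 0 i + Finsupp.single 1 (D - i)) c, hcM _⟩)
    (fun i h1 h2 => Subtype.ext (l2 i h1 h2))
    (fun i j k h1 h2 h3 h4 => Subtype.ext (by simpa using l3 i j k h1 h2 h3 h4))
  have hz : ∀ f : E0 p n, res p n f = 0 → (t : A) * ψ f = 0 := by
    intro f hf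
    rw [mul_comm, ← hinst', hf, zero_smul]
    rfl
  refine ⟨fun i => (t : A) * ψ (s i), PowerSeries.C (t : A) * PowerSeries.map ψ e,
    fun i => M.mul_mem_right _ t.2, ?_, ?_, ?_, ?_, ?_⟩
  · intro d
    change coeff d (C (t : A) * _) ∈ M
    rw [coeff_C_mul]
    exact M.mul_mem_right _ t.2
  · rw [← PowerSeries.coeff_zero_eq_constantCoeff_apply, PowerSeries.coeff_C_mul,
      PowerSeries.coeff_map, PowerSeries.coeff_zero_eq_constantCoeff_apply, he0, map_zero, mul_zero]
  · intro k hk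
    rw [PowerSeries.coeff_C_mul, PowerSeries.coeff_map, hek k hk, map_zero, mul_zero]
  · intro h
    funext i
    simp [hs h]
  · rw [h2e_smul, h2e_map, ← hBdef, mem_ordI]
    intro d hd
    rw [map_sub, coeff_C_mul, coeff_map, sub_eq_zero]
    rcases Nat.lt_succ_iff_lt_or_eq.1 hd with hd | hd
    · rw [mem_ordI.1 hD d hd, hz _ (by rw [← coeff_map]; exact hlow d hd)]
    obtain ⟨hd0, hd1⟩ := h2e_idx d hd
    rw [hd1]
    rcases (show d 0 = 0 ∨ d 0 = D ∨ (1 ≤ d 0 ∧ d 0 < D) by omega) with h | h | ⟨h, h'⟩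
    · rw [h, hz _ (by rw [← coeff_map]; simpa using m1)]; simpa using l1
    · rw [h, hz _ (by rw [← coeff_map]; simpa using m0)]; simpa using l0
    · have h3 := congrArg Subtype.val (ht (d 0) h h')
      simp only [coeff_map] at h3
      rw [hinst'] at h3
      rw [h3, mul_comm]

theorem IsLT.h2_exists (hF : IsLT p n F) (hn : 1 ≤ n) (a M : Ideal A) (hp : (p : A) ∈ a)
    (haM : a * M = ⊥) (ψ : E0 p n →+* A) (hψ : Cts p n a ψ) (c : MvPowerSeries (Fin 2) A)
    (hc : IsCoc (F.map ψ) c) (hcM : CoefIn M c) :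
    ∃ (ε : Fin (n - 1) → A) (e : PowerSeries A), (∀ i, ε i ∈ M) ∧ CoefIn M e ∧
      PowerSeries.constantCoeff e = 0 ∧
      c = cob (F.map ψ) e + ∑ i, C (ε i) * map ψ (cE p n F i) := by
  let P : ℕ → (Fin (n - 1) → A) × PowerSeries A → Prop := fun D z =>
    (∀ i, z.1 i ∈ M) ∧ CoefIn M z.2 ∧ PowerSeries.constantCoeff z.2 = 0 ∧
      c - h2eL F ψ z.1 z.2 ∈ ordI (Fin 2) A D
  have step : ∀ D (z : {z // P D z}), ∃ z' : {z // P (D + 1) z},
      (∀ k, p ^ n * k < D → PowerSeries.coeff k z'.1.2 = PowerSeries.coeff k z.1.2) ∧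
      (p ^ n ≤ D → z'.1.1 = z.1.1) := by
    rintro D ⟨⟨s, e⟩, h1, h2, h3, h4⟩
    have hM : CoefIn M (h2eL F ψ s e) := by
      refine CoefIn.addT ?_ (CoefIn.sumT _ fun i _ d => ?_)
      · exact ((h2.subst_left (hom_hsF _).const).subT
          (h2.subst_left (PowerSeries.HasSubst.X 0).const)).subT
          (h2.subst_left (PowerSeries.HasSubst.X 1).const)
      · rw [coeff_C_mul]; exact M.mul_mem_right _ (h1 i)
    obtain ⟨s', e', g1, g2, g3, g4, g5, g6⟩ := h2e_step hF hn a M haM ψ hψ _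
      (hc.sub (h2e_coc hF ψ s h3)) (hcM.subT hM) D h4
    refine ⟨⟨(s + s', e + e'), fun i => M.add_mem (h1 i) (g1 i), h2.addT g2, ?_, ?_⟩, ?_, ?_⟩
    · dsimp only at h3 ⊢
      rw [map_add, h3, g3, add_zero]
    · dsimp only
      rw [h2e_add, ← sub_sub]
      exact g6
    · intro k hk
      dsimp only
      rw [map_add, g4 k hk, add_zero]
    · intro h
      dsimp only
      rw [g5 h, add_zero]
  choose nx hn1 hn2 using step
  have h0 : P 0 (0, 0) := ⟨fun _ => M.zero_mem, CoefIn.zeroT M, by simp, mem_ordI.2 (by simp)⟩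
  let z : ∀ D, {z // P D z} := fun D => Nat.rec ⟨(0, 0), h0⟩ (fun D y => nx D y) D
  have hz : ∀ D, z (D + 1) = nx D (z D) := fun _ => rfl
  have z1 : ∀ k D, p ^ n * k + 1 ≤ D →
      PowerSeries.coeff k (z D).1.2 = PowerSeries.coeff k (z (p ^ n * k + 1)).1.2 := by
    intro k D hD
    induction D, hD using Nat.le_induction with
    | base => rfl
    | succ D hD ih => rw [hz, hn1 D _ k (by omega), ih]
  have z2 : ∀ D, p ^ n ≤ D → (z D).1.1 = (z (p ^ n)).1.1 := by
    intro D hD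
    induction D, hD using Nat.le_induction with
    | base => rfl
    | succ D hD ih => rw [hz, hn2 D _ hD, ih]
  refine ⟨(z (p ^ n)).1.1, PowerSeries.mk fun k => PowerSeries.coeff k (z (p ^ n * k + 1)).1.2,
    (z _).2.1, ?_, ?_, ?_⟩
  · intro d
    rw [Finsupp.unique_single d]
    change PowerSeries.coeff (d ()) _ ∈ M
    rw [PowerSeries.coeff_mk]
    exact (z (p ^ n * d () + 1)).2.2.1 (Finsupp.single () (d ()))
  · rw [← PowerSeries.coeff_zero_eq_constantCoeff_apply, PowerSeries.coeff_mk,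
      PowerSeries.coeff_zero_eq_constantCoeff_apply]
    exact (z (p ^ n * 0 + 1)).2.2.2.1
  · ext d
    set N := Finsupp.degree d with hN
    have hq := q_one_lt (p := p) hn
    set D := p ^ n * (N + 1) with hD
    have h1 := mem_ordI.1 (z D).2.2.2.2 d (by rw [← hN, hD]; nlinarith)
    have h2 := mem_ordI.1 (cob_mem_ordI (F.map ψ) (N := N + 1)
      (e := (PowerSeries.mk fun k => PowerSeries.coeff k (z (p ^ n * k + 1)).1.2) - (z D).1.2)
      (fun k hk => by
        rw [map_sub, PowerSeries.coeff_mk, z1 k D (by rw [hD]; nlinarith), sub_self])) d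
      (by omega)
    rw [h2eL, z2 D (by rw [hD]; nlinarith), map_sub, map_add, sub_eq_zero] at h1
    rw [cob_sub, map_sub, sub_eq_zero] at h2
    rw [map_add, h1, h2]

end Vale.Agent.P217
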