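import Vale.Agent.P217.Wit
import Vale.Agent.P217.FEq

namespace Vale.Agent.P217

open MvPowerSeries

variable {L : Type} [NormedField L] [IsUltrametricDist L]

variable {p n : ℕ} [Fact p.Prime] [CharP L p] [PerfectRing L p]

theorem kk_pow_Hadd (hn : 1 ≤ n) (a : kk p n) : a ^ (p ^ n) = a := by
  haveI := Fintype.ofFinite (kk p n)
  have h := FiniteField.pow_card a
  rwa [← Nat.card_eq_fintype_card, GaloisField.card p n (by omega)] at h

theorem kk_pow_pow_Hadd (hn : 1 ≤ n) (a : kk p n) (e : ℕ) : a ^ ((p ^ n) ^ e) = a := by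
  induction e with
  | zero => simp
  | succ e ih => rw [pow_succ, pow_mul, ih, kk_pow_Hadd hn]

theorem one_lt_q_Hadd (hn : 1 ≤ n) : 1 < p ^ n :=
  Nat.one_lt_pow (by omega) (Fact.out : p.Prime).one_lt

omit [IsUltrametricDist L] [CharP L p] [PerfectRing L p] in
theorem iota_eq_Hadd (hn : 1 ≤ n) (ι : kk p n →+* L) {a : kk p n} (ha : a ≠ 0) : ‖ι a‖ = 1 := by
  have hq := one_lt_q_Hadd (p := p) hn
  have h1 : a ^ (p ^ n - 1) = 1 := by
    apply mul_right_cancel₀ ha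
    rw [← pow_succ, Nat.sub_add_cancel hq.le, kk_pow_Hadd hn, one_mul]
  have h2 : ‖ι a‖ ^ (p ^ n - 1) = 1 := by rw [← norm_pow, ← map_pow, h1, map_one, norm_one]
  exact (pow_eq_one_iff_of_nonneg (norm_nonneg _) (by omega)).1 h2

omit [PerfectRing L p] in
theorem norm_iota_le (hn : 1 ≤ n) (ι : kk p n →+* L) (a : kk p n) : ‖ι a‖ ≤ 1 := by
  by_cases ha : a = 0
  · simp [ha]
  · exact (iota_eq_Hadd hn ι ha).le

omit [PerfectRing L p] in
theorem norm_iota_eq (hn : 1 ≤ n) (ι : kk p n →+* L) {a : kk p n} (ha : a ≠ 0) : ‖ι a‖ = 1 :=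
  iota_eq_Hadd hn ι ha

omit [IsUltrametricDist L] in
theorem mono_norm_Hadd {ρ : ℝ} (h1 : ρ ≤ 1) (z : Fin 2 → L) (hz : ∀ i, ‖z i‖ ≤ ρ) {N : ℕ}
    (d : Fin 2 →₀ ℕ) (hd : N ≤ Finsupp.degree d) : ‖∏ i, z i ^ d i‖ ≤ ρ ^ N := by
  have h0 : 0 ≤ ρ := (norm_nonneg _).trans (hz 0)
  rw [norm_prod]
  calc ∏ i, ‖z i ^ d i‖ ≤ ∏ i, ρ ^ d i := by
        refine Finset.prod_le_prod (fun i _ => norm_nonneg _) fun i _ => ?_
        rw [norm_pow]; exact pow_le_pow_left₀ (norm_nonneg _) (hz i) _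
    _ = ρ ^ Finsupp.degree d := by rw [Finset.prod_pow_eq_pow_sum, Finsupp.degree_eq_sum]
    _ ≤ ρ ^ N := pow_le_pow_of_le_one h0 h1 hd

omit [PerfectRing L p] in
theorem eval_norm_Hadd (hn : 1 ≤ n) (ι : kk p n →+* L) (P : MvPolynomial (Fin 2) (WW p n))
    (hP0 : MvPolynomial.coeff 0 P = 0) {ρ : ℝ} (h1 : ρ ≤ 1) (z : Fin 2 → L)
    (hz : ∀ i, ‖z i‖ ≤ ρ) :
    ‖MvPolynomial.eval z (MvPolynomial.map (ι.comp WittVector.constantCoeff) P)‖ ≤ ρ := by
  have h0 : 0 ≤ ρ := (norm_nonneg _).trans (hz 0)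
  rw [MvPolynomial.eval_map, MvPolynomial.eval₂_eq']
  refine IsUltrametricDist.norm_sum_le_of_forall_le_of_nonneg h0 fun d hd => ?_
  have hd0 : d ≠ 0 := by
    rintro rfl
    exact (MvPolynomial.mem_support_iff.1 hd) hP0
  have h2 := mono_norm_Hadd h1 z hz (N := 1) d
    (Nat.one_le_iff_ne_zero.2 fun h => hd0 ((Finsupp.degree_eq_zero_iff d).1 h))
  rw [norm_mul, pow_one] at *
  exact (mul_le_of_le_one_left (norm_nonneg _) (norm_iota_le hn ι _)).trans h2

omit [PerfectRing L p] in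
theorem step_norm_Hadd (hn : 1 ≤ n) (ι : kk p n →+* L) (a : kk p n) (y : L) (hy : ‖y‖ ≤ 1)
    (s : ℕ) : ‖ι a * y ^ (p ^ (s + 1))‖ ≤ ‖y‖ ^ p := by
  rw [norm_mul, norm_pow]
  refine (mul_le_of_le_one_left (by positivity) (norm_iota_le hn ι _)).trans ?_
  refine pow_le_pow_of_le_one (norm_nonneg _) hy ?_
  exact Nat.le_self_pow (by omega) p

omit [PerfectRing L p] in
theorem lamP_norm (hn : 1 ≤ n) (ι : kk p n →+* L) (P : MvPolynomial (Fin 2) (WW p n))
    (hP0 : MvPolynomial.coeff 0 P = 0) (a : ℕ → kk p n) (y : L) (hy : ‖y‖ ≤ 1) (r : ℕ) :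
    ‖lamP (MvPolynomial.map (ι.comp WittVector.constantCoeff) P) p (fun s => ι (a s)) y r‖ ≤
      ‖y‖ ^ p := by
  induction r with
  | zero => simp [lamP]
  | succ r ih =>
    rw [lamP]
    refine eval_norm_Hadd hn ι P hP0 (pow_le_one₀ (norm_nonneg _) hy) _ fun i => ?_
    fin_cases i
    · exact ih
    · exact step_norm_Hadd hn ι _ y hy r

theorem eval_sm_Hadd (hn : 1 ≤ n) (ι : kk p n →+* L) (E : ℕ) (D : MvPolynomial (Fin 2) (WW p n))
    {N : ℕ} (hD : ∀ d, Finsupp.degree d < N → MvPolynomial.coeff d D = 0) {ρ : ℝ} (h1 : ρ ≤ 1)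
    (z : Fin 2 → L) (hz : ∀ i, ‖z i‖ ≤ ρ) :
    Sm p E (ρ ^ N) (MvPolynomial.eval₂Hom (WittVector.map ι)
      (fun i => WittVector.teichmuller p (z i)) D) := by
  have h0 : 0 ≤ ρ := (norm_nonneg _).trans (hz 0)
  rw [MvPolynomial.coe_eval₂Hom, MvPolynomial.eval₂_eq']
  refine sm_sum (pow_nonneg h0 _) _ _ fun d hd => ?_
  have hd0 : N ≤ Finsupp.degree d :=
    not_lt.1 fun h => (MvPolynomial.mem_support_iff.1 hd) (hD d h)
  have e : ∏ i, WittVector.teichmuller p (z i) ^ d i =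
      WittVector.teichmuller p (∏ i, z i ^ d i) := by simp only [map_prod, map_pow]
  rw [e]
  refine ((sm_map ι (norm_iota_le hn ι) E _).mul (sm_teich E _)).mono le_rfl ?_
  rw [one_mul]
  exact mono_norm_Hadd h1 z hz d hd0

theorem step_Hadd (hn : 1 ≤ n) (ι : kk p n →+* L) (E : ℕ) (P : MvPolynomial (Fin 2) (WW p n))
    (hP : ∀ d, Finsupp.degree d < (p ^ n) ^ (E + 1) →
        MvPolynomial.coeff d (∑ e ∈ Finset.range (E + 1),
          (p : MvPolynomial (Fin 2) (WW p n)) ^ (E - e) * (P ^ ((p ^ n) ^ e) -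
            MvPolynomial.X 0 ^ ((p ^ n) ^ e) - MvPolynomial.X 1 ^ ((p ^ n) ^ e))) = 0)
    {ρ : ℝ} (h1 : ρ ≤ 1) (z : Fin 2 → L) (hz : ∀ i, ‖z i‖ ≤ ρ) :
    Sm p E (ρ ^ ((p ^ n) ^ (E + 1))) (hW p (p ^ n) E
      (MvPolynomial.eval z (MvPolynomial.map (ι.comp WittVector.constantCoeff) P)) -
      hW p (p ^ n) E (z 0) - hW p (p ^ n) E (z 1)) := by
  have h0 : 0 ≤ ρ := (norm_nonneg _).trans (hz 0)
  have hD := eval_sm_Hadd hn ι E _ hP h1 z hz
  set x := MvPolynomial.eval₂Hom (WittVector.map ι) (fun i => WittVector.teichmuller p (z i)) P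
    with hx
  set t := MvPolynomial.eval z (MvPolynomial.map (ι.comp WittVector.constantCoeff) P) with ht
  have hc : (WittVector.constantCoeff : WittVector p L →+* L) x = t := by
    rw [hx, ht, MvPolynomial.map_eval₂Hom, MvPolynomial.eval_map]
    rfl
  have hm : WittVector.teichmuller p t - x ∈ Ideal.span {(p : WittVector p L) ^ 1} := by
    rw [pow_one, ← WittVector.ker_constantCoeff, RingHom.mem_ker, map_sub, hc]
    simp
  have hdv : (p : WittVector p L) ^ (E + 1) ∣ ∑ e ∈ Finset.range (E + 1),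
      (p : WittVector p L) ^ (E - e) *
        (WittVector.teichmuller p t ^ ((p ^ n) ^ e) - x ^ ((p ^ n) ^ e)) := by
    refine Finset.dvd_sum fun e he => ?_
    have h2 := Ideal.mem_span_singleton.1 (pow_congr_p le_rfl hm (n * e))
    rw [pow_mul] at h2
    have he' := Finset.mem_range.1 he
    have h3 : e ≤ n * e := Nat.le_mul_of_pos_left e hn
    refine dvd_trans (pow_dvd_pow _ (by omega : E + 1 ≤ (E - e) + (1 + n * e))) ?_
    rw [pow_add]
    exact mul_dvd_mul_left _ h2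
  have h4 := ((sm_of_dvd hdv).mono le_rfl (pow_nonneg h0 ((p ^ n) ^ (E + 1)))).add hD
  convert h4 using 1
  simp only [hW, map_sum, map_mul, map_pow, map_natCast, map_sub, MvPolynomial.eval₂Hom_X',
    ← hx, ← Finset.sum_sub_distrib, ← Finset.sum_add_distrib]
  refine Finset.sum_congr rfl fun e _ => ?_
  ring

omit [IsUltrametricDist L] [CharP L p] [PerfectRing L p] in
theorem hW_iota_Hadd (hn : 1 ≤ n) (ι : kk p n →+* L) (E : ℕ) (a : kk p n) (z : L) :
    hW p (p ^ n) E (ι a * z) = WittVector.teichmuller p (ι a) * hW p (p ^ n) E z := by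
  simp only [hW, Finset.mul_sum]
  refine Finset.sum_congr rfl fun e _ => ?_
  rw [mul_pow, ← map_pow ι, kk_pow_pow_Hadd hn, map_mul]
  ring

theorem hW_lamP (hn : 1 ≤ n) (ι : kk p n →+* L) (E : ℕ) (P : MvPolynomial (Fin 2) (WW p n))
    (hP0 : MvPolynomial.coeff 0 P = 0)
    (hP : ∀ d, Finsupp.degree d < (p ^ n) ^ (E + 1) →
        MvPolynomial.coeff d (∑ e ∈ Finset.range (E + 1),
          (p : MvPolynomial (Fin 2) (WW p n)) ^ (E - e) * (P ^ ((p ^ n) ^ e) -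
            MvPolynomial.X 0 ^ ((p ^ n) ^ e) - MvPolynomial.X 1 ^ ((p ^ n) ^ e))) = 0)
    (a : ℕ → kk p n) (y : L) (hy : ‖y‖ ≤ 1) (r : ℕ) :
    Sm p E (‖y‖ ^ ((p ^ n) ^ (E + 1))) (hW p (p ^ n) E
      (lamP (MvPolynomial.map (ι.comp WittVector.constantCoeff) P) p (fun s => ι (a s)) y r) -
      ∑ s ∈ Finset.Icc 1 r, WittVector.teichmuller p (ι (a s)) * hW p (p ^ n) E (y ^ (p ^ s))) := by
  have hp := (Fact.out : p.Prime).pos
  induction r with
  | zero =>
    have e : hW p (p ^ n) E (0 : L) = 0 := by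
      refine Finset.sum_eq_zero fun e _ => ?_
      rw [zero_pow (by positivity), WittVector.teichmuller_zero, mul_zero]
    simpa [lamP, e] using sm_zero E (by positivity)
  | succ r ih =>
    have hyp : ‖y‖ ^ p ≤ ‖y‖ := pow_le_of_le_one (norm_nonneg _) hy hp.ne'
    have h1 := step_Hadd hn ι E P hP hy
      ![lamP (MvPolynomial.map (ι.comp WittVector.constantCoeff) P) p (fun s => ι (a s)) y r,
        ι (a (r + 1)) * y ^ (p ^ (r + 1))] (fun i => by
          fin_cases i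
          · exact (lamP_norm hn ι P hP0 a y hy r).trans hyp
          · exact (step_norm_Hadd hn ι _ y hy r).trans hyp)
    rw [Finset.sum_Icc_succ_top (by omega), lamP]
    convert h1.add ih using 1
    simp only [Matrix.cons_val_zero, Matrix.cons_val_one, hW_iota_Hadd hn]
    ring

end Vale.Agent.P217
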