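import Vale.Agent.P217.FEq

namespace Vale.Agent.P217

open MvPowerSeries

section general
variable {K : Type} [CommRing K] {σ : Type}

theorem int_mem {M : ℕ} {f : MvPowerSeries σ K} : f ∈ ordI σ K M ↔ (M : ℕ∞) ≤ f.order := Iff.rfl

theorem int_ord {a b : MvPowerSeries σ K} (ha : constantCoeff a = 0) (hb : constantCoeff b = 0)
    {M : ℕ} (h : (M : ℕ∞) ≤ (a - b).order) (f : PowerSeries K) {e : σ →₀ ℕ}
    (he : Finsupp.degree e < M) :
    coeff e (PowerSeries.subst a f) = coeff e (PowerSeries.subst b f) := by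
  rw [PowerSeries.coeff_subst (.of_constantCoeff_zero ha),
    PowerSeries.coeff_subst (.of_constantCoeff_zero hb)]
  refine finsum_congr fun k => ?_
  have h1 : a ^ k - b ^ k ∈ ordI σ K M :=
    Ideal.mem_of_dvd _ (sub_dvd_pow_sub_pow a b k) (int_mem.2 h)
  have h2 : coeff e (a ^ k - b ^ k) = 0 :=
    coeff_of_lt_order (lt_of_lt_of_le (by exact_mod_cast he) (int_mem.1 h1))
  rw [map_sub, sub_eq_zero] at h2
  rw [h2]

theorem int_lin {a : MvPowerSeries σ K} (ha : constantCoeff a = 0) (f : PowerSeries K) (i : σ) :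
    coeff (Finsupp.single i 1) (PowerSeries.subst a f) =
      PowerSeries.coeff 1 f * coeff (Finsupp.single i 1) a := by
  classical
  rw [PowerSeries.coeff_subst (.of_constantCoeff_zero ha), finsum_eq_single _ 1]
  · simp
  · intro k hk
    rcases Nat.eq_zero_or_pos k with rfl | h0
    · simp [coeff_one]
    · have h1 := le_order_pow_of_constantCoeff_eq_zero k ha
      rw [coeff_of_lt_order (lt_of_lt_of_le ?_ h1), smul_zero]
      rw [Finsupp.degree_single]
      exact_mod_cast (by omega : 1 < k)

theorem int_sub {τ : Type} {a : MvPowerSeries σ K} (ha : constantCoeff a = 0)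
    {b : σ → MvPowerSeries τ K} (hb : HasSubst b) (f : PowerSeries K) :
    subst b (PowerSeries.subst a f) = PowerSeries.subst (subst b a) f :=
  subst_comp_subst_apply (PowerSeries.HasSubst.of_constantCoeff_zero ha).const hb f

variable {A : Type} [CommRing A] {p : ℕ} [Fact p.Prime]

theorem int_frob (s : A →+* A) (hs : ∀ x, s x - x ^ p ∈ Ideal.span {(p : A)}) (i : ℕ)
    (G : MvPowerSeries σ A) :
    G ^ p ^ i - expand (p ^ i) (pow_ne_zero i (Fact.out : p.Prime).ne_zero) (map (s ^ i) G) ∈
      Ideal.span {(p : MvPowerSeries σ A) ^ 1} := by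
  rw [pow_one]
  by_cases hp : IsUnit (p : A)
  · have h1 : IsUnit (p : MvPowerSeries σ A) := by simpa using hp.map (C : A →+* MvPowerSeries σ A)
    rw [Ideal.span_singleton_eq_top.2 h1]
    trivial
  haveI := CharP.quotient A p hp
  have h1 : ∀ (k : ℕ) (x : A), Ideal.Quotient.mk (Ideal.span {(p : A)}) ((s ^ k) x) =
      Ideal.Quotient.mk (Ideal.span {(p : A)}) x ^ p ^ k := fun k => by
    induction k with
    | zero => simp
    | succ k ih =>
      intro x
      rw [pow_succ', RingHom.coe_mul, Function.comp_apply, Ideal.Quotient.eq.2 (hs _), map_pow, ih,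
        ← pow_mul, pow_succ]
  have h2 : (Ideal.Quotient.mk (Ideal.span {(p : A)})).comp (s ^ i) =
      (iterateFrobenius _ p i).comp (Ideal.Quotient.mk (Ideal.span {(p : A)})) :=
    RingHom.ext fun x => by
      rw [RingHom.comp_apply, RingHom.comp_apply, h1, iterateFrobenius_def]
  have h3 : map (Ideal.Quotient.mk (Ideal.span {(p : A)})) (G ^ p ^ i -
      expand (p ^ i) (pow_ne_zero i (Fact.out : p.Prime).ne_zero) (map (s ^ i) G)) = 0 := by
    rw [map_sub, map_pow, map_expand, ← map_iterateFrobenius_expand p (Fact.out : p.Prime).ne_zero,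
      map_expand, sub_eq_zero]
    congr 1
    ext d
    simp only [coeff_map]
    exact (DFunLike.congr_fun h2 _).symm
  have h4 := fun d => Ideal.mem_span_singleton'.1
    (Ideal.Quotient.eq_zero_iff_mem.1 ((coeff_map _ d _).symm.trans (congrArg (coeff d) h3)))
  choose g hg using h4
  obtain ⟨g', hg'⟩ : ∃ g' : MvPowerSeries σ A, ∀ d, coeff d g' = g d := ⟨g, fun _ => rfl⟩
  refine Ideal.mem_span_singleton'.2 ⟨g', ?_⟩
  ext d
  rw [← hg, ← map_natCast (C : A →+* MvPowerSeries σ A), coeff_mul_C, hg']

theorem int_K (ι : A →+* K) {u : K} (hu : u * p = 1) {l : PowerSeries K}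
    (hl : ∀ k, PowerSeries.coeff k l = 0 ∨
      ∃ (j : ℕ) (b : A), k = p ^ j ∧ PowerSeries.coeff k l = ι b * u ^ j)
    {a b : MvPowerSeries σ A} (ha : constantCoeff a = 0) (hb : constantCoeff b = 0)
    (h : a - b ∈ Ideal.span {(p : MvPowerSeries σ A) ^ 1}) (e : σ →₀ ℕ) :
    u * (coeff e (PowerSeries.subst (map ι a) l) - coeff e (PowerSeries.subst (map ι b) l)) ∈
      ι.range := by
  have ha' : PowerSeries.HasSubst (map ι a) := .of_constantCoeff_zero (by simp [ha])
  have hb' : PowerSeries.HasSubst (map ι b) := .of_constantCoeff_zero (by simp [hb])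
  rw [PowerSeries.coeff_subst ha', PowerSeries.coeff_subst hb', ← finsum_sub_distrib
    (PowerSeries.coeff_subst_finite ha' l e) (PowerSeries.coeff_subst_finite hb' l e)]
  refine finsum_induction (fun x => u * x ∈ ι.range) (by simp) (fun x y hx hy => by
    rw [mul_add]; exact add_mem hx hy) fun k => ?_
  rcases hl k with h0 | ⟨j, c, rfl, hc⟩
  · simp [h0]
  · obtain ⟨g, hg⟩ := Ideal.mem_span_singleton'.1 (pow_congr_p le_rfl h j)
    refine ⟨c * coeff e g, ?_⟩
    have h1 : coeff e (map ι a ^ p ^ j) - coeff e (map ι b ^ p ^ j) =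
        ι (coeff e g) * p ^ (1 + j) := by
      rw [← map_sub, ← map_pow, ← map_pow, ← map_sub, ← hg, coeff_map,
        ← map_natCast (C : A →+* MvPowerSeries σ A), ← map_pow, coeff_mul_C]
      simp
    have h2 : (u * p) ^ (1 + j) = 1 := by rw [hu, one_pow]
    rw [smul_eq_mul, smul_eq_mul, ← mul_sub, h1, hc, map_mul]
    linear_combination (-(ι c * ι (coeff e g))) * h2

theorem int_main (ι : A →+* K) (hι : Function.Injective ι) {u : K} (hu : u * p = 1)
    (s : A →+* A) (hs : ∀ x, s x - x ^ p ∈ Ideal.span {(p : A)}) (t : K →+* K)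
    (ht : ∀ x, t (ι x) = ι (s x)) {l : PowerSeries K}
    (hl : ∀ k, PowerSeries.coeff k l = 0 ∨
      ∃ (j : ℕ) (b : A), k = p ^ j ∧ PowerSeries.coeff k l = ι b * u ^ j) (n : ℕ) (v : ℕ → A)
    (hfe : l = PowerSeries.X + ∑ i ∈ Finset.range n, PowerSeries.C (ι (v i) * u) *
      PowerSeries.subst (PowerSeries.X ^ p ^ (i + 1) : PowerSeries K)
        (PowerSeries.map (t ^ (i + 1)) l))
    {F : MvPowerSeries (Fin 2) K} (hF0 : constantCoeff F = 0)
    (hF : PowerSeries.subst F l = PowerSeries.subst (X 0 : MvPowerSeries (Fin 2) K) l +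
      PowerSeries.subst (X 1 : MvPowerSeries (Fin 2) K) l) (e : Fin 2 →₀ ℕ) :
    coeff e F ∈ ι.range := by
  classical
  have hp : p.Prime := Fact.out
  have fe : ∀ a : MvPowerSeries (Fin 2) K, constantCoeff a = 0 → PowerSeries.subst a l =
      a + ∑ i ∈ Finset.range n, C (ι (v i) * u) *
        PowerSeries.subst (a ^ p ^ (i + 1)) (PowerSeries.map (t ^ (i + 1)) l) := fun a ha => by
    have ha' : PowerSeries.HasSubst a := .of_constantCoeff_zero ha
    conv_lhs => rw [hfe, ← PowerSeries.coe_substAlgHom ha', map_add, map_sum]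
    rw [PowerSeries.coe_substAlgHom, PowerSeries.subst_X ha']
    congr 1
    refine Finset.sum_congr rfl fun i _ => ?_
    rw [PowerSeries.subst_mul ha', PowerSeries.subst_C, PowerSeries.subst_comp_subst_apply
      (PowerSeries.HasSubst.X_pow (pow_ne_zero _ hp.ne_zero)) ha', PowerSeries.subst_pow ha',
      PowerSeries.subst_X ha']
  have tu : t u = u := by
    have h1 : t u * p = 1 := by simpa using congrArg t hu
    linear_combination u * h1 - t u * hu
  have ti : ∀ (k : ℕ) (x : A), (t ^ k) (ι x) = ι ((s ^ k) x) := fun k => by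
    induction k with
    | zero => simp
    | succ k ih => intro x; rw [pow_succ', pow_succ', RingHom.coe_mul, RingHom.coe_mul,
        Function.comp_apply, Function.comp_apply, ih, ht]
  have tk : ∀ k : ℕ, (t ^ k) u = u := fun k => by
    induction k with
    | zero => simp
    | succ k ih => rw [pow_succ', RingHom.coe_mul, Function.comp_apply, ih, tu]
  have key : ∀ d : ℕ, ∀ e : Fin 2 →₀ ℕ, Finsupp.degree e < d + 1 → coeff e F ∈ ι.range := by
    intro d
    induction d with
    | zero =>
      intro e he
      rw [(Finsupp.degree_eq_zero_iff e).1 (by omega), coeff_zero_eq_constantCoeff_apply, hF0]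
      exact zero_mem _
    | succ d ih =>
      intro e he
      choose g hg using ih
      let G : MvPowerSeries (Fin 2) A := fun e => if h : Finsupp.degree e < d + 1 then g e h else 0
      have hG : ((d + 1 : ℕ) : ℕ∞) ≤ (F - map ι G).order := nat_le_order fun e he => by
        rw [map_sub, coeff_map, ← hg e he, sub_eq_zero]
        exact congrArg ι (dif_pos he).symm
      have hG1 : constantCoeff (map ι G) = 0 := by
        have h1 : constantCoeff (F - map ι G) = 0 := one_le_order_iff_constCoeff_eq_zero.1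
          (le_trans (by exact_mod_cast (by omega : 1 ≤ d + 1)) hG)
        rwa [map_sub, hF0, zero_sub, neg_eq_zero] at h1
      have hG0 : constantCoeff G = 0 := hι (by simpa using hG1)
      have step : ∀ i : ℕ, u * (coeff e (PowerSeries.subst (F ^ p ^ (i + 1))
          (PowerSeries.map (t ^ (i + 1)) l)) -
          coeff e (PowerSeries.subst ((X 0 : MvPowerSeries (Fin 2) K) ^ p ^ (i + 1))
            (PowerSeries.map (t ^ (i + 1)) l)) -
          coeff e (PowerSeries.subst ((X 1 : MvPowerSeries (Fin 2) K) ^ p ^ (i + 1))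
            (PowerSeries.map (t ^ (i + 1)) l))) ∈ ι.range := fun i => by
        have q0 : p ^ (i + 1) ≠ 0 := pow_ne_zero _ hp.ne_zero
        have q2 : 2 ≤ p ^ (i + 1) := hp.two_le.trans (Nat.le_self_pow (by omega) p)
        have c1 : ((d + 1 + 1 : ℕ) : ℕ∞) ≤ (F ^ p ^ (i + 1) - map ι (G ^ p ^ (i + 1))).order := by
          rw [map_pow, ← Commute.mul_geom_sum₂ (Commute.all _ _)]
          refine le_trans ?_ le_order_mul
          push_cast at hG ⊢
          refine add_le_add hG (one_le_order_iff_constCoeff_eq_zero.2 ?_)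
          rw [map_sum]
          refine Finset.sum_eq_zero fun k hk => ?_
          rw [map_mul, map_pow, map_pow, hF0, hG1, ← pow_add, zero_pow]
          have := Finset.mem_range.1 hk
          omega
        have c2 : map ι (expand (p ^ (i + 1)) q0 (map (s ^ (i + 1)) G)) =
            expand (p ^ (i + 1)) q0 (map (t ^ (i + 1)) (map ι G)) := by
          rw [map_expand]
          congr 1
          ext d
          simp only [coeff_map, ti]
        have c3 : ((d + 1 + 1 : ℕ) : ℕ∞) ≤ (expand (p ^ (i + 1)) q0 (map (t ^ (i + 1)) F) -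
            map ι (expand (p ^ (i + 1)) q0 (map (s ^ (i + 1)) G))).order := by
          rw [c2, ← map_sub, ← map_sub, order_expand]
          refine le_trans ?_ (nsmul_le_nsmul_right (hG.trans (le_order_map _)) _)
          rw [nsmul_eq_mul]
          exact_mod_cast (by nlinarith : d + 1 + 1 ≤ p ^ (i + 1) * (d + 1))
        have c4 : PowerSeries.subst (expand (p ^ (i + 1)) q0 (map (t ^ (i + 1)) F))
            (PowerSeries.map (t ^ (i + 1)) l) =
            PowerSeries.subst ((X 0 : MvPowerSeries (Fin 2) K) ^ p ^ (i + 1))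
              (PowerSeries.map (t ^ (i + 1)) l) +
            PowerSeries.subst ((X 1 : MvPowerSeries (Fin 2) K) ^ p ^ (i + 1))
              (PowerSeries.map (t ^ (i + 1)) l) := by
          rw [← PowerSeries.expand_subst _ q0 (.of_constantCoeff_zero (by simp [hF0])),
            ← PowerSeries.map_subst (.of_constantCoeff_zero hF0), hF, map_add, map_add,
            PowerSeries.map_subst (.X _), PowerSeries.map_subst (.X _), map_X, map_X,
            PowerSeries.expand_subst _ q0 (.X _), PowerSeries.expand_subst _ q0 (.X _), expand_X,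
            expand_X]
        have c5 := int_K ι hu (l := PowerSeries.map (t ^ (i + 1)) l) (fun k => by
          rcases hl k with h0 | ⟨j, b, h1, h2⟩
          · exact Or.inl (by simp [h0])
          · exact Or.inr ⟨j, (s ^ (i + 1)) b, h1, by
              rw [PowerSeries.coeff_map, h2, map_mul, map_pow, ti, tk]⟩)
          (a := G ^ p ^ (i + 1)) (b := expand (p ^ (i + 1)) q0 (map (s ^ (i + 1)) G))
          (by simp [hG0, hp.ne_zero]) (by rw [constantCoeff_expand]; simp [hG0])
          (int_frob s hs (i + 1) G) e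
        have c6 := int_ord (by simp [hF0, hp.ne_zero]) (by simp [hG0, hp.ne_zero]) c1
          (PowerSeries.map (t ^ (i + 1)) l) he
        have c7 := int_ord (by rw [constantCoeff_expand]; simp [hF0])
          (by rw [c2, constantCoeff_expand, constantCoeff_map, hG1, map_zero]) c3
          (PowerSeries.map (t ^ (i + 1)) l) he
        rw [← c6, ← c7, c4, map_add, ← sub_sub] at c5
        exact c5
      have h1 := congrArg (coeff e) hF
      rw [fe F hF0, fe _ (constantCoeff_X 0), fe _ (constantCoeff_X 1)] at h1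
      simp only [map_add, map_sum, coeff_C_mul] at h1
      have h2 : coeff e F = coeff e (X 0 : MvPowerSeries (Fin 2) K) + coeff e (X 1) -
          ∑ i ∈ Finset.range n, ι (v i) * (u * (coeff e (PowerSeries.subst (F ^ p ^ (i + 1))
          (PowerSeries.map (t ^ (i + 1)) l)) -
          coeff e (PowerSeries.subst ((X 0 : MvPowerSeries (Fin 2) K) ^ p ^ (i + 1))
            (PowerSeries.map (t ^ (i + 1)) l)) -
          coeff e (PowerSeries.subst ((X 1 : MvPowerSeries (Fin 2) K) ^ p ^ (i + 1))
            (PowerSeries.map (t ^ (i + 1)) l)))) := by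
        simp only [mul_sub, Finset.sum_sub_distrib, ← mul_assoc]
        linear_combination h1
      have h3 : ∀ i, coeff e (X i : MvPowerSeries (Fin 2) K) ∈ ι.range := fun i => by
        rw [coeff_X]
        split_ifs
        exacts [one_mem _, zero_mem _]
      rw [h2]
      exact sub_mem (add_mem (h3 0) (h3 1))
        (sum_mem fun i _ => mul_mem ⟨_, rfl⟩ (step i))
  exact key _ e (Nat.lt_succ_self _)

end general

variable {p n : ℕ} [Fact p.Prime]

theorem int_pow {A : Type} [CommRing A] (ψ : E0 p n →+* A) (j : ℕ) :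
    PowerSeries.coeff (p ^ j) (logA p n ψ) = ψ (bet p n j) * Ring.inverse (p : A) ^ j := by
  rw [logA, PowerSeries.coeff_mk, Nat.log_pow (Fact.out : p.Prime).one_lt, if_pos rfl]

theorem int_not {A : Type} [CommRing A] (ψ : E0 p n →+* A) {d : ℕ} (h : ∀ j, d ≠ p ^ j) :
    PowerSeries.coeff d (logA p n ψ) = 0 := by
  rw [logA, PowerSeries.coeff_mk, if_neg (h _)]

theorem int_fe {A : Type} [CommRing A] (ψ : E0 p n →+* A) (hp : IsUnit (p : A))
    (s : E0 p n →+* E0 p n) (hs : ∀ i, s (vv p n i) = vv p n i ^ p) (t : A →+* A)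
    (ht : ∀ x, t (ψ x) = ψ (s x)) :
    logA p n ψ = PowerSeries.X + ∑ i ∈ Finset.range n,
      PowerSeries.C (ψ (vv p n (i + 1)) * Ring.inverse (p : A)) *
        PowerSeries.subst (PowerSeries.X ^ p ^ (i + 1) : PowerSeries A)
          (PowerSeries.map (t ^ (i + 1)) (logA p n ψ)) := by
  have hp' : p.Prime := Fact.out
  have hu : Ring.inverse (p : A) * p = 1 := Ring.inverse_mul_cancel _ hp
  generalize hu' : Ring.inverse (p : A) = u at hu
  have tu : t u = u := by
    have h1 : t u * p = 1 := by simpa using congrArg t hu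
    linear_combination u * h1 - t u * hu
  have ti : ∀ (k : ℕ) (x : E0 p n), (t ^ k) (ψ x) = ψ ((s ^ k) x) := fun k => by
    induction k with
    | zero => simp
    | succ k ih => intro x; rw [pow_succ', pow_succ', RingHom.coe_mul, RingHom.coe_mul,
        Function.comp_apply, Function.comp_apply, ih, ht]
  have tk : ∀ k : ℕ, (t ^ k) u = u := fun k => by
    induction k with
    | zero => simp
    | succ k ih => rw [pow_succ', RingHom.coe_mul, Function.comp_apply, ih, tu]
  ext d
  simp only [map_add, map_sum, PowerSeries.coeff_C_mul, PowerSeries.coeff_X,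
    PowerSeries.coeff_subst_X_pow (pow_ne_zero _ hp'.ne_zero), PowerSeries.coeff_map,
    Algebra.algebraMap_self, RingHom.id_apply]
  by_cases hd : ∃ j, d = p ^ j
  · obtain ⟨j, rfl⟩ := hd
    rw [int_pow, hu']
    simp only [Nat.pow_dvd_pow_iff_le_right hp'.one_lt]
    rcases j with _ | j
    · simp [bet]
    · rw [if_neg (Nat.one_lt_pow (by omega) hp'.one_lt).ne', zero_add, bet_rec2 s hs, map_sum,
        Finset.sum_mul]
      simp only [mul_ite, mul_zero]
      rw [← Finset.sum_filter]
      symm
      refine (Finset.sum_congr rfl fun i hi => ?_).trans (Finset.sum_subset (fun i hi => ?_)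
        fun i hi hi' => ?_)
      · have h1 := (Finset.mem_filter.1 hi).2
        obtain ⟨k, rfl⟩ : ∃ k, j = i + k := ⟨j - i, by omega⟩
        rw [Nat.pow_div h1 hp'.pos, int_pow, hu', map_mul, map_pow, ti, tk,
          show i + k + 1 - (i + 1) = k by omega, show i + k - i = k by omega]
        have h2 : (u * p) ^ i = 1 := by rw [hu, one_pow]
        simp only [map_mul, map_pow, map_natCast]
        linear_combination (-(ψ (vv p n (i + 1)) * ψ ((s ^ (i + 1)) (bet p n k)) *
          u ^ (k + 1))) * h2
      · have h1 := (Finset.mem_filter.1 hi).2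
        exact Finset.mem_range.2 (by omega)
      · have h1 := Finset.mem_range.1 hi
        have h2 : n ≤ i := by
          by_contra h
          exact hi' (Finset.mem_filter.2 ⟨Finset.mem_range.2 (by omega), by omega⟩)
        have h3 : vv p n (i + 1) = 0 := by
          rw [vv, dif_neg (by omega), if_neg (by omega)]
        simp [h3]
  · push Not at hd
    rw [int_not ψ hd, if_neg (by simpa using hd 0), zero_add]
    refine (Finset.sum_eq_zero fun i _ => ?_).symm
    split_ifs with h
    · obtain ⟨c, rfl⟩ := h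
      rw [Nat.mul_div_cancel_left _ (pow_pos hp'.pos _), int_not ψ fun j hj => hd (i + 1 + j)
        (by rw [hj, ← pow_add]), map_zero, mul_zero]
    · exact mul_zero _

theorem exists_isLT (p n : ℕ) [Fact p.Prime] : ∃ F : FormalGroup (E0 p n), IsLT p n F := by
  obtain ⟨s, hs1, hs2⟩ := exists_frobLift (p := p) (n := n)
  have hp := E0p_unit (p := p) (n := n)
  have hι := E0p_inj (p := p) (n := n)
  obtain ⟨t, ht⟩ : ∃ t : E0p p n →+* E0p p n, ∀ x,
      t (algebraMap (E0 p n) (E0p p n) x) = algebraMap (E0 p n) (E0p p n) (s x) :=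
    ⟨IsLocalization.Away.lift (p : E0 p n) (g := (algebraMap (E0 p n) (E0p p n)).comp s)
      (by simpa using hp), fun x => IsLocalization.Away.lift_eq _ _ x⟩
  have hfe := int_fe _ hp s hs1 t ht
  have h0 := logA_const (p := p) (n := n) (algebraMap (E0 p n) (E0p p n))
  have h1 := logA_one (p := p) (n := n) (algebraMap (E0 p n) (E0p p n))
  have hl : ∀ k, PowerSeries.coeff k (logA p n (algebraMap (E0 p n) (E0p p n))) = 0 ∨
      ∃ (j : ℕ) (b : E0 p n), k = p ^ j ∧
        PowerSeries.coeff k (logA p n (algebraMap (E0 p n) (E0p p n))) =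
          algebraMap (E0 p n) (E0p p n) b * Ring.inverse (p : E0p p n) ^ j := fun k => by
    by_cases hk : ∃ j, k = p ^ j
    · obtain ⟨j, rfl⟩ := hk
      exact Or.inr ⟨j, _, rfl, int_pow _ j⟩
    · exact Or.inl (int_not _ fun j hj => hk ⟨j, hj⟩)
  unfold IsLT
  generalize logA p n (algebraMap (E0 p n) (E0p p n)) = l at *
  generalize algebraMap (E0 p n) (E0p p n) = ι at *
  have hc : ∀ {τ : Type} {a : MvPowerSeries τ (E0p p n)}, constantCoeff a = 0 →
      constantCoeff (PowerSeries.subst a l) = 0 := fun ha =>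
    PowerSeries.constantCoeff_subst_eq_zero ha l h0
  obtain ⟨F, hF0, hF⟩ : ∃ F : MvPowerSeries (Fin 2) (E0p p n), constantCoeff F = 0 ∧
      PowerSeries.subst F l = PowerSeries.subst (X 0 : MvPowerSeries (Fin 2) (E0p p n)) l +
        PowerSeries.subst (X 1 : MvPowerSeries (Fin 2) (E0p p n)) l := by
    have h2 : IsUnit (PowerSeries.coeff 1 l) := h1 ▸ isUnit_one
    have h3 : constantCoeff (PowerSeries.subst (X 0 : MvPowerSeries (Fin 2) (E0p p n)) l +
        PowerSeries.subst (X 1 : MvPowerSeries (Fin 2) (E0p p n)) l) = 0 := by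
      rw [map_add, hc (constantCoeff_X 0), hc (constantCoeff_X 1), add_zero]
    refine ⟨PowerSeries.subst _ (l.substInvOfIsUnit h2), PowerSeries.constantCoeff_subst_eq_zero
      h3 _ (PowerSeries.constantCoeff_substInvOfIsUnit _ _), ?_⟩
    rw [← PowerSeries.subst_comp_subst_apply (PowerSeries.HasSubst.substInvOfIsUnit l h2)
      (.of_constantCoeff_zero h3), PowerSeries.subst_substInvOfIsUnit_right l h0 h2,
      PowerSeries.subst_X (.of_constantCoeff_zero h3)]
  choose g hg using int_main ι hι (Ring.inverse_mul_cancel _ hp) s hs2 t ht hl n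
    (fun i => vv p n (i + 1)) hfe hF0 hF
  obtain ⟨G, hG⟩ : ∃ G : MvPowerSeries (Fin 2) (E0 p n), map ι G = F :=
    ⟨g, by ext d; exact hg d⟩
  have hG0 : constantCoeff G = 0 := hι (by rw [← constantCoeff_map, hG, hF0, map_zero])
  have lin : ∀ i, coeff (Finsupp.single i 1) G = 1 := fun i => hι (by
    have h2 := congrArg (coeff (Finsupp.single i 1)) hF
    rw [map_add, int_lin hF0, int_lin (constantCoeff_X 0), int_lin (constantCoeff_X 1), h1] at h2
    rw [← coeff_map, hG, map_one]
    fin_cases i <;> simpa [coeff_index_single_X] using h2)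
  have add : ∀ {a b : MvPowerSeries (Fin 3) (E0p p n)}, constantCoeff a = 0 →
      constantCoeff b = 0 → constantCoeff (subst ![a, b] F) = 0 ∧
        PowerSeries.subst (subst ![a, b] F) l = PowerSeries.subst a l + PowerSeries.subst b l := by
    intro a b ha hb
    have h2 : ∀ i, constantCoeff (![a, b] i) = 0 := fun i => by fin_cases i <;> simpa
    have h3 := hasSubst_of_constantCoeff_zero h2
    refine ⟨constantCoeff_subst_eq_zero h3 h2 hF0, ?_⟩
    rw [← int_sub hF0 h3, hF, subst_add h3, int_sub (constantCoeff_X 0) h3,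
      int_sub (constantCoeff_X 1) h3, subst_X h3, subst_X h3]
    rfl
  refine ⟨⟨G, hG0, lin 0, lin 1, ?_⟩, ?_⟩
  · have inj : Function.Injective (map ι : MvPowerSeries (Fin 3) (E0 p n) →+* _) :=
      fun a b h => by
        ext1 d
        exact hι (congrArg (coeff d) h)
    have e : ∀ g₁ g₂ : MvPowerSeries (Fin 3) (E0 p n),
        (fun i => (![g₁, g₂] i).map ι) = ![g₁.map ι, g₂.map ι] := fun g₁ g₂ => by
      ext1 i
      fin_cases i <;> simp
    apply inj
    rw [map_subst (HasSubst.cons_subst_zero_left (0 : Fin 3) 1 2 hG0),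
      map_subst (HasSubst.cons_subst_zero_right (0 : Fin 3) 1 2 hG0), e, e, map_subst .X_X,
      map_subst .X_X, e, e, hG]
    simp only [map_X]
    have a1 := add (constantCoeff_X 0) (constantCoeff_X 1)
    have a2 := add (constantCoeff_X 1) (constantCoeff_X 2)
    have a3 := add a1.1 (constantCoeff_X 2)
    have a4 := add (constantCoeff_X 0) a2.1
    exact log_inj h0 h1 a3.1 a4.1 (by rw [a3.2, a4.2, a1.2, a2.2, add_assoc])
  · rw [FormalGroup.map_toPowerSeries, hG]
    exact hF

end Vale.Agent.P217
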