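import Vale.Agent.P217.StA
import Vale.Agent.P217.H2E
import Vale.Agent.P217.Iso

namespace Vale.Agent.P217

open MvPowerSeries

variable {p n : ℕ} [Fact p.Prime] {F : FormalGroup (E0 p n)}

variable {A : Type} [CommRing A]


theorem lts_uniq {φ χ : PowerSeries A} (h0 : PowerSeries.constantCoeff φ = 0)
    (hu : IsUnit (PowerSeries.coeff 1 φ)) (h : PowerSeries.subst φ χ = PowerSeries.X) :
    χ = φ.substInvOfIsUnit hu := by
  have hi := PowerSeries.HasSubst.substInvOfIsUnit φ hu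
  have := PowerSeries.subst_comp_subst_apply (PowerSeries.HasSubst.of_constantCoeff_zero' h0) hi χ
  rw [h, PowerSeries.subst_X hi, PowerSeries.subst_substInvOfIsUnit_right φ h0 hu,
    PowerSeries.X_subst] at this
  exact this.symm

theorem lts_inv {G G' : FormalGroup A} {φ : PowerSeries A} (hφ : IsHom G G' φ)
    (hu : IsUnit (PowerSeries.coeff 1 φ)) : IsHom G' G (φ.substInvOfIsUnit hu) := by
  obtain ⟨χ, h1, h2, -⟩ := hφ.inv hu
  rwa [← lts_uniq hφ.1 hu h2]

theorem lts_unit {φ : PowerSeries A} (hu : IsUnit (PowerSeries.coeff 1 φ)) :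
    IsUnit (PowerSeries.coeff 1 (φ.substInvOfIsUnit hu)) := by
  rw [PowerSeries.coeff_one_substInvOfIsUnit]
  exact Units.isUnit _

theorem lts_source_unique {G₁ G₂ G : FormalGroup A} {φ : PowerSeries A} (h1 : IsHom G₁ G φ)
    (h2 : IsHom G₂ G φ) (hu : IsUnit (PowerSeries.coeff 1 φ)) : G₁ = G₂ :=
  (lts_inv h1 hu).target_unique (lts_inv h2 hu) (lts_unit hu)

theorem lts_source (G : FormalGroup A) [G.IsComm] {φ : PowerSeries A}
    (h0 : PowerSeries.constantCoeff φ = 0) (hu : IsUnit (PowerSeries.coeff 1 φ)) :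
    ∃ G₁ : FormalGroup A, G₁.IsComm ∧ IsHom G₁ G φ := by
  obtain ⟨G₁, h1, h2⟩ := exists_transport G (φ.substInvOfIsUnit hu) (by simp) (lts_unit hu)
  refine ⟨G₁, h1, ?_⟩
  rw [lts_uniq (by simp) (lts_unit hu) (PowerSeries.subst_substInvOfIsUnit_right φ h0 hu)]
  exact lts_inv h2 _

theorem lts_coeff_one {a : Ideal A} [IsAdicComplete a A] {φ : PowerSeries A}
    (hX : PowerSeries.map (Ideal.Quotient.mk a) φ = PowerSeries.X) :
    IsUnit (PowerSeries.coeff 1 φ) := by
  have h := congrArg (PowerSeries.coeff 1) hX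
  rw [PowerSeries.coeff_map, PowerSeries.coeff_one_X, ← map_one (Ideal.Quotient.mk a),
    Ideal.Quotient.eq] at h
  simpa using Ideal.mem_jacobson_bot.1 (IsAdicComplete.le_jacobson_bot a h) 1
theorem IsLT.lt_step (hF : IsLT p n F) (hn : 1 ≤ n) (a M : Ideal A) (N : ℕ) (haN : a ^ N = ⊥)
    (hp : (p : A) ∈ a) (haM : a * M = ⊥) (hMa : M ≤ a) (ψ : E0 p n →+* A) (hψ : Cts p n a ψ)
    (G : FormalGroup A) [G.IsComm] (φ : PowerSeries A) (h0 : PowerSeries.constantCoeff φ = 0)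
    (hX : PowerSeries.map (Ideal.Quotient.mk a) φ = PowerSeries.X)
    (hφ : IsHom ((F.map ψ).map (Ideal.Quotient.mk M)) (G.map (Ideal.Quotient.mk M))
      (PowerSeries.map (Ideal.Quotient.mk M) φ)) :
    ∃ (ψ' : E0 p n →+* A) (φ' : PowerSeries A), Cts p n a ψ' ∧ (∀ w, ψ' (C w) = ψ (C w)) ∧
      (∀ i, ψ' (X i) - ψ (X i) ∈ M) ∧ CoefIn M (φ' - φ) ∧ IsHom (F.map ψ') G φ' := by
  have := nilp_complete a N haN
  have hM : M ^ 2 = ⊥ := by
    rw [pow_two, eq_bot_iff, ← haM]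
    exact Ideal.mul_mono_left hMa
  have hu := lts_coeff_one hX
  obtain ⟨G₁, c1, h1⟩ := lts_source G h0 hu
  have h2 : CoefIn M (G₁.toPowerSeries - (F.map ψ).toPowerSeries) :=
    (coefIn_iff_map M _ _).2 (congrArg FormalGroup.toPowerSeries
      (lts_source_unique (h1.map _) hφ (hu.map (Ideal.Quotient.mk M))))
  obtain ⟨ε, e, e1, e2, e3, e4⟩ := hF.h2_exists hn a M hp haM ψ hψ _ (hF.diff_coc M hM ψ G₁ h2)
    (h2.mul_left _)
  obtain ⟨ψ', p1, p2, p3⟩ := exists_mkHom a (ψ.comp C) hp (fun i => ψ (X i) + ε i) fun i =>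
    a.add_mem (hψ _ (by
      rw [mm_eq]
      exact Ideal.subset_span (Or.inr ⟨i, rfl⟩))) (hMa (e1 i))
  have p4 : ∀ i, ψ' (X i) - ψ (X i) = ε i := fun i => by rw [p2, add_sub_cancel_left]
  have hd := map_diff (F := F) a M hM hψ p3 p1 fun i => p4 i ▸ e1 i
  simp only [p4] at hd
  obtain ⟨w, hw⟩ : IsUnit (PowerSeries.map ψ (wE p n)) := by
    rw [PowerSeries.isUnit_iff_constantCoeff, ← PowerSeries.coeff_zero_eq_constantCoeff_apply,
      PowerSeries.coeff_map, PowerSeries.coeff_zero_eq_constantCoeff_apply, wE_const, map_one]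
    exact isUnit_one
  have he : CoefIn M ((↑w⁻¹ : PowerSeries A) * e) := CoefIn.mul_left (σ := Unit) _ e2
  have he0 : PowerSeries.constantCoeff ((↑w⁻¹ : PowerSeries A) * e) = 0 := by
    rw [map_mul, e3, mul_zero]
  have h3 : IsHom (F.map ψ') G₁ (PowerSeries.X + (↑w⁻¹ : PowerSeries A) * e) := by
    refine (hF.hom_iff M hM ψ _ _ ?_ h2 _ he he0).2 ?_
    · rw [hd]
      intro d
      rw [map_sum]
      exact M.sum_mem fun i _ => by rw [coeff_C_mul]; exact M.mul_mem_right _ (e1 i)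
    · rw [← hw, Units.mul_inv_cancel_left, hw, ← sub_sub_sub_cancel_right _ _
        (F.map ψ).toPowerSeries, mul_sub, e4, hd, Finset.mul_sum, eq_sub_iff_add_eq, add_right_inj]
      refine Finset.sum_congr rfl fun i _ => ?_
      rw [cE, map_mul, PowerSeries.map_subst
        (PowerSeries.HasSubst.of_constantCoeff_zero F.zero_constantCoeff), mul_left_comm]
      rfl
  refine ⟨ψ', _, p3, p1, fun i => p4 i ▸ e1 i, ?_, h3.comp h1⟩
  have := CoefIn.subst_congr (I := M) (σ := Unit) φ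
    (PowerSeries.HasSubst.of_constantCoeff_zero' h3.1).const PowerSeries.HasSubst.X'.const
    fun _ => by rw [add_sub_cancel_left]; exact he
  rwa [← PowerSeries.subst_def, ← PowerSeries.subst_def, PowerSeries.X_subst] at this

end Vale.Agent.P217
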