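import Vale.Agent.P217.Def2

namespace Vale.Agent.P217

open MvPowerSeries

theorem laz_choose (p : ℕ) [Fact p.Prime] (m s : ℕ) (h : p ∣ m.choose (p ^ s)) : p ∣ m / p ^ s := by
  have hp : p.Prime := Fact.out
  have h1 := Choose.choose_modEq_choose_mul_prod_range_choose (n := m) (k := p ^ s) (p := p) s
  rw [Nat.div_self (pow_pos hp.pos s), Nat.choose_one_right, Finset.prod_eq_one, Nat.cast_one,
    mul_one] at h1
  · have h2 : ((m.choose (p ^ s) : ℕ) : ℤ) ≡ 0 [ZMOD p] :=
      Int.modEq_zero_iff_dvd.2 (by exact_mod_cast h)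
    exact_mod_cast Int.modEq_zero_iff_dvd.1 (h1.symm.trans h2)
  · intro i hi
    have h3 := Finset.mem_range.1 hi
    rw [Nat.pow_div h3.le hp.pos, Nat.mod_eq_zero_of_dvd (dvd_pow_self p (by omega))]
    simp

theorem lazard_field {κ : Type} [Field κ] (p : ℕ) [Fact p.Prime] [CharP κ p] (d : ℕ) :
    ∃ i0, 1 ≤ i0 ∧ ∀ a : ℕ → κ, (∀ i, 1 ≤ i → i < d → a i = a (d - i)) →
      (∀ i j k, 1 ≤ i → 1 ≤ j → 1 ≤ k → i + j + k = d →
        ((i + j).choose i : κ) * a (i + j) = ((j + k).choose j : κ) * a i) →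
      a i0 = 0 → ∀ i, 1 ≤ i → i < d → a i = 0 := by
  have hp : p.Prime := Fact.out
  have up : ∀ a : ℕ → κ, (∀ i j k, 1 ≤ i → 1 ≤ j → 1 ≤ k → i + j + k = d →
        ((i + j).choose i : κ) * a (i + j) = ((j + k).choose j : κ) * a i) → ∀ s m, m < d →
      ¬ p ∣ m / p ^ s → a (p ^ s) = 0 → a m = 0 := fun a h2 s m hm hd h0 => by
    have h1 : p ^ s ≤ m := by
      by_contra h
      exact hd (by rw [Nat.div_eq_of_lt (by omega)]; exact dvd_zero p)
    rcases h1.eq_or_lt with rfl | h1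
    · exact h0
    · have h3 := h2 (p ^ s) (m - p ^ s) (d - m) (pow_pos hp.pos s) (by omega) (by omega) (by omega)
      rw [h0, mul_zero, Nat.add_sub_cancel' h1.le] at h3
      exact (mul_eq_zero.1 h3).resolve_left fun h =>
        hd (laz_choose p m s ((CharP.cast_eq_zero_iff κ p _).1 h))
  have lead : ∀ a : ℕ → κ, (∀ i j k, 1 ≤ i → 1 ≤ j → 1 ≤ k → i + j + k = d →
        ((i + j).choose i : κ) * a (i + j) = ((j + k).choose j : κ) * a i) → ∀ m, 1 ≤ m → m < d →
      a (p ^ Nat.log p m) = 0 → a m = 0 := fun a h2 m h1 hm h0 => by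
    refine up a h2 _ m hm (Nat.not_dvd_of_pos_of_lt (Nat.div_pos
      (Nat.pow_log_le_self p (by omega)) (pow_pos hp.pos _)) ?_) h0
    rw [Nat.div_lt_iff_lt_mul (pow_pos hp.pos _), ← pow_succ']
    exact Nat.lt_pow_succ_log_self hp.one_lt m
  rcases Nat.eq_zero_or_pos d with rfl | hd
  · exact ⟨1, le_rfl, fun a _ _ _ i _ hi => absurd hi (Nat.not_lt_zero i)⟩
  obtain ⟨t, m, hm, rfl⟩ := Nat.exists_eq_pow_mul_and_not_dvd hd.ne' p hp.ne_one
  have fin : ∀ a : ℕ → κ, (∀ i j k, 1 ≤ i → 1 ≤ j → 1 ≤ k → i + j + k = p ^ t * m →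
        ((i + j).choose i : κ) * a (i + j) = ((j + k).choose j : κ) * a i) →
      (∀ s, p ^ s < p ^ t * m → a (p ^ s) = 0) → ∀ i, 1 ≤ i → i < p ^ t * m → a i = 0 :=
    fun a h2 h i h1 hi => lead a h2 i h1 hi
      (h _ ((Nat.pow_log_le_self p (by omega)).trans_lt hi))
  have hm0 : m ≠ 0 := fun h => hm (h ▸ dvd_zero p)
  by_cases hm1 : m = 1
  · subst hm1
    refine ⟨p ^ (t - 1), pow_pos hp.pos _, fun a h1 h2 h0 => fin a h2 fun s hs => ?_⟩
    have h3 := pow_pos hp.pos s
    rw [h1 _ h3 hs]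
    refine lead a h2 _ (by omega) (by omega) ?_
    rw [mul_one] at hs ⊢
    have h4 : s < t := (Nat.pow_lt_pow_iff_right hp.one_lt).1 hs
    obtain ⟨t, rfl⟩ : ∃ u, t = u + 1 := ⟨t - 1, by omega⟩
    have h5 : p ^ s ≤ p ^ t := Nat.pow_le_pow_right hp.pos (by omega)
    have h6 : 2 * p ^ t ≤ p ^ (t + 1) := by
      rw [pow_succ']; exact Nat.mul_le_mul_right _ hp.two_le
    rw [Nat.log_eq_of_pow_le_of_lt_pow (m := t) (by omega) (by omega)]
    exact h0
  · refine ⟨p ^ t, pow_pos hp.pos _, fun a h1 h2 h0 => fin a h2 ?_⟩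
    have big : ∀ s, t ≤ s → p ^ s < p ^ t * m → a (p ^ s) = 0 := fun s hs h => by
      rcases hs.eq_or_lt with rfl | hs
      · exact h0
      have h3 := pow_pos hp.pos s
      rw [h1 _ h3 h]
      refine up a h2 t _ (by omega) (fun h4 => hm ?_) h0
      obtain ⟨u, rfl⟩ : ∃ u, s = t + (u + 1) := ⟨s - t - 1, by omega⟩
      rw [pow_add] at h h4
      rw [← Nat.mul_sub, Nat.mul_div_cancel_left _ (pow_pos hp.pos t)] at h4
      have h5 := (Nat.lt_of_mul_lt_mul_left h).le
      rw [← Nat.sub_add_cancel h5]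
      exact dvd_add h4 (dvd_pow_self p (by omega))
    intro s hs
    rcases le_or_gt t s with h | h
    · exact big s h hs
    have h3 := pow_pos hp.pos s
    have h5 : p ^ s ≤ p ^ t := Nat.pow_le_pow_right hp.pos h.le
    have h6 : p ^ t * 2 ≤ p ^ t * m := Nat.mul_le_mul_left _ (by omega)
    rw [h1 _ h3 hs]
    refine lead a h2 _ (by omega) (by omega) (big _ (Nat.le_log_of_pow_le hp.one_lt (by omega)) ?_)
    exact (Nat.pow_log_le_self p (by omega)).trans_lt (by omega)

theorem lazard_module {κ M : Type} [Field κ] [AddCommGroup M] [Module κ M] (p : ℕ) [Fact p.Prime]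
    [CharP κ p] (d : ℕ) (b : ℕ → κ) (hb1 : ∀ i, 1 ≤ i → i < d → b i = b (d - i))
    (hb2 : ∀ i j k, 1 ≤ i → 1 ≤ j → 1 ≤ k → i + j + k = d →
        ((i + j).choose i : κ) * b (i + j) = ((j + k).choose j : κ) * b i)
    (hb : ∃ i, 1 ≤ i ∧ i < d ∧ b i ≠ 0) (a : ℕ → M) (ha1 : ∀ i, 1 ≤ i → i < d → a i = a (d - i))
    (ha2 : ∀ i j k, 1 ≤ i → 1 ≤ j → 1 ≤ k → i + j + k = d →
        ((i + j).choose i) • a (i + j) = ((j + k).choose j) • a i) :
    ∃ t : M, ∀ i, 1 ≤ i → i < d → a i = b i • t := by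
  obtain ⟨i0, -, h⟩ := lazard_field (κ := κ) p d
  have h0 : b i0 ≠ 0 := fun h0 => by
    obtain ⟨i, h1, h2, h3⟩ := hb
    exact h3 (h b hb1 hb2 h0 i h1 h2)
  refine ⟨(b i0)⁻¹ • a i0, fun i h1 h2 => ?_⟩
  rw [← sub_eq_zero, ← Module.forall_dual_apply_eq_zero_iff κ]
  intro φ
  refine h (fun i => φ (a i - b i • (b i0)⁻¹ • a i0)) (fun i h1 h2 => ?_)
    (fun i j k h1 h2 h3 h4 => ?_) ?_ i h1 h2
  · rw [← ha1 i h1 h2, ← hb1 i h1 h2]
  · have h5 := congrArg φ (ha2 i j k h1 h2 h3 h4)
    simp only [map_nsmul, nsmul_eq_mul] at h5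
    simp only [map_sub, map_smul, smul_eq_mul]
    linear_combination h5 - (b i0)⁻¹ * φ (a i0) * hb2 i j k h1 h2 h3 h4
  · simp only [smul_smul, mul_inv_cancel₀ h0, one_smul, sub_self, map_zero]

theorem exists_choose_ne {κ : Type} [Field κ] (p : ℕ) [Fact p.Prime] [CharP κ p] (d : ℕ)
    (hd : 2 ≤ d) (hp : ∀ s, d ≠ p ^ s) : ∃ i, 1 ≤ i ∧ i < d ∧ (d.choose i : κ) ≠ 0 := by
  by_contra h
  push Not at h
  refine hp _ (Choose.eq_pow_multiplicity_of_choose_modEq_zero_nat (p := p) (by omega)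
    fun i hi => ?_)
  have h1 := Finset.mem_Icc.1 hi
  exact (Nat.modEq_zero_iff_dvd).2 ((CharP.cast_eq_zero_iff κ p _).1 (h i h1.1 (by omega)))

section lead
variable {A : Type} [CommRing A] {τ : Type}

theorem laz_add {f g : MvPowerSeries τ A} {m : ℕ∞} (hf : m ≤ f.order) (hg : m ≤ g.order) :
    m ≤ (f + g).order := (le_min hf hg).trans min_order_le_add

theorem laz_mul {f g : MvPowerSeries τ A} {m k l : ℕ} (hf : (m : ℕ∞) ≤ f.order)
    (hg : (k : ℕ∞) ≤ g.order) (h : l ≤ m + k) : (l : ℕ∞) ≤ (f * g).order :=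
  le_trans (le_trans (by exact_mod_cast h) (add_le_add hf hg)) le_order_mul

theorem laz_pow {a a' : MvPowerSeries τ A} (ha : constantCoeff a = 0) (ha' : constantCoeff a' = 0)
    (h : ((2 : ℕ) : ℕ∞) ≤ (a - a').order) (i : ℕ) :
    ((i + 1 : ℕ) : ℕ∞) ≤ (a ^ i - a' ^ i).order := by
  induction i with
  | zero => simp [order_zero]
  | succ i ih =>
    rw [show a ^ (i + 1) - a' ^ (i + 1) = a ^ 1 * (a ^ i - a' ^ i) + (a - a') * a' ^ i by ring]
    exact laz_add (laz_mul (le_order_pow_of_constantCoeff_eq_zero 1 ha) ih (by omega))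
      (laz_mul h (le_order_pow_of_constantCoeff_eq_zero i ha') (by omega))

theorem laz_sum {c : MvPowerSeries (Fin 2) A} {d : ℕ} (hd : (d : ℕ∞) ≤ c.order)
    {a b a' b' : MvPowerSeries τ A} (ha : constantCoeff a = 0) (ha' : constantCoeff a' = 0)
    (hb : constantCoeff b = 0) (hb' : constantCoeff b' = 0)
    (h1 : ((2 : ℕ) : ℕ∞) ≤ (a - a').order) (h2 : ((2 : ℕ) : ℕ∞) ≤ (b - b').order) {e : τ →₀ ℕ}
    (he : Finsupp.degree e = d) :
    coeff e (subst ![a, b] c) = ∑ m ∈ Finset.range (d + 1),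
      coeff (Finsupp.single 0 m + Finsupp.single 1 (d - m)) c *
        coeff e (a' ^ m * b' ^ (d - m)) := by
  classical
  have pr : ∀ D : Fin 2 →₀ ℕ, (D.prod fun s k => ![a, b] s ^ k) = a ^ D 0 * b ^ D 1 := fun D => by
    rw [Finsupp.prod_fintype _ _ (by simp), Fin.prod_univ_two]
    rfl
  rw [coeff_subst (hasSubst_of_constantCoeff_zero fun s => by fin_cases s <;> simpa),
    finsum_eq_sum_of_support_subset (s := (Finset.range (d + 1)).image
      fun m => Finsupp.single 0 m + Finsupp.single 1 (d - m)), Finset.sum_image]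
  · refine Finset.sum_congr rfl fun m hm => ?_
    have h3 := Finset.mem_range.1 hm
    have h4 : ((d + 1 : ℕ) : ℕ∞) ≤ (a ^ m * b ^ (d - m) - a' ^ m * b' ^ (d - m)).order := by
      rw [show a ^ m * b ^ (d - m) - a' ^ m * b' ^ (d - m) = (a ^ m - a' ^ m) * b ^ (d - m) +
        a' ^ m * (b ^ (d - m) - b' ^ (d - m)) by ring]
      exact laz_add (laz_mul (laz_pow ha ha' h1 m) (le_order_pow_of_constantCoeff_eq_zero _ hb)
        (by omega)) (laz_mul (le_order_pow_of_constantCoeff_eq_zero _ ha')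
          (laz_pow hb hb' h2 _) (by omega))
    have h6 : ((Finsupp.degree e : ℕ) : ℕ∞) < ((d + 1 : ℕ) : ℕ∞) := by
      exact_mod_cast (by omega : Finsupp.degree e < d + 1)
    have h5 := coeff_of_lt_order (h6.trans_le h4)
    rw [map_sub, sub_eq_zero] at h5
    rw [pr, smul_eq_mul, ← h5]
    simp
  · intro m _ m' _ h
    simpa using DFunLike.congr_fun h 0
  · intro D hD
    rw [Function.mem_support, pr, smul_eq_mul] at hD
    have h3 : Finsupp.degree D = D 0 + D 1 := by
      rw [Finsupp.degree_eq_sum, Fin.sum_univ_two]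
    have h4 : d ≤ D 0 + D 1 := by
      have := hd.trans (order_le (left_ne_zero_of_mul hD))
      rw [h3] at this
      exact_mod_cast this
    have h5 : D 0 + D 1 ≤ d := by
      have := (laz_mul (le_order_pow_of_constantCoeff_eq_zero (D 0) ha)
        (le_order_pow_of_constantCoeff_eq_zero (D 1) hb) le_rfl).trans
          (order_le (right_ne_zero_of_mul hD))
      rw [he] at this
      exact_mod_cast this
    refine Finset.mem_coe.2 (Finset.mem_image.2 ⟨D 0, Finset.mem_range.2 (by omega), ?_⟩)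
    ext s
    fin_cases s
    · simp
    · simp
      omega

theorem laz_mon (r s t i j k : ℕ) :
    coeff (Finsupp.single 0 i + Finsupp.single 1 j + Finsupp.single 2 k)
      ((X 0 : MvPowerSeries (Fin 3) A) ^ r * X 1 ^ s * X 2 ^ t) =
      if i = r ∧ j = s ∧ k = t then 1 else 0 := by
  classical
  simp only [X_pow_eq, monomial_mul_monomial, mul_one, coeff_monomial]
  refine if_congr ⟨fun h => ⟨?_, ?_, ?_⟩, ?_⟩ rfl rfl
  · simpa using DFunLike.congr_fun h 0
  · simpa using DFunLike.congr_fun h 1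
  · simpa using DFunLike.congr_fun h 2
  · rintro ⟨rfl, rfl, rfl⟩
    rfl

theorem laz_G (G : FormalGroup A) (i j : τ) :
    ((2 : ℕ) : ℕ∞) ≤ (subst ![(X i : MvPowerSeries τ A), X j] G.toPowerSeries - (X i + X j)).order := by
  classical
  have h1 : ((2 : ℕ) : ℕ∞) ≤ (G.toPowerSeries - (X 0 + X 1)).order := nat_le_order fun D hD => by
    rw [Finsupp.degree_eq_sum, Fin.sum_univ_two] at hD
    have h2 : D = 0 ∨ D = Finsupp.single 0 1 ∨ D = Finsupp.single 1 1 := by
      simp only [Finsupp.ext_iff, Fin.forall_fin_two]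
      simp
      omega
    rcases h2 with rfl | rfl | rfl
    · simp [G.zero_constantCoeff]
    · simp [G.lin_coeff_X, coeff_index_single_X]
    · simp [G.lin_coeff_Y, coeff_index_single_X]
  have h2 := le_order_subst (HasSubst.X_X (R := A) (i := i) (j := j))
    (G.toPowerSeries - (X 0 + X 1))
  rw [subst_sub .X_X, subst_add .X_X, subst_X .X_X, subst_X .X_X] at h2
  refine le_trans ?_ h2
  rw [← one_mul ((2 : ℕ) : ℕ∞)]
  refine mul_le_mul' (le_iInf fun s => one_le_order_iff_constCoeff_eq_zero.2 ?_) h1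
  fin_cases s <;> simp

theorem laz_key {G : FormalGroup A} {c : MvPowerSeries (Fin 2) A} (hc : IsCoc G c) {d : ℕ}
    (hd : (d : ℕ∞) ≤ c.order) (i j k : ℕ) (h : i + j + k = d) :
    ((i + j).choose i : A) * coeff (Finsupp.single 0 (i + j) + Finsupp.single 1 (d - (i + j))) c +
        (if k = 0 then coeff (Finsupp.single 0 i + Finsupp.single 1 (d - i)) c else 0) =
      ((j + k).choose j : A) * coeff (Finsupp.single 0 i + Finsupp.single 1 (d - i)) c +
        if i = 0 then coeff (Finsupp.single 0 j + Finsupp.single 1 (d - j)) c else 0 := by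
  have he : Finsupp.degree (Finsupp.single (0 : Fin 3) i + Finsupp.single 1 j +
      Finsupp.single 2 k) = d := by simp [h]
  have z : ∀ s : Fin 3, ((2 : ℕ) : ℕ∞) ≤ ((X s : MvPowerSeries (Fin 3) A) - X s).order :=
    fun s => by simp [order_zero]
  have g : ∀ s t : Fin 3, constantCoeff (subst ![(X s : MvPowerSeries (Fin 3) A), X t]
      G.toPowerSeries) = 0 := fun s t => constantCoeff_subst_eq_zero .X_X
        (fun u => by fin_cases u <;> simp) G.zero_constantCoeff
  have x := constantCoeff_X (σ := Fin 3) (R := A)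
  have h1 := congrArg (coeff (Finsupp.single (0 : Fin 3) i + Finsupp.single 1 j +
    Finsupp.single 2 k)) hc.2.2
  rw [map_add, map_add, laz_sum hd (g 0 1) (by simp) (x 2) (x 2) (laz_G G 0 1) (z 2) he,
    laz_sum hd (x 0) (x 0) (x 1) (x 1) (z 0) (z 1) he,
    laz_sum hd (x 0) (x 0) (g 1 2) (by simp) (z 0) (laz_G G 1 2) he,
    laz_sum hd (x 1) (x 1) (x 2) (x 2) (z 1) (z 2) he] at h1
  have e1 : ∀ m, coeff (Finsupp.single (0 : Fin 3) i + Finsupp.single 1 j + Finsupp.single 2 k)
      (((X 0 : MvPowerSeries (Fin 3) A) + X 1) ^ m * X 2 ^ (d - m)) =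
      if m = i + j then ((i + j).choose i : A) else 0 := fun m => by
    rw [add_pow, Finset.sum_mul, map_sum]
    simp only [mul_right_comm _ ((m.choose _ : ℕ) : MvPowerSeries (Fin 3) A)]
    simp only [← map_natCast (C : A →+* MvPowerSeries (Fin 3) A), coeff_mul_C, laz_mon]
    rw [Finset.sum_eq_single i (fun r _ hr => by simp [hr.symm]) fun hi => by
      rw [Nat.choose_eq_zero_of_lt (by simpa using hi)]; simp]
    by_cases hm : m = i + j
    · subst hm
      rw [if_pos ⟨rfl, by omega, by omega⟩, if_pos rfl, one_mul]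
    · rw [if_neg hm]
      by_cases hi : i ≤ m
      · rw [if_neg (by omega), zero_mul]
      · rw [Nat.choose_eq_zero_of_lt (by omega)]; simp
  have e2 : ∀ m ∈ Finset.range (d + 1), coeff (Finsupp.single (0 : Fin 3) i + Finsupp.single 1 j +
      Finsupp.single 2 k) ((X 0 : MvPowerSeries (Fin 3) A) ^ m * X 1 ^ (d - m)) =
      if m = i then (if k = 0 then 1 else 0) else 0 := fun m hm => by
    have h2 := laz_mon (A := A) m (d - m) 0 i j k
    rw [pow_zero, mul_one] at h2
    rw [h2, ← ite_and]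
    exact if_congr (by omega) rfl rfl
  have e3 : ∀ m ∈ Finset.range (d + 1), coeff (Finsupp.single (0 : Fin 3) i + Finsupp.single 1 j +
      Finsupp.single 2 k) ((X 0 : MvPowerSeries (Fin 3) A) ^ m * (X 1 + X 2) ^ (d - m)) =
      if m = i then ((j + k).choose j : A) else 0 := fun m hm => by
    rw [add_pow, Finset.mul_sum, map_sum]
    simp only [← mul_assoc, ← map_natCast (C : A →+* MvPowerSeries (Fin 3) A), coeff_mul_C,
      laz_mon]
    rw [Finset.sum_eq_single j (fun r _ hr => by simp [hr.symm]) fun hi => by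
      rw [Nat.choose_eq_zero_of_lt (by simpa using hi)]; simp]
    by_cases hm : m = i
    · subst hm
      rw [if_pos ⟨rfl, rfl, by omega⟩, if_pos rfl, one_mul, show d - m = j + k by omega]
    · rw [if_neg hm, if_neg (by omega), zero_mul]
  have e4 : ∀ m ∈ Finset.range (d + 1), coeff (Finsupp.single (0 : Fin 3) i + Finsupp.single 1 j +
      Finsupp.single 2 k) ((X 1 : MvPowerSeries (Fin 3) A) ^ m * X 2 ^ (d - m)) =
      if m = j then (if i = 0 then 1 else 0) else 0 := fun m hm => by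
    have h2 := laz_mon (A := A) 0 m (d - m) i j k
    rw [pow_zero, one_mul] at h2
    rw [h2, ← ite_and]
    exact if_congr (by omega) rfl rfl
  rw [Finset.sum_congr rfl fun m _ => congrArg _ (e1 m),
    Finset.sum_congr rfl fun m hm => congrArg _ (e2 m hm),
    Finset.sum_congr rfl fun m hm => congrArg _ (e3 m hm),
    Finset.sum_congr rfl fun m hm => congrArg _ (e4 m hm)] at h1
  simp only [mul_ite, mul_zero, mul_one, Finset.sum_ite_eq', Finset.mem_range,
    show i + j < d + 1 by omega, show i < d + 1 by omega, show j < d + 1 by omega, if_true] at h1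
  linear_combination h1

end lead

theorem IsCoc.lead {A : Type} [CommRing A] {G : FormalGroup A} {c : MvPowerSeries (Fin 2) A}
    (hc : IsCoc G c) (d : ℕ) (hd : (d : ℕ∞) ≤ c.order) :
    coeff (Finsupp.single 0 d) c = 0 ∧ coeff (Finsupp.single 1 d) c = 0 ∧
    (∀ i, 1 ≤ i → i < d → coeff (Finsupp.single 0 i + Finsupp.single 1 (d - i)) c =
      coeff (Finsupp.single 0 (d - i) + Finsupp.single 1 (d - (d - i))) c) ∧
    (∀ i j k, 1 ≤ i → 1 ≤ j → 1 ≤ k → i + j + k = d →
      ((i + j).choose i : A) * coeff (Finsupp.single 0 (i + j) + Finsupp.single 1 (d - (i + j))) c =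
        ((j + k).choose j : A) * coeff (Finsupp.single 0 i + Finsupp.single 1 (d - i)) c) := by
  classical
  refine ⟨?_, ?_, fun i h1 h2 => ?_, fun i j k h1 h2 h3 h => ?_⟩
  · rcases Nat.eq_zero_or_pos d with rfl | h0
    · simpa using hc.1
    · simpa [h0.ne'] using laz_key hc hd d 0 0 rfl
  · rcases Nat.eq_zero_or_pos d with rfl | h0
    · simpa using hc.1
    · simpa [h0.ne'] using laz_key hc hd 0 0 d (by simp)
  · have z : ∀ s : Fin 2, ((2 : ℕ) : ℕ∞) ≤ ((X s : MvPowerSeries (Fin 2) A) - X s).order :=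
      fun s => by simp [order_zero]
    have x := constantCoeff_X (σ := Fin 2) (R := A)
    conv_lhs => rw [← hc.2.1]
    have he : Finsupp.degree (Finsupp.single (0 : Fin 2) i + Finsupp.single 1 (d - i)) = d := by
      simp only [map_add, Finsupp.degree_single]
      omega
    rw [laz_sum hd (x 1) (x 1) (x 0) (x 0) (z 1) (z 0) he,
      Finset.sum_eq_single (d - i) (fun m hm hm' => ?_) fun hi => absurd
        (Finset.mem_range.2 (by omega)) hi]
    · simp only [X_pow_eq, monomial_mul_monomial, mul_one, coeff_monomial]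
      rw [if_pos (by rw [add_comm, show d - (d - i) = i by omega]), mul_one]
    · simp only [X_pow_eq, monomial_mul_monomial, mul_one, coeff_monomial]
      rw [if_neg fun h => hm' (by simpa using (DFunLike.congr_fun h 1).symm), mul_zero]
  · have h4 := laz_key hc hd i j k h
    rwa [if_neg (by omega), if_neg (by omega), add_zero, add_zero] at h4

end Vale.Agent.P217
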