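import Vale.Agent.P217.Hom
import Vale.Agent.P217.Tay

namespace Vale.Agent.P217

open MvPowerSeries

variable {p n : ℕ} [Fact p.Prime] {F : FormalGroup (E0 p n)}

theorem fg_hasSubstL {A : Type} [CommRing A] (G : FormalGroup A) :
    PowerSeries.HasSubst G.toPowerSeries :=
  PowerSeries.HasSubst.of_constantCoeff_zero G.zero_constantCoeff

theorem cob_mapL {A B : Type} [CommRing A] [CommRing B] (G : FormalGroup A) (e : PowerSeries A)
    (f : A →+* B) : cob (G.map f) (PowerSeries.map f e) = map f (cob G e) := by
  rw [cob, cob, map_sub, map_sub, PowerSeries.map_subst (fg_hasSubstL G),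
    PowerSeries.map_subst (PowerSeries.HasSubst.X 0),
    PowerSeries.map_subst (PowerSeries.HasSubst.X 1), map_X, map_X, FormalGroup.map_toPowerSeries]

theorem mvmap_injL {A B σ : Type} [CommRing A] [CommRing B] {f : A →+* B}
    (hf : Function.Injective f) : Function.Injective (map f : MvPowerSeries σ A → _) := by
  intro a b h
  ext d
  apply hf
  rw [← coeff_map, ← coeff_map, h]

theorem subst_psubstL {A σ τ : Type} [CommRing A] {a : MvPowerSeries σ A}
    (ha : PowerSeries.HasSubst a) {b : σ → MvPowerSeries τ A} (hb : HasSubst b)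
    (l : PowerSeries A) :
    subst b (PowerSeries.subst a l) = PowerSeries.subst (subst b a) l :=
  subst_comp_subst_apply ha.const hb l

theorem hasSubst_twoL {A σ : Type} [CommRing A] {a b : MvPowerSeries σ A}
    (ha : PowerSeries.HasSubst a) (hb : PowerSeries.HasSubst b) : HasSubst ![a, b] :=
  hasSubst_of_constantCoeff_nilpotent fun s => by
    fin_cases s
    · exact ha
    · exact hb

theorem cob_substL {A σ : Type} [CommRing A] (G : FormalGroup A) (l : PowerSeries A)
    {a b : MvPowerSeries σ A} (ha : PowerSeries.HasSubst a) (hb : PowerSeries.HasSubst b) :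
    subst ![a, b] (cob G l) = PowerSeries.subst (subst ![a, b] G.toPowerSeries) l -
      PowerSeries.subst a l - PowerSeries.subst b l := by
  have hab := hasSubst_twoL ha hb
  rw [cob, subst_sub hab, subst_sub hab, subst_psubstL (fg_hasSubstL G) hab,
    subst_psubstL (PowerSeries.HasSubst.X 0) hab, subst_psubstL (PowerSeries.HasSubst.X 1) hab,
    subst_X hab, subst_X hab]
  rfl

theorem cob_applyL {A σ : Type} [CommRing A] {G : FormalGroup A} {l : PowerSeries A}
    (h : cob G l = 0) {a b : MvPowerSeries σ A} (ha : PowerSeries.HasSubst a)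
    (hb : PowerSeries.HasSubst b) :
    PowerSeries.subst (subst ![a, b] G.toPowerSeries) l =
      PowerSeries.subst a l + PowerSeries.subst b l := by
  have h1 := cob_substL G l ha hb
  rw [h, ← substAlgHom_apply (hasSubst_twoL ha hb), map_zero] at h1
  linear_combination -h1

theorem pderiv_psubstL {A τ : Type} [CommRing A] [Finite τ] {a : MvPowerSeries τ A}
    (ha : PowerSeries.HasSubst a) (l : PowerSeries A) (t : τ) :
    pderiv A t (PowerSeries.subst a l) =
      PowerSeries.subst a (PowerSeries.derivative A l) * pderiv A t a := by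
  have := pderiv_subst (σ := Unit) l ha.const t
  rw [Fintype.sum_unique] at this
  exact this

theorem isLT_iffL : IsLT p n F ↔ cob (F.map (algebraMap (E0 p n) (E0p p n)))
    (logA p n (algebraMap (E0 p n) (E0p p n))) = 0 := by
  rw [IsLT, cob, sub_sub, sub_eq_zero]

theorem ringInv_mapL {A B : Type} [CommRing A] [CommRing B] (f : A →+* B) {x : A}
    (hx : IsUnit x) : f (Ring.inverse x) = Ring.inverse (f x) := by
  obtain ⟨u, rfl⟩ := hx
  rw [Ring.inverse_unit]
  exact (Ring.inverse_unit (Units.map (f : A →* B) u)).symm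

theorem logA_const {A : Type} [CommRing A] (ψ : E0 p n →+* A) :
    PowerSeries.constantCoeff (logA p n ψ) = 0 := by
  rw [← PowerSeries.coeff_zero_eq_constantCoeff_apply, logA, PowerSeries.coeff_mk, if_neg]
  simp

theorem logA_one {A : Type} [CommRing A] (ψ : E0 p n →+* A) :
    PowerSeries.coeff 1 (logA p n ψ) = 1 := by
  rw [logA, PowerSeries.coeff_mk]
  simp [bet]

theorem logA_map {A B : Type} [CommRing A] [CommRing B] (ψ : E0 p n →+* A) (f : A →+* B)
    (hp : IsUnit (p : A)) : logA p n (f.comp ψ) = PowerSeries.map f (logA p n ψ) := by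
  ext d
  rw [PowerSeries.coeff_map, logA, logA, PowerSeries.coeff_mk, PowerSeries.coeff_mk]
  split_ifs
  · rw [map_mul, map_pow, ringInv_mapL f hp, map_natCast, RingHom.comp_apply]
  · rw [map_zero]

theorem log_inj {A σ : Type} [CommRing A] {l : PowerSeries A} (h0 : PowerSeries.constantCoeff l = 0)
    (h1 : PowerSeries.coeff 1 l = 1) {a b : MvPowerSeries σ A} (ha : constantCoeff a = 0)
    (hb : constantCoeff b = 0) (h : PowerSeries.subst a l = PowerSeries.subst b l) : a = b := by
  have hu : IsUnit (PowerSeries.coeff 1 l) := h1 ▸ isUnit_one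
  have hl := PowerSeries.HasSubst.of_constantCoeff_zero' h0
  have ha' := PowerSeries.HasSubst.of_constantCoeff_zero ha
  have hb' := PowerSeries.HasSubst.of_constantCoeff_zero hb
  have e := PowerSeries.subst_substInvOfIsUnit_left l h0 hu
  have e1 := PowerSeries.subst_comp_subst_apply hl ha' (l.substInvOfIsUnit hu)
  have e2 := PowerSeries.subst_comp_subst_apply hl hb' (l.substInvOfIsUnit hu)
  rw [e, PowerSeries.subst_X ha'] at e1
  rw [e, PowerSeries.subst_X hb'] at e2
  rw [e1, e2, h]

theorem p_ne_zero_E0L : (p : E0 p n) ≠ 0 := by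
  intro h
  have := congrArg (constantCoeff : E0 p n →+* WW p n) h
  rw [map_natCast, map_zero] at this
  exact WittVector.p_nonzero p (kk p n) this

theorem E0p_inj : Function.Injective (algebraMap (E0 p n) (E0p p n)) :=
  IsLocalization.injective (E0p p n)
    (powers_le_nonZeroDivisors_of_noZeroDivisors (p_ne_zero_E0L (p := p) (n := n)))

theorem E0p_unit : IsUnit (p : E0p p n) := by
  have := IsLocalization.Away.algebraMap_isUnit (S := E0p p n) (p : E0 p n)
  rwa [map_natCast] at this

theorem cob_liftL {A : Type} [CommRing A] (ψ : E0 p n →+* A) (g : E0p p n →+* A)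
    (hg : g.comp (algebraMap (E0 p n) (E0p p n)) = ψ) :
    cob (F.map ψ) (logA p n ψ) = map g (cob (F.map (algebraMap (E0 p n) (E0p p n)))
      (logA p n (algebraMap (E0 p n) (E0p p n)))) := by
  rw [← cob_mapL, fg_map_map, ← logA_map _ _ E0p_unit, hg]

theorem IsLT.log (hF : IsLT p n F) {A : Type} [CommRing A] (ψ : E0 p n →+* A)
    (hp : IsUnit (p : A)) : cob (F.map ψ) (logA p n ψ) = 0 := by
  have hu : IsUnit (ψ (p : E0 p n)) := by rwa [map_natCast]
  rw [cob_liftL ψ (IsLocalization.Away.lift (p : E0 p n) hu)
    (IsLocalization.Away.lift_comp _ hu), isLT_iffL.mp hF, map_zero]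

theorem isLT_of_log {A : Type} [CommRing A] (ψ : E0 p n →+* A) (hp : IsUnit (p : A))
    (hinj : Function.Injective ψ) (h : cob (F.map ψ) (logA p n ψ) = 0) : IsLT p n F := by
  have hu : IsUnit (ψ (p : E0 p n)) := by rwa [map_natCast]
  rw [cob_liftL ψ (IsLocalization.Away.lift (p : E0 p n) hu)
    (IsLocalization.Away.lift_comp _ hu)] at h
  have hi : Function.Injective (IsLocalization.Away.lift (S := E0p p n) (p : E0 p n) hu) := by
    unfold IsLocalization.Away.lift
    rw [IsLocalization.lift_injective_iff]
    intro x y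
    exact E0p_inj.eq_iff.trans hinj.eq_iff.symm
  rw [isLT_iffL]
  apply mvmap_injL hi
  rw [h, map_zero]

theorem IsLT.unique {F' : FormalGroup (E0 p n)} (hF : IsLT p n F) (hF' : IsLT p n F') : F = F' := by
  apply FormalGroup.ext
  apply mvmap_injL (E0p_inj (p := p) (n := n))
  exact log_inj (logA_const _) (logA_one _) (F.map _).zero_constantCoeff
    (F'.map _).zero_constantCoeff (hF.trans hF'.symm)

theorem isComm_of_logL {A : Type} [CommRing A] {G : FormalGroup A} {l : PowerSeries A}
    (h0 : PowerSeries.constantCoeff l = 0) (h1 : PowerSeries.coeff 1 l = 1) (h : cob G l = 0) :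
    G.toPowerSeries = subst ![(X 1 : MvPowerSeries (Fin 2) A), X 0] G.toPowerSeries := by
  refine log_inj h0 h1 G.zero_constantCoeff ?_ ?_
  · exact constantCoeff_subst_eq_zero HasSubst.X_X (fun i => by fin_cases i <;> simp)
      G.zero_constantCoeff
  · rw [cob_applyL h (PowerSeries.HasSubst.X 1) (PowerSeries.HasSubst.X 0)]
    rw [cob] at h
    linear_combination h

theorem IsLT.isComm (hF : IsLT p n F) : F.IsComm where
  comm := by
    apply mvmap_injL (E0p_inj (p := p) (n := n))
    have h := isComm_of_logL (logA_const _) (logA_one _) (isLT_iffL.mp hF)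
    rw [FormalGroup.map_toPowerSeries] at h
    rw [map_subst HasSubst.X_X]
    refine h.trans ?_
    congr 1
    funext i
    fin_cases i <;> simp

theorem cob_nser {A : Type} [CommRing A] {G : FormalGroup A} {l : PowerSeries A}
    (h0 : PowerSeries.constantCoeff l = 0) (h : cob G l = 0) (m : ℕ) :
    PowerSeries.subst (nser G m) l = (m : PowerSeries A) * l := by
  induction m with
  | zero =>
    rw [nser, Nat.cast_zero, zero_mul]
    exact PowerSeries.subst_zero_of_constantCoeff_zero h0
  | succ m ih =>
    have := cob_applyL h (PowerSeries.HasSubst.of_constantCoeff_zero' (nser_const G m))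
      PowerSeries.HasSubst.X'
    rw [nser]
    refine this.trans ?_
    rw [ih, PowerSeries.X_subst, Nat.cast_succ, add_mul, one_mul]

theorem wE_const : PowerSeries.constantCoeff (wE p n) = 1 := by
  rw [← PowerSeries.coeff_zero_eq_constantCoeff_apply, wE, PowerSeries.coeff_mk]
  simp [bet]

theorem deriv_logA {A : Type} [CommRing A] (ψ : E0 p n →+* A) (hp : IsUnit (p : A)) :
    PowerSeries.derivative A (logA p n ψ) = PowerSeries.map ψ (wE p n) := by
  ext d
  rw [PowerSeries.coeff_derivative, PowerSeries.coeff_map, logA, wE, PowerSeries.coeff_mk,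
    PowerSeries.coeff_mk]
  split_ifs with h
  · have : (d : A) + 1 = (p : A) ^ Nat.log p (d + 1) := by
      rw [← Nat.cast_pow, ← h, Nat.cast_succ]
    rw [this, mul_assoc, ← mul_pow, Ring.inverse_mul_cancel _ hp, one_pow, mul_one]
  · rw [zero_mul, map_zero]

theorem deriv_specL {A : Type} [CommRing A] {G : FormalGroup A} {l : PowerSeries A}
    (h : cob G l = 0) :
    PowerSeries.subst G.toPowerSeries (PowerSeries.derivative A l) * pderiv A 0 G.toPowerSeries =
        PowerSeries.subst (X 0 : MvPowerSeries (Fin 2) A) (PowerSeries.derivative A l) ∧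
      PowerSeries.subst G.toPowerSeries (PowerSeries.derivative A l) * pderiv A 1 G.toPowerSeries =
        PowerSeries.subst (X 1 : MvPowerSeries (Fin 2) A) (PowerSeries.derivative A l) := by
  have h0 := congrArg (pderiv A (0 : Fin 2)) h
  have h1 := congrArg (pderiv A (1 : Fin 2)) h
  rw [cob, map_sub, map_sub, pderiv_psubstL (fg_hasSubstL G),
    pderiv_psubstL (PowerSeries.HasSubst.X 0), pderiv_psubstL (PowerSeries.HasSubst.X 1),
    map_zero] at h0 h1
  rw [pderiv_X_self, pderiv_X_of_ne (by decide)] at h0 h1
  constructor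
  · linear_combination h0
  · linear_combination h1

theorem IsLT.wE_spec (hF : IsLT p n F) :
    PowerSeries.subst F.toPowerSeries (wE p n) * pderiv (E0 p n) 0 F.toPowerSeries =
        PowerSeries.subst (X 0 : MvPowerSeries (Fin 2) (E0 p n)) (wE p n) ∧
      PowerSeries.subst F.toPowerSeries (wE p n) * pderiv (E0 p n) 1 F.toPowerSeries =
        PowerSeries.subst (X 1 : MvPowerSeries (Fin 2) (E0 p n)) (wE p n) := by
  obtain ⟨h0, h1⟩ := deriv_specL (isLT_iffL.mp hF)
  rw [deriv_logA _ E0p_unit, FormalGroup.map_toPowerSeries, pderiv_map] at h0 h1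
  constructor
  · apply mvmap_injL (E0p_inj (p := p) (n := n))
    rw [map_mul, PowerSeries.map_subst (fg_hasSubstL F),
      PowerSeries.map_subst (PowerSeries.HasSubst.X 0), map_X]
    exact h0
  · apply mvmap_injL (E0p_inj (p := p) (n := n))
    rw [map_mul, PowerSeries.map_subst (fg_hasSubstL F),
      PowerSeries.map_subst (PowerSeries.HasSubst.X 1), map_X]
    exact h1

end Vale.Agent.P217
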