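import Vale.Agent.P217.Def3

namespace Vale.Agent.P217

open MvPowerSeries

theorem newton_aux_Newt {R ι : Type} [CommRing R] [Nontrivial R] [DecidableEq ι] (J : ℕ → Ideal R)
    (hJ : Antitone J) (T : ι → R) (e : ι → ι → ℕ) (M L : ℕ)
    (hcan : ∀ b b', b ≠ b' → ∀ z M', M' ≤ M → (T b - T b') * z ∈ J M' → z ∈ J (M' - e b b'))
    (k : ℕ) : ∀ (s : Finset ι) (m : ι → ℕ) (P : Polynomial R), s.card = k → (∀ b, m b ≤ M) →
      (∀ b ∈ s, L ≤ m b - ∑ b' ∈ s.erase b, e b b') → (P = 0 ∨ P.natDegree < k) →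
      (∀ b ∈ s, P.eval (T b) ∈ J (m b)) → ∀ i, P.coeff i ∈ J L := by
  induction k with
  | zero =>
    intro s m P _ _ _ hP _ i
    rcases hP with rfl | hP
    · simp
    · omega
  | succ k ih =>
    intro s m P hs hm hL hP hev i
    obtain ⟨a, ha, hmax⟩ := s.exists_max_image m (Finset.card_pos.1 (by omega))
    obtain ⟨Q, hQ⟩ := Polynomial.X_sub_C_dvd_sub_C_eval (p := P) (a := T a)
    have hQd : Q = 0 ∨ Q.natDegree < k := by
      by_cases h0 : Q = 0
      · exact Or.inl h0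
      · right
        have h1 := (Polynomial.monic_X_sub_C (T a)).natDegree_mul' h0
        rw [← hQ, Polynomial.natDegree_sub_C, Polynomial.natDegree_X_sub_C] at h1
        rcases hP with rfl | hP
        · simp at h1; omega
        · omega
    have hQc := ih (s.erase a) (fun b => m b - e b a) Q (by rw [Finset.card_erase_of_mem ha]; omega)
      (fun b => (Nat.sub_le _ _).trans (hm b)) (fun b hb => by
        have hba := Finset.ne_of_mem_erase hb
        have h1 := hL b (Finset.mem_of_mem_erase hb)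
        rw [← Finset.add_sum_erase _ _ (Finset.mem_erase.2 ⟨hba.symm, ha⟩),
          Finset.erase_right_comm] at h1
        omega) hQd (fun b hb => by
        have hb' := Finset.mem_of_mem_erase hb
        refine hcan b a (Finset.ne_of_mem_erase hb) _ _ (hm b) ?_
        have h1 := congrArg (Polynomial.eval (T b)) hQ
        simp only [Polynomial.eval_sub, Polynomial.eval_C, Polynomial.eval_mul,
          Polynomial.eval_X] at h1
        rw [← h1]
        exact (J _).sub_mem (hev b hb') (hJ (hmax b hb') (hev a ha)))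
    have hc : P.eval (T a) ∈ J L := hJ ((hL a ha).trans (Nat.sub_le _ _)) (hev a ha)
    rw [sub_eq_iff_eq_add.1 hQ, Polynomial.coeff_add]
    refine (J L).add_mem ?_ ?_
    · rw [Polynomial.coeff_mul]
      exact (J L).sum_mem fun x _ => (J L).mul_mem_left _ (hQc _)
    · rw [Polynomial.coeff_C]
      split_ifs
      · exact hc
      · exact (J L).zero_mem

theorem newton {R ι : Type} [CommRing R] [Fintype ι] [DecidableEq ι] (J : ℕ → Ideal R)
    (hJ : Antitone J) (T : ι → R) (e : ι → ι → ℕ) (M Λ : ℕ)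
    (hcan : ∀ b b', b ≠ b' → ∀ z M', M' ≤ M → (T b - T b') * z ∈ J M' → z ∈ J (M' - e b b'))
    (hΛ : ∀ b, ∑ b' ∈ Finset.univ.erase b, e b b' ≤ Λ) (P : Polynomial R)
    (hdeg : P.natDegree < Fintype.card ι) (hP : ∀ b, P.eval (T b) ∈ J M) (i : ℕ) :
    P.coeff i ∈ J (M - Λ) := by
  rcases subsingleton_or_nontrivial R with hR | hR
  · rw [Subsingleton.elim (P.coeff i) 0]
    exact (J _).zero_mem
  · exact newton_aux_Newt J hJ T e M (M - Λ) hcan (Fintype.card ι) Finset.univ (fun _ => M) P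
      Finset.card_univ (fun _ => le_rfl) (fun b _ => Nat.sub_le_sub_left (hΛ b) M) (Or.inr hdeg)
      (fun b _ => hP b) i

theorem geom_Newt {q P : ℕ} (h : 2 * P ≤ q) (k : ℕ) :
    ∑ j ∈ Finset.range k, q ^ j * P ^ (k - j) ≤ q ^ k := by
  induction k with
  | zero => simp
  | succ k ih =>
    have e : ∑ j ∈ Finset.range k, q ^ j * P ^ (k + 1 - j) =
        P * ∑ j ∈ Finset.range k, q ^ j * P ^ (k - j) := by
      rw [Finset.mul_sum]
      refine Finset.sum_congr rfl fun j hj => ?_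
      rw [show k + 1 - j = k - j + 1 by have := Finset.mem_range.1 hj; omega]
      ring
    rw [Finset.sum_range_succ, e, Nat.add_sub_cancel_left, pow_one, pow_succ]
    have := Nat.mul_le_mul_left P ih
    have := Nat.mul_le_mul_left (q ^ k) h
    nlinarith

theorem count_Newt (p : ℕ) (hp : 0 < p) {m k j : ℕ} (hj : j ≤ k) (b : Fin m → Fin (p ^ k))
    (s : Finset (Fin m → Fin (p ^ k)))
    (hs : ∀ b' ∈ s, ∀ i, (p : ℤ) ^ j ∣ ((b i : ℕ) : ℤ) - ((b' i : ℕ) : ℤ)) :
    s.card ≤ (p ^ m) ^ (k - j) := by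
  classical
  have h := Finset.card_le_card_of_injOn (s := s)
    (t := Fintype.piFinset fun _ : Fin m => Finset.range (p ^ (k - j)))
    (fun b' i => (b' i : ℕ) / p ^ j) (fun b' _ => by
      simp only [Finset.mem_coe, Fintype.mem_piFinset, Finset.mem_range]
      intro i
      rw [Nat.div_lt_iff_lt_mul (pow_pos hp _), ← pow_add, Nat.sub_add_cancel hj]
      exact (b' i).2) (fun x hx y hy hxy => by
      funext i
      apply Fin.ext
      have h1 : (x i : ℕ) / p ^ j = (y i : ℕ) / p ^ j := congrFun hxy i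
      have h2 : (x i : ℕ) ≡ (y i : ℕ) [MOD p ^ j] := by
        rw [Nat.modEq_iff_dvd]
        have := dvd_sub (hs x hx i) (hs y hy i)
        rw [sub_sub_sub_cancel_left] at this
        exact_mod_cast this
      rw [← Nat.div_add_mod (x i) (p ^ j), ← Nat.div_add_mod (y i) (p ^ j), h1, h2])
  rw [Fintype.card_piFinset, Finset.prod_const, Finset.card_range, Finset.card_univ,
    Fintype.card_fin, ← pow_mul, mul_comm, pow_mul] at h
  exact h

theorem exists_val (p : ℕ) [Fact p.Prime] {m n : ℕ} (hmn : m < n) (k : ℕ) :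
    ∃ e : (Fin m → Fin (p ^ k)) → (Fin m → Fin (p ^ k)) → ℕ,
      (∀ b b', b ≠ b' → (∀ i, (p : ℤ) ^ e b b' ∣ ((b i : ℕ) : ℤ) - ((b' i : ℕ) : ℤ)) ∧
        ∃ i, ¬ (p : ℤ) ^ (e b b' + 1) ∣ ((b i : ℕ) : ℤ) - ((b' i : ℕ) : ℤ)) ∧
      ∀ b, ∑ b' ∈ Finset.univ.erase b, (p ^ n) ^ e b b' ≤ (p ^ n) ^ k - (p ^ n) ^ (k - 1) := by
  classical
  have hp : p.Prime := Fact.out
  have key : ∀ b b' : Fin m → Fin (p ^ k), ∃ j, (b ≠ b' → j < k) ∧ (b = b' → j = k - 1) ∧
      (∀ i, (p : ℤ) ^ j ∣ ((b i : ℕ) : ℤ) - ((b' i : ℕ) : ℤ)) ∧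
      (b ≠ b' → ∃ i, ¬ (p : ℤ) ^ (j + 1) ∣ ((b i : ℕ) : ℤ) - ((b' i : ℕ) : ℤ)) := by
    intro b b'
    by_cases hb : b = b'
    · subst hb
      exact ⟨k - 1, fun h => absurd rfl h, fun _ => rfl, fun i => by simp, fun h => absurd rfl h⟩
    · obtain ⟨i0, hi0⟩ := Function.ne_iff.1 hb
      have hk : ¬ (p : ℤ) ^ k ∣ ((b i0 : ℕ) : ℤ) - ((b' i0 : ℕ) : ℤ) := by
        intro hd
        have h2 : (b' i0 : ℕ) ≡ (b i0 : ℕ) [MOD p ^ k] := by
          rw [Nat.modEq_iff_dvd]
          push_cast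
          exact hd
        exact hi0 (Fin.ext (Nat.ModEq.eq_of_lt_of_lt h2 (b' i0).2 (b i0).2).symm)
      have hex : ∃ j, ∃ i, ¬ (p : ℤ) ^ j ∣ ((b i : ℕ) : ℤ) - ((b' i : ℕ) : ℤ) := ⟨k, i0, hk⟩
      have h1 := Nat.find_spec hex
      have h2 : Nat.find hex ≤ k := Nat.find_min' hex ⟨i0, hk⟩
      have h3 : Nat.find hex ≠ 0 := by
        intro h0
        rw [h0] at h1
        simp at h1
      refine ⟨Nat.find hex - 1, fun _ => by omega, fun h => absurd h hb, fun i => ?_, fun _ => ?_⟩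
      · by_contra hc
        exact Nat.find_min hex (by omega) ⟨i, hc⟩
      · rwa [Nat.sub_add_cancel (Nat.pos_of_ne_zero h3)]
  choose e h1 h2 h3 h4 using key
  refine ⟨e, fun b b' hb => ⟨h3 b b', h4 b b' hb⟩, fun b => ?_⟩
  rcases Nat.eq_zero_or_pos k with rfl | hk
  · rw [Finset.sum_eq_zero]
    · exact Nat.zero_le _
    · intro b' hb'
      have := h1 b b' (Finset.ne_of_mem_erase hb').symm
      omega
  · have hlt : ∀ b', e b b' < k := fun b' => by
      by_cases hb : b = b'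
      · rw [h2 b b' hb]; omega
      · exact h1 b b' hb
    apply Nat.le_sub_of_add_le
    rw [← h2 b b rfl, Finset.sum_erase_add _ _ (Finset.mem_univ b),
      ← Finset.sum_fiberwise_of_maps_to (t := Finset.range k) (g := e b)
        (fun b' _ => Finset.mem_range.2 (hlt b'))]
    have hq : 2 * p ^ m ≤ p ^ n := by
      calc 2 * p ^ m ≤ p * p ^ m := Nat.mul_le_mul_right _ hp.two_le
        _ = p ^ (m + 1) := by ring
        _ ≤ p ^ n := Nat.pow_le_pow_right hp.pos hmn
    refine le_trans (Finset.sum_le_sum fun j hj => ?_) (geom_Newt hq k)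
    rw [Finset.sum_congr rfl (g := fun _ => (p ^ n) ^ j)
      (fun x hx => by rw [(Finset.mem_filter.1 hx).2]), Finset.sum_const, smul_eq_mul, mul_comm]
    refine Nat.mul_le_mul_left _ (count_Newt p hp.pos (Finset.mem_range.1 hj).le b _ ?_)
    intro b' hb' i
    rw [← (Finset.mem_filter.1 hb').2]
    exact h3 b b' i

theorem ord_cancel {κ : Type} [Field κ] {m M M' e : ℕ} (hM : M' ≤ M)
    (w : MvPowerSeries (Fin m) κ) (hw : w.order = (e : ℕ∞)) (z : Bq m κ M)
    (h : Ideal.Quotient.mk _ w * z ∈ (ordI (Fin m) κ M').map (Ideal.Quotient.mk _)) :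
    z ∈ (ordI (Fin m) κ (M' - e)).map (Ideal.Quotient.mk (ordI (Fin m) κ M)) := by
  obtain ⟨f, rfl⟩ := Ideal.Quotient.mk_surjective z
  refine Ideal.mem_map_of_mem _ ?_
  obtain ⟨x, hx, hxe⟩ := (Ideal.mem_map_iff_of_surjective _ Ideal.Quotient.mk_surjective).1 h
  rw [← map_mul, Ideal.Quotient.eq] at hxe
  have h1 : x - w * f ∈ ordI (Fin m) κ M' :=
    le_trans (show ((M' : ℕ) : ℕ∞) ≤ (M : ℕ) by exact_mod_cast hM) hxe
  have h2 : w * f ∈ ordI (Fin m) κ M' := by
    simpa using (ordI (Fin m) κ M').sub_mem hx h1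
  have h3 : ((M' : ℕ) : ℕ∞) ≤ (w * f).order := h2
  rw [order_mul, hw] at h3
  show ((M' - e : ℕ) : ℕ∞) ≤ f.order
  rw [ENat.coe_sub]
  exact tsub_le_iff_left.2 h3

end Vale.Agent.P217
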