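import Vale.Agent.P217.Nfa
import Vale.Agent.P217.Newt
import Vale.Agent.P217.Free
import Vale.Agent.P217.Cpl

namespace Vale.Agent.P217

open MvPowerSeries

/-- series with coefficients in an ideal -/
noncomputable def mem_J {A : Type} [CommRing A] (σ : Type) (I : Ideal A) :
    Ideal (MvPowerSeries σ A) := RingHom.ker (map (Ideal.Quotient.mk I))

theorem mem_J_iff {A σ : Type} [CommRing A] (I : Ideal A) (f : MvPowerSeries σ A) :
    f ∈ mem_J σ I ↔ CoefIn I f := (coefIn_iff_map0 I f).symm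

theorem mem_ord_anti (m : ℕ) (κ : Type) [CommRing κ] {a b : ℕ} (h : a ≤ b) :
    ordI (Fin m) κ b ≤ ordI (Fin m) κ a := fun f hf =>
  le_trans (show ((a : ℕ) : ℕ∞) ≤ b by exact_mod_cast h) hf

theorem mem_transl {A σ : Type} [CommRing A] (G : FormalGroup A) [G.IsComm] (N : PowerSeries A)
    (z : G.Point Unit) (s : A) (hz : z.val = PowerSeries.C s)
    (h : PowerSeries.subst (ptX G + z).val N = N) (y w : G.Point σ) (hw : w.val = C s) :
    PowerSeries.subst (y + w).val N = PowerSeries.subst y.val N := by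
  have h1 : nfa_subH G y.prop.const (ptX G + z) = y + w := by
    rw [map_add]
    congr 1
    · exact Subtype.ext (PowerSeries.subst_X y.prop)
    · refine Subtype.ext ?_
      rw [nfa_subH_val, hz, hw]
      exact subst_C s
  have h2 := congrArg (subst (fun _ : Unit => y.val)) h
  rw [hom_sub1 (ptX G + z).prop y.prop.const] at h2
  rw [← h1]
  exact h2

theorem mem_poly {A : Type} [CommRing A] (G : FormalGroup A) [G.IsComm] (N : PowerSeries A)
    (h0 : PowerSeries.constantCoeff N = 0) {d : ℕ}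
    (c : (Fin 2 → Fin d) → MvPowerSeries (Fin 2) A)
    (hc : PowerSeries.subst G.toPowerSeries N =
      ∑ i, subst (sN (Fin 2) N) (c i) * ∏ s, X s ^ (i s : ℕ))
    (r : Fin 2) (w : G.Point (Fin 2))
    (hw : ∀ y : G.Point (Fin 2), PowerSeries.subst (y + w).val N = PowerSeries.subst y.val N) :
    PowerSeries.subst G.toPowerSeries N =
      ∑ i, subst (sN (Fin 2) N) (c i) * (∏ s ∈ Finset.univ.erase r, X s ^ (i s : ℕ)) *
        (subst ![X r, w.val] G.toPowerSeries) ^ (i r : ℕ) := by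
  let P : Fin 2 → G.Point (Fin 2) := fun s => ⟨X s, PowerSeries.HasSubst.X s⟩
  let τ : Fin 2 → G.Point (Fin 2) := fun s => if s = r then P s + w else P s
  have hτ : HasSubst (fun s => (τ s).val) := hasSubst_of_constantCoeff_nilpotent fun s => (τ s).prop
  have hN : HasSubst (sN (Fin 2) N) :=
    hasSubst_of_constantCoeff_nilpotent fun s => hom_hsP h0 (PowerSeries.HasSubst.X s)
  have h1 : ∀ s, subst (fun s => (τ s).val) (sN (Fin 2) N s) = sN (Fin 2) N s := by
    intro s
    rw [sN, hom_sub1 (PowerSeries.HasSubst.X s) hτ, subst_X hτ]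
    by_cases h : s = r
    · simp only [τ, if_pos h]
      exact hw (P s)
    · simp only [τ, if_neg h]
      rfl
  have h2 : τ 0 + τ 1 = (P 0 + P 1) + w := by
    fin_cases r
    · simp only [τ, Fin.zero_eta, Fin.isValue, if_true, one_ne_zero, if_false]
      exact add_right_comm _ _ _
    · simp only [τ, Fin.mk_one, Fin.isValue, if_true, zero_ne_one, if_false]
      exact (add_assoc _ _ _).symm
  have h3 : subst (fun s => (τ s).val) G.toPowerSeries = (τ 0 + τ 1).val := by
    rw [FormalGroup.add_apply]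
    congr 1
    funext s
    fin_cases s <;> rfl
  have h4 : (P 0 + P 1).val = G.toPowerSeries := hom_self _
  have h5 := congrArg (subst (fun s => (τ s).val)) hc
  rw [hom_sub1 (hom_hsF G) hτ, h3, h2, hw, h4, ← coe_substAlgHom hτ, map_sum] at h5
  rw [h5]
  refine Finset.sum_congr rfl fun i _ => ?_
  rw [map_mul, map_prod, ← Finset.prod_erase_mul _ _ (Finset.mem_univ r), mul_assoc]
  congr 1
  · rw [coe_substAlgHom, subst_comp_subst_apply hN hτ]
    congr 1
    funext s
    exact h1 s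
  · congr 1
    · refine Finset.prod_congr rfl fun s hs => ?_
      rw [map_pow, substAlgHom_X]
      simp only [τ, if_neg (Finset.ne_of_mem_erase hs)]
      rfl
    · rw [map_pow, substAlgHom_X]
      simp only [τ, if_true]
      rfl

theorem mem_gen {κ : Type} [Field κ] (p : ℕ) [Fact p.Prime] [CharP κ p] {n m : ℕ} (hmn : m < n)
    (Γ : FormalGroup κ) [Γ.IsComm] (hp : nser Γ p = PowerSeries.X ^ (p ^ n)) (k M : ℕ)
    (hM : M = (p ^ n) ^ k)
    (c : (Fin 2 → Fin ((p ^ k) ^ m)) → MvPowerSeries (Fin 2) (Bq m κ M))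
    (hc : PowerSeries.subst (Γ.map (iB m κ M)).toPowerSeries
        (Nser (Γ.map (iB m κ M)) (tB m κ _) (tB_nil m κ _) (p ^ k)) =
      ∑ i, subst (sN (Fin 2)
        (Nser (Γ.map (iB m κ M)) (tB m κ _) (tB_nil m κ _) (p ^ k))) (c i) *
        ∏ s, X s ^ (i s : ℕ))
    (i : Fin 2 → Fin ((p ^ k) ^ m)) (hi : ∃ s, (i s : ℕ) ≠ 0) :
    CoefIn ((ordI (Fin m) κ ((p ^ n) ^ (k - 1))).map (Ideal.Quotient.mk _)) (c i) := by
  classical
  obtain ⟨r, hr⟩ := hi
  have hp0 : p ≠ 0 := (Fact.out : p.Prime).ne_zero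
  have hq0 : p ^ n ≠ 0 := pow_ne_zero n hp0
  have hK : 1 ≤ p ^ k := Nat.one_le_iff_ne_zero.2 (pow_ne_zero k hp0)
  have hd : 1 ≤ (p ^ k) ^ m := Nat.one_le_iff_ne_zero.2 (pow_ne_zero m (pow_ne_zero k hp0))
  set G := Γ.map (iB m κ M) with hG
  set N := Nser G (tB m κ M) (tB_nil m κ M) (p ^ k) with hN
  have hN0 : PowerSeries.constantCoeff N = 0 := Nser_const G _ _ hK
  have hKt : ∀ j, p ^ k • ptC G (tB m κ M j) (tB_nil m κ M j) = 0 := by
    intro j
    refine Subtype.ext ?_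
    have hs := (ptC G (tB m κ M j) (tB_nil m κ M j)).prop
    have hs' : PowerSeries.HasSubst (PowerSeries.C (tB m κ M j) : PowerSeries (Bq m κ M)) := hs
    have ht : tB m κ M j ^ M = 0 := by
      rw [tB, ← map_pow, Ideal.Quotient.eq_zero_iff_mem]
      exact le_order_pow_of_constantCoeff_eq_zero M (constantCoeff_X j)
    rw [nsmul_ptC, hG, nser_map, nfa_nser_pow Γ p (p ^ n) hq0 hp, map_pow, PowerSeries.map_X,
      PowerSeries.subst_pow hs', PowerSeries.subst_X hs', ← map_pow, ← hM, ht, map_zero]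
    rfl
  have hred : CoefIn (aB m κ M) (N - PowerSeries.X ^ ((p ^ k) ^ m)) :=
    Nser_red _ G _ _ (fun j => Ideal.mem_map_of_mem _
      (one_le_order_iff_constCoeff_eq_zero.2 (constantCoeff_X j))) _
  choose sv hsv1 hsv2 using fun b : Fin m → Fin (p ^ k) =>
    sum_ptC G (tB m κ M) (tB_nil m κ M) (fun j => (b j : ℕ))
  have hsC : ∀ b, PowerSeries.HasSubst (C (sv b) : MvPowerSeries (Fin 2) (Bq m κ M)) := fun b => by
    show IsNilpotent (constantCoeff (C (sv b) : MvPowerSeries (Fin 2) (Bq m κ M)))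
    rw [constantCoeff_C]; exact hsv1 b
  let T : (Fin m → Fin (p ^ k)) → MvPowerSeries (Fin 2) (Bq m κ M) :=
    fun b => subst ![X r, C (sv b)] G.toPowerSeries
  let J : ℕ → Ideal (MvPowerSeries (Fin 2) (Bq m κ M)) :=
    fun a => mem_J (Fin 2) ((ordI (Fin m) κ a).map (Ideal.Quotient.mk _))
  have hJ : Antitone J := by
    intro a b hab f hf
    rw [mem_J_iff] at hf ⊢
    exact fun d => Ideal.map_mono (mem_ord_anti m κ hab) (hf d)
  obtain ⟨e, he1, he2⟩ := exists_val p hmn k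
  let P : Polynomial (MvPowerSeries (Fin 2) (Bq m κ M)) :=
    ∑ i, Polynomial.monomial (i r : ℕ)
      (subst (sN (Fin 2) N) (c i) * (∏ s ∈ Finset.univ.erase r, X s ^ (i s : ℕ))) -
      Polynomial.C (PowerSeries.subst G.toPowerSeries N)
  have hdeg : P.natDegree < Fintype.card (Fin m → Fin (p ^ k)) := by
    rw [Fintype.card_fun, Fintype.card_fin, Fintype.card_fin]
    refine lt_of_le_of_lt (Polynomial.natDegree_sub_le _ _) (max_lt ?_ ?_)
    · refine lt_of_le_of_lt (Polynomial.natDegree_sum_le_of_forall_le (n := (p ^ k) ^ m - 1) _ _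
        fun j _ => ?_) (by omega)
      refine (Polynomial.natDegree_monomial_le _).trans ?_
      have := (j r).2
      omega
    · rw [Polynomial.natDegree_C]
      omega
  have hP : ∀ b, P.eval (T b) ∈ J M := by
    intro b
    have h1 := mem_poly G N hN0 c hc r ⟨C (sv b), hsC b⟩ fun y =>
      mem_transl G N _ (sv b) (hsv2 b) (Nser_transl G _ _ hK hKt _) y _ rfl
    have h2 : P.eval (T b) = 0 := by
      rw [Polynomial.eval_sub, Polynomial.eval_finsetSum, Polynomial.eval_C, sub_eq_zero]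
      simp only [Polynomial.eval_monomial]
      exact h1.symm
    rw [h2]
    exact zero_mem _
  have hcan : ∀ b b', b ≠ b' → ∀ z M', M' ≤ M → (T b - T b') * z ∈ J M' →
      z ∈ J (M' - (p ^ n) ^ e b b') := by
    intro b b' hbb z M' hM' hz
    obtain ⟨u, w, hu, hw, h1⟩ := sum_ptC_order p Γ hp M (fun j => (b j : ℕ)) (fun j => (b' j : ℕ))
      (e b b') (he1 b b' hbb).1 (he1 b b' hbb).2 (sv b) (sv b') (hsv2 b) (hsv2 b')
    obtain ⟨v, hv, h2⟩ := sub_unit_left G (hsC b) (hsC b') (PowerSeries.HasSubst.X r)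
    have h3 : T b - T b' = v * C u * C (Ideal.Quotient.mk _ w) := by
      rw [mul_assoc, ← map_mul, ← h1, map_sub, ← h2,
        G.comm' (hsC b) (PowerSeries.HasSubst.X r), G.comm' (hsC b') (PowerSeries.HasSubst.X r)]
    rw [h3, mul_assoc, Ideal.unit_mul_mem_iff_mem _ (hv.mul (hu.map _)), mem_J_iff] at hz
    rw [mem_J_iff]
    intro d
    have h4 := hz d
    rw [coeff_C_mul] at h4
    exact ord_cancel hM' w hw _ h4
  have hco := newton J hJ T (fun b b' => (p ^ n) ^ e b b') M _ hcan he2 P hdeg hP (i r)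
  have hle : (p ^ n) ^ (k - 1) ≤ (p ^ n) ^ k :=
    Nat.pow_le_pow_right (Nat.pos_of_ne_zero hq0) (Nat.sub_le k 1)
  have hM2 : M - ((p ^ n) ^ k - (p ^ n) ^ (k - 1)) = (p ^ n) ^ (k - 1) := by omega
  rw [hM2] at hco
  have h5 := Ideal.mul_mem_right (X r ^ (i r : ℕ)) _ hco
  have h6 : P.coeff (i r) * X r ^ (i r : ℕ) =
      ∑ j, subst (sN (Fin 2) N) (if j r = i r then c j else 0) * ∏ s, X s ^ (j s : ℕ) := by
    have hN : HasSubst (sN (Fin 2) N) :=
      hasSubst_of_constantCoeff_nilpotent fun s => hom_hsP hN0 (PowerSeries.HasSubst.X s)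
    rw [Polynomial.coeff_sub, Polynomial.coeff_C, if_neg hr, sub_zero, Polynomial.finsetSum_coeff,
      Finset.sum_mul]
    refine Finset.sum_congr rfl fun j _ => ?_
    rw [Polynomial.coeff_monomial]
    by_cases h : j r = i r
    · rw [if_pos (congrArg Fin.val h), if_pos h, ← Finset.prod_erase_mul _ _ (Finset.mem_univ r),
        h, mul_assoc]
    · rw [if_neg (fun h' => h (Fin.ext h')), if_neg h, ← coe_substAlgHom hN, map_zero, zero_mul,
        zero_mul]
  rw [h6, mem_J_iff] at h5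
  have h7 := free_ideal (aB m κ M) M (aB_pow m κ M) N hN0 hd hred _ _ h5 i
  rwa [if_pos rfl] at h7

theorem mem_exp {κ : Type} [Field κ] (p : ℕ) [Fact p.Prime] [CharP κ p] {n m : ℕ} (hmn : m < n)
    (Γ : FormalGroup κ) [Γ.IsComm] (hp : nser Γ p = PowerSeries.X ^ (p ^ n)) (k : ℕ)
    (c : (Fin 2 → Fin ((p ^ k) ^ m)) → MvPowerSeries (Fin 2) (Bq m κ ((p ^ n) ^ k)))
    (hc : PowerSeries.subst (Γ.map (iB m κ ((p ^ n) ^ k))).toPowerSeries
        (Nser (Γ.map (iB m κ ((p ^ n) ^ k))) (tB m κ _) (tB_nil m κ _) (p ^ k)) =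
      ∑ i, subst (sN (Fin 2)
        (Nser (Γ.map (iB m κ ((p ^ n) ^ k))) (tB m κ _) (tB_nil m κ _) (p ^ k))) (c i) *
        ∏ s, X s ^ (i s : ℕ))
    (i : Fin 2 → Fin ((p ^ k) ^ m)) (hi : ∃ s, (i s : ℕ) ≠ 0) :
    CoefIn ((ordI (Fin m) κ ((p ^ n) ^ (k - 1))).map (Ideal.Quotient.mk _)) (c i) :=
  mem_gen p hmn Γ hp k _ rfl c hc i hi

end Vale.Agent.P217
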