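import Vale.Agent.P217.Def3

namespace Vale.Agent.P217

open MvPowerSeries

variable {L : Type} [NormedField L] [IsUltrametricDist L]

variable {p : ℕ} [Fact p.Prime] [CharP L p]


omit [Fact p.Prime] [CharP L p] in
theorem sum_lt_Moo {ι : Type} (s : Finset ι) {f : ι → L} {C : ℝ} (hC : 0 < C)
    (h : ∀ g ∈ s, ‖f g‖ < C) : ‖∑ g ∈ s, f g‖ < C :=
  Finset.sum_induction f (fun x => ‖x‖ < C)
    (fun a b ha hb => (IsUltrametricDist.norm_add_le_max a b).trans_lt (max_lt ha hb))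
    (by simpa using hC) h

omit [Fact p.Prime] [CharP L p] in
theorem sub_lt_Moo {a b : L} {C : ℝ} (ha : ‖a‖ < C) (hb : ‖b‖ < C) : ‖a - b‖ < C := by
  rw [sub_eq_add_neg]
  exact (IsUltrametricDist.norm_add_le_max a (-b)).trans_lt (max_lt ha (by rwa [norm_neg]))

omit [IsUltrametricDist L] in
theorem prod_Moo (y : L) : y ^ p - y = ∏ a : ZMod p, (y - ZMod.castHom (dvd_refl p) L a) := by
  have hp := (Fact.out : p.Prime).one_lt
  have h1 := FiniteField.roots_X_pow_card_sub_X (ZMod p)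
  rw [ZMod.card] at h1
  have hm : (Polynomial.X ^ p - Polynomial.X : Polynomial (ZMod p)).Monic :=
    Polynomial.monic_X_pow_sub (by rw [Polynomial.degree_X]; exact_mod_cast hp)
  have h2 := Polynomial.prod_multiset_X_sub_C_of_monic_of_roots_card_eq hm (by
    rw [h1, FiniteField.X_pow_card_sub_X_natDegree_eq _ hp, ← Finset.card_def, Finset.card_univ,
      ZMod.card])
  rw [h1] at h2
  have h3 := congrArg (Polynomial.eval₂RingHom (ZMod.castHom (dvd_refl p) L) y) h2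
  rw [← Finset.prod_eq_multiset_prod, map_prod] at h3
  simpa using h3.symm

theorem fin_Moo {ι : Type} (c : ι → L) (s0 : ℕ) (s : Finset ι) : ∀ u : ι → L,
    (∀ b : ι → ZMod p, (∃ g ∈ s, b g ≠ 0) →
      ‖∑ g ∈ s, ZMod.castHom (dvd_refl p) L (b g) * u g‖ = 1) →
    (∀ t < s.card, ‖∑ g ∈ s, c g * u g ^ (p ^ (s0 + t))‖ < 1) → ∀ g ∈ s, ‖c g‖ < 1 := by
  classical
  induction s using Finset.induction_on with
  | empty => simp
  | insert g0 s hg0 ih =>
    intro u horth h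
    have hp := (Fact.out : p.Prime).pos
    have hu : ∀ g ∈ insert g0 s, ‖u g‖ = 1 := fun g hg => by
      have := horth (Pi.single g 1) ⟨g, hg, by simp⟩
      rwa [Finset.sum_eq_single g (fun k _ hk => by simp [hk]) (fun h => absurd hg h),
        Pi.single_eq_same, map_one, one_mul] at this
    have h0 := hu g0 (Finset.mem_insert_self _ _)
    have h0' : u g0 ≠ 0 := norm_ne_zero_iff.1 (by rw [h0]; exact one_ne_zero)
    have hpow : u g0 ^ (p - 1) * u g0 = u g0 ^ p := by rw [← pow_succ, Nat.sub_add_cancel hp]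
    rw [Finset.card_insert_of_notMem hg0] at h
    have key := ih (fun g => u g ^ p - u g0 ^ (p - 1) * u g) (fun b ⟨g, hg, hb⟩ => ?_)
      (fun t ht => ?_)
    · intro g hg
      rcases Finset.mem_insert.1 hg with rfl | hg
      · have h1 := h 0 (by omega)
        rw [Finset.sum_insert hg0] at h1
        have h2 := sub_lt_Moo h1 (sum_lt_Moo s (f := fun k => c k * u k ^ p ^ (s0 + 0)) one_pos
          fun k hk => by
            simpa [hu k (Finset.mem_insert_of_mem hk)] using key k hk)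
        simpa [h0] using h2
      · exact key g hg
    · set w := ∑ g ∈ s, ZMod.castHom (dvd_refl p) L (b g) * u g with hw
      have e1 : ∑ g ∈ s, ZMod.castHom (dvd_refl p) L (b g) * (u g ^ p - u g0 ^ (p - 1) * u g) =
          u g0 ^ p * ((w / u g0) ^ p - w / u g0) := by
        have : w ^ p = ∑ g ∈ s, ZMod.castHom (dvd_refl p) L (b g) * u g ^ p := by
          rw [hw, sum_pow_char]
          refine Finset.sum_congr rfl fun g _ => ?_
          rw [mul_pow, ← map_pow, ZMod.pow_card]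
        rw [mul_sub, div_pow, mul_div_cancel₀ _ (pow_ne_zero _ h0'), ← hpow, mul_assoc,
          mul_div_cancel₀ _ h0', this, hw, Finset.mul_sum, ← Finset.sum_sub_distrib]
        exact Finset.sum_congr rfl fun g _ => by ring
      rw [e1, prod_Moo, norm_mul, norm_pow, h0, one_pow, one_mul, norm_prod]
      refine Finset.prod_eq_one fun a _ => ?_
      have := horth (Function.update b g0 (-a)) ⟨g, Finset.mem_insert_of_mem hg, by
        rwa [Function.update_of_ne (ne_of_mem_of_not_mem hg hg0)]⟩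
      rw [Finset.sum_insert hg0, Function.update_self, Finset.sum_congr rfl fun k hk => by
        rw [Function.update_of_ne (ne_of_mem_of_not_mem hk hg0)], ← hw] at this
      rw [show w / u g0 - ZMod.castHom (dvd_refl p) L a =
        (ZMod.castHom (dvd_refl p) L (-a) * u g0 + w) / u g0 by rw [map_neg]; field_simp; ring,
        norm_div, this, h0, div_one]
    · have e1 : ∑ g ∈ s, c g * (u g ^ p - u g0 ^ (p - 1) * u g) ^ p ^ (s0 + t) =
          ∑ g ∈ insert g0 s, c g * u g ^ p ^ (s0 + (t + 1)) -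
            (u g0 ^ (p - 1)) ^ p ^ (s0 + t) * ∑ g ∈ insert g0 s, c g * u g ^ p ^ (s0 + t) := by
        have e : ∀ g, c g * (u g ^ p - u g0 ^ (p - 1) * u g) ^ p ^ (s0 + t) =
            c g * u g ^ p ^ (s0 + (t + 1)) -
              (u g0 ^ (p - 1)) ^ p ^ (s0 + t) * (c g * u g ^ p ^ (s0 + t)) := fun g => by
          rw [sub_pow_char_pow, mul_pow, ← pow_mul, ← pow_succ', add_assoc]; ring
        rw [Finset.mul_sum, ← Finset.sum_sub_distrib, Finset.sum_insert hg0, ← e, hpow, sub_self,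
          zero_pow (pow_ne_zero _ hp.ne'), mul_zero, zero_add]
        exact Finset.sum_congr rfl fun g _ => e g
      rw [e1]
      exact sub_lt_Moo (h _ (by omega)) (by simpa [h0] using h t (by omega))

omit [IsUltrametricDist L] in
theorem cast_Moo (b : ZMod p) : ((b.val : ℕ) : L) = ZMod.castHom (dvd_refl p) L b := by
  rw [ZMod.castHom_apply, ZMod.natCast_val]
theorem moore_norm {ι : Type} [Fintype ι] (u c : ι → L) (hu : ∀ g, ‖u g‖ = 1)
    (horth : ∀ b : ι → Fin p, (∃ g, (b g : ℕ) ≠ 0) → ‖∑ g, ((b g : ℕ) : L) * u g‖ = 1)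
    (hc : ∀ g, ‖c g‖ ≤ 1) (s0 : ℕ)
    (h : ∀ t < Fintype.card ι, ‖∑ g, c g * u g ^ (p ^ (s0 + t))‖ < 1) (g : ι) : ‖c g‖ < 1 := by
  refine fin_Moo c s0 Finset.univ u (fun b ⟨k, _, hk⟩ => ?_) h g (Finset.mem_univ _)
  have := horth (fun k => ⟨(b k).val, ZMod.val_lt _⟩) ⟨k, by simpa using hk⟩
  simpa only [cast_Moo] using this

open Classical in
theorem kc {ι : Type} [Fintype ι] (u c : ι → L) (hu : ∀ σ, u σ ≠ 0)
    (horth : ∀ b : ι → Fin p, ∀ σ, (b σ : ℕ) ≠ 0 → ‖u σ‖ ≤ ‖∑ τ, ((b τ : ℕ) : L) * u τ‖)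
    (hc : ∃ σ, c σ ≠ 0) {s1 s2 : ℕ} (hs : s1 ≤ s2) (h : ∀ s, s1 ≤ s → s ≤ s2 → Can p c u s) :
    s2 - s1 + 2 ≤ (Finset.univ.filter fun σ =>
      ∃ s, s1 ≤ s ∧ s ≤ s2 ∧ ‖c σ * u σ ^ (p ^ s)‖ = GG p c u s).card := by
  have hp := (Fact.out : p.Prime).one_lt
  obtain ⟨σ1, hσ1⟩ := hc
  have : Nonempty ι := ⟨σ1⟩
  have hle : ∀ s σ, ‖c σ * u σ ^ (p ^ s)‖ ≤ GG p c u s := fun s σ =>
    le_ciSup (f := fun σ => ‖c σ * u σ ^ (p ^ s)‖) (Set.finite_range _).bddAbove σ
  have hex : ∀ s, ∃ σ, ‖c σ * u σ ^ (p ^ s)‖ = GG p c u s := fun s =>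
    exists_eq_ciSup_of_finite (f := fun σ => ‖c σ * u σ ^ (p ^ s)‖)
  have hpos : ∀ s, 0 < GG p c u s := fun s =>
    (norm_pos_iff.2 (mul_ne_zero hσ1 (pow_ne_zero _ (hu _)))).trans_le (hle s σ1)
  induction s2 using Nat.strong_induction_on with
  | _ s2 ih =>
  set A := Finset.univ.filter fun σ =>
    ∃ s, s1 ≤ s ∧ s ≤ s2 ∧ ‖c σ * u σ ^ (p ^ s)‖ = GG p c u s with hA
  have hmem : ∀ σ s, s1 ≤ s → s ≤ s2 → ‖c σ * u σ ^ (p ^ s)‖ = GG p c u s → σ ∈ A :=
    fun σ s a b e => Finset.mem_filter.2 ⟨Finset.mem_univ _, s, a, b, e⟩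
  obtain ⟨σ0, h0A, hmax⟩ := Finset.exists_max_image A (fun σ => ‖u σ‖)
    ⟨_, hmem _ s2 hs le_rfl (hex s2).choose_spec⟩
  have hE := (Finset.mem_filter.1 h0A).2
  obtain ⟨a1, a2, a3⟩ := Nat.find_spec hE
  have hmin := fun s => Nat.find_min hE (m := s)
  generalize Nat.find hE = s0 at a1 a2 a3 hmin
  set G := Finset.univ.filter fun σ => ‖u σ‖ = ‖u σ0‖ ∧ ‖c σ‖ = ‖c σ0‖ with hG
  have hGn : ∀ σ ∈ G, ∀ s, ‖c σ * u σ ^ (p ^ s)‖ = ‖c σ0 * u σ0 ^ (p ^ s)‖ := fun σ hσ s => by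
    obtain ⟨-, b1, b2⟩ := Finset.mem_filter.1 hσ
    rw [norm_mul, norm_pow, b1, b2, norm_mul, norm_pow]
  have h0G : σ0 ∈ G := Finset.mem_filter.2 ⟨Finset.mem_univ _, rfl, rfl⟩
  have hGA : G ⊆ A := fun σ hσ => hmem σ s0 a1 a2 ((hGn σ hσ s0).trans a3)
  have hu0 := norm_pos_iff.2 (hu σ0)
  have hc0 : c σ0 ≠ 0 := fun h => by simpa [h, ← a3] using hpos s0
  have later : ∀ s, s0 < s → s ≤ s2 → ∀ τ, ‖c τ * u τ ^ (p ^ s)‖ = GG p c u s → τ ∈ G := by
    intro s b1 b2 τ hτ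
    have b3 : ‖u τ‖ ≤ ‖u σ0‖ := hmax τ (hmem τ s (by omega) b2 hτ)
    obtain ⟨d, hd⟩ := Nat.exists_eq_add_of_lt (Nat.pow_lt_pow_right hp b1)
    have b4 := hle s0 τ
    have b5 := hle s σ0
    rw [← a3] at b4
    rw [← hτ, hd, add_assoc, pow_add (u σ0), pow_add (u τ), ← mul_assoc, ← mul_assoc,
      norm_mul _ (u σ0 ^ (d + 1)), norm_mul _ (u τ ^ (d + 1)), norm_pow, norm_pow] at b5
    have b6 : 0 < ‖c σ0 * u σ0 ^ p ^ s0‖ := a3 ▸ hpos s0
    have b7 : ‖u τ‖ = ‖u σ0‖ := by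
      refine le_antisymm b3 (le_of_pow_le_pow_left₀ (Nat.succ_ne_zero d) (norm_nonneg _) ?_)
      exact le_of_mul_le_mul_left (b5.trans (mul_le_mul_of_nonneg_right b4 (by positivity))) b6
    rw [b7] at b5
    have b8 := le_antisymm b4 (le_of_mul_le_mul_right b5 (pow_pos hu0 _))
    rw [norm_mul, norm_mul, norm_pow, norm_pow, b7] at b8
    exact Finset.mem_filter.2 ⟨Finset.mem_univ _, b7, mul_right_cancel₀ (pow_pos hu0 _).ne' b8⟩
  have pure : ∀ s, s1 ≤ s → (∀ t, s ≤ t → t ≤ s2 → ∀ τ, ‖c τ * u τ ^ (p ^ t)‖ = GG p c u t →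
      τ ∈ G) → s2 + 1 - s < G.card := by
    intro s b1 b2
    by_contra hcon
    refine absurd (fin_Moo (p := p) (fun g => c g / c σ0) s G (fun g => u g / u σ0)
      ?_ ?_ σ0 h0G) (by simp [hc0])
    · rintro b ⟨g, hg, hb⟩
      have e := horth (fun k => ⟨(if k ∈ G then b k else 0).val, ZMod.val_lt _⟩) g
        (by simpa [hg] using hb)
      simp only [cast_Moo] at e
      rw [← Finset.sum_subset (Finset.subset_univ G) (fun k _ hk => by simp [hk]),
        Finset.sum_congr rfl (fun k hk => by rw [if_pos hk]), (Finset.mem_filter.1 hg).2.1] at e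
      simp only [← mul_div_assoc]
      rw [← Finset.sum_div, norm_div, div_eq_one_iff_eq hu0.ne']
      refine le_antisymm (IsUltrametricDist.norm_sum_le_of_forall_le_of_nonneg hu0.le
        fun k hk => ?_) e
      rw [norm_mul, (Finset.mem_filter.1 hk).2.1, ← cast_Moo]
      exact mul_le_of_le_one_left hu0.le (IsUltrametricDist.norm_natCast_le_one L _)
    · intro t ht
      have e1 : ‖c σ0 * u σ0 ^ p ^ (s + t)‖ = GG p c u (s + t) := by
        obtain ⟨τ, hτ⟩ := hex (s + t)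
        rw [← hGn τ (b2 _ (by omega) (by omega) τ hτ), hτ]
      have e2 := sub_lt_Moo (h (s + t) (by omega) (by omega))
        (sum_lt_Moo Gᶜ (f := fun τ => c τ * u τ ^ p ^ (s + t)) (hpos _) fun τ hτ =>
          lt_of_le_of_ne (hle _ τ) fun e =>
            Finset.mem_compl.1 hτ (b2 _ (by omega) (by omega) τ e))
      rw [← Finset.sum_add_sum_compl G, add_sub_cancel_right, ← e1] at e2
      simp only [div_pow, div_mul_div_comm]
      rwa [← Finset.sum_div, norm_div, div_lt_one (e1 ▸ hpos _)]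
  have c1 := pure (s0 + 1) (by omega) fun t b1 b2 => later t b1 b2
  have c2 := Finset.card_sdiff_add_card_eq_card hGA
  rcases a1.eq_or_lt with rfl | a4
  · by_cases hp0 : ∀ τ, ‖c τ * u τ ^ (p ^ s1)‖ = GG p c u s1 → τ ∈ G
    · have := pure s1 le_rfl fun t b1 b2 => by
        rcases b1.eq_or_lt with rfl | b3
        exacts [hp0, later t b3 b2]
      omega
    · push Not at hp0
      obtain ⟨τ, b1, b2⟩ := hp0
      have := Finset.card_pos.2 ⟨τ, Finset.mem_sdiff.2 ⟨hmem τ s1 le_rfl hs b1, b2⟩⟩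
      omega
  · have c3 := (ih (s0 - 1) (by omega) (by omega) fun s b1 b2 => h s b1 (by omega)).trans
      (Finset.card_le_card (t := A \ G) fun τ hτ => by
        obtain ⟨-, s, b1, b2, b3⟩ := Finset.mem_filter.1 hτ
        exact Finset.mem_sdiff.2 ⟨hmem τ s b1 (by omega) b3, fun hτG =>
          hmin s (by omega) ⟨b1, by omega, (hGn τ hτG s).symm.trans b3⟩⟩)
    omega

end Vale.Agent.P217
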