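import Vale.Agent.P217.DLog
import Vale.Agent.P217.MkH
import Vale.Agent.P217.Tay

namespace Vale.Agent.P217

open MvPowerSeries

variable {p n : ℕ} [Fact p.Prime] {F : FormalGroup (E0 p n)}

variable {A : Type} [CommRing A]

theorem sta_bot {σ : Type} {f : MvPowerSeries σ A} (h : CoefIn ⊥ f) : f = 0 :=
  MvPowerSeries.ext fun d => by simpa using h d

theorem sta_nil {σ : Type} {M : Ideal A} (hM : M ^ 2 = ⊥) {f : MvPowerSeries σ A}
    (h : CoefIn M f) : PowerSeries.HasSubst f := by
  refine ⟨2, ?_⟩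
  have h1 : constantCoeff f ^ 2 ∈ M ^ 2 := Ideal.pow_mem_pow (by simpa using h 0) 2
  rwa [hM] at h1

theorem sta_zero {σ : Type} (M : Ideal A) : CoefIn M (0 : MvPowerSeries σ A) := fun d => by simp

theorem sta_mul {σ : Type} {M : Ideal A} (hM : M ^ 2 = ⊥) {f g : MvPowerSeries σ A}
    (hf : CoefIn M f) (hg : CoefIn M g) : f * g = 0 := by
  have := hf.mul hg
  rw [← sq, hM] at this
  exact sta_bot this

theorem sta_pderiv {σ : Type} {M : Ideal A} {f : MvPowerSeries σ A} (hf : CoefIn M f) (i : σ) :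
    CoefIn M (pderiv A i f) := fun d => by
  rw [coeff_pderiv]
  exact M.mul_mem_right _ (hf _)

theorem sta_tay2 {σ : Type} {M : Ideal A} (hM : M ^ 2 = ⊥) (f : MvPowerSeries (Fin 2) A)
    {a b e e' : MvPowerSeries σ A} (ha : PowerSeries.HasSubst a) (hb : PowerSeries.HasSubst b)
    (he : CoefIn M e) (he' : CoefIn M e') :
    subst ![a + e, b + e'] f = subst ![a, b] f + subst ![a, b] (pderiv A 0 f) * e +
      subst ![a, b] (pderiv A 1 f) * e' := by
  have h := taylor_one (I := M) f (hom_hs2 ha hb) (hom_hs2 (sta_nil hM he) (sta_nil hM he'))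
    (fun s => by fin_cases s; exacts [he, he'])
  rw [hM] at h
  have h1 := sta_bot h
  have e1 : (fun s => ![a, b] s + ![e, e'] s) = ![a + e, b + e'] := by
    funext s
    fin_cases s <;> rfl
  rw [e1, Fin.sum_univ_two] at h1
  simp only [Matrix.cons_val_zero, Matrix.cons_val_one] at h1
  linear_combination h1

theorem sta_cong2 {σ : Type} {M : Ideal A} (hM : M ^ 2 = ⊥) {f : MvPowerSeries (Fin 2) A}
    (hf : CoefIn M f) {a b e e' : MvPowerSeries σ A} (ha : PowerSeries.HasSubst a)
    (hb : PowerSeries.HasSubst b) (he : CoefIn M e) (he' : CoefIn M e') :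
    subst ![a + e, b + e'] f = subst ![a, b] f := by
  rw [sta_tay2 hM f ha hb he he',
    sta_mul hM ((sta_pderiv hf 0).subst_left (hom_hs2 ha hb)) he,
    sta_mul hM ((sta_pderiv hf 1).subst_left (hom_hs2 ha hb)) he', add_zero, add_zero]

theorem sta_cong1 {σ : Type} {M : Ideal A} (hM : M ^ 2 = ⊥) {f : PowerSeries A}
    (hf : CoefIn M f) {a b : MvPowerSeries σ A} (ha : PowerSeries.HasSubst a)
    (hb : PowerSeries.HasSubst b) (h : CoefIn M (a - b)) :
    PowerSeries.subst a f = PowerSeries.subst b f := by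
  have := hf.subst_congr_mul ha.const hb.const (fun _ => h)
  rw [← sq, hM] at this
  exact sub_eq_zero.1 (sta_bot this)

theorem sta_inv (hF : IsLT p n F) (ψ : E0 p n →+* A) {σ : Type} {a b : MvPowerSeries σ A}
    (ha : PowerSeries.HasSubst a) (hb : PowerSeries.HasSubst b) :
    PowerSeries.subst (subst ![a, b] (F.map ψ).toPowerSeries) (PowerSeries.map ψ (wE p n)) *
        subst ![a, b] (pderiv A 0 (F.map ψ).toPowerSeries) =
        PowerSeries.subst a (PowerSeries.map ψ (wE p n)) ∧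
      PowerSeries.subst (subst ![a, b] (F.map ψ).toPowerSeries) (PowerSeries.map ψ (wE p n)) *
        subst ![a, b] (pderiv A 1 (F.map ψ).toPowerSeries) =
        PowerSeries.subst b (PowerSeries.map ψ (wE p n)) := by
  have hs := hom_hs2 ha hb
  have h0 := congrArg (fun f => subst ![a, b] (map ψ f)) hF.wE_spec.1
  have h1 := congrArg (fun f => subst ![a, b] (map ψ f)) hF.wE_spec.2
  simp only [map_mul] at h0 h1
  rw [PowerSeries.map_subst (hom_hsF F), PowerSeries.map_subst (PowerSeries.HasSubst.X _), map_X,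
    ← pderiv_map, ← FormalGroup.map_toPowerSeries, subst_mul hs, hom_sub1 (hom_hsF _) hs,
    hom_sub1 (PowerSeries.HasSubst.X _) hs, subst_X hs] at h0 h1
  exact ⟨h0, h1⟩

theorem sta_assoc {G H : FormalGroup A} {M : Ideal A} (hM : M ^ 2 = ⊥)
    (hG : CoefIn M (G.toPowerSeries - H.toPowerSeries)) {σ : Type} {a b c : MvPowerSeries σ A}
    (ha : PowerSeries.HasSubst a) (hb : PowerSeries.HasSubst b) (hc : PowerSeries.HasSubst c) :
    subst ![subst ![a, b] H.toPowerSeries, c] (pderiv A 0 H.toPowerSeries) *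
        subst ![a, b] (G.toPowerSeries - H.toPowerSeries) +
      subst ![subst ![a, b] H.toPowerSeries, c] (G.toPowerSeries - H.toPowerSeries) =
    subst ![a, subst ![b, c] H.toPowerSeries] (pderiv A 1 H.toPowerSeries) *
        subst ![b, c] (G.toPowerSeries - H.toPowerSeries) +
      subst ![a, subst ![b, c] H.toPowerSeries] (G.toPowerSeries - H.toPowerSeries) := by
  have h := G.assoc' ha hb hc
  have h' := H.assoc' ha hb hc
  have e : ∀ {x y : MvPowerSeries σ A}, PowerSeries.HasSubst x → PowerSeries.HasSubst y →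
      subst ![x, y] G.toPowerSeries = subst ![x, y] H.toPowerSeries +
        subst ![x, y] (G.toPowerSeries - H.toPowerSeries) := by
    intro x y hx hy
    rw [subst_sub (hom_hs2 hx hy)]; ring
  have d1 := hG.subst_left (hom_hs2 ha hb)
  have d2 := hG.subst_left (hom_hs2 hb hc)
  have t1 := sta_tay2 hM H.toPowerSeries (hom_hsG H ha hb) hc d1 (sta_zero M)
  have t2 := sta_tay2 hM H.toPowerSeries ha (hom_hsG H hb hc) (sta_zero M) d2
  have t3 := sta_cong2 hM hG (hom_hsG H ha hb) hc d1 (sta_zero M)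
  have t4 := sta_cong2 hM hG ha (hom_hsG H hb hc) (sta_zero M) d2
  rw [add_zero] at t1 t2 t3 t4
  rw [e (hom_hsG G ha hb) hc, e ha (hom_hsG G hb hc), e ha hb, e hb hc, t1, t2, t3, t4] at h
  linear_combination h - h'

theorem IsLT.diff_coc (hF : IsLT p n F) (M : Ideal A) (hM : M ^ 2 = ⊥) (ψ : E0 p n →+* A)
    (G : FormalGroup A) [G.IsComm] (hG : CoefIn M (G.toPowerSeries - (F.map ψ).toPowerSeries)) :
    IsCoc (F.map ψ) (PowerSeries.subst (F.map ψ).toPowerSeries (PowerSeries.map ψ (wE p n)) *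
      (G.toPowerSeries - (F.map ψ).toPowerSeries)) := by
  haveI := hF.isComm
  refine ⟨?_, ?_, ?_⟩
  · rw [map_mul, map_sub, G.zero_constantCoeff, (F.map ψ).zero_constantCoeff, sub_zero, mul_zero]
  · have hs := hom_hs2 (A := A) (PowerSeries.HasSubst.X (1 : Fin 2))
      (PowerSeries.HasSubst.X (0 : Fin 2))
    rw [subst_mul hs, subst_sub hs, hom_sub1 (hom_hsF _) hs,
      G.comm' (PowerSeries.HasSubst.X 1) (PowerSeries.HasSubst.X 0),
      (F.map ψ).comm' (PowerSeries.HasSubst.X 1) (PowerSeries.HasSubst.X 0), hom_self, hom_self]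
  · have h0 : PowerSeries.HasSubst (X 0 : MvPowerSeries (Fin 3) A) := PowerSeries.HasSubst.X 0
    have h1 : PowerSeries.HasSubst (X 1 : MvPowerSeries (Fin 3) A) := PowerSeries.HasSubst.X 1
    have h2 : PowerSeries.HasSubst (X 2 : MvPowerSeries (Fin 3) A) := PowerSeries.HasSubst.X 2
    have h01 := hom_hsG (F.map ψ) h0 h1
    have h12 := hom_hsG (F.map ψ) h1 h2
    have k := sta_assoc hM hG h0 h1 h2
    have i1 := (sta_inv hF ψ h01 h2).1
    have i2 := (sta_inv hF ψ h0 h12).2
    rw [subst_mul (hom_hs2 h01 h2), subst_mul (hom_hs2 h0 h1), subst_mul (hom_hs2 h0 h12),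
      subst_mul (hom_hs2 h1 h2), hom_sub1 (hom_hsF _) (hom_hs2 h01 h2),
      hom_sub1 (hom_hsF _) (hom_hs2 h0 h1), hom_sub1 (hom_hsF _) (hom_hs2 h0 h12),
      hom_sub1 (hom_hsF _) (hom_hs2 h1 h2), ← i1, ← i2, ← (F.map ψ).assoc' h0 h1 h2]
    linear_combination PowerSeries.subst (subst ![subst ![(X 0 : MvPowerSeries (Fin 3) A), X 1]
      (F.map ψ).toPowerSeries, X 2] (F.map ψ).toPowerSeries) (PowerSeries.map ψ (wE p n)) * k

theorem sta_unit (H : FormalGroup A) {w : PowerSeries A} (hw : PowerSeries.constantCoeff w = 1) :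
    IsUnit (PowerSeries.subst H.toPowerSeries w) := by
  have h := PowerSeries.constantCoeff_subst_eq_zero H.zero_constantCoeff (w - 1) (by simp [hw])
  rw [← PowerSeries.coe_substAlgHom (hom_hsF H), map_sub, map_one, map_sub, map_one,
    PowerSeries.coe_substAlgHom, sub_eq_zero] at h
  rw [isUnit_iff_constantCoeff, h]
  exact isUnit_one

theorem IsLT.hom_iff (hF : IsLT p n F) (M : Ideal A) (hM : M ^ 2 = ⊥) (ψ : E0 p n →+* A)
    (G G' : FormalGroup A) (hG : CoefIn M (G.toPowerSeries - (F.map ψ).toPowerSeries))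
    (hG' : CoefIn M (G'.toPowerSeries - (F.map ψ).toPowerSeries)) (e : PowerSeries A)
    (he : CoefIn M e) (he0 : PowerSeries.constantCoeff e = 0) :
    IsHom G G' (PowerSeries.X + e) ↔
      cob (F.map ψ) (PowerSeries.map ψ (wE p n) * e) =
        PowerSeries.subst (F.map ψ).toPowerSeries (PowerSeries.map ψ (wE p n)) *
          (G'.toPowerSeries - G.toPowerSeries) := by
  have h0 : PowerSeries.HasSubst (X 0 : MvPowerSeries (Fin 2) A) := PowerSeries.HasSubst.X 0
  have h1 : PowerSeries.HasSubst (X 1 : MvPowerSeries (Fin 2) A) := PowerSeries.HasSubst.X 1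
  have e0 : CoefIn M (PowerSeries.subst (X 0 : MvPowerSeries (Fin 2) A) e) :=
    he.subst_left h0.const
  have e1 : CoefIn M (PowerSeries.subst (X 1 : MvPowerSeries (Fin 2) A) e) :=
    he.subst_left h1.const
  have hu := sta_unit (F.map ψ) (w := PowerSeries.map ψ (wE p n)) (by
    rw [← PowerSeries.coeff_zero_eq_constantCoeff_apply, PowerSeries.coeff_map,
      PowerSeries.coeff_zero_eq_constantCoeff_apply, wE_const, map_one])
  obtain ⟨i0, i1⟩ := sta_inv hF ψ h0 h1
  have z0 := sta_mul hM (sta_pderiv hG' 0) e0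
  have z1 := sta_mul hM (sta_pderiv hG' 1) e1
  rw [map_sub] at z0 z1
  simp only [hom_self] at i0 i1
  rw [IsHom, cob, PowerSeries.subst_add (hom_hsF G), PowerSeries.subst_add h0,
    PowerSeries.subst_add h1, PowerSeries.subst_X (hom_hsF G), PowerSeries.subst_X h0,
    PowerSeries.subst_X h1, sta_tay2 hM _ h0 h1 e0 e1, hom_self, hom_self, hom_self,
    sta_cong1 hM he (hom_hsF G) (hom_hsF (F.map ψ)) hG, PowerSeries.subst_mul (hom_hsF _),
    PowerSeries.subst_mul h0, PowerSeries.subst_mul h1, ← i0, ← i1]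
  constructor
  · rintro ⟨-, h⟩
    linear_combination PowerSeries.subst (F.map ψ).toPowerSeries (PowerSeries.map ψ (wE p n)) *
      (h + z0 + z1)
  · intro h
    refine ⟨by simp [he0], hu.mul_left_cancel ?_⟩
    linear_combination h - PowerSeries.subst (F.map ψ).toPowerSeries
      (PowerSeries.map ψ (wE p n)) * (z0 + z1)

theorem map_diff (a M : Ideal A) [IsHausdorff a A] (hM : M ^ 2 = ⊥) {ψ ψ' : E0 p n →+* A}
    (hψ : Cts p n a ψ) (hψ' : Cts p n a ψ') (hC : ∀ w, ψ' (C w) = ψ (C w))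
    (h : ∀ i, ψ' (X i) - ψ (X i) ∈ M) :
    (F.map ψ').toPowerSeries - (F.map ψ).toPowerSeries =
      ∑ i, C (ψ' (X i) - ψ (X i)) * map ψ (dF p n F i) := by
  ext d
  have h1 := hom_taylor hψ hψ' hC M (fun z hz => by
    rw [hM] at hz ⊢
    refine IsHausdorff.haus (I := a) inferInstance z fun N => ?_
    rw [SModEq.zero, smul_eq_mul, Ideal.mul_top]
    simpa using hz N) h (coeff d F.toPowerSeries)
  rw [hM, Ideal.mem_bot, sub_eq_zero] at h1
  rw [map_sub, map_sum, FormalGroup.map_toPowerSeries, FormalGroup.map_toPowerSeries, coeff_map,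
    coeff_map, h1]
  refine Finset.sum_congr rfl fun i _ => ?_
  rw [coeff_C_mul, coeff_map]
  rfl

end Vale.Agent.P217
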