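import Vale.Agent.P217.Grp
import Vale.Agent.P217.Ver

namespace Vale.Agent.P217

open MvPowerSeries

variable {p n : ℕ} [Fact p.Prime] {F : FormalGroup (E0 p n)}

variable {L : Type} [NormedField L] [IsUltrametricDist L] [CompleteSpace L] [IsAlgClosed L]
  [CharP L p]

omit [IsAlgClosed L] in
theorem tor_X {z : OC L} (hz : ‖(z : L)‖ < 1) : ev1 z PowerSeries.X = z :=
  (evR_spec (fun _ : Unit => z) (fun _ => hz)).eX ()

omit [IsAlgClosed L] in
theorem tor_C {z : OC L} (hz : ‖(z : L)‖ < 1) (a : OC L) : ev1 z (PowerSeries.C a) = a :=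
  (evR_spec (fun _ : Unit => z) (fun _ => hz)).eC a

omit [IsAlgClosed L] in
theorem tor_sub {z : OC L} (hz : ‖(z : L)‖ < 1) {N : ℕ} (hN : N ≠ 0) (V : PowerSeries (OC L)) :
    ev1 z (PowerSeries.subst (PowerSeries.X ^ N : PowerSeries (OC L)) V) = ev1 (z ^ N) V := by
  have h := evR_subst1 (fun _ : Unit => z) (fun _ => hz) (PowerSeries.X ^ N : PowerSeries (OC L))
    (by
      show PowerSeries.constantCoeff (PowerSeries.X ^ N : PowerSeries (OC L)) = 0
      simp [hN]) V
  have e : evR (fun _ : Unit => z) (PowerSeries.X ^ N : PowerSeries (OC L)) = z ^ N := by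
    show ev1 z (PowerSeries.X ^ N) = _
    rw [map_pow, tor_X hz]
  rw [e] at h
  exact h

omit [CompleteSpace L] [IsAlgClosed L] in
theorem tor_pow_lt {z : OC L} (hz : ‖(z : L)‖ < 1) {N : ℕ} (hN : N ≠ 0) :
    ‖((z ^ N : OC L) : L)‖ < 1 := by
  rw [Subring.coe_pow, norm_pow]
  exact pow_lt_one₀ (norm_nonneg _) hz hN

theorem tor_vv {h : ℕ} (h1 : 1 ≤ h) (hn : h < n) : vv p n h ∈ mm p n := by
  rw [mm, RingHom.mem_ker, vv, dif_pos ⟨h1, hn⟩]
  simp [res]

theorem IsLT.tor (hF : IsLT p n F) {h : ℕ} (h1 : 1 ≤ h) (hn : h < n) {η : E0 p n →+* OC L} {ρ : ℝ}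
    (hη : HtPt p n h η ρ) [AddCommGroup (Pts (F.map η))] (hG : GrpSpec (F.map η)) (k : ℕ) :
    ∃ (V U : PowerSeries (OC L)) (T : Finset (Pts (F.map η))),
      IsHom ((F.map η).map (iterateFrobenius (OC L) p (h * k))) (F.map η) V ∧
      CoefIn (ball L ρ) (V - PowerSeries.X ^ (p ^ ((n - h) * k))) ∧ IsUnit U ∧
      (∀ z, z ∈ T ↔ p ^ k • z = 0) ∧ T.card = p ^ ((n - h) * k) ∧
      V = U * ∏ z ∈ T, (PowerSeries.X - PowerSeries.C (z.1 ^ (p ^ (h * k)))) := by
  classical
  have hc : Cts p n (ball L ρ) η := fun x hx => (mem_ball hη.pos.le _).2 (hη.hρ x hx)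
  obtain ⟨V, hV1, hV2, ⟨e, he⟩, hV3⟩ := hF.exists_V (ball L ρ) η hc h1 hn.le hη.hI k
  obtain ⟨r, U, hU, hr, hVU⟩ := weier V _ hη.lt1 hV3
  set N := p ^ (h * k) with hN
  have hN0 : N ≠ 0 := pow_ne_zero _ (Fact.out : p.Prime).ne_zero
  have hsm : ∀ z : Pts (F.map η), (p ^ k • z).1 = ev1 (z.1 ^ N) V := fun z => by
    rw [hG.nsmul, hV1, tor_sub z.2 hN0]
  have hev : ∀ y : OC L, ‖(y : L)‖ < 1 → ev1 y V = ev1 y U * ∏ i, (y - r i) := fun y hy => by
    rw [hVU, map_mul, map_prod]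
    simp only [map_sub, tor_X hy, tor_C hy]
  have hroot : ∀ i, ∃ z : Pts (F.map η), z.1 ^ N = r i := fun i => by
    obtain ⟨w, hw⟩ := IsAlgClosed.exists_pow_nat_eq (r i : L) (Nat.pos_of_ne_zero hN0)
    have hw1 : ‖w‖ < 1 := by
      by_contra hc
      have := one_le_pow₀ (n := N) (not_lt.1 hc)
      rw [← norm_pow, hw] at this
      exact absurd (hr i) (not_lt.2 this)
    exact ⟨⟨⟨w, hw1.le⟩, hw1⟩, Subtype.ext hw⟩
  choose zz hzz using hroot
  have hsubp : ∀ a b : OC L, (a - b) ^ N = a ^ N - b ^ N := fun a b => sub_pow_char_pow a b _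
  have hinj : ∀ a b : OC L, a ^ N = b ^ N → a = b := fun a b hab => by
    have := hsubp a b
    rw [hab, sub_self] at this
    exact sub_eq_zero.1 ((pow_eq_zero_iff hN0).1 this)
  have hker : ∀ z : Pts (F.map η), p ^ k • z = 0 ↔ ∃ i, zz i = z := fun z => by
    have hy := tor_pow_lt z.2 hN0
    have e1 : p ^ k • z = 0 ↔ ev1 (z.1 ^ N) V = 0 := by
      rw [← hsm, ← hG.zero]
      exact ⟨fun h => by rw [h], fun h => Subtype.ext h⟩
    rw [e1, hev _ hy, mul_eq_zero, Finset.prod_eq_zero_iff]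
    constructor
    · rintro (h0 | ⟨i, -, hi⟩)
      · exact absurd h0 (hU.map _).ne_zero
      · exact ⟨i, Subtype.ext (hinj _ _ (by rw [hzz, sub_eq_zero.1 hi]))⟩
    · rintro ⟨i, rfl⟩
      exact Or.inr ⟨i, Finset.mem_univ _, by rw [hzz, sub_self]⟩
  have hrinj : Function.Injective zz := by
    intro i j hij
    by_contra hne
    have hrij : r j = r i := by rw [← hzz, ← hzz, hij]
    set lam := PowerSeries.coeff 1 V with hlam
    have hu0 : (η (vv p n h) : L) ≠ 0 := fun h0 => hη.hu (Subtype.ext h0)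
    have hl0 : 0 < ‖(lam : L)‖ := by
      rw [he, Subring.coe_pow]
      exact norm_pos_iff.2 (pow_ne_zero _ hu0)
    have hu1 : ‖(η (vv p n h) : L)‖ < 1 := (hη.hρ _ (tor_vv h1 hn)).trans_lt hη.lt1
    have hx0 : ‖((lam * η (vv p n h) : OC L) : L)‖ < ‖(lam : L)‖ := by
      rw [Subring.coe_mul, norm_mul]
      exact mul_lt_of_lt_one_right hl0 hu1
    let x0 : Pts (F.map η) := ⟨lam * η (vv p n h), hx0.trans_le lam.2⟩
    set x : OC L := x0.1 ^ N with hx
    have hx1 : ‖(x : L)‖ < 1 := tor_pow_lt x0.2 hN0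
    have hxp : 0 < ‖(x : L)‖ := by
      rw [hx, Subring.coe_pow]
      refine norm_pos_iff.2 (pow_ne_zero _ ?_)
      show ((lam * η (vv p n h) : OC L) : L) ≠ 0
      rw [Subring.coe_mul]
      exact mul_ne_zero (norm_pos_iff.1 hl0) hu0
    have hxl : ‖(x : L)‖ < ‖(lam : L)‖ := by
      refine lt_of_le_of_lt ?_ hx0
      rw [hx, Subring.coe_pow, norm_pow]
      exact pow_le_of_le_one (norm_nonneg _) x0.2.le hN0
    set t : OC L := (zz i + x0).1 ^ N with ht
    have ht1 : ‖(t : L)‖ < 1 := tor_pow_lt (zz i + x0).2 hN0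
    have e1 : ev1 t V = ev1 x V := by
      rw [ht, hx, ← hsm, ← hsm, smul_add, (hker _).2 ⟨i, rfl⟩, zero_add]
    have e2 : ‖((t - r i : OC L) : L)‖ ≤ ‖(x : L)‖ := by
      rw [ht, hx, ← hzz, ← hsubp, Subring.coe_pow, Subring.coe_pow, norm_pow, norm_pow]
      refine pow_le_pow_left₀ (norm_nonneg _) ?_ _
      have h2 := hG.add_sub (zz i) x0
      have h3 := IsUltrametricDist.norm_add_le_max
        (((zz i + x0).1 : L) - (zz i).1 - x0.1) (x0.1 : L)
      rw [sub_add_cancel] at h3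
      refine h3.trans (max_le (h2.trans ?_) le_rfl)
      exact mul_le_of_le_one_left (norm_nonneg _) (zz i).2.le
    have e3 : ‖((ev1 t V : OC L) : L)‖ ≤ ‖(x : L)‖ * ‖(x : L)‖ := by
      rw [hev t ht1, ← Finset.mul_prod_erase _ _ (Finset.mem_univ i),
        ← Finset.mul_prod_erase _ _ (Finset.mem_erase.2 ⟨Ne.symm hne, Finset.mem_univ j⟩), hrij]
      simp only [Subring.coe_mul, norm_mul]
      calc _ ≤ 1 * (‖(x : L)‖ * (‖(x : L)‖ * 1)) := by
            gcongr
            · exact (ev1 t U).2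
            · exact (∏ a ∈ (Finset.univ.erase i).erase j, (t - r a) : OC L).2
        _ = _ := by ring
    obtain ⟨W, hW⟩ : (PowerSeries.X : PowerSeries (OC L)) ^ 2 ∣
        V - PowerSeries.C lam * PowerSeries.X := by
      rw [PowerSeries.X_pow_dvd_iff]
      intro m hm
      interval_cases m
      · simp [hV2.1]
      · simp [hlam]
    have e4 : ev1 x V - lam * x = x ^ 2 * ev1 x W := by
      have := congrArg (ev1 x) hW
      simpa only [map_sub, map_mul, map_pow, tor_X hx1, tor_C hx1] using this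
    have e5 : ‖((lam * x : OC L) : L)‖ ≤ ‖(x : L)‖ * ‖(x : L)‖ := by
      have : lam * x = ev1 t V + -(x ^ 2 * ev1 x W) := by rw [← e4, e1]; ring
      rw [this, Subring.coe_add]
      refine (IsUltrametricDist.norm_add_le_max _ _).trans (max_le e3 ?_)
      rw [Subring.coe_neg, norm_neg, Subring.coe_mul, Subring.coe_pow, norm_mul, norm_pow, sq]
      exact mul_le_of_le_one_right (by positivity) (ev1 x W).2
    rw [Subring.coe_mul, norm_mul] at e5
    exact absurd (le_of_mul_le_mul_right e5 hxp) (not_le.2 hxl)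
  refine ⟨V, U, Finset.univ.image zz, hV2, hV3, hU, fun z => ?_, ?_, ?_⟩
  · rw [hker]; simp
  · rw [Finset.card_image_of_injective _ hrinj]; simp
  · rw [Finset.prod_image fun a _ b _ hab => hrinj hab]
    simp only [hzz]
    exact hVU

theorem IsLT.p_smul_sub (hF : IsLT p n F) {h : ℕ} (h1 : 1 ≤ h) (hn : h < n)
    {η : E0 p n →+* OC L} {ρ : ℝ} (hη : HtPt p n h η ρ) [AddCommGroup (Pts (F.map η))]
    (hG : GrpSpec (F.map η)) (x : Pts (F.map η)) :
    ‖((p • x).1 : L) - (x.1 : L) ^ (p ^ n)‖ ≤ ρ * ‖(x.1 : L)‖ := by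
  have hp0 : p ^ n ≠ 0 := pow_ne_zero _ (Fact.out : p.Prime).ne_zero
  set f : PowerSeries (E0 p n) := nser F p - PowerSeries.X ^ (p ^ n) with hf
  have h0 : PowerSeries.map (res p n) f = 0 := by
    rw [hf, map_sub, ← nser_map, map_pow, PowerSeries.map_X, sub_eq_zero]
    exact hF.pser_res (by omega)
  have hb := (evR_spec (fun _ : Unit => x.1) (fun _ => x.2)).bound ‖(x.1 : L)‖ ρ 1
    (PowerSeries.map η f) (norm_nonneg _) x.2.le hη.pos.le (fun _ => le_rfl)
    (fun d => hη.hρ (coeff d f) (by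
      have := congrArg (coeff d) h0
      exact this))
    (fun d hd => by
      have : d = 0 := (Finsupp.degree_eq_zero_iff d).1 (by omega)
      subst this
      show η (PowerSeries.constantCoeff f) = 0
      rw [hf, map_sub, nser_const, map_pow, PowerSeries.constantCoeff_X, zero_pow hp0, sub_zero,
        map_zero])
  have e : evR (fun _ : Unit => x.1) (PowerSeries.map η f) = (p • x).1 - x.1 ^ (p ^ n) := by
    show ev1 x.1 (PowerSeries.map η f) = _
    rw [hf, map_sub, ← nser_map, map_pow, PowerSeries.map_X, map_sub, map_pow, tor_X x.2,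
      hG.nsmul]
  rw [e, pow_one] at hb
  simpa using hb

end Vale.Agent.P217
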