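import Vale.Agent.P217.Def3

namespace Vale.Agent.P217

open MvPowerSeries

variable {L : Type} [NormedField L] [IsUltrametricDist L]

variable {p : ℕ} [Fact p.Prime] [CharP L p] [PerfectRing L p]

theorem wit_pow (i : ℕ) (w : WittVector p L) : dg p i w ^ p ^ i = w.coeff i := by
  rw [dg, ← iterateFrobenius_def, ← coe_iterateFrobeniusEquiv, RingEquiv.apply_symm_apply]

theorem wit_eq {i : ℕ} {w : WittVector p L} {c : L} (h : w.coeff i = c ^ p ^ i) :
    dg p i w = c := by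
  rw [dg, RingEquiv.symm_apply_eq, h, coe_iterateFrobeniusEquiv, iterateFrobenius_def]

theorem wit_dvd {E : ℕ} {x y : WittVector p L} :
    (p : WittVector p L) ^ (E + 1) ∣ x - y ↔ ∀ i ≤ E, x.coeff i = y.coeff i := by
  rw [← Ideal.mem_span_singleton, WittVector.mem_span_p_pow_iff_le_coeff_eq_zero,
    ← WittVector.le_coeff_eq_iff_le_sub_coeff_eq_zero]
  simp only [Nat.lt_succ_iff]

theorem wit_zero (i : ℕ) : dg p i (0 : WittVector p L) = 0 := by simp [dg]

theorem dg_congr {E i : ℕ} (hi : i ≤ E) {x y : WittVector p L}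
    (h : (p : WittVector p L) ^ (E + 1) ∣ x - y) : dg p i x = dg p i y := by
  rw [dg, dg, wit_dvd.1 h i hi]

theorem dg_sum_teich {E i : ℕ} (hi : i ≤ E) (c : ℕ → L) :
    dg p i (∑ j ∈ Finset.range (E + 1), (p : WittVector p L) ^ j * WittVector.teichmuller p (c j)) =
      c i := by
  refine wit_eq ?_
  simp only [mul_comm ((p : WittVector p L) ^ _)]
  rw [WittVector.sum_coeff_eq_coeff_sum, Finset.sum_eq_single i,
    WittVector.teichmuller_mul_pow_coeff]
  · exact fun j _ hj => WittVector.teichmuller_mul_pow_coeff_of_ne _ hj.symm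
  · exact fun h => absurd (Finset.mem_range.2 (Nat.lt_succ_of_le hi)) h
  · refine fun n => ⟨fun a b => Subtype.ext ?_⟩
    have ha : n = a.1 := by_contra fun h => a.2.2 (WittVector.teichmuller_mul_pow_coeff_of_ne _ h)
    have hb : n = b.1 := by_contra fun h => b.2.2 (WittVector.teichmuller_mul_pow_coeff_of_ne _ h)
    rw [← ha, ← hb]

theorem dvd_sub_digits (E : ℕ) (x : WittVector p L) : (p : WittVector p L) ^ (E + 1) ∣
    x - ∑ i ∈ Finset.range (E + 1), (p : WittVector p L) ^ i * WittVector.teichmuller p (dg p i x) :=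
  wit_dvd.2 fun i hi => by
    rw [← wit_pow, ← wit_pow i (∑ i ∈ _, _), dg_sum_teich hi fun j => dg p j x]

theorem dg_teich_mul (i : ℕ) (c : L) (x : WittVector p L) :
    dg p i (WittVector.teichmuller p c * x) = c * dg p i x := by
  rw [← dg_sum_teich (p := p) (le_refl i) fun j => c * dg p j x]
  refine dg_congr le_rfl ?_
  have h := (dvd_sub_digits i x).mul_left (WittVector.teichmuller p c)
  rw [mul_sub, Finset.mul_sum] at h
  simpa only [map_mul, mul_left_comm] using h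

theorem dg_p_mul_succ (i : ℕ) (x : WittVector p L) : dg p (i + 1) ((p : WittVector p L) * x) = dg p i x :=
  wit_eq (by rw [mul_comm, WittVector.mul_charP_coeff_succ, ← wit_pow, ← pow_mul, pow_succ])

theorem dg_p_mul_zero (x : WittVector p L) : dg p 0 ((p : WittVector p L) * x) = 0 :=
  wit_eq (by rw [mul_comm, WittVector.mul_charP_coeff_zero]; simp)

theorem wit_dg0 (x : WittVector p L) : dg p 0 x = WittVector.constantCoeff x :=
  wit_eq (by simp)

theorem dg_zero_add (x y : WittVector p L) : dg p 0 (x + y) = dg p 0 x + dg p 0 y := by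
  simp only [wit_dg0, map_add]

theorem dg_zero_sub (x y : WittVector p L) : dg p 0 (x - y) = dg p 0 x - dg p 0 y := by
  simp only [wit_dg0, map_sub]

theorem Sm.mono {E E' : ℕ} {ρ ρ' : ℝ} {x : WittVector p L} (h : Sm p E ρ x) (hE : E' ≤ E)
    (hρ : ρ ≤ ρ') : Sm p E' ρ' x := fun i hi => (h i (hi.trans hE)).trans hρ

theorem sm_zero (E : ℕ) {ρ : ℝ} (hρ : 0 ≤ ρ) : Sm p E ρ (0 : WittVector p L) := fun i _ => by
  rw [wit_zero, norm_zero]; exact hρ

theorem sm_of_dvd {E : ℕ} {x : WittVector p L} (h : (p : WittVector p L) ^ (E + 1) ∣ x) :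
    Sm p E 0 x := fun i hi => by
  rw [dg_congr hi (y := 0) (by rwa [sub_zero]), wit_zero, norm_zero]

theorem sm_map {κ : Type} [CommRing κ] (ι : κ →+* L) (hι : ∀ a, ‖ι a‖ ≤ 1) (E : ℕ)
    (w : WittVector p κ) : Sm p E 1 (WittVector.map ι w) := fun i _ => by
  rw [← pow_le_one_iff_of_nonneg (norm_nonneg _) (pow_ne_zero i (Fact.out : p.Prime).ne_zero),
    ← norm_pow, wit_pow]
  exact hι _

theorem wit_nonneg {E : ℕ} {ρ : ℝ} {x : WittVector p L} (h : Sm p E ρ x) : 0 ≤ ρ :=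
  (norm_nonneg _).trans (h 0 (Nat.zero_le E))

theorem wit_lift {E : ℕ} {x : WittVector p L} (h : Sm p E 1 x) : ∃ x' : WittVector p (OC L),
    (p : WittVector p L) ^ (E + 1) ∣ x - WittVector.map (OC L).subtype x' := by
  classical
  refine ⟨WittVector.mk p fun i => if h : ‖x.coeff i‖ ≤ 1 then ⟨x.coeff i, h⟩ else 0,
    wit_dvd.2 fun i hi => ?_⟩
  have h1 : ‖x.coeff i‖ ≤ 1 := by
    rw [← wit_pow, norm_pow]
    exact pow_le_one₀ (norm_nonneg _) (h i hi)
  rw [WittVector.map_coeff, WittVector.coeff_mk, dif_pos h1]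
  rfl

theorem wit_scale {E : ℕ} {c : L} {x : WittVector p L} (h : Sm p E ‖c‖ x) :
    ∃ x' : WittVector p (OC L), (p : WittVector p L) ^ (E + 1) ∣
      x - WittVector.teichmuller p c * WittVector.map (OC L).subtype x' := by
  rcases eq_or_ne c 0 with rfl | hc
  · refine ⟨0, wit_dvd.2 fun i hi => ?_⟩
    have h1 := h i hi
    rw [norm_zero, norm_le_zero_iff] at h1
    rw [← wit_pow, h1]
    simp [(Fact.out : p.Prime).ne_zero]
  · obtain ⟨x', hx⟩ := wit_lift (E := E) (x := WittVector.teichmuller p c⁻¹ * x) fun i hi => by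
      rw [dg_teich_mul, norm_mul, norm_inv, inv_mul_le_iff₀ (norm_pos_iff.2 hc), mul_one]
      exact h i hi
    refine ⟨x', ?_⟩
    have h1 := hx.mul_left (WittVector.teichmuller p c)
    rwa [mul_sub, ← mul_assoc, ← map_mul, mul_inv_cancel₀ hc, map_one, one_mul] at h1

theorem wit_sm {E : ℕ} {c : L} {x : WittVector p L} {x' : WittVector p (OC L)}
    (h : (p : WittVector p L) ^ (E + 1) ∣
      x - WittVector.teichmuller p c * WittVector.map (OC L).subtype x') : Sm p E ‖c‖ x :=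
  fun i hi => by
    rw [dg_congr hi h, dg_teich_mul, norm_mul]
    exact mul_le_of_le_one_right (norm_nonneg _) (sm_map _ (fun a => a.2) E x' i hi)

theorem wit_max {E : ℕ} {ρ : ℝ} {x : WittVector p L} (h : Sm p E ρ x) :
    ∃ c : L, ‖c‖ ≤ ρ ∧ Sm p E ‖c‖ x := by
  obtain ⟨i, hi, h1⟩ := (Finset.range (E + 1)).exists_max_image (fun i => ‖dg p i x‖)
    ⟨0, by simp⟩
  exact ⟨_, h i (Nat.le_of_lt_succ (Finset.mem_range.1 hi)), fun j hj =>
    h1 j (Finset.mem_range.2 (Nat.lt_succ_of_le hj))⟩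

theorem Sm.add {E : ℕ} {ρ : ℝ} {x y : WittVector p L} (hx : Sm p E ρ x) (hy : Sm p E ρ y) :
    Sm p E ρ (x + y) := by
  obtain ⟨c, hc, h1, h2⟩ : ∃ c : L, ‖c‖ ≤ ρ ∧ Sm p E ‖c‖ x ∧ Sm p E ‖c‖ y := by
    obtain ⟨a, ha, ha'⟩ := wit_max hx
    obtain ⟨b, hb, hb'⟩ := wit_max hy
    rcases le_total ‖a‖ ‖b‖ with h | h
    · exact ⟨b, hb, ha'.mono le_rfl h, hb'⟩
    · exact ⟨a, ha, ha', hb'.mono le_rfl h⟩
  obtain ⟨x', hx'⟩ := wit_scale h1
  obtain ⟨y', hy'⟩ := wit_scale h2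
  refine (wit_sm (c := c) (x' := x' + y') ?_).mono le_rfl hc
  rw [map_add, mul_add, add_sub_add_comm]
  exact dvd_add hx' hy'

theorem Sm.neg {E : ℕ} {ρ : ℝ} {x : WittVector p L} (hx : Sm p E ρ x) : Sm p E ρ (-x) := by
  obtain ⟨c, hc, h1⟩ := wit_max hx
  obtain ⟨x', hx'⟩ := wit_scale h1
  refine (wit_sm (c := c) (x' := -x') ?_).mono le_rfl hc
  rw [map_neg, mul_neg, neg_sub_neg, ← neg_sub]
  exact hx'.neg_right

theorem Sm.sub {E : ℕ} {ρ : ℝ} {x y : WittVector p L} (hx : Sm p E ρ x) (hy : Sm p E ρ y) :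
    Sm p E ρ (x - y) := by
  rw [sub_eq_add_neg]
  exact hx.add hy.neg

theorem sm_sum {E : ℕ} {ρ : ℝ} (hρ : 0 ≤ ρ) {ι : Type} (s : Finset ι) (x : ι → WittVector p L)
    (hx : ∀ i ∈ s, Sm p E ρ (x i)) : Sm p E ρ (∑ i ∈ s, x i) :=
  Finset.sum_induction x (Sm p E ρ) (fun _ _ => Sm.add) (sm_zero E hρ) hx

theorem Sm.mul {E : ℕ} {ρ ρ' : ℝ} {x y : WittVector p L} (hx : Sm p E ρ x) (hy : Sm p E ρ' y) :
    Sm p E (ρ * ρ') (x * y) := by
  obtain ⟨a, ha, h1⟩ := wit_max hx
  obtain ⟨b, hb, h2⟩ := wit_max hy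
  obtain ⟨x', hx'⟩ := wit_scale h1
  obtain ⟨y', hy'⟩ := wit_scale h2
  refine (wit_sm (c := a * b) (x' := x' * y') ?_).mono le_rfl ?_
  · have h3 := dvd_add (hy'.mul_left x) (hx'.mul_right
      (WittVector.teichmuller p b * WittVector.map (OC L).subtype y'))
    refine h3.trans (dvd_of_eq ?_)
    rw [map_mul, map_mul]
    ring
  · rw [norm_mul]
    exact mul_le_mul ha hb (norm_nonneg _) (wit_nonneg hx)

theorem sm_teich (E : ℕ) (c : L) : Sm p E ‖c‖ (WittVector.teichmuller p c) :=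
  wit_sm (x' := 1) (by simp)

theorem sm_p_pow (E s : ℕ) : Sm p E 1 ((p : WittVector p L) ^ s) := by
  simpa using sm_map (p := p) (OC L).subtype (fun a => a.2) E ((p : WittVector p (OC L)) ^ s)

theorem Sm.p_pow_mul {E s : ℕ} {ρ : ℝ} (hρ : 0 ≤ ρ) {x : WittVector p L} (hx : Sm p E ρ x) :
    Sm p (E + s) ρ ((p : WittVector p L) ^ s * x) := by
  induction s with
  | zero => simpa using hx
  | succ s ih =>
    intro i hi
    rw [pow_succ', mul_assoc]
    rcases i with _ | i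
    · rw [dg_p_mul_zero, norm_zero]; exact hρ
    · rw [dg_p_mul_succ]; exact ih i (by omega)

theorem wit_top (i : ℕ) (c : ℕ → L) (w : WittVector p L) :
    dg p (i + 1) (∑ j ∈ Finset.range (i + 1), (p : WittVector p L) ^ j *
      WittVector.teichmuller p (c j) + (p : WittVector p L) ^ (i + 1) * w) = dg p 0 w := by
  have h1 := dg_sum_teich (p := p) (le_refl (i + 1)) (Function.update c (i + 1) (dg p 0 w))
  rw [Function.update_self, Finset.sum_range_succ, Function.update_self,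
    Finset.sum_congr rfl fun j hj => by
      rw [Function.update_of_ne (Finset.mem_range.1 hj).ne]] at h1
  rw [← h1]
  refine dg_congr le_rfl ?_
  have h2 := dvd_sub_digits 0 w
  simp only [zero_add, Finset.sum_range_one, pow_zero, one_mul, pow_one] at h2
  rw [add_sub_add_left_eq_sub, ← mul_sub, pow_succ _ (i + 1)]
  exact mul_dvd_mul_left _ h2

theorem wit_split {i : ℕ} {ρ : ℝ} {x : WittVector p L} (hx : Sm p i ρ x) :
    ∃ a b : WittVector p L, x = a + (p : WittVector p L) ^ (i + 1) * b ∧ Sm p (i + 1) ρ a ∧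
      dg p (i + 1) x = dg p 0 b ∧ ∀ w, dg p (i + 1) (a + (p : WittVector p L) ^ (i + 1) * w) =
        dg p 0 w := by
  obtain ⟨b, hb⟩ := dvd_sub_digits i x
  have h1 := eq_add_of_sub_eq' hb
  refine ⟨_, b, h1, fun j hj => ?_, ?_, wit_top i _⟩
  · rcases hj.eq_or_lt with rfl | hj
    · have h2 := wit_top i (fun j => dg p j x) 0
      rw [mul_zero, add_zero] at h2
      rw [h2, wit_zero, norm_zero]
      exact wit_nonneg hx
    · rw [dg_sum_teich (Nat.le_of_lt_succ hj) fun j => dg p j x]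
      exact hx j (Nat.le_of_lt_succ hj)
  · conv_lhs => rw [h1]
    exact wit_top i _ b

theorem dg_add_le {i : ℕ} {ρ : ℝ} {x y : WittVector p L} (hx : Sm p i ρ x) (hy : Sm p i ρ y) :
    ‖dg p (i + 1) (x + y) - dg p (i + 1) x - dg p (i + 1) y‖ ≤ ρ := by
  obtain ⟨a, b, rfl, h1, h2, -⟩ := wit_split hx
  obtain ⟨a', b', rfl, h1', h2', -⟩ := wit_split hy
  obtain ⟨c, d, h3, -, h4, h5⟩ := wit_split ((h1.add h1').mono (Nat.le_succ i) le_rfl)
  have h6 := h5 (d + b + b')
  rw [h2, h2', show a + (p : WittVector p L) ^ (i + 1) * b + (a' + p ^ (i + 1) * b') =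
    c + p ^ (i + 1) * (d + b + b') by linear_combination h3, h6, dg_zero_add, dg_zero_add, ← h4,
    add_sub_right_comm, add_sub_cancel_right, add_sub_cancel_right]
  exact h1.add h1' _ le_rfl

theorem dg_sub_le {i : ℕ} {ρ : ℝ} {x y : WittVector p L} (hx : Sm p i ρ x) (hy : Sm p i ρ y) :
    ‖dg p (i + 1) (x - y) - (dg p (i + 1) x - dg p (i + 1) y)‖ ≤ ρ := by
  obtain ⟨a, b, rfl, h1, h2, -⟩ := wit_split hx
  obtain ⟨a', b', rfl, h1', h2', -⟩ := wit_split hy
  obtain ⟨c, d, h3, -, h4, h5⟩ := wit_split ((h1.sub h1').mono (Nat.le_succ i) le_rfl)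
  have h6 := h5 (d + (b - b'))
  rw [h2, h2', show a + (p : WittVector p L) ^ (i + 1) * b - (a' + p ^ (i + 1) * b') =
    c + p ^ (i + 1) * (d + (b - b')) by linear_combination h3, h6, dg_zero_add, dg_zero_sub, ← h4,
    add_sub_cancel_right]
  exact h1.sub h1' _ le_rfl

theorem dg_add_lt {E i : ℕ} (hi : i ≤ E) {d : L} {κ : ℝ} {x y : WittVector p L}
    (hx : Sm p E ‖d‖ x) (hy : Sm p E κ y) (hκ : κ < ‖d‖) :
    ‖dg p i (x + y) - dg p i x‖ < ‖d‖ := by
  have h0 := wit_nonneg hy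
  have hd : 0 < ‖d‖ := h0.trans_lt hκ
  have q0 : ∀ j, p ^ j ≠ 0 := fun j => pow_ne_zero j (Fact.out : p.Prime).ne_zero
  obtain ⟨x', hx'⟩ := wit_scale hx
  obtain ⟨y', hy'⟩ := wit_scale (hy.mono le_rfl hκ.le)
  have hr0 : 0 ≤ κ / ‖d‖ := by positivity
  have hr1 : κ / ‖d‖ < 1 := (div_lt_one hd).2 hκ
  have h1 : ∀ j < E + 1, (WittVector.map (Ideal.Quotient.mk (ball L (κ / ‖d‖))) (x' + y') -
      WittVector.map (Ideal.Quotient.mk (ball L (κ / ‖d‖))) x').coeff j = 0 := fun j hj => by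
    rw [map_add, add_sub_cancel_left, WittVector.map_coeff, Ideal.Quotient.eq_zero_iff_mem,
      mem_ball hr0]
    have h2 := hy j (Nat.le_of_lt_succ hj)
    rw [dg_congr (Nat.le_of_lt_succ hj) hy', dg_teich_mul, norm_mul, ← le_div_iff₀' hd] at h2
    have h3 : ((y'.coeff j : OC L) : L) = dg p j (WittVector.map (OC L).subtype y') ^ p ^ j :=
      (wit_pow j (WittVector.map (OC L).subtype y')).symm
    rw [h3, norm_pow]
    exact (pow_le_of_le_one (norm_nonneg _) (h2.trans hr1.le) (q0 j)).trans h2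
  have h2 := WittVector.le_coeff_eq_iff_le_sub_coeff_eq_zero.2 h1 i (Nat.lt_succ_of_le hi)
  rw [WittVector.map_coeff, WittVector.map_coeff, Ideal.Quotient.eq, mem_ball hr0] at h2
  have h3 : (p : WittVector p L) ^ (E + 1) ∣
      x + y - WittVector.teichmuller p d * WittVector.map (OC L).subtype (x' + y') := by
    rw [map_add, mul_add, add_sub_add_comm]
    exact dvd_add hx' hy'
  rw [dg_congr hi h3, dg_congr hi hx', dg_teich_mul, dg_teich_mul, ← mul_sub, norm_mul]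
  refine mul_lt_of_lt_one_right hd ?_
  rw [← pow_lt_one_iff_of_nonneg (norm_nonneg _) (q0 i), ← norm_pow, sub_pow_char_pow, wit_pow,
    wit_pow]
  exact h2.trans_lt hr1

end Vale.Agent.P217
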