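import Vale.Agent.P217.Tay
import Vale.Agent.P217.FEq
import Vale.Agent.P217.Def3

namespace Vale.Agent.P217

open MvPowerSeries

variable {S : Type} [CommRing S] [IsDomain S]


theorem itg_iff {σ : Type} (c : FractionRing S) (f : MvPowerSeries σ (FractionRing S)) :
    Itg S c f ↔ ∃ g : MvPowerSeries σ S, f = C c * map (algebraMap S (FractionRing S)) g := by
  constructor
  · intro h
    choose x hx using h
    obtain ⟨g, hg⟩ : ∃ g : MvPowerSeries σ S, ∀ d, coeff d g = x d := ⟨x, fun _ => rfl⟩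
    refine ⟨g, ?_⟩
    ext d
    rw [coeff_C_mul, coeff_map, hg, hx]
  · rintro ⟨g, rfl⟩ d
    exact ⟨coeff d g, by rw [coeff_C_mul, coeff_map]⟩

theorem Itg.add {σ : Type} {c : FractionRing S} {f g : MvPowerSeries σ (FractionRing S)} (hf : Itg S c f)
    (hg : Itg S c g) : Itg S c (f + g) := fun d => by
  obtain ⟨x, hx⟩ := hf d
  obtain ⟨y, hy⟩ := hg d
  exact ⟨x + y, by rw [map_add, hx, hy, map_add, mul_add]⟩

theorem Itg.sub {σ : Type} {c : FractionRing S} {f g : MvPowerSeries σ (FractionRing S)} (hf : Itg S c f)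
    (hg : Itg S c g) : Itg S c (f - g) := fun d => by
  obtain ⟨x, hx⟩ := hf d
  obtain ⟨y, hy⟩ := hg d
  exact ⟨x - y, by rw [map_sub, hx, hy, map_sub, mul_sub]⟩

theorem Itg.mul {σ : Type} {c c' : FractionRing S} {f g : MvPowerSeries σ (FractionRing S)} (hf : Itg S c f)
    (hg : Itg S c' g) : Itg S (c * c') (f * g) := by
  obtain ⟨a, rfl⟩ := (itg_iff _ _).1 hf
  obtain ⟨b, rfl⟩ := (itg_iff _ _).1 hg
  refine (itg_iff _ _).2 ⟨a * b, ?_⟩
  rw [map_mul, map_mul]
  ring

theorem Itg.C_mul {σ : Type} {c : FractionRing S} (c' : FractionRing S) {f : MvPowerSeries σ (FractionRing S)}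
    (hf : Itg S c f) : Itg S (c' * c) (C c' * f) := fun d => by
  obtain ⟨x, hx⟩ := hf d
  exact ⟨x, by rw [coeff_C_mul, hx, mul_assoc]⟩

theorem Itg.mono {σ : Type} {c : FractionRing S} (x : S) {f : MvPowerSeries σ (FractionRing S)}
    (hf : Itg S (c * (algebraMap S (FractionRing S)) x) f) : Itg S c f := fun d => by
  obtain ⟨y, hy⟩ := hf d
  exact ⟨x * y, by rw [hy, map_mul, mul_assoc]⟩

theorem itg_map {σ : Type} (g : MvPowerSeries σ S) : Itg S 1 (map (algebraMap S (FractionRing S)) g) := fun d => ⟨coeff d g, by rw [coeff_map, one_mul]⟩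

theorem itg_map_iff {σ : Type} (x : S) (g : MvPowerSeries σ S) :
    Itg S ((algebraMap S (FractionRing S)) x) (map (algebraMap S (FractionRing S)) g) ↔ CoefIn (Ideal.span {x}) g := by
  refine forall_congr' fun d => ?_
  rw [coeff_map, Ideal.mem_span_singleton]
  constructor
  · rintro ⟨y, hy⟩
    rw [← map_mul] at hy
    exact ⟨y, IsFractionRing.injective S (FractionRing S) hy⟩
  · rintro ⟨y, hy⟩
    exact ⟨y, by rw [hy, map_mul]⟩

theorem Itg.subst {σ : Type} {c : FractionRing S} {f : PowerSeries (FractionRing S)} (hf : Itg S c f)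
    {a : MvPowerSeries σ S} (ha : constantCoeff a = 0) :
    Itg S c (PowerSeries.subst (map (algebraMap S (FractionRing S)) a) f) := by
  obtain ⟨g, rfl⟩ := (itg_iff _ _).1 hf
  have h1 : PowerSeries.HasSubst a := .of_constantCoeff_zero ha
  have h2 : PowerSeries.HasSubst (map (algebraMap S (FractionRing S)) a) :=
    .of_constantCoeff_zero (by simp [ha])
  refine (itg_iff _ _).2 ⟨PowerSeries.subst a g, ?_⟩
  rw [PowerSeries.map_subst h1]
  show PowerSeries.subst _ (PowerSeries.C c * PowerSeries.map (algebraMap S (FractionRing S)) g) = _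
  rw [PowerSeries.subst_mul h2, PowerSeries.subst_C]

theorem Itg.subst2 {σ τ : Type} [Finite σ] {c : FractionRing S} {f : MvPowerSeries σ (FractionRing S)}
    (hf : Itg S c f) {a : σ → MvPowerSeries τ S} (ha : ∀ s, constantCoeff (a s) = 0) :
    Itg S c (MvPowerSeries.subst (fun s => map (algebraMap S (FractionRing S)) (a s)) f) := by
  obtain ⟨g, rfl⟩ := (itg_iff _ _).1 hf
  have h1 : HasSubst a := hasSubst_of_constantCoeff_zero ha
  have h2 : HasSubst (fun s => map (algebraMap S (FractionRing S)) (a s)) :=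
    hasSubst_of_constantCoeff_zero fun s => by simp [ha s]
  refine (itg_iff _ _).2 ⟨MvPowerSeries.subst a g, ?_⟩
  rw [map_subst h1, subst_mul h2, subst_C]

omit [IsDomain S] in
theorem Itg.zeroZ {σ : Type} (c : FractionRing S) :
    Itg S c (0 : MvPowerSeries σ (FractionRing S)) := fun d => ⟨0, by simp⟩

theorem Itg.sumZ {σ ι : Type} {c : FractionRing S} (s : Finset ι)
    {f : ι → MvPowerSeries σ (FractionRing S)} (h : ∀ i ∈ s, Itg S c (f i)) :
    Itg S c (∑ i ∈ s, f i) :=
  Finset.sum_induction f (Itg S c) (fun _ _ ha hb => ha.add hb) (Itg.zeroZ c) h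

theorem z1_binom {R : Type} [CommRing R] (p : ℕ) [Fact p.Prime]
    (hu : ∀ m : ℕ, ¬ p ∣ m → IsUnit (m : R)) (a D : R) {s : ℕ} (hs : 1 ≤ s) (k : ℕ) :
    (k : R) * (p : R) ^ (2 * s - 1) ∣
      (a + (p : R) ^ s * D) ^ k - a ^ k - (p : R) ^ s * ((k : R) * a ^ (k - 1)) * D := by
  have hp : p.Prime := Fact.out
  rcases k with _ | k
  · simp
  have e : (a + (p : R) ^ s * D) ^ (k + 1) - a ^ (k + 1) -
      (p : R) ^ s * (((k + 1 : ℕ) : R) * a ^ (k + 1 - 1)) * D =
      ∑ j ∈ Finset.range k, ((p : R) ^ s * D) ^ (j + 1 + 1) * a ^ (k + 1 - (j + 1 + 1)) *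
        ((k + 1).choose (j + 1 + 1) : R) := by
    rw [add_comm a, add_pow, Finset.sum_range_succ', Finset.sum_range_succ']
    simp
    ring
  rw [e]
  refine Finset.dvd_sum fun j _ => ?_
  obtain ⟨v, m, hm, hJ⟩ := Nat.exists_eq_pow_mul_and_not_dvd (n := j + 1 + 1) (by omega) p hp.ne_one
  have hv : v < j + 1 + 1 := by
    have h1 : v < p ^ v := Nat.lt_pow_self hp.one_lt
    have h2 : 0 < m := Nat.pos_of_ne_zero (by rintro rfl; exact hm (dvd_zero _))
    rw [hJ]
    exact lt_of_lt_of_le h1 (Nat.le_mul_of_pos_right _ h2)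
  obtain ⟨u, hu'⟩ := (hu m hm).exists_right_inv
  obtain ⟨w, hw⟩ : ∃ w, s * (j + 1 + 1) = v + (2 * s - 1) + w := by
    refine ⟨s * (j + 1 + 1) - (v + (2 * s - 1)), ?_⟩
    have : j ≤ s * j := Nat.le_mul_of_pos_left _ hs
    have h3 : s * (j + 1 + 1) = s * j + 2 * s := by ring
    omega
  have h4 : ((k + 1 : ℕ) : R) * (k.choose (j + 1) : R) =
      ((k + 1).choose (j + 1 + 1) : R) * ((p : R) ^ v * m) := by
    have := congrArg (Nat.cast : ℕ → R) (Nat.add_one_mul_choose_eq k (j + 1))
    rw [Nat.cast_mul, Nat.cast_mul] at this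
    rw [this]
    congr 1
    rw [hJ]; push_cast; rfl
  refine ⟨(k.choose (j + 1) : R) * u * (p : R) ^ w * D ^ (j + 1 + 1) * a ^ (k + 1 - (j + 1 + 1)), ?_⟩
  rw [mul_pow, ← pow_mul, hw, pow_add, pow_add]
  linear_combination (-(u * (p : R) ^ (2 * s - 1) * (p : R) ^ w * D ^ (j + 1 + 1) *
    a ^ (k + 1 - (j + 1 + 1)))) * h4 - (((k + 1).choose (j + 1 + 1) : R) * (p : R) ^ v *
    (p : R) ^ (2 * s - 1) * (p : R) ^ w * D ^ (j + 1 + 1) * a ^ (k + 1 - (j + 1 + 1))) * hu'

theorem z1_taylor {σ : Type} (p : ℕ) [Fact p.Prime]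
    (hu : ∀ m : ℕ, ¬ p ∣ m → IsUnit (m : S)) {l : PowerSeries (FractionRing S)} (hl : DInt S l)
    {a D : MvPowerSeries σ S} (ha : constantCoeff a = 0) (hD : constantCoeff D = 0) {s : ℕ}
    (hs : 1 ≤ s) :
    Itg S ((p : FractionRing S) ^ (2 * s - 1))
      (PowerSeries.subst (map (algebraMap S (FractionRing S)) (a + C ((p : S) ^ s) * D)) l -
        PowerSeries.subst (map (algebraMap S (FractionRing S)) a) l -
        C ((p : FractionRing S) ^ s) *
          PowerSeries.subst (map (algebraMap S (FractionRing S)) a)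
            (PowerSeries.derivative (FractionRing S) l) *
          map (algebraMap S (FractionRing S)) D) := by
  classical
  obtain ⟨A, hA⟩ : ∃ A, A = map (algebraMap S (FractionRing S)) a := ⟨_, rfl⟩
  obtain ⟨B, hB⟩ : ∃ B, B = map (algebraMap S (FractionRing S)) (a + C ((p : S) ^ s) * D) :=
    ⟨_, rfl⟩
  have cA : constantCoeff A = 0 := by simp [hA, ha]
  have cB : constantCoeff B = 0 := by simp [hB, ha, hD]
  have sA : PowerSeries.HasSubst A := .of_constantCoeff_zero cA
  have sB : PowerSeries.HasSubst B := .of_constantCoeff_zero cB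
  let T : PowerSeries (FractionRing S) →+ MvPowerSeries σ (FractionRing S) :=
    AddMonoidHom.mk' (fun l => PowerSeries.subst B l - PowerSeries.subst A l -
      C ((p : FractionRing S) ^ s) *
        PowerSeries.subst A (PowerSeries.derivative (FractionRing S) l) *
        map (algebraMap S (FractionRing S)) D) (fun f g => by
      rw [map_add, PowerSeries.subst_add sA, PowerSeries.subst_add sA, PowerSeries.subst_add sB]
      ring)
  have hT : ∀ l, T l = PowerSeries.subst B l - PowerSeries.subst A l -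
      C ((p : FractionRing S) ^ s) *
        PowerSeries.subst A (PowerSeries.derivative (FractionRing S) l) *
        map (algebraMap S (FractionRing S)) D := fun _ => rfl
  rw [← hA, ← hB, ← hT]
  have mono : ∀ k : ℕ, Itg S ((p : FractionRing S) ^ (2 * s - 1))
      (T (PowerSeries.C (PowerSeries.coeff k l) * PowerSeries.X ^ k)) := by
    intro k
    obtain ⟨x, hx⟩ := hl k
    obtain ⟨r, hr⟩ := z1_binom (R := MvPowerSeries σ S) p (fun m hm => by
      simpa using (hu m hm).map (C : S →+* MvPowerSeries σ S)) a D hs k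
    have hr2 := congrArg (map (algebraMap S (FractionRing S))) hr
    refine (itg_iff _ _).2 ⟨C x * r, ?_⟩
    have hd : PowerSeries.derivative (FractionRing S)
        (PowerSeries.C (PowerSeries.coeff k l) * PowerSeries.X ^ k) =
        PowerSeries.C (PowerSeries.coeff k l) * ((k : PowerSeries (FractionRing S)) *
          PowerSeries.X ^ (k - 1)) := by
      rw [Derivation.leibniz, PowerSeries.derivative_C, smul_zero, add_zero, smul_eq_mul,
        Derivation.leibniz_pow, PowerSeries.derivative_X]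
      simp
    have hk : PowerSeries.subst A (k : PowerSeries (FractionRing S)) =
        (k : MvPowerSeries σ (FractionRing S)) := by
      rw [← map_natCast (PowerSeries.C : FractionRing S →+* _), PowerSeries.subst_C, map_natCast]
    rw [hT, hd, PowerSeries.subst_mul sA, PowerSeries.subst_mul sA, PowerSeries.subst_mul sA,
      PowerSeries.subst_mul sB, PowerSeries.subst_pow sA, PowerSeries.subst_pow sA,
      PowerSeries.subst_pow sB, PowerSeries.subst_X sA, PowerSeries.subst_X sB,
      PowerSeries.subst_C, PowerSeries.subst_C, hk, map_mul, map_C, ← hx, map_mul]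
    have hB' : B = A + (p : MvPowerSeries σ (FractionRing S)) ^ s *
        map (algebraMap S (FractionRing S)) D := by
      rw [hB, hA]; simp
    simp only [map_sub, map_mul, map_pow, map_add, map_natCast, ← hA, ← hB'] at hr2 ⊢
    linear_combination (C (PowerSeries.coeff k l)) * hr2
  intro d
  obtain ⟨N, hN⟩ : ∃ N, N = Finsupp.degree d + 1 := ⟨_, rfl⟩
  obtain ⟨R, hR⟩ : ∃ R, R = l - ∑ k ∈ Finset.range (N + 1),
    PowerSeries.C (PowerSeries.coeff k l) * PowerSeries.X ^ k := ⟨_, rfl⟩
  have hR0 : ∀ k < N + 1, PowerSeries.coeff k R = 0 := by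
    intro k hk
    rw [hR, map_sub, map_sum]
    simp only [PowerSeries.coeff_C_mul, PowerSeries.coeff_X_pow, mul_ite, mul_one, mul_zero]
    rw [Finset.sum_ite_eq, if_pos (Finset.mem_range.2 hk), sub_self]
  have o1 : (N : ℕ∞) ≤ R.order := PowerSeries.nat_le_order _ _ fun k hk => hR0 k (by omega)
  have o2 : (N : ℕ∞) ≤ (PowerSeries.derivative (FractionRing S) R).order :=
    PowerSeries.nat_le_order _ _ fun k hk => by
      rw [PowerSeries.coeff_derivative, hR0 _ (by omega), zero_mul]
  have hTR : T R ∈ ordI σ (FractionRing S) N := by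
    rw [hT]
    refine Ideal.sub_mem _ (Ideal.sub_mem _ ?_ ?_)
      (Ideal.mul_mem_right _ _ (Ideal.mul_mem_left _ _ ?_))
    · exact o1.trans (PowerSeries.le_order_subst_left cB)
    · exact o1.trans (PowerSeries.le_order_subst_left cA)
    · exact o2.trans (PowerSeries.le_order_subst_left cA)
  have h0 : coeff d (T R) = 0 :=
    coeff_of_lt_order (lt_of_lt_of_le (by exact_mod_cast (by omega : Finsupp.degree d < N)) hTR)
  have hl' : l = R + ∑ k ∈ Finset.range (N + 1),
      PowerSeries.C (PowerSeries.coeff k l) * PowerSeries.X ^ k := by rw [hR]; ring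
  obtain ⟨x, hx⟩ := Itg.sumZ (Finset.range (N + 1)) (fun k _ => mono k) d
  refine ⟨x, ?_⟩
  rw [← hx, ← map_sum T]
  conv_lhs => rw [hl']
  rw [map_add, map_add, h0, zero_add]

omit [IsDomain S] in
theorem DInt.deriv_itg {l : PowerSeries (FractionRing S)} (hl : DInt S l) :
    Itg S 1 (PowerSeries.derivative (FractionRing S) l) := fun d => by
  obtain ⟨x, hx⟩ := hl (d () + 1)
  refine ⟨x, ?_⟩
  rw [one_mul, ← hx, Finsupp.unique_single d]
  show PowerSeries.coeff (d ()) _ = _
  rw [PowerSeries.coeff_derivative]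
  simp [mul_comm]
theorem DInt.congr {σ : Type} (p : ℕ) [Fact p.Prime] (hp0 : (p : S) ≠ 0)
    (hu : ∀ m : ℕ, ¬ p ∣ m → IsUnit (m : S)) {l : PowerSeries (FractionRing S)} (hl : DInt S l)
    {a b : MvPowerSeries σ S} (ha : constantCoeff a = 0) (hb : constantCoeff b = 0) {s : ℕ}
    (hs : 1 ≤ s) (h : CoefIn (Ideal.span {(p : S) ^ s}) (a - b)) :
    Itg S ((p : FractionRing S) ^ s)
      (PowerSeries.subst (map (algebraMap S (FractionRing S)) a) l - PowerSeries.subst (map (algebraMap S (FractionRing S)) b) l) := by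
  have h' := fun d => Ideal.mem_span_singleton.1 (h d)
  choose x hx using h'
  obtain ⟨D, hD⟩ : ∃ g : MvPowerSeries σ S, ∀ d, coeff d g = x d := ⟨x, fun _ => rfl⟩
  have e : a = b + C ((p : S) ^ s) * D := by
    ext d
    rw [map_add, coeff_C_mul, hD, ← hx, map_sub]; ring
  have hD0 : constantCoeff D = 0 := by
    have := congrArg constantCoeff e
    rw [ha, map_add, hb, zero_add, map_mul, constantCoeff_C] at this
    exact (mul_eq_zero.1 this.symm).resolve_left (pow_ne_zero _ hp0)
  have h1 := z1_taylor p hu hl hb hD0 hs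
  rw [← e] at h1
  have h2 : Itg S ((p : FractionRing S) ^ s) _ :=
    Itg.mono ((p : S) ^ (s - 1)) (by
      rw [map_pow, map_natCast, ← pow_add, show s + (s - 1) = 2 * s - 1 by omega]; exact h1)
  have h3 := ((hl.deriv_itg.subst hb).mul (itg_map D)).C_mul ((p : FractionRing S) ^ s)
  rw [mul_one, mul_one] at h3
  have h4 := h2.add h3
  rwa [← mul_assoc, sub_add_cancel] at h4

theorem DInt.taylor {σ : Type} (p : ℕ) [Fact p.Prime] (hp0 : (p : S) ≠ 0)
    (hu : ∀ m : ℕ, ¬ p ∣ m → IsUnit (m : S)) {l : PowerSeries (FractionRing S)} (hl : DInt S l)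
    {a D : MvPowerSeries σ S} (ha : constantCoeff a = 0) (hD : constantCoeff D = 0) {s : ℕ}
    (hs : 1 ≤ s) :
    Itg S ((p : FractionRing S) ^ (2 * s - 1))
      (PowerSeries.subst (map (algebraMap S (FractionRing S)) (a + C ((p : S) ^ s) * D)) l - PowerSeries.subst (map (algebraMap S (FractionRing S)) a) l -
        C ((p : FractionRing S) ^ s) *
          PowerSeries.subst (map (algebraMap S (FractionRing S)) a) (PowerSeries.derivative (FractionRing S) l) * map (algebraMap S (FractionRing S)) D) := z1_taylor p hu hl ha hD hs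

end Vale.Agent.P217
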