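import Vale.Agent.P217.Hon
import Vale.Agent.P217.Z1
import Vale.Agent.P217.H2C
import Vale.Agent.P217.DLog
import Vale.Agent.P217.Cpl

namespace Vale.Agent.P217

open MvPowerSeries

variable {p n : ℕ} [Fact p.Prime] {F : FormalGroup (E0 p n)}

variable {S : Type} [CommRing S] [IsDomain S]


omit [IsDomain S] in
theorem unit_of_not_dvd (ξ : E0 p n →+* S) (m : ℕ) (hm : ¬ p ∣ m) : IsUnit (m : S) := by
  have h : IsUnit (m : E0 p n) := by
    rw [isUnit_iff_res, map_natCast]
    exact fun h => hm ((CharP.cast_eq_zero_iff (kk p n) p m).1 h)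
  simpa using h.map ξ

theorem charZero_of (ξ : E0 p n →+* S) (hp0 : (p : S) ≠ 0) : CharZero S := charZero_of_inj_zero fun m hm => by
  by_contra h0
  obtain ⟨v, m', hm', rfl⟩ := Nat.exists_eq_pow_mul_and_not_dvd h0 p (Fact.out : p.Prime).ne_one
  rw [Nat.cast_mul, Nat.cast_pow] at hm
  exact mul_ne_zero (pow_ne_zero _ hp0) (unit_of_not_dvd ξ m' hm').ne_zero hm

omit [IsDomain S] in
theorem z2_cc (e : PowerSeries S) : PowerSeries.constantCoeff
    (PowerSeries.map (algebraMap S (FractionRing S)) e) =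
      algebraMap S (FractionRing S) (PowerSeries.constantCoeff e) := rfl

theorem z2_unit (hp0 : (p : S) ≠ 0) : IsUnit (p : FractionRing S) := by
  have h2 := (map_ne_zero_iff _ (IsFractionRing.injective S (FractionRing S))).2 hp0
  rw [map_natCast] at h2
  exact IsUnit.mk0 _ h2

theorem z2_dint (hp0 : (p : S) ≠ 0) (b : ℕ → S) : DInt S (PowerSeries.mk fun d =>
    if d = p ^ Nat.log p d then algebraMap S (FractionRing S) (b (Nat.log p d)) *
      Ring.inverse (p : FractionRing S) ^ Nat.log p d else 0) := fun d => by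
  rw [PowerSeries.coeff_mk]
  split_ifs with h
  · refine ⟨b (Nat.log p d), ?_⟩
    obtain ⟨j, hj⟩ : ∃ j, j = Nat.log p d := ⟨_, rfl⟩
    rw [← hj] at h ⊢
    have h1 := inv_cancel (z2_unit hp0) j 0
    rw [add_zero, pow_zero] at h1
    rw [h, Nat.cast_pow]
    linear_combination (algebraMap S (FractionRing S) (b j)) * h1
  · exact ⟨0, by simp⟩
theorem dint_logA (ξ : E0 p n →+* S) (hp0 : (p : S) ≠ 0) : DInt S (logA p n ((algebraMap S (FractionRing S)).comp ξ)) := z2_dint hp0 fun j => ξ (bet p n j)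

theorem dint_dlogA (ξ : E0 p n →+* S) (hp0 : (p : S) ≠ 0) (i : Fin (n - 1)) :
    DInt S (dlogA p n ((algebraMap S (FractionRing S)).comp ξ) i) := z2_dint hp0 fun j => ξ (pderiv (WW p n) i (bet p n j))

omit [IsDomain S] in
theorem cts_sp0 {a : Ideal S} {ξ : E0 p n →+* S} (hξ : Cts p n a ξ) : Cts p n a (sp0 p n ξ) := fun x hx => by
  rw [sp0_apply]
  refine hξ _ ?_
  rw [mm, RingHom.mem_ker] at hx ⊢
  rw [← hx]
  simp [res]

theorem z2_cob (hF : IsLT p n F) (hp0 : (p : S) ≠ 0) (ξ : E0 p n →+* S) (s : Fin (n - 1) → S) :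
    cob (F.map ((algebraMap S (FractionRing S)).comp ξ))
      (∑ i, PowerSeries.C ((algebraMap S (FractionRing S)) (s i)) *
        dlogA p n ((algebraMap S (FractionRing S)).comp ξ) i) =
      map (algebraMap S (FractionRing S)) (∑ i, C (-s i) * map ξ (cE p n F i)) := by
  rw [cob_sum, map_sum]
  refine Finset.sum_congr rfl fun i _ => ?_
  rw [cob_C_mul, hF.cob_dlog _ (z2_unit hp0), map_mul, map_C, map_neg, map_neg, map_comp]
  simp
theorem IsLT.q1_exists (hF : IsLT p n F) (hn : 1 ≤ n) (a : Ideal S) [IsAdicComplete a S] (hp : (p : S) ∈ a)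
    (hp0 : (p : S) ≠ 0) (ξ : E0 p n →+* S) (hξ : Cts p n a ξ) (l : PowerSeries (FractionRing S))
    (h0 : PowerSeries.constantCoeff l = 0) (hl : Itg S 1 (cob (F.map ((algebraMap S (FractionRing S)).comp ξ)) l)) :
    ∃ (s : Fin (n - 1) → S) (κ : FractionRing S), Itg S 1 (l -
      ∑ i, PowerSeries.C ((algebraMap S (FractionRing S)) (s i)) * dlogA p n ((algebraMap S (FractionRing S)).comp ξ) i -
      PowerSeries.C κ * logA p n ((algebraMap S (FractionRing S)).comp ξ)) := by
  have := hF.isComm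
  have hinj := IsFractionRing.injective S (FractionRing S)
  have := charZero_of ξ hp0
  have : CharZero (FractionRing S) := charZero_of_injective_algebraMap hinj
  obtain ⟨c, hc⟩ := (itg_iff _ _).1 hl
  rw [map_one, one_mul] at hc
  have hcoc : IsCoc (F.map ξ) c := by
    refine IsCoc.of_map (algebraMap S (FractionRing S)) hinj ?_
    rw [fg_map_map, ← hc]
    exact cob_isCoc _ l h0
  obtain ⟨s, e, he0, he⟩ := hF.h2c_exists hn a hp ξ hξ c hcoc
  have h1 := z2_cob hF hp0 ξ (fun i => -s i)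
  simp only [neg_neg] at h1
  have h2 := cob_map (F.map ξ) e (algebraMap S (FractionRing S))
  rw [fg_map_map] at h2
  obtain ⟨m, hm⟩ : ∃ m, m = l - ∑ i, PowerSeries.C ((algebraMap S (FractionRing S)) (-s i)) *
      dlogA p n ((algebraMap S (FractionRing S)).comp ξ) i -
      PowerSeries.map (algebraMap S (FractionRing S)) e := ⟨_, rfl⟩
  have h3 : cob (F.map ((algebraMap S (FractionRing S)).comp ξ)) m = 0 := by
    rw [hm, cob_sub, cob_sub, h1, h2, hc, he, map_add]
    ring
  have h4 : PowerSeries.constantCoeff m = 0 := by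
    rw [hm, map_sub, map_sub, h0, map_sum, z2_cc, he0]
    simp [dlogA_constD]
  have h5 := cob_zero_smul (logA_const _) (logA_one _) (hF.log _ (z2_unit hp0)) h4 h3
  refine ⟨fun i => -s i, PowerSeries.coeff 1 m, ?_⟩
  rw [← h5, hm, sub_sub_cancel]
  exact itg_map e

theorem IsLT.q1_unique (hF : IsLT p n F) (hn : 1 ≤ n) (a : Ideal S) [IsAdicComplete a S] (hp : (p : S) ∈ a)
    (hp0 : (p : S) ≠ 0) (ξ : E0 p n →+* S) (hξ : Cts p n a ξ) (s : Fin (n - 1) → S) (κ : FractionRing S)
    (h : Itg S 1 (∑ i, PowerSeries.C ((algebraMap S (FractionRing S)) (s i)) * dlogA p n ((algebraMap S (FractionRing S)).comp ξ) i +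
      PowerSeries.C κ * logA p n ((algebraMap S (FractionRing S)).comp ξ))) : (∀ i, s i = 0) ∧ κ = 0 := by
  have hinj := IsFractionRing.injective S (FractionRing S)
  obtain ⟨e, he⟩ := (itg_iff _ _).1 h
  rw [map_one, one_mul] at he
  have he' : ∑ i, PowerSeries.C ((algebraMap S (FractionRing S)) (s i)) *
      dlogA p n ((algebraMap S (FractionRing S)).comp ξ) i +
      PowerSeries.C κ * logA p n ((algebraMap S (FractionRing S)).comp ξ) =
      PowerSeries.map (algebraMap S (FractionRing S)) e := he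
  have he0 : PowerSeries.constantCoeff e = 0 := by
    apply hinj
    rw [← z2_cc, ← he', map_add, map_sum]
    simp [dlogA_constD, logA_const]
  have h2 := cob_map (F.map ξ) e (algebraMap S (FractionRing S))
  rw [fg_map_map, ← he', cob_add, z2_cob hF hp0, cob_C_mul, hF.log _ (z2_unit hp0), mul_zero,
    add_zero] at h2
  obtain ⟨h3, h4⟩ := hF.h2c_unique hn a hp ξ hξ (fun i => -s i) e he0 (mvmap_inj hinj h2).symm
  have h5 : ∀ i, s i = 0 := fun i => neg_eq_zero.1 (h3 i)
  refine ⟨h5, ?_⟩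
  have h6 := congrArg (PowerSeries.coeff 1) he'
  simpa [h4, h5, logA_one] using h6

end Vale.Agent.P217
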