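import Vale.Agent.P217.Z6a
import Vale.Agent.P217.Hon

namespace Vale.Agent.P217

open MvPowerSeries

variable {p n : ℕ} [Fact p.Prime] {F : FormalGroup (E0 p n)}

variable {S : Type} [CommRing S] [IsDomain S]


theorem Itg.int_Z6 {σ : Type} {f : MvPowerSeries σ (FractionRing S)} (hf : Itg S 1 f) (x : S) :
    Itg S 1 (C (algebraMap S (FractionRing S) x) * f) :=
  Itg.mono x (by simpa using hf.C_mul (algebraMap S (FractionRing S) x))

theorem Itg.sum_Z6 {σ ι : Type} (T : Finset ι) {f : ι → MvPowerSeries σ (FractionRing S)}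
    (hf : ∀ i, Itg S 1 (f i)) : Itg S 1 (∑ i ∈ T, f i) := by
  classical
  induction T using Finset.induction_on with
  | empty => exact fun d => ⟨0, by simp⟩
  | insert i T hi ih => rw [Finset.sum_insert hi]; exact (hf i).add ih

omit [IsDomain S] in
theorem subst_phi0_Z6 {K : Type} [CommRing K] (ι : S →+* K) (G : FormalGroup S) (p r : ℕ)
    {h : PowerSeries S} (h0 : PowerSeries.constantCoeff h = 0) (l : PowerSeries K) :
    PowerSeries.subst (PowerSeries.map ι (phi0 G p r h)) l =
      l + PowerSeries.subst (PowerSeries.map ι h)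
        (PowerSeries.subst (PowerSeries.map ι (nser G (p ^ r))) l) +
      subst (fun s => map ι (![PowerSeries.X, PowerSeries.subst h (nser G (p ^ r))] s))
        (cob (G.map ι) l) := by
  have hh : PowerSeries.HasSubst h := .of_constantCoeff_zero' h0
  have hψ : PowerSeries.HasSubst (PowerSeries.subst h (nser G (p ^ r))) :=
    hom_hsP (nser_const _ _) hh
  have hh' : PowerSeries.HasSubst (PowerSeries.map ι h) := .of_constantCoeff_zero' (by
    rw [← PowerSeries.coeff_zero_eq_constantCoeff_apply, PowerSeries.coeff_map,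
      PowerSeries.coeff_zero_eq_constantCoeff_apply, h0, map_zero])
  have e1 : map ι (PowerSeries.subst h (nser G (p ^ r))) =
      PowerSeries.subst (PowerSeries.map ι h) (nser (G.map ι) (p ^ r)) := by
    rw [nser_map]; exact PowerSeries.map_subst hh _
  have e2 : (fun s => map ι (![PowerSeries.X, PowerSeries.subst h (nser G (p ^ r))] s)) =
      ![(PowerSeries.X : PowerSeries K),
        PowerSeries.subst (PowerSeries.map ι h) (nser (G.map ι) (p ^ r))] := by
    funext s
    fin_cases s
    · exact PowerSeries.map_X ι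
    · exact e1
  have e3 : PowerSeries.map ι (phi0 G p r h) = subst ![(PowerSeries.X : PowerSeries K),
      PowerSeries.subst (PowerSeries.map ι h) (nser (G.map ι) (p ^ r))] (G.map ι).toPowerSeries := by
    rw [← e1, ← PowerSeries.map_X ι]
    exact hom_map2 PowerSeries.HasSubst.X' hψ ι _
  rw [e2, e3, cob_substL _ _ PowerSeries.HasSubst.X' (hom_hsP (nser_const _ _) hh'),
    PowerSeries.X_subst, ← nser_map, PowerSeries.subst_comp_subst_apply (hom_hsN _ _) hh']
  ring

theorem IsLT.tau (hF : IsLT p n F) (hn : 1 ≤ n) (a : Ideal S) [IsAdicComplete a S] (hp : (p : S) ∈ a)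
    (hp0 : (p : S) ≠ 0) (ξ : E0 p n →+* S) (hξ : Cts p n a ξ) (N : ℕ) (hN : a ^ N ≤ Ideal.span {(p : S)})
    {h : PowerSeries S} (h0 : PowerSeries.constantCoeff h = 0)
    (hh : IsHom ((F.map ξ).map (Ideal.Quotient.mk (Ideal.span {(p : S)})))
      ((F.map ξ).map (Ideal.Quotient.mk (Ideal.span {(p : S)})))
      (PowerSeries.map (Ideal.Quotient.mk (Ideal.span {(p : S)})) h))
    (f : E0 p n) (hf : ξ f = 0)
    (hm : ∀ r, 1 ≤ r → ∃ ξ' : E0 p n →+* S, Cts p n a ξ' ∧ (∀ w, ξ' (C w) = ξ (C w)) ∧ ξ' f = 0 ∧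
      (∀ t, ξ' (X t) - ξ (X t) ∈ Ideal.span {(p : S) ^ (r + 1)}) ∧
      ∃ c : FractionRing S, Itg S ((p : FractionRing S) ^ (r + 1))
        (PowerSeries.subst (PowerSeries.map (algebraMap S (FractionRing S)) (phi0 (F.map ξ) p r h)) (logA p n ((algebraMap S (FractionRing S)).comp ξ')) -
          PowerSeries.C c * logA p n ((algebraMap S (FractionRing S)).comp ξ)))
    (s : Fin (n - 1) → S) (κ : FractionRing S)
    (hs : Itg S 1 (PowerSeries.C ((p : FractionRing S)⁻¹) *
        PowerSeries.subst (PowerSeries.map (algebraMap S (FractionRing S)) h) (logA p n ((algebraMap S (FractionRing S)).comp ξ)) -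
      ∑ i, PowerSeries.C ((algebraMap S (FractionRing S)) (s i)) * dlogA p n ((algebraMap S (FractionRing S)).comp ξ) i -
      PowerSeries.C κ * logA p n ((algebraMap S (FractionRing S)).comp ξ))) :
    ∑ i, s i * ξ (pderiv (WW p n) i f) = 0 := by
  set ι := algebraMap S (FractionRing S) with hι
  have inj : Function.Injective ι := IsFractionRing.injective _ _
  have pK : (p : FractionRing S) ≠ 0 := fun h0 => hp0 (inj (by rw [map_natCast, h0, map_zero]))
  have pU : IsUnit (p : FractionRing S) := pK.isUnit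
  have hG : (F.map ξ).map ι = F.map (ι.comp ξ) := fg_map_map _ _ _
  set L := logA p n (ι.comp ξ) with hL
  set lam := dlogA p n (ι.comp ξ) with hlam
  have hh' : PowerSeries.HasSubst (PowerSeries.map ι h) := .of_constantCoeff_zero' (by
    rw [← PowerSeries.coeff_zero_eq_constantCoeff_apply, PowerSeries.coeff_map,
      PowerSeries.coeff_zero_eq_constantCoeff_apply, h0, map_zero])
  have key : ∀ r, 1 ≤ r → ∑ i, s i * ξ (pderiv (WW p n) i f) ∈ Ideal.span {(p : S) ^ r} := by
    intro r hr
    obtain ⟨ξ', c1, c2, c3, c4, c, c5⟩ := hm r hr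
    choose y hy using fun t => Ideal.mem_span_singleton'.1 (c4 t)
    have hy' : ∀ t, ξ' (X t) - ξ (X t) = (p : S) ^ (r + 1) * y t := fun t => by rw [← hy, mul_comm]
    obtain ⟨Δ, d0, d1, d2, d3⟩ := hF.delta hn a hp hp0 ξ hξ N hN ξ' c1 c2 r hr y hy'
    have ψ0 : ∀ t, constantCoeff (![PowerSeries.X, PowerSeries.subst h (nser (F.map ξ) (p ^ r))] t)
        = 0 := fun t => by
      fin_cases t
      · exact PowerSeries.constantCoeff_X
      · exact PowerSeries.constantCoeff_subst_eq_zero h0 _ (nser_const _ _)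
    have φs : PowerSeries.HasSubst (PowerSeries.map ι (phi0 (F.map ξ) p r h)) :=
      .of_constantCoeff_zero' (by
        rw [← PowerSeries.coeff_zero_eq_constantCoeff_apply, PowerSeries.coeff_map,
          PowerSeries.coeff_zero_eq_constantCoeff_apply]
        exact (congrArg ι (hom_const2 (ψ0 0) (ψ0 1) (F.map ξ).zero_constantCoeff)).trans
          (map_zero _))
    have iΔ : Itg S 1 (cob (F.map (ι.comp ξ)) Δ) := by
      have k1 := Itg.mono ((p : S) ^ r) (c := 1) (by rw [one_mul, map_pow, map_natCast]; exact d3)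
      have k2 : Itg S 1 (∑ i, C (ι (-y i)) * map ι (map ξ (cE p n F i))) :=
        Itg.sum_Z6 _ fun i => (itg_map _).int_Z6 _
      convert k1.add k2 using 1
      rw [cob_sub, cob_sum]
      simp only [cob_C_mul, hlam, hF.cob_dlog _ pU, map_comp, RingHom.comp_apply, map_neg, mul_neg,
        neg_mul, Finset.sum_neg_distrib]
      ring
    have l0 : PowerSeries.constantCoeff (Δ - ∑ i, PowerSeries.C (ι (y i)) * lam i) = 0 := by
      simp [d0, hlam, dlogA_constD]
    obtain ⟨z, κ₁, q1⟩ := hF.q1_exists hn a hp hp0 ξ hξ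
      (PowerSeries.C (((p : FractionRing S) ^ r)⁻¹) * (Δ - ∑ i, PowerSeries.C (ι (y i)) * lam i))
      (by rw [map_mul, l0, mul_zero]) (by
        rw [cob_C_mul, ← inv_mul_cancel₀ (pow_ne_zero r pK)]
        exact d3.C_mul _)
    obtain ⟨w, κ₂, q2⟩ := hF.q1_exists hn a hp hp0 ξ hξ
      (PowerSeries.subst (PowerSeries.map ι h) Δ)
      (PowerSeries.constantCoeff_subst_eq_zero (by
        change PowerSeries.constantCoeff (PowerSeries.map ι h) = 0
        rw [← PowerSeries.coeff_zero_eq_constantCoeff_apply, PowerSeries.coeff_map,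
          PowerSeries.coeff_zero_eq_constantCoeff_apply, h0, map_zero]) _ d0) (by
        have k1 := Itg.mono (p : S) (c := 1) (by
          rw [one_mul, map_natCast]
          exact quasi_comp hp0 (unit_of_not_dvd ξ) h0 hh d0 d1)
        have k2 := iΔ.subst2 (τ := Fin 2)
          (a := fun t => PowerSeries.subst (X t : MvPowerSeries (Fin 2) S) h)
          fun t => PowerSeries.constantCoeff_subst_eq_zero (constantCoeff_X t) _ h0
        rw [hG] at k1
        convert k1.add k2 using 1
        rw [eq_comm, sub_add_eq_add_sub, sub_eq_iff_eq_add, add_right_inj]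
        congr 1
        funext t
        rw [PowerSeries.map_subst (PowerSeries.HasSubst.X t), map_X]
        fin_cases t <;> rfl)
    have q3 := (quasi_nser (G := F.map ξ) d0 (by rw [hG]; exact iΔ) (p ^ r)).subst (σ := Unit) h0
    have q4 := iΔ.subst2 ψ0
    have q5 := c5.C_mul ((p : FractionRing S) ^ (r + 1))⁻¹
    rw [inv_mul_cancel₀ (pow_ne_zero _ pK), d2, PowerSeries.subst_add φs, PowerSeries.subst_mul φs,
      PowerSeries.subst_C, subst_phi0_Z6 ι _ p r h0, subst_phi0_Z6 ι _ p r h0, hG,
      hF.log _ pU, ← nser_map, hG, cob_nser (logA_const _) (hF.log _ pU),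
      ← map_natCast (PowerSeries.C (R := FractionRing S)), PowerSeries.subst_mul hh',
      PowerSeries.subst_C, ← substAlgHom_apply (hasSubst_of_constantCoeff_zero fun t => by
        rw [constantCoeff_map, ψ0, map_zero]) 0, map_zero] at q5
    rw [← nser_map, hG] at q3
    have e3 := PowerSeries.subst_sub hh' (PowerSeries.subst (nser (F.map (ι.comp ξ)) (p ^ r)) Δ)
      (PowerSeries.C ((p ^ r : ℕ) : FractionRing S) * Δ)
    rw [PowerSeries.subst_mul hh', PowerSeries.subst_C] at e3
    erw [e3] at q3
    have q6 := (hF.q1_unique hn a hp hp0 ξ hξ (fun i => s i + y i + (p : S) ^ r * (z i + w i))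
      (κ + (p : FractionRing S) ^ r * (κ₁ + κ₂) - ((p : FractionRing S) ^ (r + 1))⁻¹ * (c - 1)) (by
        convert ((((q5.sub q3).sub q4).sub hs).sub (q1.int_Z6 ((p : S) ^ r))).sub
          (q2.int_Z6 ((p : S) ^ r)) using 1
        have u1 : (C ((p : FractionRing S) ^ (r + 1))⁻¹ : PowerSeries (FractionRing S)) *
            C ((p : FractionRing S) ^ (r + 1)) = 1 := by
          rw [← map_mul, inv_mul_cancel₀ (pow_ne_zero _ pK), map_one]
        have u2 : (C ((p : FractionRing S) ^ (r + 1))⁻¹ : PowerSeries (FractionRing S)) *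
            C ((p : FractionRing S) ^ r) = C (p : FractionRing S)⁻¹ := by
          rw [← map_mul]; congr 1; field_simp; ring
        have u3 : (C ((p : FractionRing S) ^ r) : PowerSeries (FractionRing S)) *
            C ((p : FractionRing S) ^ r)⁻¹ = 1 := by
          rw [← map_mul, mul_inv_cancel₀ (pow_ne_zero _ pK), map_one]
        have hC : ∀ x : FractionRing S, (C x : MvPowerSeries Unit _) = PowerSeries.C x :=
          fun _ => rfl
        simp only [← hι, ← hL, ← hlam, hC, map_add, map_mul, map_sub, map_pow, map_natCast,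
          map_one, add_mul, mul_add, Finset.sum_add_distrib, mul_assoc, ← Finset.mul_sum,
          Nat.cast_pow] at u1 u2 u3 ⊢
        linear_combination (-(Δ + PowerSeries.subst (PowerSeries.map ι h)
          (PowerSeries.subst (nser (F.map (ι.comp ξ)) (p ^ r)) Δ) +
          subst (fun s => map ι (![PowerSeries.X, PowerSeries.subst h (nser (F.map ξ) (p ^ r))] s))
            (cob (F.map (ι.comp ξ)) Δ))) * u1 - PowerSeries.subst (PowerSeries.map ι h) L * u2 +
          (Δ - ∑ i, PowerSeries.C (ι (y i)) * lam i) * u3)).1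
    have t1 := hom_taylor hξ c1 c2 (Ideal.span {(p : S) ^ (r + 1)}) (fun x hx => by
      have := hx (N * (2 * (r + 1)))
      rwa [sup_eq_left.2 (by
        rw [Ideal.span_singleton_pow, ← pow_mul, mul_comm (r + 1), ← Ideal.span_singleton_pow,
          pow_mul a]
        exact Ideal.pow_right_mono hN _)] at this) c4 f
    rw [c3, hf, Ideal.span_singleton_pow, Ideal.mem_span_singleton'] at t1
    obtain ⟨v, hv⟩ := t1
    simp only [hy', mul_assoc, ← Finset.mul_sum] at hv
    have t2 : ∑ i, y i * ξ (pderiv (WW p n) i f) = -(v * (p : S) ^ (r + 1)) :=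
      mul_left_cancel₀ (pow_ne_zero (r + 1) hp0) (by linear_combination hv)
    refine Ideal.mem_span_singleton'.2
      ⟨v * p - ∑ i, (z i + w i) * ξ (pderiv (WW p n) i f), ?_⟩
    have t3 : ∀ i, s i = -y i - (p : S) ^ r * (z i + w i) := fun i => by linear_combination q6 i
    simp only [t3, sub_mul, neg_mul, Finset.sum_sub_distrib, Finset.sum_neg_distrib, mul_assoc,
      ← Finset.mul_sum, t2]
    ring
  refine IsHausdorff.haus' (I := a) _ fun r => ?_
  rw [SModEq.zero, smul_eq_mul, Ideal.mul_top]
  refine Ideal.pow_le_pow_right (Nat.le_succ r) ?_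
  exact (Ideal.span_singleton_le_iff_mem _).2 (Ideal.pow_mem_pow hp _) (key (r + 1) (by omega))

end Vale.Agent.P217
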