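import Vale.Agent.P217.Z2
import Vale.Agent.P217.MkH
import Vale.Agent.P217.Int

namespace Vale.Agent.P217

open MvPowerSeries

variable {p n : ℕ} [Fact p.Prime] {F : FormalGroup (E0 p n)}

variable {S : Type} [CommRing S] [IsDomain S]

theorem z6a_cob {A τ : Type} [CommRing A] (G : FormalGroup A) (l : PowerSeries A)
    {a b : MvPowerSeries τ A} (ha : constantCoeff a = 0) (hb : constantCoeff b = 0) :
    subst ![a, b] (cob G l) = PowerSeries.subst (subst ![a, b] G.toPowerSeries) l -
      PowerSeries.subst a l - PowerSeries.subst b l := by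
  have h3 : HasSubst ![a, b] := hasSubst_of_constantCoeff_zero fun i => by fin_cases i <;> simpa
  rw [cob, subst_sub h3, subst_sub h3, int_sub G.zero_constantCoeff h3,
    int_sub (constantCoeff_X 0) h3, int_sub (constantCoeff_X 1) h3, subst_X h3, subst_X h3]
  rfl

theorem z6a_vec {A B τ : Type} [CommRing A] [CommRing B] (f : A →+* B) (a b : MvPowerSeries τ A) :
    (fun i => map f (![a, b] i)) = ![map f a, map f b] := by
  funext i
  fin_cases i <;> rfl

theorem IsLT.delta (hF : IsLT p n F) (hn : 1 ≤ n) (a : Ideal S) [IsAdicComplete a S] (hp : (p : S) ∈ a)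
    (hp0 : (p : S) ≠ 0) (ξ : E0 p n →+* S) (hξ : Cts p n a ξ) (N : ℕ) (hN : a ^ N ≤ Ideal.span {(p : S)})
    (ξ' : E0 p n →+* S) (hξ' : Cts p n a ξ') (hC : ∀ w, ξ' (C w) = ξ (C w)) (r : ℕ) (hr : 1 ≤ r)
    (y : Fin (n - 1) → S) (hy : ∀ t, ξ' (X t) - ξ (X t) = (p : S) ^ (r + 1) * y t) :
    ∃ Δ : PowerSeries (FractionRing S), PowerSeries.constantCoeff Δ = 0 ∧ DInt S Δ ∧
      logA p n ((algebraMap S (FractionRing S)).comp ξ') = logA p n ((algebraMap S (FractionRing S)).comp ξ) +
        PowerSeries.C ((p : FractionRing S) ^ (r + 1)) * Δ ∧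
      Itg S ((p : FractionRing S) ^ r) (cob (F.map ((algebraMap S (FractionRing S)).comp ξ))
        (Δ - ∑ i, PowerSeries.C ((algebraMap S (FractionRing S)) (y i)) * dlogA p n ((algebraMap S (FractionRing S)).comp ξ) i)) := by
  have hP0 : (p : FractionRing S) ≠ 0 := by
    rw [← map_natCast (algebraMap S (FractionRing S))]
    exact (map_ne_zero_iff _ (IsFractionRing.injective S _)).2 hp0
  have hP : IsUnit (p : FractionRing S) := hP0.isUnit
  have hu := unit_of_not_dvd ξ
  have tay : ∀ f : E0 p n, ∃ z : S, ξ' f = ξ f + (p : S) ^ (r + 1) *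
      (∑ i, y i * ξ (pderiv (WW p n) i f) + (p : S) ^ (r + 1) * z) := fun f => by
    have h1 := hom_taylor hξ hξ' hC (Ideal.span {(p : S) ^ (r + 1)}) (fun z hz => by
      refine (sup_le le_rfl ?_ : _ ≤ Ideal.span {(p : S) ^ (r + 1)} ^ 2) (hz (N * ((r + 1) * 2)))
      rw [← Ideal.span_singleton_pow, ← pow_mul, pow_mul a]
      exact Ideal.pow_right_mono hN _)
      (fun i => hy i ▸ Ideal.mul_mem_right _ _ (Ideal.mem_span_singleton_self _)) f
    rw [Ideal.span_singleton_pow] at h1
    obtain ⟨z, hz⟩ := Ideal.mem_span_singleton'.1 h1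
    refine ⟨z, ?_⟩
    simp only [hy, mul_assoc, ← Finset.mul_sum] at hz
    linear_combination -hz
  choose z hz using tay
  obtain ⟨Δ, hΔ⟩ : ∃ Δ : PowerSeries (FractionRing S), ∀ d, PowerSeries.coeff d Δ =
      if d = p ^ Nat.log p d then algebraMap S (FractionRing S)
        (∑ i, y i * ξ (pderiv (WW p n) i (bet p n (Nat.log p d))) +
          (p : S) ^ (r + 1) * z (bet p n (Nat.log p d))) *
        Ring.inverse (p : FractionRing S) ^ Nat.log p d else 0 :=
    ⟨PowerSeries.mk _, fun d => PowerSeries.coeff_mk _ _⟩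
  have d0 : PowerSeries.constantCoeff Δ = 0 := by
    rw [← PowerSeries.coeff_zero_eq_constantCoeff_apply, hΔ, if_neg (by simp)]
  have d1 : DInt S Δ := fun d => by
    rw [hΔ]
    split_ifs with h
    · generalize Nat.log p d = j at h
      exact ⟨_, by rw [h, Nat.cast_pow, mul_left_comm, ← mul_pow, Ring.mul_inverse_cancel _ hP,
        one_pow, mul_one]⟩
    · exact ⟨0, by simp⟩
  have d2 : logA p n ((algebraMap S (FractionRing S)).comp ξ') =
      logA p n ((algebraMap S (FractionRing S)).comp ξ) +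
        PowerSeries.C ((p : FractionRing S) ^ (r + 1)) * Δ := by
    ext d
    rw [map_add, PowerSeries.coeff_C_mul, hΔ, logA, logA, PowerSeries.coeff_mk, PowerSeries.coeff_mk]
    split_ifs with h
    · rw [RingHom.comp_apply, RingHom.comp_apply, hz, map_add, map_mul, map_pow, map_natCast]
      ring
    · simp
  refine ⟨Δ, d0, d1, d2, ?_⟩
  obtain ⟨D₂, hD₂⟩ : ∃ D₂ : MvPowerSeries (Fin 2) S, ∀ d,
      coeff d D₂ = z (coeff d F.toPowerSeries) := ⟨fun d => z (coeff d F.toPowerSeries), fun _ => rfl⟩
  obtain ⟨D₁, hD₁⟩ : ∃ D₁ : MvPowerSeries (Fin 2) S, D₁ = ∑ i, C (y i) * map ξ (dF p n F i) :=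
    ⟨_, rfl⟩
  have e1 : map ξ' F.toPowerSeries = map ξ F.toPowerSeries +
      C ((p : S) ^ (r + 1)) * (D₁ + C ((p : S) ^ (r + 1)) * D₂) := by
    ext d
    rw [coeff_map, hz, map_add, coeff_map, coeff_C_mul, map_add, coeff_C_mul, hD₂, hD₁, map_sum]
    simp only [coeff_C_mul, coeff_map]
    rfl
  have c0 : constantCoeff (map ξ F.toPowerSeries) = 0 := (F.map ξ).zero_constantCoeff
  have c1 : constantCoeff (map ξ' F.toPowerSeries) = 0 := (F.map ξ').zero_constantCoeff
  have c2 : constantCoeff (D₁ + C ((p : S) ^ (r + 1)) * D₂) = 0 := by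
    rw [e1, map_add, c0, zero_add, map_mul, constantCoeff_C] at c1
    exact (mul_eq_zero.1 c1).resolve_left (pow_ne_zero _ hp0)
  obtain ⟨g₁, hg₁⟩ := (itg_iff _ _).1
    (DInt.taylor p hp0 hu (dint_logA ξ hp0) c0 c2 (s := r + 1) (by omega))
  obtain ⟨g₂, hg₂⟩ := (itg_iff _ _).1 (DInt.congr p hp0 hu d1 c1 c0 (s := r + 1) (by omega) (by
    rw [e1, add_sub_cancel_left]
    intro d
    rw [coeff_C_mul]
    exact Ideal.mul_mem_right _ _ (Ideal.mem_span_singleton_self _)))
  have h0 := hF.log ((algebraMap S (FractionRing S)).comp ξ) hP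
  have h1 := hF.log ((algebraMap S (FractionRing S)).comp ξ') hP
  have m0 : ∀ (η : E0 p n →+* S) (f : MvPowerSeries (Fin 2) (E0 p n)),
      map ((algebraMap S (FractionRing S)).comp η) f =
        map (algebraMap S (FractionRing S)) (map η f) := fun η f => rfl
  have w0 : PowerSeries.subst (map (algebraMap S (FractionRing S)) (map ξ F.toPowerSeries))
      (PowerSeries.derivative (FractionRing S)
        (logA p n ((algebraMap S (FractionRing S)).comp ξ))) =
      map (algebraMap S (FractionRing S)) (map ξ (PowerSeries.subst F.toPowerSeries (wE p n))) := by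
    rw [deriv_logA _ hP, ← m0, ← m0, PowerSeries.map_subst
      (.of_constantCoeff_zero F.zero_constantCoeff)]
  have s0 : ∑ i, C ((algebraMap S (FractionRing S)) (y i)) *
      cob (F.map ((algebraMap S (FractionRing S)).comp ξ))
        (dlogA p n ((algebraMap S (FractionRing S)).comp ξ) i) =
      -(map (algebraMap S (FractionRing S)) (map ξ (PowerSeries.subst F.toPowerSeries (wE p n))) *
        map (algebraMap S (FractionRing S)) D₁) := by
    rw [hD₁, map_sum, Finset.mul_sum, ← Finset.sum_neg_distrib]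
    refine Finset.sum_congr rfl fun i _ => ?_
    rw [hF.cob_dlog _ hP, cE, m0, map_mul, map_mul, map_mul, map_C]
    ring
  rw [d2, cob_add, cob_C_mul] at h1
  rw [← e1, w0] at hg₁
  rw [cob_sub, cob_sum]
  simp only [cob_C_mul]
  rw [s0]
  refine (itg_iff _ _).2 ⟨-(g₁ + C (p : S) * g₂ + C (p : S) *
    map ξ (PowerSeries.subst F.toPowerSeries (wE p n)) * D₂), ?_⟩
  have q0 : (C (p : FractionRing S) : MvPowerSeries (Fin 2) (FractionRing S)) ^ (r + 1) ≠ 0 :=
    pow_ne_zero _ (hP.map C).ne_zero
  refine mul_left_cancel₀ q0 ?_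
  rw [show 2 * (r + 1) - 1 = 2 * r + 1 by omega] at hg₁
  simp only [cob, FormalGroup.map_toPowerSeries, m0] at h0 h1 ⊢
  simp only [map_pow, map_add, map_mul, map_neg, map_C, map_natCast (algebraMap S (FractionRing S))]
    at h1 hg₁ hg₂ ⊢
  linear_combination h1 - h0 - hg₁ - C (p : FractionRing S) ^ (r + 1) * hg₂

theorem quasi_nser {G : FormalGroup S} {l : PowerSeries (FractionRing S)} (h0 : PowerSeries.constantCoeff l = 0)
    (hl : Itg S 1 (cob (G.map (algebraMap S (FractionRing S))) l)) (m : ℕ) :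
    Itg S 1 (PowerSeries.subst (PowerSeries.map (algebraMap S (FractionRing S)) (nser G m)) l - PowerSeries.C (m : FractionRing S) * l) := by
  rw [← nser_map]
  induction m with
  | zero =>
    intro d
    refine ⟨0, ?_⟩
    rw [nser, PowerSeries.subst_zero_of_constantCoeff_zero h0]
    simp
  | succ m ih =>
    have h1 := hl.subst2 (a := ![nser G m, (PowerSeries.X : PowerSeries S)]) fun s => by
      fin_cases s
      · exact nser_const G m
      · exact PowerSeries.constantCoeff_X
    have h2 : map (algebraMap S (FractionRing S)) (nser G m) =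
        nser (G.map (algebraMap S (FractionRing S))) m := (nser_map G _ m).symm
    have h3 : map (algebraMap S (FractionRing S)) (PowerSeries.X : PowerSeries S) =
        (PowerSeries.X : PowerSeries (FractionRing S)) := PowerSeries.map_X _
    rw [z6a_vec, h2, h3, z6a_cob _ _ (nser_const _ m) PowerSeries.constantCoeff_X,
      PowerSeries.X_subst] at h1
    have h4 := h1.add ih
    rw [nser, Nat.cast_succ, map_add, map_one]
    refine (congrArg (Itg S 1) ?_).mp h4
    ring

theorem quasi_comp (hp0 : (p : S) ≠ 0) (hu : ∀ m : ℕ, ¬ p ∣ m → IsUnit (m : S))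
    {G G' : FormalGroup S} {h : PowerSeries S} (h0 : PowerSeries.constantCoeff h = 0)
    (hh : IsHom (G.map (Ideal.Quotient.mk (Ideal.span {(p : S)})))
      (G'.map (Ideal.Quotient.mk (Ideal.span {(p : S)})))
      (PowerSeries.map (Ideal.Quotient.mk (Ideal.span {(p : S)})) h))
    {l : PowerSeries (FractionRing S)} (hl0 : PowerSeries.constantCoeff l = 0) (hl : DInt S l) :
    Itg S (p : FractionRing S) (cob (G.map (algebraMap S (FractionRing S))) (PowerSeries.subst (PowerSeries.map (algebraMap S (FractionRing S)) h) l) -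
      subst ![PowerSeries.subst (X 0 : MvPowerSeries (Fin 2) (FractionRing S)) (PowerSeries.map (algebraMap S (FractionRing S)) h),
        PowerSeries.subst (X 1 : MvPowerSeries (Fin 2) (FractionRing S)) (PowerSeries.map (algebraMap S (FractionRing S)) h)]
        (cob (G'.map (algebraMap S (FractionRing S))) l)) := by
  have hG : PowerSeries.HasSubst G.toPowerSeries := .of_constantCoeff_zero G.zero_constantCoeff
  have x0 : ∀ i : Fin 2, constantCoeff (PowerSeries.subst (X i : MvPowerSeries (Fin 2) S) h) = 0 :=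
    fun i => PowerSeries.constantCoeff_subst_eq_zero (constantCoeff_X i) h h0
  have v0 : ∀ i, constantCoeff (![PowerSeries.subst (X 0 : MvPowerSeries (Fin 2) S) h,
      PowerSeries.subst (X 1 : MvPowerSeries (Fin 2) S) h] i) = 0 := fun i => by
    fin_cases i
    exacts [x0 0, x0 1]
  have hv := hasSubst_of_constantCoeff_zero v0
  have m1 : ∀ {B : Type} [CommRing B] (f : S →+* B), map f (subst
      ![PowerSeries.subst (X 0 : MvPowerSeries (Fin 2) S) h,
        PowerSeries.subst (X 1 : MvPowerSeries (Fin 2) S) h] G'.toPowerSeries) =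
      subst ![PowerSeries.subst (X 0 : MvPowerSeries (Fin 2) B) (PowerSeries.map f h),
        PowerSeries.subst (X 1 : MvPowerSeries (Fin 2) B) (PowerSeries.map f h)]
        (G'.map f).toPowerSeries := fun f => by
    rw [map_subst hv, z6a_vec, PowerSeries.map_subst (.X _), PowerSeries.map_subst (.X _), map_X,
      map_X, FormalGroup.map_toPowerSeries]
  have h1 := DInt.congr p hp0 hu hl (PowerSeries.constantCoeff_subst_eq_zero G.zero_constantCoeff h h0)
    (constantCoeff_subst_eq_zero hv v0 G'.zero_constantCoeff) (s := 1) le_rfl (by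
      rw [pow_one, coefIn_iff_map, m1, PowerSeries.map_subst hG]
      exact hh.2)
  have h2 : PowerSeries.constantCoeff (PowerSeries.map (algebraMap S (FractionRing S)) h) = 0 := by
    rw [← PowerSeries.coeff_zero_eq_constantCoeff_apply, PowerSeries.coeff_map,
      PowerSeries.coeff_zero_eq_constantCoeff_apply, h0, map_zero]
  have h3 : PowerSeries.HasSubst (PowerSeries.map (algebraMap S (FractionRing S)) h) :=
    .of_constantCoeff_zero' h2
  rw [pow_one, m1, PowerSeries.map_subst hG] at h1
  rw [z6a_cob _ _ (PowerSeries.constantCoeff_subst_eq_zero (constantCoeff_X 0) _ h2)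
    (PowerSeries.constantCoeff_subst_eq_zero (constantCoeff_X 1) _ h2), cob,
    PowerSeries.subst_comp_subst_apply h3 (.X _), PowerSeries.subst_comp_subst_apply h3 (.X _),
    PowerSeries.subst_comp_subst_apply h3
      (.of_constantCoeff_zero (G.map _).zero_constantCoeff), FormalGroup.map_toPowerSeries]
  refine (congrArg (Itg S (p : FractionRing S)) ?_).mp h1
  ring

end Vale.Agent.P217
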